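import Vale.Agent.Lib.P072.Defs

/-!
# Mass-action systems with axis-parallel linkage classes (definition)
-/

namespace Vale.Agent.Lib.P072

variable {R ι : Type}

/-- Axis-parallel linkage classes: to every complex `y` one can assign a species `ax y` such
that the two complexes of every reaction are assigned the same species (so the assignment is
constant on linkage classes) and every reaction changes only the species assigned to its
complexes. Equivalently: every linkage class lies on a line parallel to a coordinate axis. -/
def MAS.AxisParallel (N : MAS R ι) : Prop :=
  ∃ ax : (ι → ℕ) → ι, ∀ r, ax (N.src r) = ax (N.tgt r) ∧
    ∀ j, j ≠ ax (N.src r) → N.src r j = N.tgt r j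

end Vale.Agent.Lib.P072
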