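import Vale.Agent.Lib.P072.Defs

/-!
# Axis-reversible mass-action systems (definition)
-/

namespace Vale.Agent.Lib.P072

variable {R ι : Type}

/-- Axis reversibility: every reaction `r` changes exactly one species `i`, and there is a
directed path from its target back to its source through reactions that change only the
species `i`. -/
def MAS.AxisReversible (N : MAS R ι) : Prop :=
  ∀ r, ∃ i, (∀ j, j ≠ i → N.src r j = N.tgt r j) ∧
    Relation.TransGen
      (fun a b => ∃ q, N.src q = a ∧ N.tgt q = b ∧ ∀ j, j ≠ i → N.src q j = N.tgt q j)
      (N.tgt r) (N.src r)

end Vale.Agent.Lib.P072
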