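import Vale.Agent.Lib.P072.DomPermanent
import Vale.Agent.Lib.P072.DefsAxis
import Vale.Agent.Lib.P072.DefsAxisRev

/-!
# Axis-reversible systems are source-dominated
-/

namespace Vale.Agent.Lib.P072

set_option linter.unusedSectionVars false

variable {R ι : Type} [Fintype R] [Fintype ι]

lemma axisReversible_weaklyReversible (N : MAS R ι) (h : N.AxisReversible) :
    N.WeaklyReversible := by
  intro r
  obtain ⟨i, _, hpath⟩ := h r
  refine Relation.TransGen.mono ?_ _ _ hpath
  rintro a b ⟨q, h1, h2, _⟩
  exact ⟨q, h1, h2⟩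

/-- Along a path of reactions changing only the species `i`, every level `M` between the
`i`-coordinates of the end points is crossed by a reaction of the path. -/
lemma exists_crossing (N : MAS R ι) (i : ι) {a b : ι → ℕ}
    (h : Relation.TransGen
      (fun a b => ∃ q, N.src q = a ∧ N.tgt q = b ∧ ∀ j, j ≠ i → N.src q j = N.tgt q j) a b) :
    (∀ j, j ≠ i → a j = b j) ∧
    (∀ M : ℕ, a i < M → M ≤ b i →
      ∃ q, N.src q i < M ∧ M ≤ N.tgt q i ∧ ∀ j, j ≠ i → N.src q j = a j) ∧
    (∀ M : ℕ, b i ≤ M → M < a i →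
      ∃ q, N.tgt q i ≤ M ∧ M < N.src q i ∧ ∀ j, j ≠ i → N.src q j = a j) := by
  induction h with
  | single hab =>
    obtain ⟨q, rfl, rfl, hq⟩ := hab
    exact ⟨hq, fun M h1 h2 => ⟨q, h1, h2, fun j _ => rfl⟩,
      fun M h1 h2 => ⟨q, h1, h2, fun j _ => rfl⟩⟩
  | tail hab hbc ih =>
    obtain ⟨q, rfl, rfl, hq⟩ := hbc
    obtain ⟨ih1, ih2, ih3⟩ := ih
    refine ⟨fun j hj => (ih1 j hj).trans (hq j hj), ?_, ?_⟩
    · intro M h1 h2
      by_cases hM : M ≤ N.src q i
      · exact ih2 M h1 hM
      · exact ⟨q, by omega, h2, fun j hj => (ih1 j hj).symm⟩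
    · intro M h1 h2
      by_cases hM : N.src q i ≤ M
      · exact ih3 M hM h2
      · exact ⟨q, h1, by omega, fun j hj => (ih1 j hj).symm⟩

lemma axisReversible_sourceDominated (N : MAS R ι) (h : N.AxisReversible) :
    N.SourceDominated := by
  intro r i
  obtain ⟨i₀, hoff, hpath⟩ := h r
  have hcross := exists_crossing N i₀ hpath
  constructor
  · intro hlt
    have hi : i = i₀ := by
      by_contra hne
      have := hoff i hne
      omega
    subst hi
    obtain ⟨q, hq1, hq2, hq3⟩ := hcross.2.1 (N.src r i) hlt le_rfl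
    refine ⟨q, by omega, hq1, fun j hj => ?_⟩
    rw [hq3 j hj]
    exact (hoff j hj).symm
  · intro hlt
    have hi : i = i₀ := by
      by_contra hne
      have := hoff i hne
      omega
    subst hi
    obtain ⟨q, hq1, hq2, hq3⟩ := hcross.2.2 (N.src r i) le_rfl hlt
    refine ⟨q, by omega, hq2, fun j hj => ?_⟩
    rw [hq3 j hj]
    exact (hoff j hj).symm

/-- A weakly reversible system with axis-parallel linkage classes is axis-reversible. -/
lemma axisParallel_axisReversible (N : MAS R ι) (hwr : N.WeaklyReversible)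
    (hax : N.AxisParallel) : N.AxisReversible := by
  obtain ⟨ax, hax⟩ := hax
  intro r
  refine ⟨ax (N.src r), (hax r).2, ?_⟩
  have key : ∀ a b : ι → ℕ,
      Relation.TransGen (fun a b => ∃ q, N.src q = a ∧ N.tgt q = b) a b →
      ax a = ax (N.src r) →
      Relation.TransGen (fun a b => ∃ q, N.src q = a ∧ N.tgt q = b ∧
        ∀ j, j ≠ ax (N.src r) → N.src q j = N.tgt q j) a b ∧ ax b = ax (N.src r) := by
    intro a b hab
    induction hab with
    | single hab =>
      obtain ⟨q, rfl, rfl⟩ := hab
      intro ha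
      refine ⟨Relation.TransGen.single ⟨q, rfl, rfl, ?_⟩, ?_⟩
      · rw [← ha]; exact (hax q).2
      · rw [← (hax q).1]; exact ha
    | tail hab hbc ih =>
      obtain ⟨q, rfl, rfl⟩ := hbc
      intro ha
      obtain ⟨ih1, ih2⟩ := ih ha
      refine ⟨Relation.TransGen.tail ih1 ⟨q, rfl, rfl, ?_⟩, ?_⟩
      · rw [← ih2]; exact (hax q).2
      · rw [← (hax q).1]; exact ih2
  exact (key _ _ (hwr r) (hax r).1.symm).1

/-- Weakly reversible mass-action systems whose linkage classes lie on lines parallel to
coordinate axes are permanent on every positive stoichiometric class. -/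
theorem axisParallel_permanentOn (N : MAS R ι) (hwr : N.WeaklyReversible)
    (hax : N.AxisParallel) (c : ι → ℝ) (hc : ∀ i, 0 < c i) : N.PermanentOn (N.posClass c) :=
  sourceDominated_permanentOn N
    (axisReversible_sourceDominated N (axisParallel_axisReversible N hwr hax)) c hc

end Vale.Agent.Lib.P072
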