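import Vale.Agent.Lib.P072.DefsBal

/-!
# Entropy-type function and its dissipation (internal definitions)
-/

namespace Vale.Agent.Lib.P072

variable {R ι : Type} [Fintype R] [Fintype ι]

/-- The logarithmic weight `∑ i, (log (x i) - log (xs i)) * y i` of the complex `y` at the
point `x`, relative to the reference point `xs`. -/
noncomputable def cw (xs x : ι → ℝ) (y : ι → ℕ) : ℝ :=
  ∑ i, (Real.log (x i) - Real.log (xs i)) * (y i : ℝ)

/-- The entropy-type function `∑ i, x i * (log (x i) - log (xs i) - 1)`. -/
noncomputable def entropy (xs x : ι → ℝ) : ℝ :=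
  ∑ i, x i * (Real.log (x i) - Real.log (xs i) - 1)

/-- The derivative of the entropy-type function along the mass-action vector field. -/
noncomputable def MAS.dissip (N : MAS R ι) (xs x : ι → ℝ) : ℝ :=
  ∑ i, (Real.log (x i) - Real.log (xs i)) * N.field x i

end Vale.Agent.Lib.P072
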