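import Vale.Agent.Lib.P072.DefsCascade

/-!
# Structure of the cascade of two mass-action systems
-/

namespace Vale.Agent.Lib.P072

open Set

variable {R₁ R₂ ι κ : Type} [Fintype R₁] [Fintype R₂] [Fintype ι] [Fintype κ]

lemma mono_sumElim (a : ι → ℕ) (b : κ → ℕ) (w : ι ⊕ κ → ℝ) :
    mono (Sum.elim a b) w = mono a (w ∘ Sum.inl) * mono b (w ∘ Sum.inr) := by
  simp [mono, Fintype.prod_sum_type]

lemma mono_zero (z : κ → ℝ) : mono (0 : κ → ℕ) z = 1 := by
  simp [mono]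

lemma mono_pos (a : ι → ℕ) (x : ι → ℝ) (hx : ∀ i, 0 < x i) : 0 < mono a x := by
  unfold mono
  exact Finset.prod_pos (fun i _ => pow_pos (hx i) _)

lemma continuous_mono (a : ι → ℕ) : Continuous (mono a) := by
  unfold mono
  exact continuous_finsetProd _ (fun i _ => (continuous_apply i).pow _)

lemma cascade_vec_inl (N₁ : MAS R₁ ι) (N₂ : MAS R₂ κ) (α : ι → ℕ) (r : R₁) :
    (cascade N₁ N₂ α).vec (Sum.inl r) = Sum.elim (N₁.vec r) (0 : κ → ℝ) := by
  funext s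
  cases s <;> simp [MAS.vec, cascade]

lemma cascade_vec_inr (N₁ : MAS R₁ ι) (N₂ : MAS R₂ κ) (α : ι → ℕ) (r : R₂) :
    (cascade N₁ N₂ α).vec (Sum.inr r) = Sum.elim (0 : ι → ℝ) (N₂.vec r) := by
  funext s
  cases s <;> simp [MAS.vec, cascade]

/-- The vector field of the cascade. -/
lemma cascade_field (N₁ : MAS R₁ ι) (N₂ : MAS R₂ κ) (α : ι → ℕ) (w : ι ⊕ κ → ℝ) :
    (cascade N₁ N₂ α).field w =
      Sum.elim (N₁.field (w ∘ Sum.inl)) (mono α (w ∘ Sum.inl) • N₂.field (w ∘ Sum.inr)) := by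
  unfold MAS.field
  rw [Fintype.sum_sum_type]
  simp only [cascade_vec_inl, cascade_vec_inr]
  funext s
  cases s with
  | inl i =>
    simp [cascade, mono_sumElim, mono_zero, Finset.sum_apply]
  | inr j =>
    simp [cascade, mono_sumElim, mono_zero, Finset.sum_apply, Finset.mul_sum]
    refine Finset.sum_congr rfl (fun r _ => ?_)
    ring

lemma sumElim_zero_mem_stoich (N₁ : MAS R₁ ι) (N₂ : MAS R₂ κ) (α : ι → ℕ) (a : ι → ℝ)
    (ha : a ∈ N₁.stoich) : (Sum.elim a (0 : κ → ℝ) : ι ⊕ κ → ℝ) ∈ (cascade N₁ N₂ α).stoich := by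
  unfold MAS.stoich at ha ⊢
  induction ha using Submodule.span_induction with
  | mem x hx =>
    obtain ⟨r, rfl⟩ := hx
    apply Submodule.subset_span
    exact ⟨Sum.inl r, cascade_vec_inl N₁ N₂ α r⟩
  | zero =>
    have : (Sum.elim (0 : ι → ℝ) (0 : κ → ℝ)) = 0 := by
      funext s; cases s <;> rfl
    rw [this]; exact Submodule.zero_mem _
  | add x y _ _ hx hy =>
    have : (Sum.elim (x + y) (0 : κ → ℝ)) = Sum.elim x (0 : κ → ℝ) + Sum.elim y (0 : κ → ℝ) := by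
      funext s; cases s <;> simp
    rw [this]; exact Submodule.add_mem _ hx hy
  | smul c x _ hx =>
    have : (Sum.elim (c • x) (0 : κ → ℝ)) = c • Sum.elim x (0 : κ → ℝ) := by
      funext s; cases s <;> simp
    rw [this]; exact Submodule.smul_mem _ c hx

lemma sumElim_zero_mem_stoich' (N₁ : MAS R₁ ι) (N₂ : MAS R₂ κ) (α : ι → ℕ) (b : κ → ℝ)
    (hb : b ∈ N₂.stoich) : (Sum.elim (0 : ι → ℝ) b : ι ⊕ κ → ℝ) ∈ (cascade N₁ N₂ α).stoich := by
  unfold MAS.stoich at hb ⊢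
  induction hb using Submodule.span_induction with
  | mem x hx =>
    obtain ⟨r, rfl⟩ := hx
    apply Submodule.subset_span
    exact ⟨Sum.inr r, cascade_vec_inr N₁ N₂ α r⟩
  | zero =>
    have : (Sum.elim (0 : ι → ℝ) (0 : κ → ℝ)) = 0 := by
      funext s; cases s <;> rfl
    rw [this]; exact Submodule.zero_mem _
  | add x y _ _ hx hy =>
    have : (Sum.elim (0 : ι → ℝ) (x + y)) = Sum.elim (0 : ι → ℝ) x + Sum.elim (0 : ι → ℝ) y := by
      funext s; cases s <;> simp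
    rw [this]; exact Submodule.add_mem _ hx hy
  | smul c x _ hx =>
    have : (Sum.elim (0 : ι → ℝ) (c • x)) = c • Sum.elim (0 : ι → ℝ) x := by
      funext s; cases s <;> simp
    rw [this]; exact Submodule.smul_mem _ c hx

/-- The stoichiometric subspace of the cascade is the product of the two stoichiometric
subspaces. -/
lemma mem_cascade_stoich (N₁ : MAS R₁ ι) (N₂ : MAS R₂ κ) (α : ι → ℕ) (v : ι ⊕ κ → ℝ) :
    v ∈ (cascade N₁ N₂ α).stoich ↔ v ∘ Sum.inl ∈ N₁.stoich ∧ v ∘ Sum.inr ∈ N₂.stoich := by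
  constructor
  · intro hv
    unfold MAS.stoich at hv
    induction hv using Submodule.span_induction with
    | mem x hx =>
      obtain ⟨r, rfl⟩ := hx
      cases r with
      | inl r =>
        rw [cascade_vec_inl]
        refine ⟨?_, ?_⟩
        · have : (Sum.elim (N₁.vec r) (0 : κ → ℝ)) ∘ Sum.inl = N₁.vec r := by funext i; rfl
          rw [this]; exact Submodule.subset_span ⟨r, rfl⟩
        · have : (Sum.elim (N₁.vec r) (0 : κ → ℝ)) ∘ Sum.inr = 0 := by funext i; rfl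
          rw [this]; exact Submodule.zero_mem _
      | inr r =>
        rw [cascade_vec_inr]
        refine ⟨?_, ?_⟩
        · have : (Sum.elim (0 : ι → ℝ) (N₂.vec r)) ∘ Sum.inl = 0 := by funext i; rfl
          rw [this]; exact Submodule.zero_mem _
        · have : (Sum.elim (0 : ι → ℝ) (N₂.vec r)) ∘ Sum.inr = N₂.vec r := by funext i; rfl
          rw [this]; exact Submodule.subset_span ⟨r, rfl⟩
    | zero =>
      exact ⟨Submodule.zero_mem _, Submodule.zero_mem _⟩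
    | add x y _ _ hx hy =>
      exact ⟨Submodule.add_mem _ hx.1 hy.1, Submodule.add_mem _ hx.2 hy.2⟩
    | smul c x _ hx =>
      exact ⟨Submodule.smul_mem _ c hx.1, Submodule.smul_mem _ c hx.2⟩
  · rintro ⟨h1, h2⟩
    have : v = Sum.elim (v ∘ Sum.inl) (0 : κ → ℝ) + Sum.elim (0 : ι → ℝ) (v ∘ Sum.inr) := by
      funext s; cases s <;> simp
    rw [this]
    exact Submodule.add_mem _ (sumElim_zero_mem_stoich N₁ N₂ α _ h1)
      (sumElim_zero_mem_stoich' N₁ N₂ α _ h2)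

/-- The positive classes of the cascade are the products of positive classes. -/
lemma mem_cascade_posClass (N₁ : MAS R₁ ι) (N₂ : MAS R₂ κ) (α : ι → ℕ) (c w : ι ⊕ κ → ℝ) :
    w ∈ (cascade N₁ N₂ α).posClass c ↔
      w ∘ Sum.inl ∈ N₁.posClass (c ∘ Sum.inl) ∧ w ∘ Sum.inr ∈ N₂.posClass (c ∘ Sum.inr) := by
  unfold MAS.posClass
  simp only [Set.mem_ofPred_eq, mem_cascade_stoich, Sum.forall]
  constructor
  · rintro ⟨⟨h1, h2⟩, h3, h4⟩
    exact ⟨⟨h1, h3⟩, ⟨h2, h4⟩⟩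
  · rintro ⟨⟨h1, h3⟩, ⟨h2, h4⟩⟩
    exact ⟨⟨h1, h2⟩, h3, h4⟩

/-- Weak reversibility passes to the cascade. -/
lemma cascade_weaklyReversible (N₁ : MAS R₁ ι) (N₂ : MAS R₂ κ) (α : ι → ℕ)
    (h₁ : N₁.WeaklyReversible) (h₂ : N₂.WeaklyReversible) :
    (cascade N₁ N₂ α).WeaklyReversible := by
  rintro (r | r)
  · have := h₁ r
    refine Relation.TransGen.lift (fun y : ι → ℕ => (Sum.elim y (0 : κ → ℕ) : ι ⊕ κ → ℕ)) ?_ _ _ this
    rintro a b ⟨q, rfl, rfl⟩
    exact ⟨Sum.inl q, rfl, rfl⟩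
  · have := h₂ r
    refine Relation.TransGen.lift (fun y : κ → ℕ => (Sum.elim α y : ι ⊕ κ → ℕ)) ?_ _ _ this
    rintro a b ⟨q, rfl, rfl⟩
    exact ⟨Sum.inr q, rfl, rfl⟩

end Vale.Agent.Lib.P072
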