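import Mathlib

/-!
# Invariant boxes for ordinary differential equations on `ι → ℝ`
-/

namespace Vale.Agent.Lib.P072

open Set Filter Topology

lemma eventually_gt_of_hasDerivWithinAt_pos {g : ℝ → ℝ} {g' t : ℝ}
    (h : HasDerivWithinAt g g' (Ici t) t) (hpos : 0 < g') : ∀ᶠ z in 𝓝[>] t, g t < g z := by
  rw [hasDerivWithinAt_iff_tendsto_slope, Ici_sdiff_left] at h
  have h1 : ∀ᶠ z in 𝓝[>] t, 0 < slope g t z := h.eventually_const_lt hpos
  filter_upwards [h1, self_mem_nhdsWithin] with z hz hzt
  rw [slope_def_field] at hz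
  have hzt' : 0 < z - t := sub_pos.mpr hzt
  have := (div_pos_iff_of_pos_right hzt').mp hz
  linarith

lemma eventually_lt_of_hasDerivWithinAt_neg {g : ℝ → ℝ} {g' t : ℝ}
    (h : HasDerivWithinAt g g' (Ici t) t) (hneg : g' < 0) : ∀ᶠ z in 𝓝[>] t, g z < g t := by
  have h1 := eventually_gt_of_hasDerivWithinAt_pos h.neg (neg_pos.mpr hneg)
  filter_upwards [h1] with z hz
  simp only [Pi.neg_apply] at hz
  linarith

variable {ι : Type} [Fintype ι]

/-- A box `Icc m M` is forward invariant for `γ' = f γ` if on each face the vector field points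
strictly inward, or the corresponding component of the vector field vanishes identically. -/
theorem box_invariant {f : (ι → ℝ) → ι → ℝ} {γ : ℝ → ι → ℝ} {a b : ℝ} {m M : ι → ℝ}
    (hcont : ContinuousOn γ (Icc a b))
    (hderiv : ∀ t ∈ Ico a b, HasDerivWithinAt γ (f (γ t)) (Ici t) t)
    (hin : ∀ i, (∀ x, f x i = 0) ∨
      (∀ x ∈ Icc m M, (x i = m i → 0 < f x i) ∧ (x i = M i → f x i < 0)))
    (ha : γ a ∈ Icc m M) : ∀ t ∈ Icc a b, γ t ∈ Icc m M := by
  have hclosed : IsClosed ((γ ⁻¹' Icc m M) ∩ Icc a b) := by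
    rw [inter_comm]
    exact hcont.preimage_isClosed_of_isClosed isClosed_Icc isClosed_Icc
  have key : Icc a b ⊆ γ ⁻¹' Icc m M := by
    refine IsClosed.Icc_subset_of_forall_exists_gt hclosed ha ?_
    rintro t ⟨htB, htab⟩ y hy
    have htB' : γ t ∈ Icc m M := htB
    have hev : ∀ᶠ z in 𝓝[>] t, γ z ∈ Icc m M := by
      have hall : ∀ i, ∀ᶠ z in 𝓝[>] t, m i ≤ γ z i ∧ γ z i ≤ M i := by
        intro i
        have hgi : HasDerivWithinAt (fun z => γ z i) (f (γ t) i) (Ici t) t :=
          (hasDerivWithinAt_pi.mp (hderiv t htab)) i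
        have hct : Tendsto (fun z => γ z i) (𝓝[>] t) (𝓝 (γ t i)) :=
          (hgi.continuousWithinAt.mono Ioi_subset_Ici_self).tendsto
        have hmi : m i ≤ γ t i := htB'.1 i
        have hMi : γ t i ≤ M i := htB'.2 i
        rcases hin i with h0 | hstrict
        · -- the component is constant on `[a, b]`
          have hconst : ∀ z ∈ Icc a b, γ z i = γ a i := by
            apply constant_of_has_deriv_right_zero
            · exact (continuous_apply i).comp_continuousOn hcont
            · intro s hs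
              have := (hasDerivWithinAt_pi.mp (hderiv s hs)) i
              rwa [h0] at this
          have hI : Ioc t b ∈ 𝓝[>] t := Ioc_mem_nhdsGT htab.2
          filter_upwards [hI] with z hz
          have hz' : z ∈ Icc a b := ⟨le_trans htab.1 hz.1.le, hz.2⟩
          rw [hconst z hz', ← hconst t ⟨htab.1, htab.2.le⟩]
          exact ⟨hmi, hMi⟩
        · have hlow : ∀ᶠ z in 𝓝[>] t, m i ≤ γ z i := by
            rcases hmi.lt_or_eq with hlt | heq
            · filter_upwards [hct.eventually_const_lt hlt] with z hz using hz.le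
            · have hpos : 0 < f (γ t) i := (hstrict (γ t) htB').1 heq.symm
              filter_upwards [eventually_gt_of_hasDerivWithinAt_pos hgi hpos] with z hz
              rw [heq]
              exact hz.le
          have hup : ∀ᶠ z in 𝓝[>] t, γ z i ≤ M i := by
            rcases hMi.lt_or_eq with hlt | heq
            · filter_upwards [hct.eventually_lt_const hlt] with z hz using hz.le
            · have hneg : f (γ t) i < 0 := (hstrict (γ t) htB').2 heq
              filter_upwards [eventually_lt_of_hasDerivWithinAt_neg hgi hneg] with z hz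
              rw [← heq]
              exact hz.le
          filter_upwards [hlow, hup] with z h1 h2 using ⟨h1, h2⟩
      filter_upwards [eventually_all.mpr hall] with z hz
      exact ⟨fun i => (hz i).1, fun i => (hz i).2⟩
    have hI : Ioc t y ∈ 𝓝[>] t := Ioc_mem_nhdsGT hy
    obtain ⟨z, hz1, hz2⟩ := (hev.and hI).exists
    exact ⟨z, hz1, hz2⟩
  exact fun t ht => key ht

/-- If the `i`-th component of the vector field is at least `δ > 0` wherever the `i`-th
coordinate is at most `lo` (within a region containing the solution), then the `i`-th coordinate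
of the solution reaches `lo` in finite time. -/
theorem exists_time_ge {f : (ι → ℝ) → ι → ℝ} {γ : ℝ → ι → ℝ} {B : Set (ι → ℝ)} {i : ι}
    {lo δ : ℝ} (hδ : 0 < δ)
    (hsol : ∀ t, 0 ≤ t → HasDerivWithinAt γ (f (γ t)) (Ici 0) t)
    (hB : ∀ t, 0 ≤ t → γ t ∈ B)
    (hf : ∀ x ∈ B, x i ≤ lo → δ ≤ f x i) : ∃ T, 0 ≤ T ∧ lo ≤ γ T i := by
  by_contra hcon
  push Not at hcon
  have hmono : MonotoneOn (fun t => γ t i - δ * t) (Ici 0) := by
    apply monotoneOn_of_deriv_nonneg (convex_Ici 0)
    · intro t ht
      have h1 := ((hasDerivWithinAt_pi.mp (hsol t ht)) i).continuousWithinAt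
      exact h1.sub (continuous_const.mul continuous_id).continuousWithinAt
    · intro t ht
      rw [interior_Ici] at ht
      have h1 : HasDerivAt (fun t => γ t i) (f (γ t) i) t :=
        ((hasDerivWithinAt_pi.mp (hsol t ht.le)) i).hasDerivAt (Ici_mem_nhds ht)
      exact ((h1.sub ((hasDerivAt_id t).const_mul δ)).differentiableAt).differentiableWithinAt
    · intro t ht
      rw [interior_Ici] at ht
      have h1 : HasDerivAt (fun t => γ t i) (f (γ t) i) t :=
        ((hasDerivWithinAt_pi.mp (hsol t ht.le)) i).hasDerivAt (Ici_mem_nhds ht)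
      have h2 : HasDerivAt (fun t => γ t i - δ * t) (f (γ t) i - δ * 1) t :=
        h1.sub ((hasDerivAt_id t).const_mul δ)
      rw [h2.deriv]
      have := hf (γ t) (hB t ht.le) (hcon t ht.le).le
      linarith
  have h0 := hcon 0 le_rfl
  set T : ℝ := (lo - γ 0 i) / δ with hT
  have hTpos : 0 ≤ T := div_nonneg (by linarith) hδ.le
  have h1 := hmono (mem_Ici.mpr le_rfl) (mem_Ici.mpr hTpos) hTpos
  simp only [mul_zero, sub_zero] at h1
  have h2 : δ * T = lo - γ 0 i := by
    rw [hT]; field_simp
  have h3 := hcon T hTpos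
  linarith

/-- The mirror statement: the `i`-th coordinate comes down to `hi` in finite time. -/
theorem exists_time_le {f : (ι → ℝ) → ι → ℝ} {γ : ℝ → ι → ℝ} {B : Set (ι → ℝ)} {i : ι}
    {hi δ : ℝ} (hδ : 0 < δ)
    (hsol : ∀ t, 0 ≤ t → HasDerivWithinAt γ (f (γ t)) (Ici 0) t)
    (hB : ∀ t, 0 ≤ t → γ t ∈ B)
    (hf : ∀ x ∈ B, hi ≤ x i → f x i ≤ -δ) : ∃ T, 0 ≤ T ∧ γ T i ≤ hi := by
  by_contra hcon
  push Not at hcon
  have hanti : AntitoneOn (fun t => γ t i + δ * t) (Ici 0) := by
    apply antitoneOn_of_deriv_nonpos (convex_Ici 0)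
    · intro t ht
      have h1 := ((hasDerivWithinAt_pi.mp (hsol t ht)) i).continuousWithinAt
      exact h1.add (continuous_const.mul continuous_id).continuousWithinAt
    · intro t ht
      rw [interior_Ici] at ht
      have h1 : HasDerivAt (fun t => γ t i) (f (γ t) i) t :=
        ((hasDerivWithinAt_pi.mp (hsol t ht.le)) i).hasDerivAt (Ici_mem_nhds ht)
      exact ((h1.add ((hasDerivAt_id t).const_mul δ)).differentiableAt).differentiableWithinAt
    · intro t ht
      rw [interior_Ici] at ht
      have h1 : HasDerivAt (fun t => γ t i) (f (γ t) i) t :=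
        ((hasDerivWithinAt_pi.mp (hsol t ht.le)) i).hasDerivAt (Ici_mem_nhds ht)
      have h2 : HasDerivAt (fun t => γ t i + δ * t) (f (γ t) i + δ * 1) t :=
        h1.add ((hasDerivAt_id t).const_mul δ)
      rw [h2.deriv]
      have := hf (γ t) (hB t ht.le) (hcon t ht.le).le
      linarith
  have h0 := hcon 0 le_rfl
  set T : ℝ := (γ 0 i - hi) / δ with hT
  have hTpos : 0 ≤ T := div_nonneg (by linarith) hδ.le
  have h1 := hanti (mem_Ici.mpr le_rfl) (mem_Ici.mpr hTpos) hTpos
  simp only [mul_zero, add_zero] at h1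
  have h2 : δ * T = γ 0 i - hi := by
    rw [hT]; field_simp
  have h3 := hcon T hTpos
  linarith

end Vale.Agent.Lib.P072
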