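import Mathlib

/-!
# Global existence of solutions of an autonomous ODE from a trapping set
-/

namespace Vale.Agent.Lib.P072

open Set Filter Topology Metric
open scoped NNReal

variable {E : Type} [NormedAddCommGroup E] [NormedSpace ℝ E] [CompleteSpace E]

/-- One Picard step of length `δ` from a point of `C`. -/
lemma exists_step {f : E → E} {C : Set E} {K L : ℝ≥0}
    (hlip : ∀ y ∈ C, LipschitzOnWith K f (closedBall y 1))
    (hbd : ∀ y ∈ C, ∀ x ∈ closedBall y 1, ‖f x‖ ≤ L) {δ : ℝ} (hδ : 0 ≤ δ)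
    (hLδ : (L : ℝ) * δ ≤ 1) {y : E} (hy : y ∈ C) (t₀ : ℝ) :
    ∃ β : ℝ → E, β t₀ = y ∧
      ∀ t ∈ Icc t₀ (t₀ + δ), HasDerivWithinAt β (f (β t)) (Icc t₀ (t₀ + δ)) t := by
  have ht₀ : t₀ ∈ Icc t₀ (t₀ + δ) := ⟨le_rfl, by linarith⟩
  have hpl : IsPicardLindelof (fun _ => f) (⟨t₀, ht₀⟩ : Icc t₀ (t₀ + δ)) y 1 0 L K :=
    { lipschitzOnWith := fun t _ => by simpa using hlip y hy
      continuousOn := fun x _ => continuousOn_const
      norm_le := fun t _ x hx => hbd y hy x (by simpa using hx)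
      mul_max_le := by
        simp only [add_sub_cancel_left, sub_self, NNReal.coe_one, NNReal.coe_zero, sub_zero]
        rw [max_eq_left hδ]
        exact hLδ }
  obtain ⟨α, hα0, hα⟩ := hpl.exists_eq_forall_mem_Icc_hasDerivWithinAt₀
  exact ⟨α, hα0, hα⟩

/-- Global existence on `[0, ∞)`: if the vector field is uniformly Lipschitz and bounded on unit
balls around the points of `C`, and every solution on a bounded interval `[0, T]` starting at `x₀`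
ends in `C`, then there is a solution on `[0, ∞)` starting at `x₀`. -/
theorem exists_global_solution {f : E → E} {C : Set E} {K L : ℝ≥0}
    (hlip : ∀ y ∈ C, LipschitzOnWith K f (closedBall y 1))
    (hbd : ∀ y ∈ C, ∀ x ∈ closedBall y 1, ‖f x‖ ≤ L) {x₀ : E}
    (htrap : ∀ T : ℝ, 0 ≤ T → ∀ γ : ℝ → E, γ 0 = x₀ →
      (∀ t ∈ Icc 0 T, HasDerivWithinAt γ (f (γ t)) (Icc 0 T) t) → γ T ∈ C) :
    ∃ γ : ℝ → E, γ 0 = x₀ ∧ ∀ t, 0 ≤ t → HasDerivWithinAt γ (f (γ t)) (Ici 0) t := by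
  set δ : ℝ := 1 / ((L : ℝ) + 1) with hδdef
  have hL0 : (0:ℝ) ≤ L := L.coe_nonneg
  have hδpos : 0 < δ := by positivity
  have hLδ : (L : ℝ) * δ ≤ 1 := by
    rw [hδdef, mul_one_div, div_le_one (by positivity)]
    linarith
  let Sol : ℕ → (ℝ → E) → Prop := fun n γ =>
    γ 0 = x₀ ∧ ∀ t ∈ Icc (0:ℝ) (n * δ), HasDerivWithinAt γ (f (γ t)) (Icc 0 (n * δ)) t
  have hext : ∀ (n : ℕ) (γ : ℝ → E), Sol n γ →
      ∃ γ' : ℝ → E, Sol (n + 1) γ' ∧ ∀ t, t ≤ n * δ → γ' t = γ t := by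
    rintro n γ ⟨h0, hγ⟩
    have hnδ : (0:ℝ) ≤ n * δ := by positivity
    have hC : γ (n * δ) ∈ C := htrap (n * δ) hnδ γ h0 hγ
    obtain ⟨β, hβ0, hβ⟩ := exists_step hlip hbd hδpos.le hLδ hC (n * δ)
    have hend : (n:ℝ) * δ + δ = ((n + 1 : ℕ) : ℝ) * δ := by push_cast; ring
    rw [hend] at hβ
    have hle : (n:ℝ) * δ ≤ ((n + 1 : ℕ) : ℝ) * δ := by rw [← hend]; linarith
    set γ' : ℝ → E := fun t => if t ≤ n * δ then γ t else β t with hγ'
    have hγ'le : ∀ s, s ≤ n * δ → γ' s = γ s := fun s hs => by simp [hγ', hs]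
    have hγ'β : ∀ s ∈ Icc ((n:ℝ) * δ) (((n + 1 : ℕ) : ℝ) * δ), γ' s = β s := by
      intro s hs
      by_cases h : s ≤ n * δ
      · have hs' : s = n * δ := le_antisymm h hs.1
        rw [hγ'le s h, hs', hβ0]
      · simp [hγ', h]
    refine ⟨γ', ⟨by rw [hγ'le 0 hnδ, h0], ?_⟩, hγ'le⟩
    intro t ht
    rcases lt_trichotomy t (n * δ) with hlt | heq | hgt
    · have h1 : HasDerivWithinAt γ' (f (γ t)) (Icc 0 (n * δ)) t :=
        (hγ t ⟨ht.1, hlt.le⟩).congr (fun s hs => hγ'le s hs.2) (hγ'le t hlt.le)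
      have h2 : Icc (0:ℝ) (n * δ) ∈ 𝓝[Icc 0 (((n + 1 : ℕ) : ℝ) * δ)] t :=
        mem_nhdsWithin.mpr ⟨Iio (n * δ), isOpen_Iio, hlt, fun s hs => ⟨hs.2.1, hs.1.le⟩⟩
      rw [hγ'le t hlt.le]
      exact h1.mono_of_mem_nhdsWithin h2
    · have h1 : HasDerivWithinAt γ' (f (γ t)) (Icc 0 (n * δ)) t :=
        (hγ t ⟨ht.1, heq.le⟩).congr (fun s hs => hγ'le s hs.2) (hγ'le t heq.le)
      have h2 : HasDerivWithinAt γ' (f (β t)) (Icc (n * δ) (((n + 1 : ℕ) : ℝ) * δ)) t :=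
        (hβ t ⟨heq.ge, ht.2⟩).congr hγ'β (hγ'β t ⟨heq.ge, ht.2⟩)
      have e : β t = γ t := by rw [heq, hβ0]
      rw [e] at h2
      have h3 := h1.union h2
      rw [Icc_union_Icc_eq_Icc hnδ hle] at h3
      rw [hγ'le t heq.le]
      exact h3
    · have h2 : HasDerivWithinAt γ' (f (β t)) (Icc (n * δ) (((n + 1 : ℕ) : ℝ) * δ)) t :=
        (hβ t ⟨hgt.le, ht.2⟩).congr hγ'β (hγ'β t ⟨hgt.le, ht.2⟩)
      have h3 : Icc ((n:ℝ) * δ) (((n + 1 : ℕ) : ℝ) * δ) ∈ 𝓝[Icc 0 (((n + 1 : ℕ) : ℝ) * δ)] t :=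
        mem_nhdsWithin.mpr ⟨Ioi (n * δ), isOpen_Ioi, hgt, fun s hs => ⟨le_of_lt hs.1, hs.2.2⟩⟩
      rw [hγ'β t ⟨hgt.le, ht.2⟩]
      exact h2.mono_of_mem_nhdsWithin h3
  have h0 : Sol 0 (fun _ => x₀) := by
    refine ⟨rfl, fun t ht => ?_⟩
    have hI : Icc (0:ℝ) ((0:ℕ) * δ) = {0} := by simp
    rw [hI] at ht ⊢
    rw [mem_singleton_iff] at ht
    rw [ht]
    exact HasFDerivWithinAt.singleton
  choose! F hF using hext
  let G : ℕ → (ℝ → E) := fun n => Nat.rec (fun _ => x₀) (fun n g => F n g) n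
  have hG : ∀ n, Sol n (G n) := by
    intro n
    induction n with
    | zero => exact h0
    | succ n ih => exact (hF n (G n) ih).1
  have hGcompat : ∀ (n : ℕ) (t : ℝ), t ≤ n * δ → G (n + 1) t = G n t :=
    fun n t ht => (hF n (G n) (hG n)).2 t ht
  have hGmono : ∀ n m : ℕ, n ≤ m → ∀ t : ℝ, t ≤ n * δ → G m t = G n t := by
    intro n m hnm
    induction m, hnm using Nat.le_induction with
    | base => intro t _; rfl
    | succ m hm ih =>
      intro t ht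
      have h1 : (n:ℝ) * δ ≤ m * δ := by
        have : (n:ℝ) ≤ m := by exact_mod_cast hm
        exact mul_le_mul_of_nonneg_right this hδpos.le
      rw [hGcompat m t (le_trans ht h1)]
      exact ih t ht
  let N : ℝ → ℕ := fun t => ⌈t / δ⌉₊ + 1
  have hN : ∀ s : ℝ, s ≤ (N s : ℝ) * δ := by
    intro s
    have h1 : s / δ ≤ ⌈s / δ⌉₊ := Nat.le_ceil _
    have h2 : s ≤ (⌈s / δ⌉₊ : ℝ) * δ := by
      rwa [div_le_iff₀ hδpos] at h1
    have h3 : ((N s : ℕ) : ℝ) = (⌈s / δ⌉₊ : ℝ) + 1 := by simp [N]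
    rw [h3]
    nlinarith
  refine ⟨fun t => G (N t) t, (hG (N 0)).1, ?_⟩
  intro t ht
  set M : ℕ := N t + 1 with hM
  have hNM : ∀ s : ℝ, s < t + δ → N s ≤ M := by
    intro s hs
    have h1 : s / δ ≤ ((⌈t / δ⌉₊ + 1 : ℕ) : ℝ) := by
      have h2 : t / δ ≤ ⌈t / δ⌉₊ := Nat.le_ceil _
      have h3 : s / δ < t / δ + 1 := by
        rw [div_lt_iff₀ hδpos]
        have : (t / δ + 1) * δ = t + δ := by field_simp
        rw [this]
        exact hs
      push_cast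
      linarith
    have h4 : ⌈s / δ⌉₊ ≤ ⌈t / δ⌉₊ + 1 := Nat.ceil_le.mpr h1
    simp only [hM, N]
    omega
  have htM : t < (M : ℝ) * δ := by
    have h1 := hN t
    have h2 : ((M : ℕ) : ℝ) = (N t : ℝ) + 1 := by simp [hM]
    rw [h2]
    nlinarith
  have hd : HasDerivWithinAt (G M) (f (G M t)) (Icc 0 (M * δ)) t := (hG M).2 t ⟨ht, htM.le⟩
  have hmem : Icc (0:ℝ) (M * δ) ∈ 𝓝[Ici 0] t :=
    mem_nhdsWithin.mpr ⟨Iio (M * δ), isOpen_Iio, htM, fun s hs => ⟨hs.2, hs.1.le⟩⟩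
  have hd' := hd.mono_of_mem_nhdsWithin hmem
  have heq : ∀ s : ℝ, s < t + δ → G (N s) s = G M s := fun s hs =>
    (hGmono (N s) M (hNM s hs) s (hN s)).symm
  have hev : (fun s => G (N s) s) =ᶠ[𝓝[Ici 0] t] G M := by
    have h1 : ∀ᶠ s in 𝓝[Ici 0] t, s < t + δ :=
      nhdsWithin_le_nhds (Iio_mem_nhds (by linarith))
    filter_upwards [h1] with s hs using heq s hs
  have ht' : G (N t) t = G M t := heq t (by linarith)
  show HasDerivWithinAt (fun s => G (N s) s) (f (G (N t) t)) (Ici 0) t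
  rw [ht']
  exact hd'.congr_of_eventuallyEq hev ht'

end Vale.Agent.Lib.P072
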