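import Vale.Agent.Lib.P072.Sign
import Vale.Agent.Lib.P072.Box
import Vale.Agent.Lib.P072.GlobalExist

/-!
# Permanence of source-dominated mass-action systems
-/

namespace Vale.Agent.Lib.P072

open Set Filter Topology Metric
open scoped NNReal

set_option linter.unusedSectionVars false

variable {R ι : Type} [Fintype R] [Fintype ι]

lemma field_mem_stoich (N : MAS R ι) (x : ι → ℝ) : N.field x ∈ N.stoich := by
  unfold MAS.field MAS.stoich
  apply Submodule.sum_mem
  intro r _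
  exact Submodule.smul_mem _ _ (Submodule.subset_span ⟨r, rfl⟩)

lemma stoich_apply_eq_zero (N : MAS R ι) (i : ι) (h : ∀ r, N.tgt r i = N.src r i)
    {v : ι → ℝ} (hv : v ∈ N.stoich) : v i = 0 := by
  unfold MAS.stoich at hv
  induction hv using Submodule.span_induction with
  | mem x hx =>
    obtain ⟨r, rfl⟩ := hx
    simp [MAS.vec, h r]
  | zero => rfl
  | add x y _ _ hx hy => simp [hx, hy]
  | smul c x _ hx => simp [hx]

/-- Solutions stay in their stoichiometric class. -/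
lemma sub_mem_stoich_of_isSol (N : MAS R ι) {γ : ℝ → ι → ℝ} (hγ : N.IsSol γ) {t : ℝ}
    (ht : 0 ≤ t) : γ t - γ 0 ∈ N.stoich := by
  rw [← Subspace.dualAnnihilator_dualCoannihilator_eq (W := N.stoich),
    Submodule.mem_dualCoannihilator]
  intro φ hφ
  rw [Submodule.mem_dualAnnihilator] at hφ
  have hcont : ContinuousOn (fun s => φ (γ s)) (Icc 0 t) := by
    have h1 : Continuous φ := LinearMap.continuous_of_finiteDimensional φ
    exact h1.comp_continuousOn
      (fun s hs => ((hγ s hs.1).continuousWithinAt).mono Icc_subset_Ici_self)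
  have hderiv : ∀ s ∈ Ico 0 t, HasDerivWithinAt (fun s => φ (γ s)) 0 (Ici s) s := by
    intro s hs
    have h1 : HasDerivWithinAt γ (N.field (γ s)) (Ici s) s :=
      (hγ s hs.1).mono (Ici_subset_Ici.mpr hs.1)
    have h2 := (LinearMap.toContinuousLinearMap φ).hasFDerivAt.comp_hasDerivWithinAt
      (x := s) h1
    have h3 : (LinearMap.toContinuousLinearMap φ) (N.field (γ s)) = 0 :=
      hφ _ (field_mem_stoich N (γ s))
    rw [h3] at h2
    exact h2
  have := constant_of_has_deriv_right_zero hcont hderiv t ⟨ht, le_rfl⟩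
  rw [map_sub, this, sub_self]

lemma contDiff_mono (a : ι → ℕ) : ContDiff ℝ 1 (mono a) := by
  unfold mono
  apply contDiff_prod
  intro i _
  exact (contDiff_apply ℝ ℝ i).pow _

lemma contDiff_field (N : MAS R ι) : ContDiff ℝ 1 N.field := by
  unfold MAS.field
  apply ContDiff.sum
  intro r _
  exact (contDiff_const.mul (contDiff_mono _)).smul contDiff_const

/-- Uniform Lipschitz and norm bounds of the mass-action field near a compact set. -/
lemma exists_lipschitz_bound (N : MAS R ι) {C : Set (ι → ℝ)} (hC : IsCompact C) :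
    ∃ K L : ℝ≥0, (∀ y ∈ C, LipschitzOnWith K N.field (closedBall y 1)) ∧
      ∀ y ∈ C, ∀ x ∈ closedBall y 1, ‖N.field x‖ ≤ L := by
  have hD : IsCompact (cthickening 1 C) := hC.cthickening
  obtain ⟨K, hK⟩ := LocallyLipschitzOn.exists_lipschitzOnWith_of_compact hD
    ((contDiff_field N).locallyLipschitz.locallyLipschitzOn)
  obtain ⟨L, hL⟩ := hD.exists_bound_of_continuousOn (contDiff_field N).continuous.continuousOn
  refine ⟨K, Real.toNNReal L, fun y hy => hK.mono (closedBall_subset_cthickening hy 1),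
    fun y hy x hx => ?_⟩
  exact le_trans (hL x (closedBall_subset_cthickening hy 1 hx)) (Real.le_coe_toNNReal L)

/-- Thresholds for all species at once. -/
structure Thresholds (N : MAS R ι) (lo hi : ι → ℝ) : Prop where
  lo_pos : ∀ i, 0 < lo i
  lo_le_hi : ∀ i, lo i ≤ hi i
  sign : ∀ i, (∀ r, N.tgt r i = N.src r i) ∨
    ∀ x : ι → ℝ, (∀ j, 0 < x j) → (x i ≤ lo i → 0 < N.field x i) ∧ (hi i ≤ x i → N.field x i < 0)

lemma exists_thresholds_all (N : MAS R ι) (hN : N.SourceDominated) :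
    ∃ lo hi : ι → ℝ, Thresholds N lo hi := by
  have h : ∀ i, ∃ lo hi : ℝ, 0 < lo ∧ lo ≤ hi ∧ ((∀ r, N.tgt r i = N.src r i) ∨
      ∀ x : ι → ℝ, (∀ j, 0 < x j) →
        (x i ≤ lo → 0 < N.field x i) ∧ (hi ≤ x i → N.field x i < 0)) := by
    intro i
    by_cases hi : ∀ r, N.tgt r i = N.src r i
    · exact ⟨1, 1, one_pos, le_rfl, Or.inl hi⟩
    · push Not at hi
      obtain ⟨lo, hi', h1, h2, h3⟩ := exists_thresholds N hN i hi
      exact ⟨lo, hi', h1, h2, Or.inr h3⟩
  choose lo hi h1 h2 h3 using h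
  exact ⟨lo, hi, ⟨h1, h2, h3⟩⟩

/-- Boxes that are large enough are forward invariant. -/
lemma net_box_invariant (N : MAS R ι) {lo hi : ι → ℝ} (hT : Thresholds N lo hi)
    {m M : ι → ℝ} (hm0 : ∀ i, 0 < m i) (hm : ∀ i, m i ≤ lo i) (hM : ∀ i, hi i ≤ M i)
    {γ : ℝ → ι → ℝ} (hγ : N.IsSol γ) {a b : ℝ} (ha : 0 ≤ a) (hγa : γ a ∈ Icc m M) :
    ∀ t ∈ Icc a b, γ t ∈ Icc m M := by
  apply box_invariant (f := N.field)
  · exact fun t ht => ((hγ t (le_trans ha ht.1)).continuousWithinAt).mono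
      (fun s hs => mem_Ici.mpr (le_trans ha hs.1))
  · exact fun t ht => (hγ t (le_trans ha ht.1)).mono (Ici_subset_Ici.mpr (le_trans ha ht.1))
  · intro i
    rcases hT.sign i with h | h
    · exact Or.inl (field_eq_zero_of_inert N i h)
    · refine Or.inr (fun x hx => ?_)
      have hxpos : ∀ j, 0 < x j := fun j => lt_of_lt_of_le (hm0 j) (hx.1 j)
      refine ⟨fun h1 => (h x hxpos).1 (by rw [h1]; exact hm i),
        fun h1 => (h x hxpos).2 (by rw [h1]; exact hM i)⟩
  · exact hγa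

/-- The same for solutions on a bounded interval `[0, T]`. -/
lemma net_box_invariant' (N : MAS R ι) {lo hi : ι → ℝ} (hT : Thresholds N lo hi)
    {m M : ι → ℝ} (hm0 : ∀ i, 0 < m i) (hm : ∀ i, m i ≤ lo i) (hM : ∀ i, hi i ≤ M i)
    {γ : ℝ → ι → ℝ} {T : ℝ}
    (hγ : ∀ t ∈ Icc 0 T, HasDerivWithinAt γ (N.field (γ t)) (Icc 0 T) t)
    (hγ0 : γ 0 ∈ Icc m M) : ∀ t ∈ Icc 0 T, γ t ∈ Icc m M := by
  apply box_invariant (f := N.field)
  · exact fun t ht => (hγ t ht).continuousWithinAt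
  · intro t ht
    have hmem : Icc (0:ℝ) T ∈ 𝓝[Ici t] t :=
      mem_nhdsWithin.mpr ⟨Iio T, isOpen_Iio, ht.2, fun s hs => ⟨le_trans ht.1 hs.2, hs.1.le⟩⟩
    exact (hγ t ⟨ht.1, ht.2.le⟩).mono_of_mem_nhdsWithin hmem
  · intro i
    rcases hT.sign i with h | h
    · exact Or.inl (field_eq_zero_of_inert N i h)
    · refine Or.inr (fun x hx => ?_)
      have hxpos : ∀ j, 0 < x j := fun j => lt_of_lt_of_le (hm0 j) (hx.1 j)
      refine ⟨fun h1 => (h x hxpos).1 (by rw [h1]; exact hm i),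
        fun h1 => (h x hxpos).2 (by rw [h1]; exact hM i)⟩
  · exact hγ0

/-- Global existence of solutions from every positive point. -/
lemma exists_sol (N : MAS R ι) {lo hi : ι → ℝ} (hT : Thresholds N lo hi)
    (x₀ : ι → ℝ) (hx₀ : ∀ i, 0 < x₀ i) : ∃ γ : ℝ → ι → ℝ, γ 0 = x₀ ∧ N.IsSol γ := by
  set m : ι → ℝ := fun i => min (x₀ i) (lo i) with hm
  set M : ι → ℝ := fun i => max (x₀ i) (hi i) with hM
  have hm0 : ∀ i, 0 < m i := fun i => lt_min (hx₀ i) (hT.lo_pos i)
  have hx₀mem : x₀ ∈ Icc m M := ⟨fun i => min_le_left _ _, fun i => le_max_left _ _⟩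
  obtain ⟨K, L, hK, hL⟩ := exists_lipschitz_bound N (isCompact_Icc (a := m) (b := M))
  refine exists_global_solution hK hL ?_
  intro T hT0 γ hγ0 hγ
  exact net_box_invariant' N hT hm0 (fun i => min_le_right _ _) (fun i => le_max_right _ _) hγ
    (by rw [hγ0]; exact hx₀mem) T ⟨hT0, le_rfl⟩

end Vale.Agent.Lib.P072
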