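import Vale.Agent.Lib.P072.FunBarrier
import Vale.Agent.Lib.P072.DomProof
import Vale.Agent.Lib.P072.Cascade

/-!
# Positivity of solutions of mass-action systems and an exponential lower bound
-/

namespace Vale.Agent.Lib.P072

open Set

set_option linter.unusedSectionVars false

variable {R ι : Type} [Fintype R] [Fintype ι]

/-- A monomial is bounded by a power of a common bound of the coordinates. -/
private lemma balpos_mono_le (c : ι → ℕ) (x : ι → ℝ) (Bm : ℝ) (hx : ∀ j, 0 < x j)
    (hxB : ∀ j, x j ≤ Bm) : mono c x ≤ Bm ^ (∑ j, c j) := by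
  unfold mono
  rw [← Finset.prod_pow_eq_pow_sum]
  apply Finset.prod_le_prod
  · intro j _; exact pow_nonneg (hx j).le _
  · intro j _; exact pow_le_pow_left₀ (hx j).le (hxB j) _

/-- If the exponent of `x i` is positive, the monomial is at most `x i` times a power of the
bound. -/
private lemma balpos_mono_le_mul (c : ι → ℕ) (x : ι → ℝ) (Bm : ℝ) (hBm : 1 ≤ Bm)
    (hx : ∀ j, 0 < x j) (hxB : ∀ j, x j ≤ Bm) (i : ι) (hi : 1 ≤ c i) :
    mono c x ≤ Bm ^ (∑ j, c j) * x i := by
  classical
  have h1 := mono_eq_mul_pow (Function.update c i (c i - 1)) c i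
    (fun j hj => by rw [Function.update_of_ne hj]) (by rw [Function.update_self]; omega) x
  rw [Function.update_self] at h1
  have h2 : c i - (c i - 1) = 1 := by omega
  rw [h2, pow_one] at h1
  rw [h1]
  apply mul_le_mul_of_nonneg_right _ (hx i).le
  refine le_trans (balpos_mono_le _ x Bm hx hxB) ?_
  apply pow_le_pow_right₀ hBm
  apply Finset.sum_le_sum
  intro j _
  by_cases hj : j = i
  · subst hj; rw [Function.update_self]; omega
  · rw [Function.update_of_ne hj]

/-- On bounded parts of the positive orthant, `field x i ≥ -L * x i`. -/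
lemma field_ge_neg_mul (N : MAS R ι) (B : ℝ) :
    ∃ L : ℝ, 0 ≤ L ∧ ∀ x : ι → ℝ, (∀ j, 0 < x j) → (∀ j, x j ≤ B) →
      ∀ i, -L * x i ≤ N.field x i := by
  classical
  obtain ⟨Bm, hBmdef⟩ : ∃ Bm : ℝ, Bm = max B 1 := ⟨_, rfl⟩
  have hBm1 : 1 ≤ Bm := by rw [hBmdef]; exact le_max_right _ _
  have hBB : B ≤ Bm := by rw [hBmdef]; exact le_max_left _ _
  have hBm0 : 0 ≤ Bm := le_trans zero_le_one hBm1
  have hc0 : ∀ r i, 0 ≤ N.rate r * (N.src r i : ℝ) * Bm ^ (∑ j, N.src r j) := by
    intro r i
    exact mul_nonneg (mul_nonneg (N.rate_pos r).le (Nat.cast_nonneg _)) (pow_nonneg hBm0 _)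
  refine ⟨∑ r, ∑ i, N.rate r * (N.src r i : ℝ) * Bm ^ (∑ j, N.src r j), ?_, ?_⟩
  · exact Finset.sum_nonneg (fun r _ => Finset.sum_nonneg (fun i _ => hc0 r i))
  · intro x hx hxB i
    have hxBm : ∀ j, x j ≤ Bm := fun j => le_trans (hxB j) hBB
    rw [field_apply]
    have hterm : ∀ r, -(N.rate r * (N.src r i : ℝ) * Bm ^ (∑ j, N.src r j)) * x i
        ≤ N.rate r * mono (N.src r) x * N.vec r i := by
      intro r
      have hm : 0 < mono (N.src r) x := mono_pos _ x hx
      have hrm : 0 ≤ N.rate r * mono (N.src r) x := (mul_pos (N.rate_pos r) hm).le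
      have hvec : -(N.src r i : ℝ) ≤ N.vec r i := by
        unfold MAS.vec
        have : (0 : ℝ) ≤ (N.tgt r i : ℝ) := Nat.cast_nonneg _
        linarith
      have h1 : N.rate r * mono (N.src r) x * (-(N.src r i : ℝ))
          ≤ N.rate r * mono (N.src r) x * N.vec r i := mul_le_mul_of_nonneg_left hvec hrm
      refine le_trans ?_ h1
      by_cases hi : N.src r i = 0
      · rw [hi]; simp
      · have hi1 : 1 ≤ N.src r i := Nat.one_le_iff_ne_zero.mpr hi
        have h2 := balpos_mono_le_mul (N.src r) x Bm hBm1 hx hxBm i hi1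
        have h3 : N.rate r * mono (N.src r) x * (N.src r i : ℝ)
            ≤ N.rate r * (Bm ^ (∑ j, N.src r j) * x i) * (N.src r i : ℝ) := by
          apply mul_le_mul_of_nonneg_right _ (Nat.cast_nonneg _)
          exact mul_le_mul_of_nonneg_left h2 (N.rate_pos r).le
        nlinarith [h3]
    have hsum : ∑ r, -(N.rate r * (N.src r i : ℝ) * Bm ^ (∑ j, N.src r j)) * x i
        ≤ ∑ r, N.rate r * mono (N.src r) x * N.vec r i :=
      Finset.sum_le_sum (fun r _ => hterm r)
    refine le_trans ?_ hsum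
    rw [← Finset.sum_mul, Finset.sum_neg_distrib]
    apply mul_le_mul_of_nonneg_right _ (hx i).le
    apply neg_le_neg
    apply Finset.sum_le_sum
    intro r _
    exact Finset.single_le_sum (f := fun i => N.rate r * (N.src r i : ℝ) * Bm ^ (∑ j, N.src r j))
      (fun i _ => hc0 r i) (Finset.mem_univ i)

/-- Exponential lower bound for a solution on `[a, b]` that stays below `B`. -/
lemma sol_lower_bound (N : MAS R ι) {B L : ℝ}
    (hL : ∀ x : ι → ℝ, (∀ j, 0 < x j) → (∀ j, x j ≤ B) → ∀ i, -L * x i ≤ N.field x i)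
    {γ : ℝ → ι → ℝ} {a b : ℝ}
    (hγ : ∀ t ∈ Icc a b, HasDerivWithinAt γ (N.field (γ t)) (Icc a b) t)
    (hB : ∀ t ∈ Icc a b, ∀ j, γ t j ≤ B) (ha : ∀ j, 0 < γ a j) :
    ∀ t ∈ Icc a b, ∀ j, γ a j * Real.exp (-L * (t - a)) ≤ γ t j := by
  have hγc : ContinuousOn γ (Icc a b) := fun t ht => (hγ t ht).continuousWithinAt
  have hfc : ContinuousOn (fun t => N.field (γ t)) (Icc a b) :=
    (contDiff_field N).continuous.comp_continuousOn hγc
  have hec : Continuous (fun t : ℝ => Real.exp (L * (t - a))) := by fun_prop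
  have hyc : ContinuousOn (fun t => fun j => γ t j * Real.exp (L * (t - a))) (Icc a b) := by
    apply continuousOn_pi.mpr
    intro j
    exact ((continuous_apply j).comp_continuousOn hγc).mul hec.continuousOn
  have hgc : ∀ j, ContinuousOn
      (fun t => (N.field (γ t) j + L * γ t j) * Real.exp (L * (t - a))) (Icc a b) := by
    intro j
    apply ContinuousOn.mul _ hec.continuousOn
    exact ((continuous_apply j).comp_continuousOn hfc).add
      (continuousOn_const.mul ((continuous_apply j).comp_continuousOn hγc))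
  have key := lower_barrier (y := fun t => fun j => γ t j * Real.exp (L * (t - a)))
    (g := fun t => fun j => (N.field (γ t) j + L * γ t j) * Real.exp (L * (t - a)))
    (m := fun j => γ a j) (m' := fun j => γ a j / 2) hyc ?_ ?_ ?_ ?_
  · intro t ht j
    have h1 := key t ht j
    have hpos : 0 < Real.exp (-L * (t - a)) := Real.exp_pos _
    have h2 : Real.exp (L * (t - a)) * Real.exp (-L * (t - a)) = 1 := by
      rw [← Real.exp_add]
      have : L * (t - a) + -L * (t - a) = 0 := by ring
      rw [this, Real.exp_zero]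
    calc γ a j * Real.exp (-L * (t - a))
        ≤ γ t j * Real.exp (L * (t - a)) * Real.exp (-L * (t - a)) :=
          mul_le_mul_of_nonneg_right h1 hpos.le
      _ = γ t j := by rw [mul_assoc, h2, mul_one]
  · -- integral form
    intro j s t hs hst ht
    have hsub : Icc s t ⊆ Icc a b := Icc_subset_Icc hs ht
    have hderiv : ∀ τ ∈ Ioo s t, HasDerivWithinAt (fun τ => γ τ j * Real.exp (L * (τ - a)))
        ((N.field (γ τ) j + L * γ τ j) * Real.exp (L * (τ - a))) (Ioi τ) τ := by
      intro τ hτ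
      have hτab : τ ∈ Icc a b := hsub ⟨hτ.1.le, hτ.2.le⟩
      have hnhds : Icc a b ∈ nhds τ :=
        Icc_mem_nhds (lt_of_le_of_lt hs hτ.1) (lt_of_lt_of_le hτ.2 ht)
      have h1 : HasDerivAt γ (N.field (γ τ)) τ := (hγ τ hτab).hasDerivAt hnhds
      have h2 : HasDerivAt (fun τ => γ τ j) (N.field (γ τ) j) τ := (hasDerivAt_pi.mp h1) j
      have h3 : HasDerivAt (fun τ : ℝ => Real.exp (L * (τ - a)))
          (Real.exp (L * (τ - a)) * L) τ := by
        have h4 : HasDerivAt (fun τ : ℝ => L * (τ - a)) L τ := by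
          have := ((hasDerivAt_id τ).sub_const a).const_mul L
          simpa using this
        exact h4.exp
      have h5 := h2.mul h3
      have h6 : N.field (γ τ) j * Real.exp (L * (τ - a)) + γ τ j * (Real.exp (L * (τ - a)) * L)
          = (N.field (γ τ) j + L * γ τ j) * Real.exp (L * (τ - a)) := by ring
      rw [h6] at h5
      exact h5.hasDerivWithinAt
    have hint : IntervalIntegrable
        (fun τ => (N.field (γ τ) j + L * γ τ j) * Real.exp (L * (τ - a))) MeasureTheory.volume s t := by
      apply ContinuousOn.intervalIntegrable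
      rw [uIcc_of_le hst]
      exact (hgc j).mono hsub
    have := intervalIntegral.integral_eq_sub_of_hasDeriv_right_of_le hst
      (((continuous_apply j).comp_continuousOn hyc).mono hsub) hderiv hint
    exact this.symm
  · intro j
    have := ha j
    show γ a j / 2 < γ a j
    linarith
  · intro s hs hbig j _
    have hpos : ∀ j, 0 < γ s j := by
      intro j
      have h1 : γ a j / 2 ≤ γ s j * Real.exp (L * (s - a)) := hbig j
      have h2 : 0 < γ s j * Real.exp (L * (s - a)) := lt_of_lt_of_le (by have := ha j; linarith) h1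
      exact pos_of_mul_pos_left h2 (Real.exp_pos _).le
    have h3 := hL (γ s) hpos (hB s hs) j
    show 0 ≤ (N.field (γ s) j + L * γ s j) * Real.exp (L * (s - a))
    apply mul_nonneg _ (Real.exp_pos _).le
    linarith
  · intro j
    show γ a j ≤ γ a j * Real.exp (L * (a - a))
    rw [sub_self, mul_zero, Real.exp_zero, mul_one]

/-- Solutions on `[0, T]` starting at a positive point stay positive. -/
lemma sol_pos (N : MAS R ι) {γ : ℝ → ι → ℝ} {T : ℝ}
    (hγ : ∀ t ∈ Icc 0 T, HasDerivWithinAt γ (N.field (γ t)) (Icc 0 T) t)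
    (h0 : ∀ j, 0 < γ 0 j) : ∀ t ∈ Icc 0 T, ∀ j, 0 < γ t j := by
  have hγc : ContinuousOn γ (Icc 0 T) := fun t ht => (hγ t ht).continuousWithinAt
  obtain ⟨B, hB⟩ := isCompact_Icc.exists_bound_of_continuousOn hγc
  obtain ⟨L, _, hL⟩ := field_ge_neg_mul N B
  have hB' : ∀ t ∈ Icc 0 T, ∀ j, γ t j ≤ B := by
    intro t ht j
    exact le_trans (le_trans (le_abs_self _) (norm_le_pi_norm (γ t) j)) (hB t ht)
  intro t ht j
  have := sol_lower_bound N hL hγ hB' h0 t ht j
  exact lt_of_lt_of_le (mul_pos (h0 j) (Real.exp_pos _)) this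

end Vale.Agent.Lib.P072
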