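import Vale.Agent.Lib.P072.Box

/-!
# Invariant boxes relative to a set containing the solution
-/

namespace Vale.Agent.Lib.P072

open Set Filter Topology

variable {ι : Type} [Fintype ι]

/-- A box `Icc m M` is forward invariant for a solution of `γ' = f γ` that stays in a set `A`
if at the points of `A` on each face the vector field points strictly inward, or the
corresponding component of the vector field vanishes on `A`. -/
theorem box_invariant_on {f : (ι → ℝ) → ι → ℝ} {γ : ℝ → ι → ℝ} {a b : ℝ} {m M : ι → ℝ}
    {A : Set (ι → ℝ)}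
    (hcont : ContinuousOn γ (Icc a b))
    (hderiv : ∀ t ∈ Ico a b, HasDerivWithinAt γ (f (γ t)) (Ici t) t)
    (hA : ∀ t ∈ Icc a b, γ t ∈ A)
    (hin : ∀ i, (∀ x ∈ A, f x i = 0) ∨
      (∀ x ∈ Icc m M, x ∈ A → (x i = m i → 0 < f x i) ∧ (x i = M i → f x i < 0)))
    (ha : γ a ∈ Icc m M) : ∀ t ∈ Icc a b, γ t ∈ Icc m M := by
  have hclosed : IsClosed ((γ ⁻¹' Icc m M) ∩ Icc a b) := by
    rw [inter_comm]
    exact hcont.preimage_isClosed_of_isClosed isClosed_Icc isClosed_Icc
  have key : Icc a b ⊆ γ ⁻¹' Icc m M := by
    refine IsClosed.Icc_subset_of_forall_exists_gt hclosed ha ?_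
    rintro t ⟨htB, htab⟩ y hy
    have htB' : γ t ∈ Icc m M := htB
    have htA : γ t ∈ A := hA t ⟨htab.1, htab.2.le⟩
    have hev : ∀ᶠ z in 𝓝[>] t, γ z ∈ Icc m M := by
      have hall : ∀ i, ∀ᶠ z in 𝓝[>] t, m i ≤ γ z i ∧ γ z i ≤ M i := by
        intro i
        have hgi : HasDerivWithinAt (fun z => γ z i) (f (γ t) i) (Ici t) t :=
          (hasDerivWithinAt_pi.mp (hderiv t htab)) i
        have hct : Tendsto (fun z => γ z i) (𝓝[>] t) (𝓝 (γ t i)) :=
          (hgi.continuousWithinAt.mono Ioi_subset_Ici_self).tendsto
        have hmi : m i ≤ γ t i := htB'.1 i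
        have hMi : γ t i ≤ M i := htB'.2 i
        rcases hin i with h0 | hstrict
        · -- the component is constant on `[a, b]`
          have hconst : ∀ z ∈ Icc a b, γ z i = γ a i := by
            apply constant_of_has_deriv_right_zero
            · exact (continuous_apply i).comp_continuousOn hcont
            · intro s hs
              have := (hasDerivWithinAt_pi.mp (hderiv s hs)) i
              rwa [h0 _ (hA s ⟨hs.1, hs.2.le⟩)] at this
          have hI : Ioc t b ∈ 𝓝[>] t := Ioc_mem_nhdsGT htab.2
          filter_upwards [hI] with z hz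
          have hz' : z ∈ Icc a b := ⟨le_trans htab.1 hz.1.le, hz.2⟩
          rw [hconst z hz', ← hconst t ⟨htab.1, htab.2.le⟩]
          exact ⟨hmi, hMi⟩
        · have hlow : ∀ᶠ z in 𝓝[>] t, m i ≤ γ z i := by
            rcases hmi.lt_or_eq with hlt | heq
            · filter_upwards [hct.eventually_const_lt hlt] with z hz using hz.le
            · have hpos : 0 < f (γ t) i := (hstrict (γ t) htB' htA).1 heq.symm
              filter_upwards [eventually_gt_of_hasDerivWithinAt_pos hgi hpos] with z hz
              rw [heq]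
              exact hz.le
          have hup : ∀ᶠ z in 𝓝[>] t, γ z i ≤ M i := by
            rcases hMi.lt_or_eq with hlt | heq
            · filter_upwards [hct.eventually_lt_const hlt] with z hz using hz.le
            · have hneg : f (γ t) i < 0 := (hstrict (γ t) htB' htA).2 heq
              filter_upwards [eventually_lt_of_hasDerivWithinAt_neg hgi hneg] with z hz
              rw [← heq]
              exact hz.le
          filter_upwards [hlow, hup] with z h1 h2 using ⟨h1, h2⟩
      filter_upwards [eventually_all.mpr hall] with z hz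
      exact ⟨fun i => (hz i).1, fun i => (hz i).2⟩
    have hI : Ioc t y ∈ 𝓝[>] t := Ioc_mem_nhdsGT hy
    obtain ⟨z, hz1, hz2⟩ := (hev.and hI).exists
    exact ⟨z, hz1, hz2⟩
  exact fun t ht => key ht

end Vale.Agent.Lib.P072
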