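import Vale.Agent.Lib.P072.DomProof

/-!
# Permanence of source-dominated mass-action systems: the main theorem
-/

namespace Vale.Agent.Lib.P072

open Set Filter Topology Metric
open scoped NNReal

set_option linter.unusedSectionVars false

variable {R ι : Type} [Fintype R] [Fintype ι]

lemma update_le_iff_aux [DecidableEq ι] {i : ι} {m M : ι → ℝ} {v : ℝ} (hv : v ≤ M i)
    (h : ∀ j, m j ≤ M j) : ∀ j, Function.update m i v j ≤ M j := by
  intro j
  by_cases hj : j = i
  · subst hj; simpa using hv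
  · rw [Function.update_of_ne hj]; exact h j

lemma le_update_iff_aux [DecidableEq ι] {i : ι} {m M : ι → ℝ} {v : ℝ} (hv : m i ≤ v)
    (h : ∀ j, m j ≤ M j) : ∀ j, m j ≤ Function.update M i v j := by
  intro j
  by_cases hj : j = i
  · subst hj; simpa using hv
  · rw [Function.update_of_ne hj]; exact h j

/-- Absorption of one coordinate that is changed by some reaction. -/
lemma coord_absorb (N : MAS R ι) {lo hi : ι → ℝ} (hT : Thresholds N lo hi)
    {γ : ℝ → ι → ℝ} (hγ : N.IsSol γ) (hpos : ∀ i, 0 < γ 0 i) (i : ι)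
    (hact : ∀ x : ι → ℝ, (∀ j, 0 < x j) →
      (x i ≤ lo i → 0 < N.field x i) ∧ (hi i ≤ x i → N.field x i < 0)) :
    ∃ Ti : ℝ, 0 ≤ Ti ∧ ∀ t, Ti ≤ t → lo i ≤ γ t i ∧ γ t i ≤ hi i := by
  classical
  set m₀ : ι → ℝ := fun j => min (γ 0 j) (lo j) with hm₀
  set M₀ : ι → ℝ := fun j => max (γ 0 j) (hi j) with hM₀
  have hm₀pos : ∀ j, 0 < m₀ j := fun j => lt_min (hpos j) (hT.lo_pos j)
  have hm₀lo : ∀ j, m₀ j ≤ lo j := fun j => min_le_right _ _
  have hhiM₀ : ∀ j, hi j ≤ M₀ j := fun j => le_max_right _ _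
  have hm₀M₀ : ∀ j, m₀ j ≤ M₀ j := fun j => le_trans (min_le_left _ _) (le_max_left _ _)
  have hstay : ∀ t, 0 ≤ t → γ t ∈ Icc m₀ M₀ := fun t ht =>
    net_box_invariant N hT hm₀pos hm₀lo hhiM₀ hγ le_rfl
      ⟨fun j => min_le_left _ _, fun j => le_max_left _ _⟩ t ⟨ht, le_rfl⟩
  have hcontf : Continuous (fun x : ι → ℝ => N.field x i) :=
    (continuous_apply i).comp (contDiff_field N).continuous
  -- lower bound
  have hlow : ∃ T₁ : ℝ, 0 ≤ T₁ ∧ ∀ t, T₁ ≤ t → lo i ≤ γ t i := by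
    have hQne : (Icc m₀ (Function.update M₀ i (lo i))).Nonempty :=
      ⟨m₀, ⟨le_rfl, le_update_iff_aux (hm₀lo i) hm₀M₀⟩⟩
    obtain ⟨xs, hxs, hmin⟩ := isCompact_Icc.exists_isMinOn hQne hcontf.continuousOn
    have hxspos : ∀ j, 0 < xs j := fun j => lt_of_lt_of_le (hm₀pos j) (hxs.1 j)
    have hxsi : xs i ≤ lo i := by
      have := hxs.2 i
      simpa using this
    have hδ : 0 < N.field xs i := (hact xs hxspos).1 hxsi
    obtain ⟨T₁, hT₁0, hT₁⟩ := exists_time_ge (f := N.field) (B := Icc m₀ M₀) (i := i)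
      (lo := lo i) hδ hγ hstay (by
        intro x hx hxi
        have hxQ : x ∈ Icc m₀ (Function.update M₀ i (lo i)) := by
          refine ⟨hx.1, fun j => ?_⟩
          by_cases hj : j = i
          · subst hj; simpa using hxi
          · rw [Function.update_of_ne hj]; exact hx.2 j
        exact hmin hxQ)
    refine ⟨T₁, hT₁0, fun t ht => ?_⟩
    have hm' : ∀ j, 0 < Function.update m₀ i (lo i) j := by
      intro j
      by_cases hj : j = i
      · subst hj; simpa using hT.lo_pos j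
      · rw [Function.update_of_ne hj]; exact hm₀pos j
    have hm'lo : ∀ j, Function.update m₀ i (lo i) j ≤ lo j := by
      intro j
      by_cases hj : j = i
      · subst hj; simp
      · rw [Function.update_of_ne hj]; exact hm₀lo j
    have hstart : γ T₁ ∈ Icc (Function.update m₀ i (lo i)) M₀ := by
      refine ⟨update_le_iff_aux hT₁ (hstay T₁ hT₁0).1, (hstay T₁ hT₁0).2⟩
    have := (net_box_invariant N hT hm' hm'lo hhiM₀ hγ hT₁0 hstart t ⟨ht, le_rfl⟩).1 i
    simpa using this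
  -- upper bound
  have hupp : ∃ T₂ : ℝ, 0 ≤ T₂ ∧ ∀ t, T₂ ≤ t → γ t i ≤ hi i := by
    have hQne : (Icc (Function.update m₀ i (hi i)) M₀).Nonempty :=
      ⟨M₀, ⟨update_le_iff_aux (hhiM₀ i) hm₀M₀, le_rfl⟩⟩
    obtain ⟨xs, hxs, hmax⟩ := isCompact_Icc.exists_isMaxOn hQne hcontf.continuousOn
    have hxspos : ∀ j, 0 < xs j := by
      intro j
      refine lt_of_lt_of_le ?_ (hxs.1 j)
      by_cases hj : j = i
      · subst hj; simpa using lt_of_lt_of_le (hT.lo_pos j) (hT.lo_le_hi j)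
      · rw [Function.update_of_ne hj]; exact hm₀pos j
    have hxsi : hi i ≤ xs i := by
      have := hxs.1 i
      simpa using this
    have hδ : 0 < -N.field xs i := neg_pos.mpr ((hact xs hxspos).2 hxsi)
    obtain ⟨T₂, hT₂0, hT₂⟩ := exists_time_le (f := N.field) (B := Icc m₀ M₀) (i := i)
      (hi := hi i) hδ hγ hstay (by
        intro x hx hxi
        have hxQ : x ∈ Icc (Function.update m₀ i (hi i)) M₀ := by
          refine ⟨fun j => ?_, hx.2⟩
          by_cases hj : j = i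
          · subst hj; simpa using hxi
          · rw [Function.update_of_ne hj]; exact hx.1 j
        have := hmax hxQ
        simp only [neg_neg]
        exact this)
    refine ⟨T₂, hT₂0, fun t ht => ?_⟩
    have hM' : ∀ j, hi j ≤ Function.update M₀ i (hi i) j := by
      intro j
      by_cases hj : j = i
      · subst hj; simp
      · rw [Function.update_of_ne hj]; exact hhiM₀ j
    have hstart : γ T₂ ∈ Icc m₀ (Function.update M₀ i (hi i)) := by
      refine ⟨(hstay T₂ hT₂0).1, le_update_iff_aux hT₂ (hstay T₂ hT₂0).2⟩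
    have := (net_box_invariant N hT hm₀pos hm₀lo hM' hγ hT₂0 hstart t ⟨ht, le_rfl⟩).2 i
    simpa using this
  obtain ⟨T₁, hT₁0, hT₁⟩ := hlow
  obtain ⟨T₂, hT₂0, hT₂⟩ := hupp
  exact ⟨max T₁ T₂, le_trans hT₁0 (le_max_left _ _), fun t ht =>
    ⟨hT₁ t (le_trans (le_max_left _ _) ht), hT₂ t (le_trans (le_max_right _ _) ht)⟩⟩

/-- **Source-dominated mass-action systems are permanent** on every positive stoichiometric
class. -/
theorem sourceDominated_permanentOn (N : MAS R ι) (hN : N.SourceDominated) (c : ι → ℝ)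
    (hc : ∀ i, 0 < c i) : N.PermanentOn (N.posClass c) := by
  obtain ⟨lo, hi, hT⟩ := exists_thresholds_all N hN
  have hbox : ∀ γ : ℝ → ι → ℝ, N.IsSol γ → (∀ i, 0 < γ 0 i) → ∀ t, 0 ≤ t → ∀ i,
      min (γ 0 i) (lo i) ≤ γ t i := by
    intro γ hγ hpos t ht i
    exact (net_box_invariant N hT (m := fun i => min (γ 0 i) (lo i))
      (M := fun i => max (γ 0 i) (hi i)) (fun i => lt_min (hpos i) (hT.lo_pos i))
      (fun i => min_le_right _ _) (fun i => le_max_right _ _) hγ le_rfl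
      ⟨fun i => min_le_left _ _, fun i => le_max_left _ _⟩ t ⟨ht, le_rfl⟩).1 i
  have hinv : ∀ γ : ℝ → ι → ℝ, γ 0 ∈ N.posClass c → N.IsSol γ →
      ∀ t, 0 ≤ t → γ t ∈ N.posClass c := by
    intro γ h0 hγ t ht
    refine ⟨fun i => lt_of_lt_of_le (lt_min (h0.1 i) (hT.lo_pos i)) (hbox γ hγ h0.1 t ht i), ?_⟩
    have h1 := sub_mem_stoich_of_isSol N hγ ht
    have h2 : γ t - c = (γ t - γ 0) + (γ 0 - c) := by abel
    rw [h2]
    exact Submodule.add_mem _ h1 h0.2
  refine ⟨fun x₀ hx₀ => exists_sol N hT x₀ hx₀.1, hinv, ?_⟩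
  refine ⟨Icc (fun i => min (c i) (lo i)) (fun i => max (c i) (hi i)) ∩
    {x | x - c ∈ N.stoich}, ?_, ?_, ?_⟩
  · apply isCompact_Icc.inter_right
    have hcl : IsClosed (N.stoich : Set (ι → ℝ)) := Submodule.closed_of_finiteDimensional _
    exact hcl.preimage (continuous_id.sub continuous_const)
  · rintro x ⟨hx1, hx2⟩
    exact ⟨fun i => lt_of_lt_of_le (lt_min (hc i) (hT.lo_pos i)) (hx1.1 i), hx2⟩
  · intro γ h0 hγ
    have hcoord : ∀ i, ∃ Ti : ℝ, 0 ≤ Ti ∧
        ∀ t, Ti ≤ t → min (c i) (lo i) ≤ γ t i ∧ γ t i ≤ max (c i) (hi i) := by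
      intro i
      rcases hT.sign i with hin | hact
      · refine ⟨0, le_rfl, fun t ht => ?_⟩
        have h1 : (γ t - γ 0) i = 0 :=
          stoich_apply_eq_zero N i hin (sub_mem_stoich_of_isSol N hγ ht)
        have h2 : (γ 0 - c) i = 0 := stoich_apply_eq_zero N i hin h0.2
        simp only [Pi.sub_apply] at h1 h2
        have h3 : γ t i = c i := by linarith
        rw [h3]
        exact ⟨min_le_left _ _, le_max_left _ _⟩
      · obtain ⟨Ti, hTi0, hTi⟩ := coord_absorb N hT hγ h0.1 i hact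
        exact ⟨Ti, hTi0, fun t ht => ⟨le_trans (min_le_right _ _) (hTi t ht).1,
          le_trans (hTi t ht).2 (le_max_right _ _)⟩⟩
    choose Ti hTi0 hTi using hcoord
    have hsum : ∀ i, Ti i ≤ ∑ j, Ti j := fun i =>
      Finset.single_le_sum (fun j _ => hTi0 j) (Finset.mem_univ i)
    refine ⟨∑ i, Ti i, fun t ht => ⟨⟨fun i => ?_, fun i => ?_⟩, ?_⟩⟩
    · exact (hTi i t (le_trans (hsum i) ht)).1
    · exact (hTi i t (le_trans (hsum i) ht)).2
    · exact (hinv γ h0 hγ t (le_trans (Finset.sum_nonneg (fun j _ => hTi0 j)) ht)).2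

end Vale.Agent.Lib.P072
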