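import Vale.Agent.Lib.P072.LineThresh
import Vale.Agent.Lib.P072.BoxOn
import Vale.Agent.Lib.P072.DomPermanent

/-!
# Permanence from coordinate thresholds valid within a stoichiometric class
-/

namespace Vale.Agent.Lib.P072

open Set Filter Topology Metric
open scoped NNReal

set_option linter.unusedSectionVars false

variable {R ι : Type} [Fintype R] [Fintype ι]

/-- Thresholds for all species at once, valid on the affine class `c + stoich`. -/
structure ClassThresholds (N : MAS R ι) (c lo hi : ι → ℝ) : Prop where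
  lo_pos : ∀ i, 0 < lo i
  lo_le : ∀ i, lo i ≤ c i
  le_hi : ∀ i, c i ≤ hi i
  sign : ∀ i, (∀ r, N.tgt r i = N.src r i) ∨
    ∀ x : ι → ℝ, (∀ j, 0 < x j) → x - c ∈ N.stoich →
      (x i ≤ lo i → 0 < N.field x i) ∧ (hi i ≤ x i → N.field x i < 0)

/-- Solutions on a bounded interval stay in their stoichiometric class. -/
lemma sub_mem_stoich_of_sol_Icc (N : MAS R ι) {γ : ℝ → ι → ℝ} {T : ℝ}
    (hγ : ∀ t ∈ Icc 0 T, HasDerivWithinAt γ (N.field (γ t)) (Icc 0 T) t) {t : ℝ}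
    (ht : t ∈ Icc 0 T) : γ t - γ 0 ∈ N.stoich := by
  rw [← Subspace.dualAnnihilator_dualCoannihilator_eq (W := N.stoich),
    Submodule.mem_dualCoannihilator]
  intro φ hφ
  rw [Submodule.mem_dualAnnihilator] at hφ
  have hcont : ContinuousOn (fun s => φ (γ s)) (Icc 0 t) := by
    have h1 : Continuous φ := LinearMap.continuous_of_finiteDimensional φ
    exact h1.comp_continuousOn
      (fun s hs => ((hγ s ⟨hs.1, le_trans hs.2 ht.2⟩).continuousWithinAt).mono
        (Icc_subset_Icc le_rfl ht.2))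
  have hderiv : ∀ s ∈ Ico 0 t, HasDerivWithinAt (fun s => φ (γ s)) 0 (Ici s) s := by
    intro s hs
    have hsT : s ∈ Icc 0 T := ⟨hs.1, le_trans hs.2.le ht.2⟩
    have hmem : Icc (0:ℝ) T ∈ 𝓝[Ici s] s :=
      mem_nhdsWithin.mpr ⟨Iio T, isOpen_Iio, lt_of_lt_of_le hs.2 ht.2,
        fun u hu => ⟨le_trans hs.1 hu.2, hu.1.le⟩⟩
    have h1 : HasDerivWithinAt γ (N.field (γ s)) (Ici s) s :=
      (hγ s hsT).mono_of_mem_nhdsWithin hmem
    have h2 := (LinearMap.toContinuousLinearMap φ).hasFDerivAt.comp_hasDerivWithinAt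
      (x := s) h1
    have h3 : (LinearMap.toContinuousLinearMap φ) (N.field (γ s)) = 0 :=
      hφ _ (field_mem_stoich N (γ s))
    rw [h3] at h2
    exact h2
  have := constant_of_has_deriv_right_zero hcont hderiv t ⟨ht.1, le_rfl⟩
  rw [map_sub, this, sub_self]

lemma class_mem_of_sub (N : MAS R ι) {c y z : ι → ℝ} (h1 : y - z ∈ N.stoich)
    (h2 : z - c ∈ N.stoich) : y - c ∈ N.stoich := by
  have h : y - c = (y - z) + (z - c) := by abel
  rw [h]
  exact Submodule.add_mem _ h1 h2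

/-- Boxes that are large enough are forward invariant for solutions in the class. -/
lemma class_box_invariant (N : MAS R ι) {c lo hi : ι → ℝ} (hT : ClassThresholds N c lo hi)
    {m M : ι → ℝ} (hm0 : ∀ i, 0 < m i) (hm : ∀ i, m i ≤ lo i) (hM : ∀ i, hi i ≤ M i)
    {γ : ℝ → ι → ℝ} (hγ : N.IsSol γ) (hγ0 : γ 0 - c ∈ N.stoich) {a b : ℝ} (ha : 0 ≤ a)
    (hγa : γ a ∈ Icc m M) : ∀ t ∈ Icc a b, γ t ∈ Icc m M := by
  apply box_invariant_on (f := N.field) (A := {x | x - c ∈ N.stoich})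
  · exact fun t ht => ((hγ t (le_trans ha ht.1)).continuousWithinAt).mono
      (fun s hs => mem_Ici.mpr (le_trans ha hs.1))
  · exact fun t ht => (hγ t (le_trans ha ht.1)).mono (Ici_subset_Ici.mpr (le_trans ha ht.1))
  · exact fun t ht =>
      class_mem_of_sub N (sub_mem_stoich_of_isSol N hγ (le_trans ha ht.1)) hγ0
  · intro i
    rcases hT.sign i with h | h
    · exact Or.inl (fun x _ => field_eq_zero_of_inert N i h x)
    · refine Or.inr (fun x hx hxA => ?_)
      have hxpos : ∀ j, 0 < x j := fun j => lt_of_lt_of_le (hm0 j) (hx.1 j)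
      exact ⟨fun h1 => (h x hxpos hxA).1 (by rw [h1]; exact hm i),
        fun h1 => (h x hxpos hxA).2 (by rw [h1]; exact hM i)⟩
  · exact hγa

/-- The same for solutions on a bounded interval `[0, T]`. -/
lemma class_box_invariant' (N : MAS R ι) {c lo hi : ι → ℝ} (hT : ClassThresholds N c lo hi)
    {m M : ι → ℝ} (hm0 : ∀ i, 0 < m i) (hm : ∀ i, m i ≤ lo i) (hM : ∀ i, hi i ≤ M i)
    {γ : ℝ → ι → ℝ} {T : ℝ}
    (hγ : ∀ t ∈ Icc 0 T, HasDerivWithinAt γ (N.field (γ t)) (Icc 0 T) t)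
    (hγ0c : γ 0 - c ∈ N.stoich)
    (hγ0 : γ 0 ∈ Icc m M) : ∀ t ∈ Icc 0 T, γ t ∈ Icc m M := by
  apply box_invariant_on (f := N.field) (A := {x | x - c ∈ N.stoich})
  · exact fun t ht => (hγ t ht).continuousWithinAt
  · intro t ht
    have hmem : Icc (0:ℝ) T ∈ 𝓝[Ici t] t :=
      mem_nhdsWithin.mpr ⟨Iio T, isOpen_Iio, ht.2, fun s hs => ⟨le_trans ht.1 hs.2, hs.1.le⟩⟩
    exact (hγ t ⟨ht.1, ht.2.le⟩).mono_of_mem_nhdsWithin hmem
  · exact fun t ht => class_mem_of_sub N (sub_mem_stoich_of_sol_Icc N hγ ht) hγ0c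
  · intro i
    rcases hT.sign i with h | h
    · exact Or.inl (fun x _ => field_eq_zero_of_inert N i h x)
    · refine Or.inr (fun x hx hxA => ?_)
      have hxpos : ∀ j, 0 < x j := fun j => lt_of_lt_of_le (hm0 j) (hx.1 j)
      exact ⟨fun h1 => (h x hxpos hxA).1 (by rw [h1]; exact hm i),
        fun h1 => (h x hxpos hxA).2 (by rw [h1]; exact hM i)⟩
  · exact hγ0

/-- Global existence of solutions from every positive point of the class. -/
lemma class_exists_sol (N : MAS R ι) {c lo hi : ι → ℝ} (hT : ClassThresholds N c lo hi)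
    (x₀ : ι → ℝ) (hx₀ : ∀ i, 0 < x₀ i) (hx₀c : x₀ - c ∈ N.stoich) :
    ∃ γ : ℝ → ι → ℝ, γ 0 = x₀ ∧ N.IsSol γ := by
  set m : ι → ℝ := fun i => min (x₀ i) (lo i) with hm
  set M : ι → ℝ := fun i => max (x₀ i) (hi i) with hM
  have hm0 : ∀ i, 0 < m i := fun i => lt_min (hx₀ i) (hT.lo_pos i)
  have hx₀mem : x₀ ∈ Icc m M := ⟨fun i => min_le_left _ _, fun i => le_max_left _ _⟩
  obtain ⟨K, L, hK, hL⟩ := exists_lipschitz_bound N (isCompact_Icc (a := m) (b := M))
  refine exists_global_solution hK hL ?_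
  intro T hT0 γ hγ0 hγ
  exact class_box_invariant' N hT hm0 (fun i => min_le_right _ _) (fun i => le_max_right _ _) hγ
    (by rw [hγ0]; exact hx₀c) (by rw [hγ0]; exact hx₀mem) T ⟨hT0, le_rfl⟩

lemma isClosed_class (N : MAS R ι) (c : ι → ℝ) : IsClosed {x : ι → ℝ | x - c ∈ N.stoich} := by
  have hcl : IsClosed (N.stoich : Set (ι → ℝ)) := Submodule.closed_of_finiteDimensional _
  exact hcl.preimage (continuous_id.sub continuous_const)

/-- Absorption of one coordinate that is changed by some reaction. -/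
lemma class_coord_absorb (N : MAS R ι) {c lo hi : ι → ℝ} (hT : ClassThresholds N c lo hi)
    {γ : ℝ → ι → ℝ} (hγ : N.IsSol γ) (hpos : ∀ i, 0 < γ 0 i) (hγ0 : γ 0 - c ∈ N.stoich)
    (i : ι)
    (hact : ∀ x : ι → ℝ, (∀ j, 0 < x j) → x - c ∈ N.stoich →
      (x i ≤ lo i → 0 < N.field x i) ∧ (hi i ≤ x i → N.field x i < 0)) :
    ∃ Ti : ℝ, 0 ≤ Ti ∧ ∀ t, Ti ≤ t → lo i ≤ γ t i ∧ γ t i ≤ hi i := by
  classical
  set A : Set (ι → ℝ) := {x | x - c ∈ N.stoich} with hA
  have hAcl : IsClosed A := isClosed_class N c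
  set m₀ : ι → ℝ := fun j => min (γ 0 j) (lo j) with hm₀
  set M₀ : ι → ℝ := fun j => max (γ 0 j) (hi j) with hM₀
  have hlohi : ∀ j, lo j ≤ hi j := fun j => le_trans (hT.lo_le j) (hT.le_hi j)
  have hm₀pos : ∀ j, 0 < m₀ j := fun j => lt_min (hpos j) (hT.lo_pos j)
  have hm₀lo : ∀ j, m₀ j ≤ lo j := fun j => min_le_right _ _
  have hhiM₀ : ∀ j, hi j ≤ M₀ j := fun j => le_max_right _ _
  have hm₀M₀ : ∀ j, m₀ j ≤ M₀ j := fun j => le_trans (min_le_left _ _) (le_max_left _ _)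
  have hinA : ∀ t, 0 ≤ t → γ t ∈ A := fun t ht =>
    class_mem_of_sub N (sub_mem_stoich_of_isSol N hγ ht) hγ0
  have hstay : ∀ t, 0 ≤ t → γ t ∈ Icc m₀ M₀ ∩ A := fun t ht =>
    ⟨class_box_invariant N hT hm₀pos hm₀lo hhiM₀ hγ hγ0 le_rfl
      ⟨fun j => min_le_left _ _, fun j => le_max_left _ _⟩ t ⟨ht, le_rfl⟩, hinA t ht⟩
  have hcontf : Continuous (fun x : ι → ℝ => N.field x i) :=
    (continuous_apply i).comp (contDiff_field N).continuous
  -- lower bound
  have hlow : ∃ T₁ : ℝ, 0 ≤ T₁ ∧ ∀ t, T₁ ≤ t → lo i ≤ γ t i := by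
    have hQc : IsCompact (Icc m₀ (Function.update M₀ i (lo i)) ∩ A) :=
      isCompact_Icc.inter_right hAcl
    have hδ : ∃ δ : ℝ, 0 < δ ∧ ∀ x ∈ Icc m₀ M₀ ∩ A, x i ≤ lo i → δ ≤ N.field x i := by
      have hsub : ∀ x ∈ Icc m₀ M₀ ∩ A, x i ≤ lo i →
          x ∈ Icc m₀ (Function.update M₀ i (lo i)) ∩ A := by
        intro x hx hxi
        refine ⟨⟨hx.1.1, fun j => ?_⟩, hx.2⟩
        by_cases hj : j = i
        · subst hj; simpa using hxi
        · rw [Function.update_of_ne hj]; exact hx.1.2 j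
      by_cases hQne : (Icc m₀ (Function.update M₀ i (lo i)) ∩ A).Nonempty
      · obtain ⟨xs, hxs, hmin⟩ := hQc.exists_isMinOn hQne hcontf.continuousOn
        have hxspos : ∀ j, 0 < xs j := fun j => lt_of_lt_of_le (hm₀pos j) (hxs.1.1 j)
        have hxsi : xs i ≤ lo i := by
          have := hxs.1.2 i
          simpa using this
        exact ⟨N.field xs i, (hact xs hxspos hxs.2).1 hxsi,
          fun x hx hxi => hmin (hsub x hx hxi)⟩
      · exact ⟨1, one_pos, fun x hx hxi => absurd ⟨x, hsub x hx hxi⟩ hQne⟩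
    obtain ⟨δ, hδpos, hδ⟩ := hδ
    obtain ⟨T₁, hT₁0, hT₁⟩ := exists_time_ge (f := N.field) (B := Icc m₀ M₀ ∩ A) (i := i)
      (lo := lo i) hδpos hγ hstay hδ
    refine ⟨T₁, hT₁0, fun t ht => ?_⟩
    have hm' : ∀ j, 0 < Function.update m₀ i (lo i) j := by
      intro j
      by_cases hj : j = i
      · subst hj; simpa using hT.lo_pos j
      · rw [Function.update_of_ne hj]; exact hm₀pos j
    have hm'lo : ∀ j, Function.update m₀ i (lo i) j ≤ lo j := by
      intro j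
      by_cases hj : j = i
      · subst hj; simp
      · rw [Function.update_of_ne hj]; exact hm₀lo j
    have hstart : γ T₁ ∈ Icc (Function.update m₀ i (lo i)) M₀ := by
      refine ⟨update_le_iff_aux hT₁ (hstay T₁ hT₁0).1.1, (hstay T₁ hT₁0).1.2⟩
    have := (class_box_invariant N hT hm' hm'lo hhiM₀ hγ hγ0 hT₁0 hstart t ⟨ht, le_rfl⟩).1 i
    simpa using this
  -- upper bound
  have hupp : ∃ T₂ : ℝ, 0 ≤ T₂ ∧ ∀ t, T₂ ≤ t → γ t i ≤ hi i := by
    have hQc : IsCompact (Icc (Function.update m₀ i (hi i)) M₀ ∩ A) :=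
      isCompact_Icc.inter_right hAcl
    have hδ : ∃ δ : ℝ, 0 < δ ∧ ∀ x ∈ Icc m₀ M₀ ∩ A, hi i ≤ x i → N.field x i ≤ -δ := by
      have hsub : ∀ x ∈ Icc m₀ M₀ ∩ A, hi i ≤ x i →
          x ∈ Icc (Function.update m₀ i (hi i)) M₀ ∩ A := by
        intro x hx hxi
        refine ⟨⟨fun j => ?_, hx.1.2⟩, hx.2⟩
        by_cases hj : j = i
        · subst hj; simpa using hxi
        · rw [Function.update_of_ne hj]; exact hx.1.1 j
      by_cases hQne : (Icc (Function.update m₀ i (hi i)) M₀ ∩ A).Nonempty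
      · obtain ⟨xs, hxs, hmax⟩ := hQc.exists_isMaxOn hQne hcontf.continuousOn
        have hxspos : ∀ j, 0 < xs j := by
          intro j
          refine lt_of_lt_of_le ?_ (hxs.1.1 j)
          by_cases hj : j = i
          · subst hj; simpa using lt_of_lt_of_le (hT.lo_pos j) (hlohi j)
          · rw [Function.update_of_ne hj]; exact hm₀pos j
        have hxsi : hi i ≤ xs i := by
          have := hxs.1.1 i
          simpa using this
        refine ⟨-N.field xs i, neg_pos.mpr ((hact xs hxspos hxs.2).2 hxsi),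
          fun x hx hxi => ?_⟩
        have := hmax (hsub x hx hxi)
        simp only [neg_neg]
        exact this
      · exact ⟨1, one_pos, fun x hx hxi => absurd ⟨x, hsub x hx hxi⟩ hQne⟩
    obtain ⟨δ, hδpos, hδ⟩ := hδ
    obtain ⟨T₂, hT₂0, hT₂⟩ := exists_time_le (f := N.field) (B := Icc m₀ M₀ ∩ A) (i := i)
      (hi := hi i) hδpos hγ hstay hδ
    refine ⟨T₂, hT₂0, fun t ht => ?_⟩
    have hM' : ∀ j, hi j ≤ Function.update M₀ i (hi i) j := by
      intro j
      by_cases hj : j = i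
      · subst hj; simp
      · rw [Function.update_of_ne hj]; exact hhiM₀ j
    have hstart : γ T₂ ∈ Icc m₀ (Function.update M₀ i (hi i)) := by
      refine ⟨(hstay T₂ hT₂0).1.1, le_update_iff_aux hT₂ (hstay T₂ hT₂0).1.2⟩
    have := (class_box_invariant N hT hm₀pos hm₀lo hM' hγ hγ0 hT₂0 hstart t ⟨ht, le_rfl⟩).2 i
    simpa using this
  obtain ⟨T₁, hT₁0, hT₁⟩ := hlow
  obtain ⟨T₂, hT₂0, hT₂⟩ := hupp
  exact ⟨max T₁ T₂, le_trans hT₁0 (le_max_left _ _), fun t ht =>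
    ⟨hT₁ t (le_trans (le_max_left _ _) ht), hT₂ t (le_trans (le_max_right _ _) ht)⟩⟩

/-- Permanence on the positive class of `c` from thresholds valid within the class. -/
theorem classThresholds_permanentOn (N : MAS R ι) (c : ι → ℝ) {lo hi : ι → ℝ}
    (hT : ClassThresholds N c lo hi) : N.PermanentOn (N.posClass c) := by
  have hbox : ∀ γ : ℝ → ι → ℝ, N.IsSol γ → γ 0 ∈ N.posClass c → ∀ t, 0 ≤ t → ∀ i,
      min (γ 0 i) (lo i) ≤ γ t i := by
    intro γ hγ h0 t ht i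
    exact (class_box_invariant N hT (m := fun i => min (γ 0 i) (lo i))
      (M := fun i => max (γ 0 i) (hi i)) (fun i => lt_min (h0.1 i) (hT.lo_pos i))
      (fun i => min_le_right _ _) (fun i => le_max_right _ _) hγ h0.2 le_rfl
      ⟨fun i => min_le_left _ _, fun i => le_max_left _ _⟩ t ⟨ht, le_rfl⟩).1 i
  have hinv : ∀ γ : ℝ → ι → ℝ, γ 0 ∈ N.posClass c → N.IsSol γ →
      ∀ t, 0 ≤ t → γ t ∈ N.posClass c := by
    intro γ h0 hγ t ht
    exact ⟨fun i => lt_of_lt_of_le (lt_min (h0.1 i) (hT.lo_pos i)) (hbox γ hγ h0 t ht i),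
      class_mem_of_sub N (sub_mem_stoich_of_isSol N hγ ht) h0.2⟩
  refine ⟨fun x₀ hx₀ => class_exists_sol N hT x₀ hx₀.1 hx₀.2, hinv, ?_⟩
  refine ⟨Icc lo hi ∩ {x | x - c ∈ N.stoich}, isCompact_Icc.inter_right (isClosed_class N c),
    ?_, ?_⟩
  · rintro x ⟨hx1, hx2⟩
    exact ⟨fun i => lt_of_lt_of_le (hT.lo_pos i) (hx1.1 i), hx2⟩
  · intro γ h0 hγ
    have hcoord : ∀ i, ∃ Ti : ℝ, 0 ≤ Ti ∧ ∀ t, Ti ≤ t → lo i ≤ γ t i ∧ γ t i ≤ hi i := by
      intro i
      rcases hT.sign i with hin | hact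
      · refine ⟨0, le_rfl, fun t ht => ?_⟩
        have h1 : (γ t - γ 0) i = 0 :=
          stoich_apply_eq_zero N i hin (sub_mem_stoich_of_isSol N hγ ht)
        have h2 : (γ 0 - c) i = 0 := stoich_apply_eq_zero N i hin h0.2
        simp only [Pi.sub_apply] at h1 h2
        have h3 : γ t i = c i := by linarith
        rw [h3]
        exact ⟨hT.lo_le i, hT.le_hi i⟩
      · exact class_coord_absorb N hT hγ h0.1 h0.2 i hact
    choose Ti hTi0 hTi using hcoord
    have hsum : ∀ i, Ti i ≤ ∑ j, Ti j := fun i =>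
      Finset.single_le_sum (fun j _ => hTi0 j) (Finset.mem_univ i)
    refine ⟨∑ i, Ti i, fun t ht => ⟨⟨fun i => ?_, fun i => ?_⟩, ?_⟩⟩
    · exact (hTi i t (le_trans (hsum i) ht)).1
    · exact (hTi i t (le_trans (hsum i) ht)).2
    · exact (hinv γ h0 hγ t (le_trans (Finset.sum_nonneg (fun j _ => hTi0 j)) ht)).2

end Vale.Agent.Lib.P072
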