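import Vale.Agent.Lib.P072.BalEntropy
import Vale.Agent.Lib.P072.BalPos
import Vale.Agent.Lib.P072.LinePermanent

/-!
# Boundedness from an entropy dissipation alternative
-/

namespace Vale.Agent.Lib.P072

open Set Filter Topology

set_option linter.unusedSectionVars false

variable {R ι : Type} [Fintype R] [Fintype ι]

/-- A priori bound: if outside a box inside the positive orthant the entropy-type function
strictly decreases along the vector field, then along solutions on `[0, T]` that start in the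
class it never exceeds the maximum of its initial value and its bound on the box, plus one. -/
lemma dissip_apriori (N : MAS R ι) (xs : ι → ℝ) (c : ι → ℝ) (δ B G₀ : ℝ)
    (h : ∀ x ∈ N.posClass c, (∀ i, δ ≤ x i ∧ x i ≤ B) ∨ N.dissip xs x < 0)
    (hG : ∀ x : ι → ℝ, (∀ i, δ ≤ x i ∧ x i ≤ B) → entropy xs x ≤ G₀)
    {γ : ℝ → ι → ℝ} {T : ℝ}
    (hγ : ∀ t ∈ Icc 0 T, HasDerivWithinAt γ (N.field (γ t)) (Icc 0 T) t)
    (h0 : γ 0 ∈ N.posClass c) :
    ∀ t ∈ Icc 0 T, γ t ∈ N.posClass c ∧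
      entropy xs (γ t) ≤ max (entropy xs (γ 0)) G₀ + 1 := by
  have hmem : ∀ t ∈ Icc 0 T, γ t ∈ N.posClass c := fun t ht =>
    ⟨sol_pos N hγ h0.1 t ht, class_mem_of_sub N (sub_mem_stoich_of_sol_Icc N hγ ht) h0.2⟩
  intro t ht
  refine ⟨hmem t ht, ?_⟩
  have hcont : ContinuousOn (fun τ => entropy xs (γ τ)) (Icc 0 T) := fun τ hτ =>
    (hasDerivWithinAt_entropy xs (hγ τ hτ) (hmem τ hτ).1).continuousWithinAt
  have hderiv : ∀ τ ∈ Ico 0 T,
      HasDerivWithinAt (fun τ => entropy xs (γ τ)) (N.dissip xs (γ τ)) (Ici τ) τ := by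
    intro τ hτ
    have hτ' : τ ∈ Icc 0 T := ⟨hτ.1, hτ.2.le⟩
    have hmemn : Icc (0:ℝ) T ∈ 𝓝[Ici τ] τ :=
      mem_nhdsWithin.mpr ⟨Iio T, isOpen_Iio, hτ.2, fun u hu => ⟨le_trans hτ.1 hu.2, hu.1.le⟩⟩
    exact (hasDerivWithinAt_entropy xs (hγ τ hτ') (hmem τ hτ').1).mono_of_mem_nhdsWithin hmemn
  refine image_le_of_deriv_right_lt_deriv_boundary' (f := fun τ => entropy xs (γ τ))
    (f' := fun τ => N.dissip xs (γ τ)) (B := fun _ => max (entropy xs (γ 0)) G₀ + 1)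
    (B' := fun _ => 0) hcont hderiv ?_ continuousOn_const
    (fun x _ => hasDerivWithinAt_const _ _ _) ?_ ht
  · have := le_max_left (entropy xs (γ 0)) G₀
    linarith
  · intro τ hτ heq
    have hτ' : τ ∈ Icc 0 T := ⟨hτ.1, hτ.2.le⟩
    rcases h (γ τ) (hmem τ hτ') with hbox | hneg
    · exfalso
      have h1 := hG (γ τ) hbox
      have h2 := le_max_right (entropy xs (γ 0)) G₀
      linarith
    · exact hneg

/-- Boundedness from the dissipation alternative. -/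
theorem boundedOn_of_dissip (N : MAS R ι) (xs : ι → ℝ) (hxs : ∀ i, 0 < xs i) (c : ι → ℝ)
    (δ B : ℝ) (hδ : 0 < δ)
    (h : ∀ x ∈ N.posClass c, (∀ i, δ ≤ x i ∧ x i ≤ B) ∨ N.dissip xs x < 0) :
    N.BoundedOn (N.posClass c) := by
  obtain ⟨G₀, hG⟩ := entropy_le_of_box xs δ B hδ
  have hrestr : ∀ (x : ℝ → ι → ℝ), N.IsSol x → ∀ T : ℝ,
      ∀ t ∈ Icc 0 T, HasDerivWithinAt x (N.field (x t)) (Icc 0 T) t :=
    fun x hx T t ht => (hx t ht.1).mono Icc_subset_Ici_self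
  refine ⟨?_, ?_, ?_⟩
  · intro x₀ hx₀
    obtain ⟨B', hB'⟩ := entropy_sublevel_bdd xs hxs (max (entropy xs x₀) G₀ + 1)
    obtain ⟨K, L, hK, hL⟩ := exists_lipschitz_bound N
      (isCompact_Icc (a := (0 : ι → ℝ)) (b := fun _ => B'))
    refine exists_global_solution hK hL ?_
    intro T hT0 γ hγ0 hγ
    have hap := dissip_apriori N xs c δ B G₀ h hG hγ (by rw [hγ0]; exact hx₀) T ⟨hT0, le_rfl⟩
    rw [hγ0] at hap
    exact ⟨fun i => (hap.1.1 i).le, fun i => hB' (γ T) hap.1.1 hap.2 i⟩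
  · intro x hx0 hx t ht
    exact (dissip_apriori N xs c δ B G₀ h hG (hrestr x hx t) hx0 t ⟨ht, le_rfl⟩).1
  · intro x hx0 hx
    obtain ⟨B', hB'⟩ := entropy_sublevel_bdd xs hxs (max (entropy xs (x 0)) G₀ + 1)
    refine ⟨B', fun t ht i => ?_⟩
    have hap := dissip_apriori N xs c δ B G₀ h hG (hrestr x hx t) hx0 t ⟨ht, le_rfl⟩
    exact hB' (x t) hap.1.1 hap.2 i

end Vale.Agent.Lib.P072
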