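import Vale.Agent.Lib.P072.BalSafe
import Vale.Agent.Lib.P072.LinePermanent

/-!
# Compactness: a uniform lower bound for the largest of finitely many monomials
-/

namespace Vale.Agent.Lib.P072

open Set

set_option linter.unusedSectionVars false

variable {R ι : Type} [Fintype R] [Fintype ι]

/-- The entropy-type function is continuous on the whole space (with `0 * log 0 = 0`). -/
lemma continuous_entropy (xs : ι → ℝ) : Continuous (entropy xs) := by
  have h : entropy xs
      = fun x : ι → ℝ => ∑ i, (x i * Real.log (x i) - x i * (Real.log (xs i) + 1)) := by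
    funext x
    unfold entropy
    refine Finset.sum_congr rfl ?_
    intro i _
    ring
  rw [h]
  refine continuous_finsetSum _ ?_
  intro i _
  have h1 : Continuous (fun x : ι → ℝ => x i * Real.log (x i)) :=
    Real.continuous_mul_log.comp (continuous_apply i)
  exact h1.sub ((continuous_apply i).mul continuous_const)

lemma isClosed_safeSet (xs : ι → ℝ) (ρ : ℝ) : IsClosed (safeSet xs ρ) := by
  have h : safeSet xs ρ
      = (⋃ i, {x : ι → ℝ | ρ ≤ x i}) ∪ {x : ι → ℝ | entropy xs x ≤ -(ρ / 2)} := by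
    ext x
    constructor
    · rintro (⟨i, hi⟩ | h)
      · exact Or.inl (mem_iUnion.mpr ⟨i, hi⟩)
      · exact Or.inr h
    · rintro (h | h)
      · obtain ⟨i, hi⟩ := mem_iUnion.mp h
        exact Or.inl ⟨i, hi⟩
      · exact Or.inr h
  rw [h]
  refine IsClosed.union ?_ ?_
  · refine isClosed_iUnion_of_finite ?_
    intro i
    exact isClosed_le continuous_const (continuous_apply i)
  · exact isClosed_le (continuous_entropy xs) continuous_const

lemma zero_notMem_safeSet (xs : ι → ℝ) {ρ : ℝ} (hρ : 0 < ρ) : (0 : ι → ℝ) ∉ safeSet xs ρ := by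
  rintro (⟨i, hi⟩ | h)
  · have hi' : ρ ≤ 0 := hi
    linarith
  · have h0 : entropy xs 0 = 0 := by simp [entropy]
    rw [h0] at h
    linarith

lemma isClosed_entropy_le (xs : ι → ℝ) (u : ℝ) : IsClosed {z : ι → ℝ | entropy xs z ≤ u} := by
  exact isClosed_le (continuous_entropy xs) continuous_const

/-- If finitely many monomials have no common zero among the nonzero nonnegative points of
`c + stoich`, then on the bounded part of a closed set `F` not containing the origin the
largest of them is bounded below by a positive constant. -/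
lemma exists_mono_lower_on (N : MAS R ι) {R' : Type} [Fintype R'] (y : R' → ι → ℕ)
    (c : ι → ℝ) (B' : ℝ) (F : Set (ι → ℝ)) (hF : IsClosed F) (h0 : (0 : ι → ℝ) ∉ F)
    (hz : ∀ z : ι → ℝ, (∀ i, 0 ≤ z i) → z - c ∈ N.stoich → z ≠ 0 → ∃ r, 0 < mono (y r) z) :
    ∃ θ : ℝ, 0 < θ ∧ ∀ z : ι → ℝ, (∀ i, 0 ≤ z i ∧ z i ≤ B') → z - c ∈ N.stoich → z ∈ F →
      ∃ r, θ ≤ mono (y r) z := by
  classical
  obtain ⟨Q, hQ⟩ : ∃ Q : Set (ι → ℝ),
      Q = Icc (0 : ι → ℝ) (fun _ => B') ∩ {z : ι → ℝ | z - c ∈ N.stoich} ∩ F := ⟨_, rfl⟩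
  have hQc : IsCompact Q := by
    rw [hQ]
    exact (isCompact_Icc.inter_right (isClosed_class N c)).inter_right hF
  have hmem : ∀ z : ι → ℝ, (∀ i, 0 ≤ z i ∧ z i ≤ B') → z - c ∈ N.stoich → z ∈ F → z ∈ Q := by
    intro z h1 h2 h3
    rw [hQ]
    exact ⟨⟨⟨fun i => (h1 i).1, fun i => (h1 i).2⟩, h2⟩, h3⟩
  have hQnn : ∀ z ∈ Q, ∀ i, 0 ≤ z i := by
    intro z hzQ i
    rw [hQ] at hzQ
    exact hzQ.1.1.1 i
  have hQst : ∀ z ∈ Q, z - c ∈ N.stoich := by
    intro z hzQ
    rw [hQ] at hzQ
    exact hzQ.1.2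
  have hQF : ∀ z ∈ Q, z ∈ F := by
    intro z hzQ
    rw [hQ] at hzQ
    exact hzQ.2
  have hmono_cont : ∀ r, Continuous (fun z : ι → ℝ => mono (y r) z) := by
    intro r
    unfold mono
    refine continuous_finsetProd _ ?_
    intro i _
    exact (continuous_apply i).pow _
  have hg : Continuous (fun z : ι → ℝ => ∑ r, mono (y r) z) :=
    continuous_finsetSum _ (fun r _ => hmono_cont r)
  have hnn : ∀ z ∈ Q, ∀ r, 0 ≤ mono (y r) z := by
    intro z hzQ r
    unfold mono
    refine Finset.prod_nonneg ?_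
    intro i _
    exact pow_nonneg (hQnn z hzQ i) _
  have hpos : ∀ z ∈ Q, 0 < ∑ r, mono (y r) z := by
    intro z hzQ
    have hz0 : z ≠ 0 := by
      rintro rfl
      exact h0 (hQF _ hzQ)
    obtain ⟨r, hr⟩ := hz z (hQnn z hzQ) (hQst z hzQ) hz0
    calc 0 < mono (y r) z := hr
      _ ≤ ∑ r, mono (y r) z :=
        Finset.single_le_sum (f := fun r => mono (y r) z) (fun r _ => hnn z hzQ r)
          (Finset.mem_univ r)
  rcases Q.eq_empty_or_nonempty with hemp | hne
  · refine ⟨1, one_pos, ?_⟩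
    intro z h1 h2 h3
    have hzQ : z ∈ Q := hmem z h1 h2 h3
    rw [hemp] at hzQ
    exact absurd hzQ (Set.notMem_empty z)
  · obtain ⟨z₀, hz₀Q, hmin⟩ := hQc.exists_isMinOn hne hg.continuousOn
    obtain ⟨m, hm⟩ : ∃ m : ℝ, m = ∑ r, mono (y r) z₀ := ⟨_, rfl⟩
    have hmpos : 0 < m := by
      rw [hm]
      exact hpos z₀ hz₀Q
    have hR' : Nonempty R' := by
      by_contra hcon
      rw [not_nonempty_iff] at hcon
      rw [hm] at hmpos
      simp at hmpos
    have hcard : (0 : ℝ) < Fintype.card R' := by exact_mod_cast Fintype.card_pos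
    refine ⟨m / Fintype.card R', div_pos hmpos hcard, ?_⟩
    intro z h1 h2 h3
    have hzQ : z ∈ Q := hmem z h1 h2 h3
    by_contra hcon
    push Not at hcon
    have hlt : ∑ r, mono (y r) z < ∑ _r : R', m / Fintype.card R' :=
      Finset.sum_lt_sum_of_nonempty Finset.univ_nonempty (fun r _ => hcon r)
    have hmul : (Fintype.card R' : ℝ) * (m / Fintype.card R') = m := by
      field_simp
    rw [Finset.sum_const, Finset.card_univ, nsmul_eq_mul, hmul] at hlt
    have hle : m ≤ ∑ r, mono (y r) z := by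
      rw [hm]
      exact isMinOn_iff.mp hmin z hzQ
    exact absurd hlt (not_lt.mpr hle)

end Vale.Agent.Lib.P072
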