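import Vale.Agent.Lib.P072.DefsDom
import Vale.Agent.Lib.P072.Cascade

/-!
# Sign of the mass-action vector field of a source-dominated system near the coordinate faces
-/

namespace Vale.Agent.Lib.P072

open Set

set_option linter.unusedSectionVars false

variable {R ι : Type} [Fintype R] [Fintype ι]

lemma field_apply (N : MAS R ι) (x : ι → ℝ) (i : ι) :
    N.field x i = ∑ r, N.rate r * mono (N.src r) x * N.vec r i := by
  simp [MAS.field, Finset.sum_apply]

lemma field_eq_zero_of_inert (N : MAS R ι) (i : ι) (h : ∀ r, N.tgt r i = N.src r i)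
    (x : ι → ℝ) : N.field x i = 0 := by
  rw [field_apply]
  apply Finset.sum_eq_zero
  intro r _
  simp [MAS.vec, h r]

lemma mono_eq_mul_pow (a b : ι → ℕ) (i : ι) (h : ∀ j, j ≠ i → a j = b j) (hle : a i ≤ b i)
    (x : ι → ℝ) : mono b x = mono a x * x i ^ (b i - a i) := by
  classical
  unfold mono
  rw [← Finset.mul_prod_erase Finset.univ (fun j => x j ^ b j) (Finset.mem_univ i),
    ← Finset.mul_prod_erase Finset.univ (fun j => x j ^ a j) (Finset.mem_univ i)]
  have h1 : ∏ j ∈ Finset.univ.erase i, x j ^ b j = ∏ j ∈ Finset.univ.erase i, x j ^ a j := by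
    apply Finset.prod_congr rfl
    intro j hj
    rw [h j (Finset.ne_of_mem_erase hj)]
  have h2 : x i ^ b i = x i ^ a i * x i ^ (b i - a i) := by
    rw [← pow_add, Nat.add_sub_cancel' hle]
  rw [h1, h2]
  ring

lemma mono_le_mul_of_le_one (a b : ι → ℕ) (i : ι) (h : ∀ j, j ≠ i → a j = b j) (hlt : a i < b i)
    (x : ι → ℝ) (hx : ∀ j, 0 < x j) (hxi : x i ≤ 1) : mono b x ≤ x i * mono a x := by
  rw [mono_eq_mul_pow a b i h hlt.le x, mul_comm (x i)]
  apply mul_le_mul_of_nonneg_left _ (mono_pos a x hx).le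
  have h1 : x i ^ (b i - a i) ≤ x i ^ 1 :=
    pow_le_pow_of_le_one (hx i).le hxi (by omega)
  simpa using h1

lemma mul_mono_le_of_one_le (a b : ι → ℕ) (i : ι) (h : ∀ j, j ≠ i → a j = b j) (hlt : a i < b i)
    (x : ι → ℝ) (hx : ∀ j, 0 < x j) (hxi : 1 ≤ x i) : x i * mono a x ≤ mono b x := by
  rw [mono_eq_mul_pow a b i h hlt.le x, mul_comm (x i)]
  apply mul_le_mul_of_nonneg_left _ (mono_pos a x hx).le
  exact le_self_pow₀ hxi (by omega)

/-- Near the face `x i = 0` the `i`-th component of the vector field is positive. -/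
lemma field_pos_of_le (N : MAS R ι) (hN : N.SourceDominated) (i : ι)
    (hi : ∃ r, N.tgt r i ≠ N.src r i) :
    ∃ lo : ℝ, 0 < lo ∧ lo ≤ 1 ∧
      ∀ x : ι → ℝ, (∀ j, 0 < x j) → x i ≤ lo → 0 < N.field x i := by
  classical
  have hdom : ∀ r, ∃ u, N.tgt r i < N.src r i →
      (N.src u i < N.tgt u i ∧ N.src u i < N.src r i ∧ ∀ j, j ≠ i → N.src u j = N.src r j) := by
    intro r
    by_cases h : N.tgt r i < N.src r i
    · obtain ⟨u, hu⟩ := (hN r i).1 h
      exact ⟨u, fun _ => hu⟩
    · exact ⟨r, fun h' => absurd h' h⟩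
  choose u hu using hdom
  let tC : R → ℝ := fun r =>
    if N.tgt r i < N.src r i then N.rate r * ((N.src r i : ℝ) - N.tgt r i) / N.rate (u r) else 0
  obtain ⟨C, hC⟩ : ∃ C : ℝ, C = ∑ r, tC r := ⟨_, rfl⟩
  have htC0 : ∀ r, 0 ≤ tC r := by
    intro r
    simp only [tC]
    split_ifs with h
    · apply div_nonneg (mul_nonneg (N.rate_pos r).le _) (N.rate_pos _).le
      have : (N.tgt r i : ℝ) < N.src r i := by exact_mod_cast h
      linarith
    · exact le_rfl
  have hC0 : 0 ≤ C := by
    rw [hC]
    exact Finset.sum_nonneg (fun r _ => htC0 r)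
  have hlo1 : 1 / (C + 1) ≤ 1 := by
    rw [div_le_one (by positivity)]
    linarith
  refine ⟨1 / (C + 1), by positivity, hlo1, ?_⟩
  intro x hx hxi
  have hz0 : 0 < x i := hx i
  have hz1 : x i ≤ 1 := le_trans hxi hlo1
  let tA : R → ℝ := fun r => if N.src r i < N.tgt r i then N.rate r * mono (N.src r) x else 0
  obtain ⟨A, hA⟩ : ∃ A : ℝ, A = ∑ r, tA r := ⟨_, rfl⟩
  have htA0 : ∀ r, 0 ≤ tA r := by
    intro r
    simp only [tA]
    split_ifs
    · exact (mul_pos (N.rate_pos r) (mono_pos _ x hx)).le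
    · exact le_rfl
  have hup : ∃ r, N.src r i < N.tgt r i := by
    obtain ⟨r, hr⟩ := hi
    rcases lt_or_gt_of_ne hr with h | h
    · exact ⟨u r, (hu r h).1⟩
    · exact ⟨r, h⟩
  have hApos : 0 < A := by
    obtain ⟨r, hr⟩ := hup
    rw [hA]
    apply Finset.sum_pos' (fun q _ => htA0 q)
    refine ⟨r, Finset.mem_univ r, ?_⟩
    simp only [tA, hr, if_true]
    exact mul_pos (N.rate_pos r) (mono_pos _ x hx)
  have hle_A : ∀ r, N.src r i < N.tgt r i → N.rate r * mono (N.src r) x ≤ A := by
    intro r hr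
    have h1 := Finset.single_le_sum (f := tA) (fun q _ => htA0 q) (Finset.mem_univ r)
    rw [← hA] at h1
    simpa [tA, hr] using h1
  have hbound : A - x i * A * C ≤ N.field x i := by
    have h1 : A - x i * A * C = ∑ r, (tA r - x i * A * tC r) := by
      rw [Finset.sum_sub_distrib, ← Finset.mul_sum, ← hA, ← hC]
    rw [h1, field_apply]
    apply Finset.sum_le_sum
    intro r _
    simp only [MAS.vec, tA, tC]
    have hm := mul_pos (N.rate_pos r) (mono_pos (N.src r) x hx)
    rcases lt_trichotomy (N.src r i) (N.tgt r i) with h | h | h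
    · have h' : ¬ N.tgt r i < N.src r i := by omega
      simp only [h, h', if_true, if_false, mul_zero, sub_zero]
      have h2 : (1:ℝ) ≤ (N.tgt r i : ℝ) - N.src r i := by
        have : (N.src r i : ℝ) + 1 ≤ N.tgt r i := by exact_mod_cast h
        linarith
      nlinarith
    · have h1 : ¬ N.src r i < N.tgt r i := by omega
      have h2 : ¬ N.tgt r i < N.src r i := by omega
      simp [h1, h2, h]
    · have h' : ¬ N.src r i < N.tgt r i := by omega
      simp only [h, h', if_true, if_false, zero_sub]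
      obtain ⟨hu1, hu2, hu3⟩ := hu r h
      have hmo : mono (N.src r) x ≤ x i * mono (N.src (u r)) x :=
        mono_le_mul_of_le_one _ _ i hu3 hu2 x hx hz1
      have hA' := hle_A (u r) hu1
      have hD : (0:ℝ) < (N.src r i : ℝ) - N.tgt r i := by
        have : (N.tgt r i : ℝ) < N.src r i := by exact_mod_cast h
        linarith
      have hru := N.rate_pos (u r)
      have hr := N.rate_pos r
      have h1 : mono (N.src r) x ≤ x i * (A / N.rate (u r)) := by
        refine le_trans hmo (mul_le_mul_of_nonneg_left ?_ hz0.le)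
        rw [le_div_iff₀ hru]
        linarith
      have key : N.rate r * mono (N.src r) x * ((N.src r i : ℝ) - N.tgt r i) ≤
          x i * A * (N.rate r * ((N.src r i : ℝ) - N.tgt r i) / N.rate (u r)) := by
        have h2 : N.rate r * mono (N.src r) x * ((N.src r i : ℝ) - N.tgt r i) ≤
            N.rate r * (x i * (A / N.rate (u r))) * ((N.src r i : ℝ) - N.tgt r i) :=
          mul_le_mul_of_nonneg_right (mul_le_mul_of_nonneg_left h1 hr.le) hD.le
        have h3 : N.rate r * (x i * (A / N.rate (u r))) * ((N.src r i : ℝ) - N.tgt r i) =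
            x i * A * (N.rate r * ((N.src r i : ℝ) - N.tgt r i) / N.rate (u r)) := by ring
        linarith
      linarith
  have hzC : x i * C < 1 := by
    have h1 : x i * C ≤ (1 / (C + 1)) * C := mul_le_mul_of_nonneg_right hxi hC0
    have h2 : (1 / (C + 1)) * C < 1 := by
      rw [one_div, inv_mul_lt_iff₀ (by positivity)]
      linarith
    linarith
  have hfin : 0 < A - x i * A * C := by
    have h1 : A - x i * A * C = A * (1 - x i * C) := by ring
    rw [h1]
    exact mul_pos hApos (by linarith)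
  linarith

/-- Far from the face `x i = 0` the `i`-th component of the vector field is negative. -/
lemma field_neg_of_ge (N : MAS R ι) (hN : N.SourceDominated) (i : ι)
    (hi : ∃ r, N.tgt r i ≠ N.src r i) :
    ∃ hi' : ℝ, 1 ≤ hi' ∧
      ∀ x : ι → ℝ, (∀ j, 0 < x j) → hi' ≤ x i → N.field x i < 0 := by
  classical
  have hdom : ∀ r, ∃ d, N.src r i < N.tgt r i →
      (N.tgt d i < N.src d i ∧ N.src r i < N.src d i ∧ ∀ j, j ≠ i → N.src d j = N.src r j) := by
    intro r
    by_cases h : N.src r i < N.tgt r i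
    · obtain ⟨d, hd⟩ := (hN r i).2 h
      exact ⟨d, fun _ => hd⟩
    · exact ⟨r, fun h' => absurd h' h⟩
  choose d hd using hdom
  let tC : R → ℝ := fun r =>
    if N.src r i < N.tgt r i then N.rate r * ((N.tgt r i : ℝ) - N.src r i) / N.rate (d r) else 0
  obtain ⟨C, hC⟩ : ∃ C : ℝ, C = ∑ r, tC r := ⟨_, rfl⟩
  have htC0 : ∀ r, 0 ≤ tC r := by
    intro r
    simp only [tC]
    split_ifs with h
    · apply div_nonneg (mul_nonneg (N.rate_pos r).le _) (N.rate_pos _).le
      have : (N.src r i : ℝ) < N.tgt r i := by exact_mod_cast h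
      linarith
    · exact le_rfl
  have hC0 : 0 ≤ C := by
    rw [hC]
    exact Finset.sum_nonneg (fun r _ => htC0 r)
  refine ⟨C + 1, by linarith, ?_⟩
  intro x hx hxi
  have hz1 : 1 ≤ x i := by linarith
  have hz0 : 0 < x i := hx i
  let tB : R → ℝ := fun r => if N.tgt r i < N.src r i then N.rate r * mono (N.src r) x else 0
  obtain ⟨B, hB⟩ : ∃ B : ℝ, B = ∑ r, tB r := ⟨_, rfl⟩
  have htB0 : ∀ r, 0 ≤ tB r := by
    intro r
    simp only [tB]
    split_ifs
    · exact (mul_pos (N.rate_pos r) (mono_pos _ x hx)).le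
    · exact le_rfl
  have hdown : ∃ r, N.tgt r i < N.src r i := by
    obtain ⟨r, hr⟩ := hi
    rcases lt_or_gt_of_ne hr with h | h
    · exact ⟨r, h⟩
    · exact ⟨d r, (hd r h).1⟩
  have hBpos : 0 < B := by
    obtain ⟨r, hr⟩ := hdown
    rw [hB]
    apply Finset.sum_pos' (fun q _ => htB0 q)
    refine ⟨r, Finset.mem_univ r, ?_⟩
    simp only [tB, hr, if_true]
    exact mul_pos (N.rate_pos r) (mono_pos _ x hx)
  have hle_B : ∀ r, N.tgt r i < N.src r i → N.rate r * mono (N.src r) x ≤ B := by
    intro r hr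
    have h1 := Finset.single_le_sum (f := tB) (fun q _ => htB0 q) (Finset.mem_univ r)
    rw [← hB] at h1
    simpa [tB, hr] using h1
  have hbound : N.field x i ≤ B / x i * C - B := by
    have h1 : B / x i * C - B = ∑ r, (B / x i * tC r - tB r) := by
      rw [Finset.sum_sub_distrib, ← Finset.mul_sum, ← hB, ← hC]
    rw [h1, field_apply]
    apply Finset.sum_le_sum
    intro r _
    simp only [MAS.vec, tB, tC]
    have hm := mul_pos (N.rate_pos r) (mono_pos (N.src r) x hx)
    rcases lt_trichotomy (N.src r i) (N.tgt r i) with h | h | h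
    · have h' : ¬ N.tgt r i < N.src r i := by omega
      simp only [h, h', if_true, if_false, sub_zero]
      obtain ⟨hd1, hd2, hd3⟩ := hd r h
      have hmo : x i * mono (N.src r) x ≤ mono (N.src (d r)) x :=
        mul_mono_le_of_one_le _ _ i (fun j hj => (hd3 j hj).symm) hd2 x hx hz1
      have hB' := hle_B (d r) hd1
      have hD : (0:ℝ) < (N.tgt r i : ℝ) - N.src r i := by
        have : (N.src r i : ℝ) < N.tgt r i := by exact_mod_cast h
        linarith
      have hrd := N.rate_pos (d r)
      have hr := N.rate_pos r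
      have h1 : mono (N.src r) x ≤ B / x i / N.rate (d r) := by
        rw [le_div_iff₀ hrd, le_div_iff₀ hz0]
        nlinarith
      have h2 : N.rate r * mono (N.src r) x * ((N.tgt r i : ℝ) - N.src r i) ≤
          N.rate r * (B / x i / N.rate (d r)) * ((N.tgt r i : ℝ) - N.src r i) :=
        mul_le_mul_of_nonneg_right (mul_le_mul_of_nonneg_left h1 hr.le) hD.le
      have h3 : N.rate r * (B / x i / N.rate (d r)) * ((N.tgt r i : ℝ) - N.src r i) =
          B / x i * (N.rate r * ((N.tgt r i : ℝ) - N.src r i) / N.rate (d r)) := by ring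
      linarith
    · have h1 : ¬ N.src r i < N.tgt r i := by omega
      have h2 : ¬ N.tgt r i < N.src r i := by omega
      simp [h1, h2, h]
    · have h' : ¬ N.src r i < N.tgt r i := by omega
      simp only [h, h', if_true, if_false, mul_zero, zero_sub]
      have h2 : (N.tgt r i : ℝ) - N.src r i ≤ -1 := by
        have : (N.tgt r i : ℝ) + 1 ≤ N.src r i := by exact_mod_cast h
        linarith
      nlinarith
  have hfin : B / x i * C - B < 0 := by
    have h1 : B / x i * C - B = B * (C / x i - 1) := by ring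
    rw [h1]
    have h2 : C / x i < 1 := by
      rw [div_lt_one hz0]
      linarith
    nlinarith
  linarith

/-- Thresholds for a species that is changed by some reaction. -/
theorem exists_thresholds (N : MAS R ι) (hN : N.SourceDominated) (i : ι)
    (hi : ∃ r, N.tgt r i ≠ N.src r i) :
    ∃ lo hi' : ℝ, 0 < lo ∧ lo ≤ hi' ∧ ∀ x : ι → ℝ, (∀ j, 0 < x j) →
      (x i ≤ lo → 0 < N.field x i) ∧ (hi' ≤ x i → N.field x i < 0) := by
  obtain ⟨lo, hlo0, hlo1, hlo⟩ := field_pos_of_le N hN i hi
  obtain ⟨hi', hhi1, hhi⟩ := field_neg_of_ge N hN i hi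
  exact ⟨lo, hi', hlo0, le_trans hlo1 hhi1, fun x hx => ⟨hlo x hx, hhi x hx⟩⟩

end Vale.Agent.Lib.P072
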