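import Vale.Agent.Lib.P072.DefsLine
import Vale.Agent.Lib.P072.Sign

/-!
# Sign of the mass-action vector field for linkage classes on lines
-/

namespace Vale.Agent.Lib.P072

open Set

set_option linter.unusedSectionVars false

variable {R ι : Type} [Fintype R] [Fintype ι]

/-- The logarithmic coordinate `∑ i, v i * log (x i)` attached to a direction `v`. -/
noncomputable def logCoord (v : ι → ℝ) (x : ι → ℝ) : ℝ := ∑ i, v i * Real.log (x i)

lemma mono_eq_exp (a : ι → ℕ) (x : ι → ℝ) (hx : ∀ i, 0 < x i) :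
    mono a x = Real.exp (∑ i, (a i : ℝ) * Real.log (x i)) := by
  unfold mono
  rw [Real.exp_sum]
  apply Finset.prod_congr rfl
  intro i _
  rw [Real.exp_nat_mul, Real.exp_log (hx i)]

lemma mono_eq_mul_exp (a b : ι → ℕ) (v : ι → ℝ) (μ : ℝ)
    (h : ∀ i, (a i : ℝ) - (b i : ℝ) = μ * v i) (x : ι → ℝ) (hx : ∀ i, 0 < x i) :
    mono a x = mono b x * Real.exp (μ * logCoord v x) := by
  rw [mono_eq_exp a x hx, mono_eq_exp b x hx, ← Real.exp_add]
  congr 1
  unfold logCoord
  rw [Finset.mul_sum, ← Finset.sum_add_distrib]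
  apply Finset.sum_congr rfl
  intro i _
  have := h i
  linear_combination (Real.log (x i)) * this

/-- Path crossing on a line: a path of reactions that starts at a negative position on the line
`base + ℝ v` and ends at a nonnegative position contains a reaction with positive coefficient
whose source is at a negative position. -/
lemma line_crossing (N : MAS R ι) (dir : (ι → ℕ) → (ι → ℝ)) (lam : R → ℝ)
    (hdir : ∀ q, dir (N.src q) = dir (N.tgt q))
    (hlam : ∀ q, N.vec q = lam q • dir (N.src q))
    (v base : ι → ℝ) {a b : ι → ℕ}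
    (hab : Relation.TransGen (fun a b => ∃ q, N.src q = a ∧ N.tgt q = b) a b)
    (hva : dir a = v) (pa : ℝ) (hpa : pa < 0) (ha : ∀ i, (a i : ℝ) = base i + pa * v i) :
    dir b = v ∧ ∃ pb : ℝ, (∀ i, (b i : ℝ) = base i + pb * v i) ∧
      (0 ≤ pb → ∃ u, dir (N.src u) = v ∧ 0 < lam u ∧
        ∃ p : ℝ, p < 0 ∧ ∀ i, (N.src u i : ℝ) = base i + p * v i) := by
  induction hab with
  | single hab =>
    obtain ⟨q, rfl, rfl⟩ := hab
    have hq : ∀ i, (N.tgt q i : ℝ) = base i + (pa + lam q) * v i := by
      intro i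
      have h1 := congrFun (hlam q) i
      simp only [MAS.vec, Pi.smul_apply, smul_eq_mul, hva] at h1
      have h2 := ha i
      linear_combination h1 + h2
    exact ⟨(hdir q).symm.trans hva, pa + lam q, hq,
      fun hpb => ⟨q, hva, by linarith, pa, hpa, ha⟩⟩
  | tail hab hbc ih =>
    obtain ⟨q, rfl, rfl⟩ := hbc
    obtain ⟨ih1, pc, ih2, ih3⟩ := ih
    have hq : ∀ i, (N.tgt q i : ℝ) = base i + (pc + lam q) * v i := by
      intro i
      have h1 := congrFun (hlam q) i
      simp only [MAS.vec, Pi.smul_apply, smul_eq_mul, ih1] at h1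
      have h2 := ih2 i
      linear_combination h1 + h2
    refine ⟨(hdir q).symm.trans ih1, pc + lam q, hq, fun hpb => ?_⟩
    by_cases hpc : 0 ≤ pc
    · exact ih3 hpc
    · exact ⟨q, ih1, by linarith, pc, not_le.mp hpc, ih2⟩

lemma vec_ne_zero (N : MAS R ι) (r : R) : ∃ i, N.vec r i ≠ 0 := by
  by_contra hcon
  push Not at hcon
  apply N.src_ne_tgt r
  funext i
  have := hcon i
  simp only [MAS.vec] at this
  have h2 : (N.tgt r i : ℝ) = N.src r i := by linarith
  exact_mod_cast h2.symm

/-- In a weakly reversible system with linkage classes on lines, every reaction with negative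
coefficient is dominated by a reaction of the same direction with positive coefficient whose
source lies strictly below on the line. -/
lemma exists_dominating (N : MAS R ι) (hwr : N.WeaklyReversible)
    (dir : (ι → ℕ) → (ι → ℝ)) (lam : R → ℝ)
    (hdir : ∀ q, dir (N.src q) = dir (N.tgt q))
    (hlam : ∀ q, N.vec q = lam q • dir (N.src q)) (r : R) (hr : lam r < 0) :
    ∃ u, dir (N.src u) = dir (N.src r) ∧ 0 < lam u ∧ ∃ μ : ℝ, 0 < μ ∧
      ∀ i, (N.src r i : ℝ) - (N.src u i : ℝ) = μ * dir (N.src r) i := by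
  have hvec := hlam r
  obtain ⟨i₀, hi₀⟩ := vec_ne_zero N r
  have hvi₀ : dir (N.src r) i₀ ≠ 0 := by
    intro h0
    apply hi₀
    rw [hvec]
    simp [h0]
  obtain ⟨-, pb, h2, h3⟩ := line_crossing N dir lam hdir hlam (dir (N.src r))
    (fun i => (N.src r i : ℝ)) (hwr r) ((hdir r).symm) (lam r) hr (by
      intro i
      have := congrFun hvec i
      simp only [MAS.vec, Pi.smul_apply, smul_eq_mul] at this
      linarith)
  have hpb : pb = 0 := by
    have := h2 i₀
    have h4 : pb * dir (N.src r) i₀ = 0 := by linarith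
    rcases mul_eq_zero.mp h4 with h | h
    · exact h
    · exact absurd h hvi₀
  obtain ⟨u, hu1, hu2, p, hp, hu3⟩ := h3 (by rw [hpb])
  refine ⟨u, hu1, hu2, -p, by linarith, fun i => ?_⟩
  have := hu3 i
  linear_combination -this

open Classical in
/-- The scalar speed of the system along the direction `v`: the sum of
`rate q * lam q * x ^ (src q)` over the reactions `q` of direction `v`. -/
noncomputable def lineSpeed (N : MAS R ι) (dir : (ι → ℕ) → (ι → ℝ)) (lam : R → ℝ)
    (v : ι → ℝ) (x : ι → ℝ) : ℝ :=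
  ∑ q, if dir (N.src q) = v then N.rate q * lam q * mono (N.src q) x else 0

lemma lam_ne_zero (N : MAS R ι) (dir : (ι → ℕ) → (ι → ℝ)) (lam : R → ℝ)
    (hlam : ∀ q, N.vec q = lam q • dir (N.src q)) (r : R) : lam r ≠ 0 := by
  intro h0
  obtain ⟨i₀, hi₀⟩ := vec_ne_zero N r
  apply hi₀
  rw [hlam r, h0]
  simp

/-- The speed along `v` is positive when the logarithmic coordinate is very negative. -/
lemma lineSpeed_pos (N : MAS R ι) (hwr : N.WeaklyReversible)
    (dir : (ι → ℕ) → (ι → ℝ)) (lam : R → ℝ)
    (hdir : ∀ q, dir (N.src q) = dir (N.tgt q))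
    (hlam : ∀ q, N.vec q = lam q • dir (N.src q)) (v : ι → ℝ)
    (hv : ∃ r, dir (N.src r) = v) :
    ∃ M : ℝ, ∀ x : ι → ℝ, (∀ i, 0 < x i) → logCoord v x ≤ -M →
      0 < lineSpeed N dir lam v x := by
  classical
  have hcard : (0:ℝ) < Fintype.card R + 1 := by positivity
  have hdom : ∀ r, ∃ (u : R) (Mr : ℝ), dir (N.src r) = v → lam r < 0 →
      (dir (N.src u) = v ∧ 0 < lam u ∧ ∀ x : ι → ℝ, (∀ i, 0 < x i) → logCoord v x ≤ -Mr →
        N.rate r * (-lam r) * mono (N.src r) x * (Fintype.card R + 1)
          ≤ N.rate u * lam u * mono (N.src u) x) := by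
    intro r
    by_cases hr : dir (N.src r) = v ∧ lam r < 0
    · obtain ⟨u, hu1, hu2, μ, hμ, hu3⟩ := exists_dominating N hwr dir lam hdir hlam r hr.2
      have hc : 0 < N.rate r * (-lam r) * (Fintype.card R + 1 : ℝ) :=
        mul_pos (mul_pos (N.rate_pos r) (neg_pos.mpr hr.2)) hcard
      set ε : ℝ := N.rate u * lam u / (N.rate r * (-lam r) * (Fintype.card R + 1)) with hε
      have hεpos : 0 < ε := div_pos (mul_pos (N.rate_pos u) hu2) hc
      refine ⟨u, -Real.log ε / μ, fun _ _ => ⟨hu1.trans hr.1, hu2, fun x hx hL => ?_⟩⟩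
      rw [hr.1] at hu3
      rw [mono_eq_mul_exp (N.src r) (N.src u) v μ hu3 x hx]
      have hexp : Real.exp (μ * logCoord v x) ≤ ε := by
        have h0 : μ * logCoord v x ≤ Real.log ε := by
          have h1 : μ * logCoord v x ≤ μ * (-(-Real.log ε / μ)) :=
            mul_le_mul_of_nonneg_left hL hμ.le
          have h2 : μ * (-(-Real.log ε / μ)) = Real.log ε := by field_simp
          linarith
        calc Real.exp (μ * logCoord v x) ≤ Real.exp (Real.log ε) := Real.exp_le_exp.mpr h0
          _ = ε := Real.exp_log hεpos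
      have hmu : 0 < mono (N.src u) x := mono_pos _ x hx
      calc N.rate r * (-lam r) * (mono (N.src u) x * Real.exp (μ * logCoord v x))
            * (Fintype.card R + 1)
          = (N.rate r * (-lam r) * (Fintype.card R + 1) * mono (N.src u) x)
            * Real.exp (μ * logCoord v x) := by ring
        _ ≤ (N.rate r * (-lam r) * (Fintype.card R + 1) * mono (N.src u) x) * ε :=
            mul_le_mul_of_nonneg_left hexp (mul_pos hc hmu).le
        _ = N.rate u * lam u * mono (N.src u) x := by
            have hr1 : N.rate r ≠ 0 := (N.rate_pos r).ne'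
            have hr2 : lam r ≠ 0 := hr.2.ne
            rw [hε]
            field_simp
    · exact ⟨r, 0, fun h1 h2 => absurd ⟨h1, h2⟩ hr⟩
  choose u Mr hu using hdom
  refine ⟨∑ r, |Mr r|, fun x hx hL => ?_⟩
  set pos : R → ℝ := fun q =>
    if dir (N.src q) = v ∧ 0 < lam q then N.rate q * lam q * mono (N.src q) x else 0 with hpos
  have hpos0 : ∀ q, 0 ≤ pos q := by
    intro q
    simp only [hpos]
    split_ifs with h
    · exact (mul_pos (mul_pos (N.rate_pos q) h.2) (mono_pos _ x hx)).le
    · exact le_rfl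
  set P : ℝ := ∑ q, pos q with hP
  have hP0 : 0 ≤ P := Finset.sum_nonneg (fun q _ => hpos0 q)
  have hPterm : ∀ q, dir (N.src q) = v → 0 < lam q →
      N.rate q * lam q * mono (N.src q) x ≤ P := by
    intro q h1 h2
    have h3 := Finset.single_le_sum (f := pos) (fun q _ => hpos0 q) (Finset.mem_univ q)
    simp only [hpos] at h3
    rw [if_pos ⟨h1, h2⟩] at h3
    exact h3
  have hMr : ∀ r, logCoord v x ≤ -Mr r := by
    intro r
    have h1 : Mr r ≤ ∑ q, |Mr q| :=
      le_trans (le_abs_self _)
        (Finset.single_le_sum (f := fun q => |Mr q|) (fun q _ => abs_nonneg _)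
          (Finset.mem_univ r))
    linarith
  have hdiv0 : 0 ≤ P / (Fintype.card R + 1) := div_nonneg hP0 hcard.le
  have hterm : ∀ q, pos q - P / (Fintype.card R + 1)
      ≤ (if dir (N.src q) = v then N.rate q * lam q * mono (N.src q) x else 0) := by
    intro q
    by_cases h1 : dir (N.src q) = v
    · rcases lt_trichotomy (lam q) 0 with h2 | h2 | h2
      · obtain ⟨hu1, hu2, hu3⟩ := hu q h1 h2
        have h3 := hu3 x hx (hMr q)
        have h4 := hPterm (u q) hu1 hu2
        have h5 : N.rate q * (-lam q) * mono (N.src q) x ≤ P / (Fintype.card R + 1) := by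
          rw [le_div_iff₀ hcard]
          linarith
        simp only [hpos]
        rw [if_neg (fun h => absurd h.2 (not_lt.mpr h2.le)), if_pos h1]
        linarith
      · simp only [hpos]
        rw [if_neg (fun h => absurd h.2 (by rw [h2]; exact lt_irrefl 0)), if_pos h1, h2]
        simp only [mul_zero, zero_mul, zero_sub]
        linarith
      · simp only [hpos]
        rw [if_pos ⟨h1, h2⟩, if_pos h1]
        linarith
    · simp only [hpos]
      rw [if_neg (fun h => h1 h.1), if_neg h1]
      linarith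
  have hsum : P - Fintype.card R * (P / (Fintype.card R + 1)) ≤ lineSpeed N dir lam v x := by
    unfold lineSpeed
    calc P - Fintype.card R * (P / (Fintype.card R + 1))
        = ∑ q, (pos q - P / (Fintype.card R + 1)) := by
          rw [Finset.sum_sub_distrib, Finset.sum_const, Finset.card_univ, nsmul_eq_mul]
      _ ≤ _ := Finset.sum_le_sum (fun q _ => hterm q)
  have hPpos : 0 < P := by
    obtain ⟨r0, hr0⟩ := hv
    rcases lt_or_gt_of_ne (lam_ne_zero N dir lam hlam r0) with h | h
    · obtain ⟨hu1, hu2, -⟩ := hu r0 hr0 h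
      exact lt_of_lt_of_le (mul_pos (mul_pos (N.rate_pos _) hu2) (mono_pos _ x hx))
        (hPterm (u r0) hu1 hu2)
    · exact lt_of_lt_of_le (mul_pos (mul_pos (N.rate_pos _) h) (mono_pos _ x hx))
        (hPterm r0 hr0 h)
  have heq : P - Fintype.card R * (P / (Fintype.card R + 1)) = P / (Fintype.card R + 1) := by
    field_simp
    ring
  rw [heq] at hsum
  exact lt_of_lt_of_le (div_pos hPpos hcard) hsum

lemma logCoord_neg (v x : ι → ℝ) : logCoord (-v) x = -logCoord v x := by
  unfold logCoord
  rw [← Finset.sum_neg_distrib]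
  apply Finset.sum_congr rfl
  intro i _
  simp

/-- The speed along `v` is negative when the logarithmic coordinate is very positive. -/
lemma lineSpeed_neg (N : MAS R ι) (hwr : N.WeaklyReversible)
    (dir : (ι → ℕ) → (ι → ℝ)) (lam : R → ℝ)
    (hdir : ∀ q, dir (N.src q) = dir (N.tgt q))
    (hlam : ∀ q, N.vec q = lam q • dir (N.src q)) (v : ι → ℝ)
    (hv : ∃ r, dir (N.src r) = v) :
    ∃ M : ℝ, ∀ x : ι → ℝ, (∀ i, 0 < x i) → M ≤ logCoord v x →
      lineSpeed N dir lam v x < 0 := by
  classical
  obtain ⟨M, hM⟩ := lineSpeed_pos N hwr (fun y => -dir y) (fun q => -lam q)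
    (fun q => by simp only [hdir q])
    (fun q => by rw [neg_smul_neg]; exact hlam q) (-v)
    (by obtain ⟨r, hr⟩ := hv; exact ⟨r, by simp only [hr]⟩)
  refine ⟨M, fun x hx hL => ?_⟩
  have h1 := hM x hx (by rw [logCoord_neg]; linarith)
  have h2 : lineSpeed N (fun y => -dir y) (fun q => -lam q) (-v) x
      = -lineSpeed N dir lam v x := by
    unfold lineSpeed
    rw [← Finset.sum_neg_distrib]
    apply Finset.sum_congr rfl
    intro q _
    by_cases h : dir (N.src q) = v
    · rw [if_pos (show -dir (N.src q) = -v by rw [h]), if_pos h]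
      ring
    · rw [if_neg (fun h' => h (neg_injective h')), if_neg h]
      simp
  rw [h2] at h1
  linarith

end Vale.Agent.Lib.P072
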