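import Vale.Agent.Lib.P072.BalBasic
import Vale.Agent.Lib.P072.LineSign

/-!
# The dissipation of the entropy-type function as a sum over reactions
-/

namespace Vale.Agent.Lib.P072

set_option linter.unusedSectionVars false

variable {R ι : Type} [Fintype R] [Fintype ι]

lemma mono_eq_mul_exp_cw (xs x : ι → ℝ) (hxs : ∀ i, 0 < xs i) (hx : ∀ i, 0 < x i) (y : ι → ℕ) :
    mono y x = mono y xs * Real.exp (cw xs x y) := by
  rw [mono_eq_exp y x hx, mono_eq_exp y xs hxs, ← Real.exp_add]
  congr 1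
  unfold cw
  rw [← Finset.sum_add_distrib]
  exact Finset.sum_congr rfl (fun i _ => by ring)

lemma cw_tgt_sub_src (N : MAS R ι) (xs x : ι → ℝ) (r : R) :
    cw xs x (N.tgt r) - cw xs x (N.src r) =
      ∑ i, (Real.log (x i) - Real.log (xs i)) * N.vec r i := by
  unfold cw MAS.vec
  rw [← Finset.sum_sub_distrib]
  exact Finset.sum_congr rfl (fun i _ => by ring)

lemma cw_zero (xs x : ι → ℝ) : cw xs x (0 : ι → ℕ) = 0 := by
  simp [cw]

lemma dissip_eq_sum (N : MAS R ι) (xs x : ι → ℝ) (hxs : ∀ i, 0 < xs i) (hx : ∀ i, 0 < x i) :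
    N.dissip xs x = ∑ r, (N.rate r * mono (N.src r) xs) * Real.exp (cw xs x (N.src r)) *
      (cw xs x (N.tgt r) - cw xs x (N.src r)) := by
  unfold MAS.dissip
  have h1 : ∀ i, (Real.log (x i) - Real.log (xs i)) * N.field x i
      = ∑ r, N.rate r * mono (N.src r) x
          * ((Real.log (x i) - Real.log (xs i)) * N.vec r i) := by
    intro i
    rw [field_apply, Finset.mul_sum]
    exact Finset.sum_congr rfl (fun r _ => by ring)
  rw [Finset.sum_congr rfl (fun i _ => h1 i), Finset.sum_comm]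
  refine Finset.sum_congr rfl (fun r _ => ?_)
  rw [← Finset.mul_sum, ← cw_tgt_sub_src, mono_eq_mul_exp_cw xs x hxs hx (N.src r)]
  ring

end Vale.Agent.Lib.P072
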