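import Vale.Agent.Lib.P072.Defs

/-!
# A pairing bound on the stoichiometric subspace
-/

namespace Vale.Agent.Lib.P072

variable {R ι : Type} [Fintype R] [Fintype ι]

/-- If a vector `μ` pairs with every reaction vector to at most `Θ` in absolute value, then it
pairs with every vector `v` of the stoichiometric subspace to at most `C * Θ * ∑ i, |v i|`. -/
lemma exists_pairing_bound (N : MAS R ι) :
    ∃ C : ℝ, 0 ≤ C ∧ ∀ (μ v : ι → ℝ) (Θ : ℝ), v ∈ N.stoich →
      (∀ r, |∑ i, μ i * N.vec r i| ≤ Θ) → |∑ i, μ i * v i| ≤ C * Θ * ∑ i, |v i| := by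
  classical
  obtain ⟨Φ, hΦ, hrange⟩ : ∃ Φ : (R → ℝ) →ₗ[ℝ] (ι → ℝ),
      (∀ lam : R → ℝ, Φ lam = ∑ r, lam r • N.vec r) ∧ LinearMap.range Φ = N.stoich := by
    refine ⟨Fintype.linearCombination ℝ N.vec, fun lam => ?_, ?_⟩
    · rw [Fintype.linearCombination_apply]
    · rw [Fintype.range_linearCombination]
      rfl
  obtain ⟨g, hg⟩ := LinearMap.exists_rightInverse_of_surjective Φ.rangeRestrict
    (LinearMap.range_rangeRestrict Φ)
  obtain ⟨G, hG⟩ := LinearMap.exists_extend g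
  set Gc : (ι → ℝ) →L[ℝ] (R → ℝ) := LinearMap.toContinuousLinearMap G with hGc
  refine ⟨(Fintype.card R : ℝ) * ‖Gc‖, by positivity, ?_⟩
  intro μ v Θ hv hΘ
  rcases isEmpty_or_nonempty R with hR | hR
  · have hv0 : v = 0 := by
      have hbot : N.stoich = ⊥ := by
        unfold MAS.stoich
        rw [Set.range_eq_empty, Submodule.span_empty]
      rw [hbot] at hv
      simpa using hv
    subst hv0
    simp
  · have hΘ0 : 0 ≤ Θ := le_trans (abs_nonneg _) (hΘ (Classical.arbitrary R))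
    have hvr : v ∈ LinearMap.range Φ := hrange ▸ hv
    set lam : R → ℝ := G v with hlam
    have hlamv : ∑ r, lam r • N.vec r = v := by
      have h1 : G v = g ⟨v, hvr⟩ := LinearMap.congr_fun hG ⟨v, hvr⟩
      have h2 : Φ.rangeRestrict (g ⟨v, hvr⟩) = ⟨v, hvr⟩ := LinearMap.congr_fun hg ⟨v, hvr⟩
      have h3 : Φ (g ⟨v, hvr⟩) = v := congrArg Subtype.val h2
      rw [hlam, h1, ← hΦ]
      exact h3
    have hnorm : ‖lam‖ ≤ ‖Gc‖ * ∑ i, |v i| := by
      have h1 : ‖lam‖ ≤ ‖Gc‖ * ‖v‖ := Gc.le_opNorm v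
      have h2 : ‖v‖ ≤ ∑ i, |v i| := by
        rw [pi_norm_le_iff_of_nonneg (Finset.sum_nonneg (fun i _ => abs_nonneg _))]
        intro i
        rw [Real.norm_eq_abs]
        exact Finset.single_le_sum (f := fun i => |v i|) (fun i _ => abs_nonneg _)
          (Finset.mem_univ i)
      exact h1.trans (mul_le_mul_of_nonneg_left h2 (norm_nonneg _))
    have hlamr : ∀ r, |lam r| ≤ ‖Gc‖ * ∑ i, |v i| := fun r => by
      have h := norm_le_pi_norm lam r
      rw [Real.norm_eq_abs] at h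
      exact h.trans hnorm
    have hexp : ∑ i, μ i * v i = ∑ r, lam r * ∑ i, μ i * N.vec r i := by
      conv_lhs => rw [← hlamv]
      simp only [Finset.sum_apply, Pi.smul_apply, smul_eq_mul, Finset.mul_sum]
      rw [Finset.sum_comm]
      exact Finset.sum_congr rfl (fun r _ => Finset.sum_congr rfl (fun i _ => by ring))
    rw [hexp]
    calc |∑ r, lam r * ∑ i, μ i * N.vec r i|
        ≤ ∑ r, |lam r * ∑ i, μ i * N.vec r i| := Finset.abs_sum_le_sum_abs _ _
      _ ≤ ∑ _r : R, (‖Gc‖ * ∑ i, |v i|) * Θ := by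
          refine Finset.sum_le_sum (fun r _ => ?_)
          rw [abs_mul]
          exact mul_le_mul (hlamr r) (hΘ r) (abs_nonneg _) (by positivity)
      _ = (Fintype.card R : ℝ) * ‖Gc‖ * Θ * ∑ i, |v i| := by
          rw [Finset.sum_const, Finset.card_univ, nsmul_eq_mul]
          ring

end Vale.Agent.Lib.P072
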