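import Vale.Agent.Lib.P072.BalScalar
import Vale.Agent.Lib.P072.BalPairing
import Vale.Agent.Lib.P072.BalDissip

/-!
# The core region of a strongly connected system is a box inside the positive orthant
-/

namespace Vale.Agent.Lib.P072

open Set

set_option linter.unusedSectionVars false

variable {R ι : Type} [Fintype R] [Fintype ι]

/-- In a strongly connected system the target of every reaction is the source of a reaction. -/
lemma tgt_is_src (N : MAS R ι) (hsc : N.StronglyConnected) (r : R) :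
    ∃ s, N.src s = N.tgt r := by
  rcases Relation.ReflTransGen.cases_head (hsc r r) with heq | ⟨_, ⟨s, hs1, _⟩, _⟩
  · exact absurd heq.symm (N.src_ne_tgt r)
  · exact ⟨s, hs1⟩

/-- If the logarithmic weights of the source complexes of a strongly connected system spread by
at most `Θ` at a point of the class of `c`, then the point lies in a fixed box inside the
positive orthant. -/
lemma core_bounds (N : MAS R ι) (hsc : N.StronglyConnected) (xs c : ι → ℝ) (hc : ∀ i, 0 < c i)
    (Θ : ℝ) :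
    ∃ δ B : ℝ, 0 < δ ∧ ∀ x : ι → ℝ, (∀ i, 0 < x i) → x - c ∈ N.stoich →
      (∀ r₁ r₂, cw xs x (N.src r₁) - cw xs x (N.src r₂) ≤ Θ) → ∀ i, δ ≤ x i ∧ x i ≤ B := by
  obtain ⟨C, hC0, hC⟩ := exists_pairing_bound N
  have hΘ' : 0 ≤ max Θ 0 := le_max_right _ _
  have hΛ : 0 ≤ C * max Θ 0 + 1 := by positivity
  choose b hb0 hb using fun i =>
    scalar_coercive (Real.log (xs i)) (c i) (C * max Θ 0 + 1) (hc i) hΛ
  have hbs0 : 0 ≤ ∑ i, b i := Finset.sum_nonneg (fun i _ => hb0 i)
  choose d hd0 hd using fun i =>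
    scalar_lower (Real.log (xs i)) (c i) (C * max Θ 0 * (∑ i, b i) + ∑ i, b i) (hc i)
  have hinvpos : ∀ i, 0 < (d i)⁻¹ := fun i => inv_pos.mpr (hd0 i)
  have hsinv0 : 0 ≤ ∑ i, (d i)⁻¹ := Finset.sum_nonneg (fun i _ => (hinvpos i).le)
  have hδle : ∀ i, (1 + ∑ i, (d i)⁻¹)⁻¹ ≤ d i := by
    intro i
    have h1 : (d i)⁻¹ ≤ 1 + ∑ i, (d i)⁻¹ := by
      have := Finset.single_le_sum (fun j _ => (hinvpos j).le) (Finset.mem_univ i)
        (f := fun j => (d j)⁻¹)
      linarith
    have h2 := inv_anti₀ (hinvpos i) h1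
    rwa [inv_inv] at h2
  refine ⟨(1 + ∑ i, (d i)⁻¹)⁻¹, ∑ i, c i + ∑ i, b i, inv_pos.mpr (by linarith), ?_⟩
  classical
  intro x hx hxc hspread
  have hpair : ∀ r, |∑ i, (Real.log (x i) - Real.log (xs i)) * N.vec r i| ≤ max Θ 0 := by
    intro r
    obtain ⟨s, hs⟩ := tgt_is_src N hsc r
    rw [← cw_tgt_sub_src, ← hs]
    rw [abs_le]
    have h1 := hspread s r
    have h2 := hspread r s
    have h3 := le_max_left Θ 0
    constructor <;> linarith
  have hP := hC (fun i => Real.log (x i) - Real.log (xs i)) (x - c) (max Θ 0) hxc hpair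
  simp only [Pi.sub_apply] at hP
  have hlow : ∑ i, ((C * max Θ 0 + 1) * |x i - c i| - b i) ≤
      ∑ i, (Real.log (x i) - Real.log (xs i)) * (x i - c i) :=
    Finset.sum_le_sum (fun i _ => hb i (x i) (hx i))
  have hup := (abs_le.mp hP).2
  have hS0 : 0 ≤ ∑ i, |x i - c i| := Finset.sum_nonneg (fun i _ => abs_nonneg _)
  have hS : ∑ i, |x i - c i| ≤ ∑ i, b i := by
    have h1 : ∑ i, ((C * max Θ 0 + 1) * |x i - c i| - b i) =
        (C * max Θ 0 + 1) * ∑ i, |x i - c i| - ∑ i, b i := by
      rw [Finset.sum_sub_distrib, Finset.mul_sum]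
    rw [h1] at hlow
    linarith
  intro i
  constructor
  · refine le_trans (hδle i) (hd i (x i) (hx i) ?_)
    have hothers : ∑ j ∈ Finset.univ.erase i, (-(b j)) ≤
        ∑ j ∈ Finset.univ.erase i, (Real.log (x j) - Real.log (xs j)) * (x j - c j) := by
      apply Finset.sum_le_sum
      intro j _
      have h1 := hb j (x j) (hx j)
      have h2 : 0 ≤ (C * max Θ 0 + 1) * |x j - c j| := mul_nonneg hΛ (abs_nonneg _)
      linarith
    have hsplit := Finset.add_sum_erase Finset.univ
      (fun j => (Real.log (x j) - Real.log (xs j)) * (x j - c j)) (Finset.mem_univ i)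
    have hsplitb := Finset.add_sum_erase Finset.univ (fun j => b j) (Finset.mem_univ i)
    have hneg : ∑ j ∈ Finset.univ.erase i, (-(b j)) = -∑ j ∈ Finset.univ.erase i, b j := by
      rw [Finset.sum_neg_distrib]
    have hCS : C * max Θ 0 * ∑ i, |x i - c i| ≤ C * max Θ 0 * ∑ i, b i :=
      mul_le_mul_of_nonneg_left hS (mul_nonneg hC0 hΘ')
    have hbi := hb0 i
    linarith
  · have h1 : x i - c i ≤ |x i - c i| := le_abs_self _
    have h2 : |x i - c i| ≤ ∑ j, |x j - c j| :=
      Finset.single_le_sum (fun j _ => abs_nonneg (x j - c j)) (Finset.mem_univ i)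
    have h3 : c i ≤ ∑ j, c j :=
      Finset.single_le_sum (fun j _ => (hc j).le) (Finset.mem_univ i)
    linarith

end Vale.Agent.Lib.P072
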