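import Vale.Agent.Lib.P072.Defs

/-!
# Deficiency zero (definition)
-/

namespace Vale.Agent.Lib.P072

variable {R ι : Type} [Fintype R] [Fintype ι]

open Classical in
/-- Deficiency zero, in the form: every linear relation `∑ r, l r • vec r = 0` among the
reaction vectors comes from the reaction graph, i.e. at every complex `y` the coefficients of
the reactions entering `y` and of the reactions leaving `y` have the same sum. (The space of
relations modulo those coming from the graph has dimension `n - l - s`, the deficiency.) -/
def MAS.DeficiencyZero (N : MAS R ι) : Prop :=
  ∀ l : R → ℝ, ∑ r, l r • N.vec r = 0 →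
    ∀ y : ι → ℕ, ∑ r with N.tgt r = y, l r = ∑ r with N.src r = y, l r

end Vale.Agent.Lib.P072
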