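import Vale.Agent.Lib.P072.DefsBal
import Vale.Agent.Lib.P072.DefsDefZero
import Vale.Agent.Lib.P072.LineSign

/-!
# Deficiency zero: from a balanced positive function on the complexes to a point of complex
balance
-/

namespace Vale.Agent.Lib.P072

set_option linter.unusedSectionVars false

variable {R ι : Type} [Fintype R] [Fintype ι]

open Classical in
/-- Regrouping a weighted sum over the reactions by the complex `f r`. -/
private lemma balDefZero_regroup (l : R → ℝ) (g : (ι → ℕ) → ℝ) (f : R → ι → ℕ)
    (Y : Finset (ι → ℕ)) (hY : ∀ r, f r ∈ Y) :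
    ∑ r, l r * g (f r) = ∑ y ∈ Y, g y * ∑ r with f r = y, l r := by
  rw [← Finset.sum_fiberwise_of_maps_to (s := Finset.univ) (t := Y) (g := f)
    (fun r _ => hY r)]
  apply Finset.sum_congr rfl
  intro y _
  rw [Finset.mul_sum]
  apply Finset.sum_congr rfl
  intro r hr
  rw [(Finset.mem_filter.mp hr).2, mul_comm]

open Classical in
/-- Under deficiency zero, a relation among the reaction vectors annihilates the differences
of any function on the complexes along the reactions. -/
private lemma balDefZero_relation (N : MAS R ι) (hdz : N.DeficiencyZero)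
    (g : (ι → ℕ) → ℝ) (l : R → ℝ) (hl : ∑ r, l r • N.vec r = 0) :
    ∑ r, l r * (g (N.tgt r) - g (N.src r)) = 0 := by
  have h := hdz l hl
  have hs : ∀ r, N.src r ∈ Finset.univ.image N.src ∪ Finset.univ.image N.tgt := fun r =>
    Finset.mem_union_left _ (Finset.mem_image_of_mem _ (Finset.mem_univ r))
  have ht : ∀ r, N.tgt r ∈ Finset.univ.image N.src ∪ Finset.univ.image N.tgt := fun r =>
    Finset.mem_union_right _ (Finset.mem_image_of_mem _ (Finset.mem_univ r))
  have e1 := balDefZero_regroup l g N.tgt _ ht
  have e2 := balDefZero_regroup l g N.src _ hs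
  simp only [mul_sub, Finset.sum_sub_distrib]
  rw [e1, e2, sub_eq_zero]
  apply Finset.sum_congr rfl
  intro y _
  rw [h y]

/-- Under deficiency zero, every function on the complexes has differences along the reactions
given by a linear functional of the reaction vectors. -/
private lemma balDefZero_exists_mu (N : MAS R ι) (hdz : N.DeficiencyZero)
    (g : (ι → ℕ) → ℝ) :
    ∃ μ : ι → ℝ, ∀ r, ∑ i, N.vec r i * μ i = g (N.tgt r) - g (N.src r) := by
  classical
  let Φ : (R → ℝ) →ₗ[ℝ] (ι → ℝ) :=
    { toFun := fun l => ∑ r, l r • N.vec r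
      map_add' := by
        intro a b
        simp only [Pi.add_apply, add_smul, Finset.sum_add_distrib]
      map_smul' := by
        intro c a
        simp only [Pi.smul_apply, smul_eq_mul, RingHom.id_apply, Finset.smul_sum, smul_smul] }
  let Λ : (R → ℝ) →ₗ[ℝ] ℝ :=
    { toFun := fun l => ∑ r, l r * (g (N.tgt r) - g (N.src r))
      map_add' := by
        intro a b
        simp only [Pi.add_apply, add_mul, Finset.sum_add_distrib]
      map_smul' := by
        intro c a
        simp only [Pi.smul_apply, smul_eq_mul, RingHom.id_apply, Finset.mul_sum, mul_assoc] }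
  have hΛ : Λ ∈ (LinearMap.ker Φ).dualAnnihilator := by
    rw [Submodule.mem_dualAnnihilator]
    intro l hl
    exact balDefZero_relation N hdz g l (LinearMap.mem_ker.mp hl)
  rw [← LinearMap.range_dualMap_eq_dualAnnihilator_ker] at hΛ
  obtain ⟨ν, hν⟩ := hΛ
  refine ⟨fun i => ν (fun j => if i = j then 1 else 0), ?_⟩
  intro r
  have h1 : ν (Φ (Pi.single r 1)) = Λ (Pi.single r 1) := by
    rw [← hν]
    rfl
  have h2 : Φ (Pi.single r 1) = N.vec r := by
    show ∑ r', (Pi.single r (1 : ℝ) : R → ℝ) r' • N.vec r' = N.vec r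
    rw [Finset.sum_eq_single r]
    · rw [Pi.single_eq_same, one_smul]
    · intro b _ hb
      rw [Pi.single_eq_of_ne hb, zero_smul]
    · intro h
      exact absurd (Finset.mem_univ r) h
  have h3 : Λ (Pi.single r 1) = g (N.tgt r) - g (N.src r) := by
    show ∑ r', (Pi.single r (1 : ℝ) : R → ℝ) r' * (g (N.tgt r') - g (N.src r')) = _
    rw [Finset.sum_eq_single r]
    · rw [Pi.single_eq_same, one_mul]
    · intro b _ hb
      rw [Pi.single_eq_of_ne hb, zero_mul]
    · intro h
      exact absurd (Finset.mem_univ r) h
  rw [h2, h3] at h1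
  rw [← h1, LinearMap.pi_apply_eq_sum_univ ν (N.vec r)]
  apply Finset.sum_congr rfl
  intro i _
  rw [smul_eq_mul]

open Classical in
/-- If the system has deficiency zero and `K` is a positive function on the complexes that is
balanced at every complex (for the rate constants of the system), then the system is complex
balanced at some positive point. -/
theorem complexBalanced_of_kernel (N : MAS R ι) (hdz : N.DeficiencyZero)
    (K : (ι → ℕ) → ℝ) (hK : ∀ y, 0 < K y)
    (hbal : ∀ y : ι → ℕ, ∑ r with N.src r = y, N.rate r * K (N.src r) =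
      ∑ r with N.tgt r = y, N.rate r * K (N.src r)) :
    ∃ xs : ι → ℝ, (∀ i, 0 < xs i) ∧ N.ComplexBalancedAt xs := by
  obtain ⟨μ, hμ⟩ := balDefZero_exists_mu N hdz (fun y => Real.log (K y))
  have hpos : ∀ i, 0 < Real.exp (μ i) := fun i => Real.exp_pos _
  have hmono : ∀ y : ι → ℕ,
      mono y (fun i => Real.exp (μ i)) = Real.exp (∑ i, (y i : ℝ) * μ i) := by
    intro y
    rw [mono_eq_exp y _ hpos]
    congr 1
    apply Finset.sum_congr rfl
    intro i _
    rw [Real.log_exp]
  have hφ : ∀ r, mono (N.tgt r) (fun i => Real.exp (μ i)) / K (N.tgt r) =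
      mono (N.src r) (fun i => Real.exp (μ i)) / K (N.src r) := by
    intro r
    rw [div_eq_div_iff (hK _).ne' (hK _).ne', hmono, hmono]
    have h1 : ∑ i, (N.tgt r i : ℝ) * μ i = ∑ i, (N.src r i : ℝ) * μ i +
        (Real.log (K (N.tgt r)) - Real.log (K (N.src r))) := by
      rw [← hμ r, ← Finset.sum_add_distrib]
      apply Finset.sum_congr rfl
      intro i _
      simp only [MAS.vec]
      ring
    rw [h1, Real.exp_add, Real.exp_sub, Real.exp_log (hK _), Real.exp_log (hK _)]
    have hk := (hK (N.src r)).ne'
    field_simp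
  refine ⟨fun i => Real.exp (μ i), hpos, ?_⟩
  intro y
  have hky := (hK y).ne'
  have hL : ∑ r with N.src r = y, N.rate r * mono (N.src r) (fun i => Real.exp (μ i)) =
      (mono y (fun i => Real.exp (μ i)) / K y) *
        ∑ r with N.src r = y, N.rate r * K (N.src r) := by
    rw [Finset.mul_sum]
    apply Finset.sum_congr rfl
    intro r hr
    rw [(Finset.mem_filter.mp hr).2]
    field_simp
  have hR : ∑ r with N.tgt r = y, N.rate r * mono (N.src r) (fun i => Real.exp (μ i)) =
      (mono y (fun i => Real.exp (μ i)) / K y) *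
        ∑ r with N.tgt r = y, N.rate r * K (N.src r) := by
    rw [Finset.mul_sum]
    apply Finset.sum_congr rfl
    intro r hr
    rw [← (Finset.mem_filter.mp hr).2, hφ r]
    have hk := (hK (N.src r)).ne'
    field_simp
  rw [hL, hR, hbal y]

end Vale.Agent.Lib.P072
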