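import Vale.Agent.Lib.P072.BalEntropy
import Vale.Agent.Lib.P072.BalPos
import Vale.Agent.Lib.P072.LinePermanent

/-!
# Permanence from a uniform entropy dissipation alternative
-/

namespace Vale.Agent.Lib.P072

open Set Filter Topology

set_option linter.unusedSectionVars false

variable {R ι : Type} [Fintype R] [Fintype ι]

/-- Permanence from the dissipation alternative: if outside a box inside the positive orthant
the entropy-type function decreases along the vector field at rate at least `η > 0`, then the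
system is permanent on the class (given existence and invariance). -/
theorem permanentOn_of_dissip (N : MAS R ι) (xs : ι → ℝ) (hxs : ∀ i, 0 < xs i) (c : ι → ℝ)
    (δ B η : ℝ) (hδ : 0 < δ) (hη : 0 < η)
    (hb : N.BoundedOn (N.posClass c))
    (h : ∀ x ∈ N.posClass c, (∀ i, δ ≤ x i ∧ x i ≤ B) ∨ N.dissip xs x ≤ -η) :
    N.PermanentOn (N.posClass c) := by
  obtain ⟨hex, hstay, -⟩ := hb
  refine ⟨hex, hstay, ?_⟩
  obtain ⟨G₀, hG⟩ := entropy_le_of_box xs δ B hδ
  obtain ⟨B₁, hB₁⟩ := entropy_sublevel_bdd xs hxs (G₀ + 1)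
  obtain ⟨L, hL0, hL⟩ := field_ge_neg_mul N B₁
  set Gmin : ℝ := -∑ i, xs i with hGmin
  set τ : ℝ := (G₀ + 1 - Gmin) / η + 1 with hτ
  set lo : ℝ := δ * Real.exp (-L * τ) with hlo
  have hlopos : 0 < lo := mul_pos hδ (Real.exp_pos _)
  refine ⟨{x | x - c ∈ N.stoich} ∩ Icc (fun _ => lo) (fun _ => B₁),
    isCompact_Icc.inter_left (isClosed_class N c), ?_, ?_⟩
  · rintro x ⟨hxc, hxl, -⟩
    exact ⟨fun i => lt_of_lt_of_le hlopos (hxl i), hxc⟩
  · intro x hx0 hx
    have hP : ∀ t, 0 ≤ t → x t ∈ N.posClass c := hstay x hx0 hx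
    have hVd : ∀ t, 0 ≤ t →
        HasDerivWithinAt (fun t => entropy xs (x t)) (N.dissip xs (x t)) (Ici t) t :=
      fun t ht => hasDerivWithinAt_entropy xs ((hx t ht).mono (Ici_subset_Ici.mpr ht)) (hP t ht).1
    have hVc : ∀ a b, 0 ≤ a → ContinuousOn (fun t => entropy xs (x t)) (Icc a b) := by
      intro a b ha t ht
      have ht0 : 0 ≤ t := le_trans ha ht.1
      exact ((hasDerivWithinAt_entropy xs (hx t ht0) (hP t ht0).1).continuousWithinAt).mono
        (fun s hs => mem_Ici.mpr (le_trans ha hs.1))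
    have hVge : ∀ t, 0 ≤ t → Gmin ≤ entropy xs (x t) :=
      fun t ht => entropy_ge xs (x t) hxs (hP t ht).1
    have hdecay : ∀ a b, 0 ≤ a → a ≤ b →
        (∀ t ∈ Ico a b, ¬ (∀ i, δ ≤ x t i ∧ x t i ≤ B)) →
        entropy xs (x b) ≤ entropy xs (x a) - η * (b - a) := by
      intro a b ha hab hout
      have key := image_le_of_deriv_right_le_deriv_boundary (f := fun t => entropy xs (x t))
        (f' := fun t => N.dissip xs (x t)) (hVc a b ha)
        (fun t ht => hVd t (le_trans ha ht.1))
        (B := fun t => entropy xs (x a) - η * (t - a)) (B' := fun _ => -η)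
        (by simp)
        ((continuous_const.sub (continuous_const.mul
          (continuous_id.sub continuous_const))).continuousOn)
        (fun t _ => by
          have h1 : HasDerivAt (fun t : ℝ => entropy xs (x a) - η * (t - a)) (0 - η * (1 - 0)) t :=
            (hasDerivAt_const t _).sub (((hasDerivAt_id t).sub (hasDerivAt_const t a)).const_mul η)
          have h2 : (0 - η * (1 - 0) : ℝ) = -η := by ring
          rw [h2] at h1
          exact h1.hasDerivWithinAt)
        (fun t ht => by
          rcases h (x t) (hP t (le_trans ha ht.1)) with hbox | hneg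
          · exact absurd hbox (hout t ht)
          · exact hneg)
        (right_mem_Icc.mpr hab)
      exact key
    have hT₁ : ∃ T₁, 0 ≤ T₁ ∧ ∀ i, δ ≤ x T₁ i ∧ x T₁ i ≤ B := by
      by_contra hcon
      push Not at hcon
      have hV0 := hVge 0 le_rfl
      set b : ℝ := (entropy xs (x 0) - Gmin) / η + 1 with hbdef
      have hb0 : 0 ≤ b := by
        have : 0 ≤ (entropy xs (x 0) - Gmin) / η := div_nonneg (by linarith) hη.le
        linarith
      have h1 := hdecay 0 b le_rfl hb0 (fun t ht hbox => by
        obtain ⟨i, hi⟩ := hcon t ht.1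
        exact absurd (hbox i).2 (not_le.mpr (hi (hbox i).1)))
      have h2 := hVge b hb0
      have h3 : η * (b - 0) = entropy xs (x 0) - Gmin + η := by
        rw [hbdef]
        field_simp
        ring
      linarith
    obtain ⟨T₁, hT₁0, hT₁box⟩ := hT₁
    have hVle : ∀ t, T₁ ≤ t → entropy xs (x t) ≤ G₀ + 1 := by
      intro t ht
      refine image_le_of_deriv_right_lt_deriv_boundary' (f := fun t => entropy xs (x t))
        (f' := fun s => N.dissip xs (x s)) (B := fun _ => G₀ + 1) (B' := fun _ => 0)
        (hVc T₁ t hT₁0) (fun s hs => hVd s (le_trans hT₁0 hs.1)) ?_ continuousOn_const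
        (fun _ _ => hasDerivWithinAt_const _ _ _) ?_ (right_mem_Icc.mpr ht)
      · have := hG (x T₁) hT₁box
        linarith
      · intro s hs heq
        rcases h (x s) (hP s (le_trans hT₁0 hs.1)) with hbox | hneg
        · exfalso
          have := hG (x s) hbox
          linarith
        · linarith
    have hxB₁ : ∀ t, T₁ ≤ t → ∀ i, x t i ≤ B₁ :=
      fun t ht => hB₁ (x t) (hP t (le_trans hT₁0 ht)).1 (hVle t ht)
    have hτpos : 0 < τ := by
      have h1 := hVge T₁ hT₁0
      have h2 := hVle T₁ le_rfl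
      have : 0 ≤ (G₀ + 1 - Gmin) / η := div_nonneg (by linarith) hη.le
      linarith
    refine ⟨T₁ + τ, fun t ht => ?_⟩
    have ht0 : 0 ≤ t := by linarith
    have hs : ∃ s, t - τ ≤ s ∧ s ≤ t ∧ ∀ i, δ ≤ x s i ∧ x s i ≤ B := by
      by_contra hcon
      push Not at hcon
      have h1 := hdecay (t - τ) t (by linarith) (by linarith) (fun s hs hbox => by
        obtain ⟨i, hi⟩ := hcon s hs.1 hs.2.le
        exact absurd (hbox i).2 (not_le.mpr (hi (hbox i).1)))
      have h2 := hVle (t - τ) (by linarith)
      have h3 := hVge t ht0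
      have h4 : η * (t - (t - τ)) = G₀ + 1 - Gmin + η := by
        rw [hτ]
        field_simp
        ring
      linarith
    obtain ⟨s, hs1, hs2, hsbox⟩ := hs
    have hsT : T₁ ≤ s := by linarith
    have hs0 : 0 ≤ s := le_trans hT₁0 hsT
    have hlow := sol_lower_bound N hL (γ := x) (a := s) (b := t)
      (fun u hu => (hx u (le_trans hs0 hu.1)).mono (fun v hv => mem_Ici.mpr (le_trans hs0 hv.1)))
      (fun u hu j => hxB₁ u (le_trans hsT hu.1) j)
      (fun j => lt_of_lt_of_le hδ (hsbox j).1) t (right_mem_Icc.mpr hs2)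
    refine ⟨(hP t ht0).2, fun j => ?_, fun j => hxB₁ t (by linarith) j⟩
    have h1 : lo ≤ x s j * Real.exp (-L * (t - s)) := by
      rw [hlo]
      apply mul_le_mul (hsbox j).1 _ (Real.exp_pos _).le (le_trans hδ.le (hsbox j).1)
      apply Real.exp_le_exp.mpr
      have : L * (t - s) ≤ L * τ := mul_le_mul_of_nonneg_left (by linarith) hL0
      linarith
    exact le_trans h1 (hlow j)

end Vale.Agent.Lib.P072
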