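import Vale.Agent.Lib.P072.BalStatic
import Vale.Agent.Lib.P072.BalBounded
import Vale.Agent.Lib.P072.BalPermanent

/-!
# Boundedness and permanence for a strongly connected system joined with a complex-balanced one
-/

namespace Vale.Agent.Lib.P072

open Set

set_option linter.unusedSectionVars false

variable {R R₁ R₂ ι : Type} [Fintype R] [Fintype R₁] [Fintype R₂] [Fintype ι]

lemma posClass_eq_of_mem (N : MAS R ι) {c c' : ι → ℝ} (h : c' ∈ N.posClass c) :
    N.posClass c = N.posClass c' := by
  ext x
  constructor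
  · rintro ⟨hx, hxc⟩
    refine ⟨hx, ?_⟩
    have : x - c' = (x - c) - (c' - c) := by abel
    rw [this]
    exact Submodule.sub_mem _ hxc h.2
  · rintro ⟨hx, hxc⟩
    refine ⟨hx, ?_⟩
    have : x - c = (x - c') + (c' - c) := by abel
    rw [this]
    exact Submodule.add_mem _ hxc h.2

/-- Boundedness: if `N₁` is strongly connected, `N₂` is complex balanced at a positive point and
the reaction vectors of `N₂` lie in the stoichiometric subspace of `N₁`, then in the union
system every solution starting in a positive stoichiometric class exists for all times, stays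
in the class and is bounded. -/
theorem union_boundedOn (N₁ : MAS R₁ ι) (N₂ : MAS R₂ ι) (xs : ι → ℝ) (hxs : ∀ i, 0 < xs i)
    (h₁ : N₁.StronglyConnected) (hspan : N₂.stoich ≤ N₁.stoich) (h₂ : N₂.ComplexBalancedAt xs)
    (c : ι → ℝ) : (N₁.union N₂).BoundedOn ((N₁.union N₂).posClass c) := by
  by_cases hne : ((N₁.union N₂).posClass c).Nonempty
  · obtain ⟨c', hc'⟩ := hne
    rw [posClass_eq_of_mem _ hc']
    obtain ⟨δ, B, hδ, halt⟩ := static_alternative N₁ N₂ xs hxs h₁ hspan h₂ c' hc'.1
    refine boundedOn_of_dissip _ xs hxs c' δ B hδ (fun x hx => ?_)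
    rcases halt x hx with h | h
    · exact Or.inl h
    · exact Or.inr h.1
  · rw [Set.not_nonempty_iff_eq_empty] at hne
    rw [hne]
    exact ⟨fun x hx => absurd hx (Set.notMem_empty x), fun x hx => absurd hx (Set.notMem_empty _),
      fun x hx => absurd hx (Set.notMem_empty _)⟩

/-- Permanence: if moreover the zero complex is the source of a reaction of `N₁`, the union
system is permanent on every positive stoichiometric class. -/
theorem union_permanentOn (N₁ : MAS R₁ ι) (N₂ : MAS R₂ ι) (xs : ι → ℝ) (hxs : ∀ i, 0 < xs i)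
    (h₁ : N₁.StronglyConnected) (hspan : N₂.stoich ≤ N₁.stoich) (h₂ : N₂.ComplexBalancedAt xs)
    (hz : ∃ r, N₁.src r = 0)
    (c : ι → ℝ) : (N₁.union N₂).PermanentOn ((N₁.union N₂).posClass c) := by
  have hb := union_boundedOn N₁ N₂ xs hxs h₁ hspan h₂ c
  by_cases hne : ((N₁.union N₂).posClass c).Nonempty
  · obtain ⟨c', hc'⟩ := hne
    rw [posClass_eq_of_mem _ hc'] at hb ⊢
    obtain ⟨δ, B, hδ, halt⟩ := static_alternative N₁ N₂ xs hxs h₁ hspan h₂ c' hc'.1
    obtain ⟨r₀, hr₀⟩ := hz
    refine permanentOn_of_dissip _ xs hxs c' δ B 1 hδ one_pos hb (fun x hx => ?_)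
    rcases halt x hx with h | h
    · exact Or.inl h
    · refine Or.inr ?_
      have := h.2 r₀
      rw [hr₀, cw_zero, Real.exp_zero] at this
      exact this
  · rw [Set.not_nonempty_iff_eq_empty] at hne
    rw [hne]
    exact ⟨fun x hx => absurd hx (Set.notMem_empty x), fun x hx => absurd hx (Set.notMem_empty _),
      ∅, isCompact_empty, Set.empty_subset _, fun x hx => absurd hx (Set.notMem_empty _)⟩

end Vale.Agent.Lib.P072
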