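import Vale.Agent.Lib.P072.BalKernel
import Vale.Agent.Lib.P072.BalDefZero
import Vale.Agent.Lib.P072.BalMain

/-!
# Weakly reversible systems of deficiency zero are complex balanced at some positive point
-/

namespace Vale.Agent.Lib.P072

set_option linter.unusedSectionVars false

variable {R R₁ R₂ ι : Type} [Fintype R] [Fintype R₁] [Fintype R₂] [Fintype ι]

/-- The deficiency zero theorem (existence of a point of complex balance). -/
theorem deficiencyZero_complexBalanced (N : MAS R ι) (hwr : N.WeaklyReversible)
    (hdz : N.DeficiencyZero) : ∃ xs : ι → ℝ, (∀ i, 0 < xs i) ∧ N.ComplexBalancedAt xs := by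
  obtain ⟨K, hK, hbal⟩ := exists_pos_kernel N.src N.tgt N.rate N.rate_pos hwr
  refine complexBalanced_of_kernel N hdz K hK (fun y => ?_)
  convert hbal y

end Vale.Agent.Lib.P072
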