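import Vale.Agent.Lib.P072.BalBasic

/-!
# Elementary properties of the entropy-type function
-/

namespace Vale.Agent.Lib.P072

open Set

variable {ι : Type} [Fintype ι]

/-- One term of the entropy-type function is bounded below. -/
private lemma balEntropy_term_ge (a b : ℝ) (ha : 0 < a) (hb : 0 < b) :
    -a ≤ b * (Real.log b - Real.log a - 1) := by
  have h := Real.log_le_sub_one_of_pos (div_pos ha hb)
  rw [Real.log_div ha.ne' hb.ne'] at h
  have h2 : b * (Real.log a - Real.log b) ≤ b * (a / b - 1) := mul_le_mul_of_nonneg_left h hb.le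
  have e : b * (a / b - 1) = a - b := by
    field_simp
  rw [e] at h2
  have e2 : b * (Real.log b - Real.log a - 1) = -(b * (Real.log a - Real.log b)) - b := by ring
  rw [e2]
  linarith

/-- One term of the entropy-type function dominates its variable when the variable is large. -/
private lemma balEntropy_term_big (a b : ℝ) (ha : 0 < a) (hb : a * Real.exp 2 ≤ b) :
    b ≤ b * (Real.log b - Real.log a - 1) := by
  have hpos : 0 < a * Real.exp 2 := mul_pos ha (Real.exp_pos 2)
  have hb0 : 0 < b := lt_of_lt_of_le hpos hb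
  have h1 : Real.log (a * Real.exp 2) ≤ Real.log b := Real.log_le_log hpos hb
  rw [Real.log_mul ha.ne' (Real.exp_ne_zero 2), Real.log_exp] at h1
  have h2 : 1 ≤ Real.log b - Real.log a - 1 := by linarith
  calc b = b * 1 := (mul_one b).symm
    _ ≤ b * (Real.log b - Real.log a - 1) := mul_le_mul_of_nonneg_left h2 hb0.le

/-- The entropy-type function is bounded below on the positive orthant. -/
lemma entropy_ge (xs x : ι → ℝ) (hxs : ∀ i, 0 < xs i) (hx : ∀ i, 0 < x i) :
    -∑ i, xs i ≤ entropy xs x := by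
  unfold entropy
  rw [← Finset.sum_neg_distrib]
  exact Finset.sum_le_sum (fun i _ => balEntropy_term_ge (xs i) (x i) (hxs i) (hx i))

/-- Sublevel sets of the entropy-type function are bounded. -/
lemma entropy_sublevel_bdd (xs : ι → ℝ) (hxs : ∀ i, 0 < xs i) (L : ℝ) :
    ∃ B : ℝ, ∀ x : ι → ℝ, (∀ i, 0 < x i) → entropy xs x ≤ L → ∀ i, x i ≤ B := by
  classical
  refine ⟨∑ i, xs i * Real.exp 2 + |L| + ∑ j, xs j, ?_⟩
  intro x hx hL i
  by_contra hcon
  push Not at hcon
  have hS0 : 0 ≤ ∑ j, xs j := Finset.sum_nonneg (fun j _ => (hxs j).le)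
  have hE0 : 0 ≤ ∑ j, xs j * Real.exp 2 :=
    Finset.sum_nonneg (fun j _ => mul_nonneg (hxs j).le (Real.exp_pos 2).le)
  have hi1 : xs i * Real.exp 2 ≤ ∑ j, xs j * Real.exp 2 :=
    Finset.single_le_sum (f := fun j => xs j * Real.exp 2)
      (fun j _ => mul_nonneg (hxs j).le (Real.exp_pos 2).le) (Finset.mem_univ i)
  have hbig : xs i * Real.exp 2 ≤ x i := by linarith [abs_nonneg L]
  have hterm : ∀ j, (if j = i then x j else 0) - xs j
      ≤ x j * (Real.log (x j) - Real.log (xs j) - 1) := by
    intro j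
    by_cases hj : j = i
    · rw [if_pos hj, hj]
      have h := balEntropy_term_big (xs i) (x i) (hxs i) hbig
      linarith [hxs i]
    · rw [if_neg hj]
      have h := balEntropy_term_ge (xs j) (x j) (hxs j) (hx j)
      linarith
  have hsum : ∑ j, ((if j = i then x j else 0) - xs j) ≤ entropy xs x :=
    Finset.sum_le_sum (fun j _ => hterm j)
  rw [Finset.sum_sub_distrib, Finset.sum_ite_eq' Finset.univ i, if_pos (Finset.mem_univ i)]
    at hsum
  linarith [le_abs_self L]

/-- The entropy-type function is bounded above on boxes away from the boundary. -/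
lemma entropy_le_of_box (xs : ι → ℝ) (δ B : ℝ) (hδ : 0 < δ) :
    ∃ G : ℝ, ∀ x : ι → ℝ, (∀ i, δ ≤ x i ∧ x i ≤ B) → entropy xs x ≤ G := by
  refine ⟨∑ i, |B| * (|Real.log δ| + |Real.log B| + |Real.log (xs i)| + 1), ?_⟩
  intro x hx
  unfold entropy
  apply Finset.sum_le_sum
  intro i _
  obtain ⟨h1, h2⟩ := hx i
  have hxi : 0 < x i := lt_of_lt_of_le hδ h1
  have hB : 0 < B := lt_of_lt_of_le hxi h2
  have hl1 : Real.log δ ≤ Real.log (x i) := Real.log_le_log hδ h1
  have hl2 : Real.log (x i) ≤ Real.log B := Real.log_le_log hxi h2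
  have hlog : |Real.log (x i)| ≤ |Real.log δ| + |Real.log B| := by
    rw [abs_le]
    constructor
    · linarith [neg_abs_le (Real.log δ), abs_nonneg (Real.log B)]
    · linarith [le_abs_self (Real.log B), abs_nonneg (Real.log δ)]
  have habs : |Real.log (x i) - Real.log (xs i) - 1|
      ≤ |Real.log δ| + |Real.log B| + |Real.log (xs i)| + 1 := by
    have e1 := abs_sub (Real.log (x i) - Real.log (xs i)) 1
    have e2 := abs_sub (Real.log (x i)) (Real.log (xs i))
    rw [abs_one] at e1
    linarith
  have hxB : |x i| ≤ |B| := abs_le_abs h2 (by linarith)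
  calc x i * (Real.log (x i) - Real.log (xs i) - 1)
      ≤ |x i * (Real.log (x i) - Real.log (xs i) - 1)| := le_abs_self _
    _ = |x i| * |Real.log (x i) - Real.log (xs i) - 1| := abs_mul _ _
    _ ≤ |B| * (|Real.log δ| + |Real.log B| + |Real.log (xs i)| + 1) :=
        mul_le_mul hxB habs (abs_nonneg _) (abs_nonneg _)

/-- Chain rule for the entropy-type function along a positive curve. -/
lemma hasDerivWithinAt_entropy (xs : ι → ℝ) {γ : ℝ → ι → ℝ} {γ' : ι → ℝ} {s : Set ℝ} {t : ℝ}
    (hγ : HasDerivWithinAt γ γ' s t) (hpos : ∀ i, 0 < γ t i) :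
    HasDerivWithinAt (fun τ => entropy xs (γ τ))
      (∑ i, (Real.log (γ t i) - Real.log (xs i)) * γ' i) s t := by
  unfold entropy
  apply HasDerivWithinAt.fun_sum
  intro i _
  have hi : HasDerivWithinAt (fun τ => γ τ i) (γ' i) s t := hasDerivWithinAt_pi.mp hγ i
  have hlog : HasDerivWithinAt (fun τ => Real.log (γ τ i)) (γ' i / γ t i) s t :=
    hi.log (hpos i).ne'
  have hprod := hi.mul ((hlog.sub_const (Real.log (xs i))).sub_const 1)
  have e : γ' i * (Real.log (γ t i) - Real.log (xs i) - 1) + γ t i * (γ' i / γ t i)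
      = (Real.log (γ t i) - Real.log (xs i)) * γ' i := by
    have hne : γ t i ≠ 0 := (hpos i).ne'
    field_simp
    ring
  rw [e] at hprod
  exact hprod

end Vale.Agent.Lib.P072
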