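import Mathlib

/-!
# The Horn-Jackson inequality for a balanced family of weights
-/

namespace Vale.Agent.Lib.P072

open Classical in
/-- Summing over the edges is summing over the vertices of a finite set containing the image,
fibre by fibre. -/
private lemma balHJ_fiber {R C : Type} [Fintype R] (f : R → C) (κ : R → ℝ) (g : C → ℝ)
    (Y : Finset C) (hY : ∀ r, f r ∈ Y) :
    ∑ r, κ r * g (f r) = ∑ y ∈ Y, g y * ∑ r with f r = y, κ r := by
  rw [← Finset.sum_fiberwise_of_maps_to (s := Finset.univ) (t := Y) (g := f) (fun r _ => hY r)]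
  apply Finset.sum_congr rfl
  intro y _
  rw [Finset.mul_sum]
  apply Finset.sum_congr rfl
  intro r hr
  rw [(Finset.mem_filter.mp hr).2]
  ring

/-- The tangent line inequality for the exponential, in the form used below. -/
private lemma balHJ_term (k a b : ℝ) (hk : 0 ≤ k) :
    k * Real.exp a * (b - a) ≤ k * Real.exp b - k * Real.exp a := by
  have h1 := Real.add_one_le_exp (b - a)
  have h2 : Real.exp b = Real.exp a * Real.exp (b - a) := by
    rw [← Real.exp_add]
    congr 1
    ring
  have h3 : 0 < Real.exp a := Real.exp_pos _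
  have h4 : Real.exp a * (b - a + 1) ≤ Real.exp b := by
    rw [h2]
    exact mul_le_mul_of_nonneg_left h1 h3.le
  have h5 := mul_le_mul_of_nonneg_left h4 hk
  have e : k * (Real.exp a * (b - a + 1)) = k * Real.exp a * (b - a) + k * Real.exp a := by ring
  rw [e] at h5
  linarith

open Classical in
/-- If nonnegative weights `κ r` on the edges `src r → tgt r` are balanced at every vertex
(total weight leaving equals total weight entering), then for every function `w` on the
vertices `∑ r, κ r * exp (w (src r)) * (w (tgt r) - w (src r)) ≤ 0`. -/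
theorem balanced_sum_nonpos {R C : Type} [Fintype R] (src tgt : R → C) (κ : R → ℝ)
    (hκ : ∀ r, 0 ≤ κ r)
    (hbal : ∀ y : C, ∑ r with src r = y, κ r = ∑ r with tgt r = y, κ r) (w : C → ℝ) :
    ∑ r, κ r * Real.exp (w (src r)) * (w (tgt r) - w (src r)) ≤ 0 := by
  obtain ⟨Y, hYdef⟩ : ∃ Y : Finset C, Y = Finset.univ.image src ∪ Finset.univ.image tgt :=
    ⟨_, rfl⟩
  have hs : ∀ r, src r ∈ Y := fun r => by
    rw [hYdef]
    exact Finset.mem_union_left _ (Finset.mem_image_of_mem _ (Finset.mem_univ r))
  have ht : ∀ r, tgt r ∈ Y := fun r => by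
    rw [hYdef]
    exact Finset.mem_union_right _ (Finset.mem_image_of_mem _ (Finset.mem_univ r))
  have e1 : ∑ r, κ r * Real.exp (w (src r))
      = ∑ y ∈ Y, Real.exp (w y) * ∑ r with src r = y, κ r :=
    balHJ_fiber src κ (fun y => Real.exp (w y)) Y hs
  have e2 : ∑ r, κ r * Real.exp (w (tgt r))
      = ∑ y ∈ Y, Real.exp (w y) * ∑ r with tgt r = y, κ r :=
    balHJ_fiber tgt κ (fun y => Real.exp (w y)) Y ht
  have e3 : ∑ y ∈ Y, Real.exp (w y) * ∑ r with src r = y, κ r
      = ∑ y ∈ Y, Real.exp (w y) * ∑ r with tgt r = y, κ r :=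
    Finset.sum_congr rfl (fun y _ => by rw [hbal y])
  calc ∑ r, κ r * Real.exp (w (src r)) * (w (tgt r) - w (src r))
      ≤ ∑ r, (κ r * Real.exp (w (tgt r)) - κ r * Real.exp (w (src r))) :=
        Finset.sum_le_sum (fun r _ => balHJ_term (κ r) (w (src r)) (w (tgt r)) (hκ r))
    _ = 0 := by rw [Finset.sum_sub_distrib, e1, e2, e3, sub_self]

end Vale.Agent.Lib.P072
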