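import Mathlib

/-!
# Reduction of the positive kernel vector to a finite vertex type
-/

namespace Vale.Agent.Lib.P072

open Classical in
/-- If on every finite vertex type a weakly reversible weighted graph has, for each vertex, a
nonnegative balanced function positive at that vertex, then a weakly reversible weighted graph
on an arbitrary vertex type has a positive balanced function. -/
theorem exists_pos_kernel_of_fin {R : Type} [Fintype R]
    (hfin : ∀ (C' : Type) [Fintype C'] [DecidableEq C'] (src' tgt' : R → C') (k : R → ℝ),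
      (∀ r, 0 < k r) →
      (∀ r, Relation.TransGen (fun a b => ∃ q, src' q = a ∧ tgt' q = b) (tgt' r) (src' r)) →
      ∀ y₀ : C', ∃ K : C' → ℝ, (∀ y, 0 ≤ K y) ∧ 0 < K y₀ ∧
        ∀ y : C', ∑ r with src' r = y, k r * K (src' r) = ∑ r with tgt' r = y, k r * K (src' r))
    {C : Type} (src tgt : R → C) (k : R → ℝ) (hk : ∀ r, 0 < k r)
    (hwr : ∀ r, Relation.TransGen (fun a b => ∃ q, src q = a ∧ tgt q = b) (tgt r) (src r)) :
    ∃ K : C → ℝ, (∀ y, 0 < K y) ∧
      ∀ y : C, ∑ r with src r = y, k r * K (src r) = ∑ r with tgt r = y, k r * K (src r) := by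
  obtain ⟨S, hS⟩ : ∃ S : Finset C, S = Finset.univ.image src ∪ Finset.univ.image tgt := ⟨_, rfl⟩
  have hsS : ∀ r, src r ∈ S := fun r => by
    rw [hS]; exact Finset.mem_union_left _ (Finset.mem_image_of_mem _ (Finset.mem_univ r))
  have htS : ∀ r, tgt r ∈ S := fun r => by
    rw [hS]; exact Finset.mem_union_right _ (Finset.mem_image_of_mem _ (Finset.mem_univ r))
  have hpath : ∀ (a b : C), Relation.TransGen (fun a b => ∃ q, src q = a ∧ tgt q = b) a b →
      ∀ (ha : a ∈ S) (hb : b ∈ S),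
        Relation.TransGen (fun a b : {y // y ∈ S} =>
          ∃ q, (⟨src q, hsS q⟩ : {y // y ∈ S}) = a ∧ (⟨tgt q, htS q⟩ : {y // y ∈ S}) = b)
          ⟨a, ha⟩ ⟨b, hb⟩ := by
    intro a b h
    induction h with
    | single hab =>
      intro ha hb
      obtain ⟨q, rfl, rfl⟩ := hab
      exact Relation.TransGen.single ⟨q, rfl, rfl⟩
    | tail _ hbc ih =>
      intro ha hc
      obtain ⟨q, rfl, rfl⟩ := hbc
      exact Relation.TransGen.tail (ih ha (hsS q)) ⟨q, rfl, rfl⟩
  have hwr' : ∀ r, Relation.TransGen (fun a b : {y // y ∈ S} =>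
      ∃ q, (⟨src q, hsS q⟩ : {y // y ∈ S}) = a ∧ (⟨tgt q, htS q⟩ : {y // y ∈ S}) = b)
      ⟨tgt r, htS r⟩ ⟨src r, hsS r⟩ := fun r => hpath _ _ (hwr r) (htS r) (hsS r)
  choose Kf hKf0 hKfpos hKfbal using
    hfin {y // y ∈ S} (fun r => ⟨src r, hsS r⟩) (fun r => ⟨tgt r, htS r⟩) k hk hwr'
  have hK'pos : ∀ y : {y // y ∈ S}, 0 < ∑ y₀, Kf y₀ y := fun y =>
    lt_of_lt_of_le (hKfpos y)
      (Finset.single_le_sum (f := fun y₀ => Kf y₀ y) (fun y₀ _ => hKf0 y₀ y) (Finset.mem_univ y))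
  have hK'bal : ∀ y : {y // y ∈ S},
      ∑ r with (⟨src r, hsS r⟩ : {y // y ∈ S}) = y, k r * ∑ y₀, Kf y₀ ⟨src r, hsS r⟩ =
        ∑ r with (⟨tgt r, htS r⟩ : {y // y ∈ S}) = y, k r * ∑ y₀, Kf y₀ ⟨src r, hsS r⟩ := by
    intro y
    simp only [Finset.mul_sum]
    rw [Finset.sum_comm, Finset.sum_comm (s := Finset.filter _ Finset.univ)]
    refine Finset.sum_congr rfl (fun y₀ _ => ?_)
    convert hKfbal y₀ y using 2
  refine ⟨fun y => if h : y ∈ S then ∑ y₀, Kf y₀ ⟨y, h⟩ else 1, ?_, ?_⟩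
  · intro y
    by_cases h : y ∈ S
    · simp only [dif_pos h]; exact hK'pos ⟨y, h⟩
    · simp only [dif_neg h]; exact one_pos
  · intro y
    have e1 : ∀ r, (if h : src r ∈ S then ∑ y₀, Kf y₀ ⟨src r, h⟩ else 1) =
        ∑ y₀, Kf y₀ ⟨src r, hsS r⟩ := fun r => dif_pos (hsS r)
    simp only [e1]
    by_cases h : y ∈ S
    · have hb := hK'bal ⟨y, h⟩
      have f1 : (Finset.univ.filter fun r => src r = y) =
          Finset.univ.filter fun r => (⟨src r, hsS r⟩ : {y // y ∈ S}) = ⟨y, h⟩ := by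
        ext r; simp [Subtype.ext_iff]
      have f2 : (Finset.univ.filter fun r => tgt r = y) =
          Finset.univ.filter fun r => (⟨tgt r, htS r⟩ : {y // y ∈ S}) = ⟨y, h⟩ := by
        ext r; simp [Subtype.ext_iff]
      rw [f1, f2]
      exact hb
    · have f1 : (Finset.univ.filter fun r => src r = y) = ∅ := by
        rw [Finset.filter_eq_empty_iff]
        intro r _ hr
        exact h (hr ▸ hsS r)
      have f2 : (Finset.univ.filter fun r => tgt r = y) = ∅ := by
        rw [Finset.filter_eq_empty_iff]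
        intro r _ hr
        exact h (hr ▸ htS r)
      rw [f1, f2]

end Vale.Agent.Lib.P072
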