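import Vale.Agent.Lib.P072.BalKernelFin
import Vale.Agent.Lib.P072.BalKernelRed

/-!
# A positive kernel vector of the Laplacian of a weakly reversible weighted graph
-/

namespace Vale.Agent.Lib.P072

open Classical in
/-- For a weakly reversible graph of reactions `src r → tgt r` with positive weights `k r`
there is a positive function `K` on the complexes that is balanced at every complex: the
total of `k r * K (src r)` over the reactions leaving `y` equals the total over the reactions
entering `y`. -/
theorem exists_pos_kernel {R C : Type} [Fintype R] (src tgt : R → C) (k : R → ℝ)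
    (hk : ∀ r, 0 < k r)
    (hwr : ∀ r, Relation.TransGen (fun a b => ∃ q, src q = a ∧ tgt q = b) (tgt r) (src r)) :
    ∃ K : C → ℝ, (∀ y, 0 < K y) ∧
      ∀ y : C, ∑ r with src r = y, k r * K (src r) = ∑ r with tgt r = y, k r * K (src r) := by
  refine exists_pos_kernel_of_fin ?_ src tgt k hk hwr
  intro C' _ _ src' tgt' k' hk' hwr' y₀
  obtain ⟨K, h1, h2, h3⟩ := exists_nonneg_kernel_fin src' tgt' k' hk' hwr' y₀
  refine ⟨K, h1, h2, fun y => ?_⟩
  convert h3 y

end Vale.Agent.Lib.P072
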