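import Mathlib

/-!
# A nonnegative kernel vector of the Laplacian of a weakly reversible weighted graph on a
finite vertex type, positive at a prescribed vertex
-/

namespace Vale.Agent.Lib.P072

/-- The total inflow minus the total outflow, summed over all vertices, vanishes. -/
private lemma bal_colsum {R C : Type} [Fintype R] [Fintype C] [DecidableEq C]
    (src tgt : R → C) (g : R → ℝ) :
    ∑ y : C, (∑ r with tgt r = y, g r - ∑ r with src r = y, g r) = 0 := by
  rw [Finset.sum_sub_distrib, Finset.sum_fiberwise, Finset.sum_fiberwise, sub_self]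

/-- A nonzero signed kernel vector supported on a set of vertices that contains `y₀` and is
closed under the reactions. -/
private lemma bal_exists_kernel {R C : Type} [Fintype R] [Fintype C] [DecidableEq C]
    (src tgt : R → C) (k : R → ℝ) (L : Set C) (y₀ : C) (hy₀ : y₀ ∈ L)
    (hL : ∀ r, src r ∈ L → tgt r ∈ L) :
    ∃ z : C → ℝ, z ≠ 0 ∧ (∀ y, y ∉ L → z y = 0) ∧
      ∀ y, ∑ r with tgt r = y, k r * z (src r) = ∑ r with src r = y, k r * z (src r) := by
  classical
  let A : (C → ℝ) →ₗ[ℝ] (C → ℝ) :=
    { toFun := fun z y =>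
        ∑ r with tgt r = y, k r * z (src r) - ∑ r with src r = y, k r * z (src r)
      map_add' := by
        intro z w
        funext y
        simp only [Pi.add_apply, mul_add, Finset.sum_add_distrib]
        ring
      map_smul' := by
        intro c z
        funext y
        simp only [Pi.smul_apply, smul_eq_mul, RingHom.id_apply, mul_sub, Finset.mul_sum]
        congr 1 <;> (apply Finset.sum_congr rfl; intro r _; ring) }
  have hA : ∀ (z : C → ℝ) (y : C), A z y
      = ∑ r with tgt r = y, k r * z (src r) - ∑ r with src r = y, k r * z (src r) :=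
    fun z y => rfl
  let V : Submodule ℝ (C → ℝ) :=
    { carrier := {z | ∀ y, y ∉ L → z y = 0}
      add_mem' := by
        intro z w hz hw y hy
        simp [hz y hy, hw y hy]
      zero_mem' := by
        intro y _
        rfl
      smul_mem' := by
        intro c z hz y hy
        simp [hz y hy] }
  have hAV : ∀ z ∈ V, A z ∈ V := by
    intro z hz y hy
    rw [hA]
    have h1 : ∑ r with tgt r = y, k r * z (src r) = 0 := by
      apply Finset.sum_eq_zero
      intro r hr
      have hr' : tgt r = y := (Finset.mem_filter.mp hr).2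
      have hsr : src r ∉ L := fun h => hy (hr' ▸ hL r h)
      rw [hz _ hsr, mul_zero]
    have h2 : ∑ r with src r = y, k r * z (src r) = 0 := by
      apply Finset.sum_eq_zero
      intro r hr
      have hr' : src r = y := (Finset.mem_filter.mp hr).2
      rw [hr', hz y hy, mul_zero]
    rw [h1, h2, sub_zero]
  have hsum : ∀ z : C → ℝ, ∑ y, A z y = 0 := by
    intro z
    simp only [hA]
    exact bal_colsum src tgt (fun r => k r * z (src r))
  have hnot : ¬ Function.Surjective (A.restrict hAV) := by
    intro hsurj
    have hmem : (Pi.single y₀ (1 : ℝ) : C → ℝ) ∈ V := by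
      intro y hy
      have hne : y ≠ y₀ := fun h => hy (h ▸ hy₀)
      simp [hne]
    obtain ⟨w, hw⟩ := hsurj ⟨Pi.single y₀ 1, hmem⟩
    have h1 : A (w : C → ℝ) = Pi.single y₀ 1 := by
      have h0 := congrArg Subtype.val hw
      simpa [LinearMap.coe_restrict_apply] using h0
    have h2 := hsum (w : C → ℝ)
    rw [h1] at h2
    simp at h2
  have hker : LinearMap.ker (A.restrict hAV) ≠ ⊥ := fun h =>
    hnot (LinearMap.injective_iff_surjective.mp (LinearMap.ker_eq_bot.mp h))
  obtain ⟨z, hz, hz0⟩ := (Submodule.ne_bot_iff _).mp hker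
  refine ⟨(z : C → ℝ), ?_, z.2, ?_⟩
  · intro h
    exact hz0 (Subtype.ext h)
  · intro y
    have h1 : A (z : C → ℝ) = 0 := by
      have h0 := congrArg Subtype.val (LinearMap.mem_ker.mp hz)
      simpa [LinearMap.coe_restrict_apply] using h0
    have h2 := congrFun h1 y
    rw [hA] at h2
    exact sub_eq_zero.mp h2

/-- The absolute value of a signed kernel vector is again a kernel vector. -/
private lemma bal_abs {R C : Type} [Fintype R] [Fintype C] [DecidableEq C]
    (src tgt : R → C) (k : R → ℝ) (hk : ∀ r, 0 < k r) (z : C → ℝ)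
    (hz : ∀ y, ∑ r with tgt r = y, k r * z (src r) = ∑ r with src r = y, k r * z (src r)) :
    ∀ y, ∑ r with src r = y, k r * |z (src r)| = ∑ r with tgt r = y, k r * |z (src r)| := by
  have hle : ∀ y, ∑ r with src r = y, k r * |z (src r)|
      ≤ ∑ r with tgt r = y, k r * |z (src r)| := by
    intro y
    have h1 : ∑ r with src r = y, k r * z (src r) = (∑ r with src r = y, k r) * z y := by
      rw [Finset.sum_mul]
      apply Finset.sum_congr rfl
      intro r hr
      rw [(Finset.mem_filter.mp hr).2]
    have h2 : ∑ r with src r = y, k r * |z (src r)| = (∑ r with src r = y, k r) * |z y| := by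
      rw [Finset.sum_mul]
      apply Finset.sum_congr rfl
      intro r hr
      rw [(Finset.mem_filter.mp hr).2]
    have h3 : 0 ≤ ∑ r with src r = y, k r := Finset.sum_nonneg (fun r _ => (hk r).le)
    calc ∑ r with src r = y, k r * |z (src r)| = |(∑ r with src r = y, k r) * z y| := by
          rw [h2, abs_mul, abs_of_nonneg h3]
      _ = |∑ r with tgt r = y, k r * z (src r)| := by rw [← h1, hz y]
      _ ≤ ∑ r with tgt r = y, |k r * z (src r)| := Finset.abs_sum_le_sum_abs _ _
      _ = ∑ r with tgt r = y, k r * |z (src r)| := by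
          apply Finset.sum_congr rfl
          intro r _
          rw [abs_mul, abs_of_pos (hk r)]
  have hsum : ∑ y : C, (∑ r with tgt r = y, k r * |z (src r)|
      - ∑ r with src r = y, k r * |z (src r)|) = 0 :=
    bal_colsum src tgt (fun r => k r * |z (src r)|)
  have hzero := (Finset.sum_eq_zero_iff_of_nonneg
    (fun y _ => sub_nonneg.mpr (hle y))).mp hsum
  intro y
  have h4 := hzero y (Finset.mem_univ y)
  linarith

/-- The zero set of a nonnegative kernel vector is closed under going backward along a
reaction. -/
private lemma bal_zero_back {R C : Type} [Fintype R] [Fintype C] [DecidableEq C]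
    (src tgt : R → C) (k : R → ℝ) (hk : ∀ r, 0 < k r) (K : C → ℝ) (hK : ∀ y, 0 ≤ K y)
    (hbal : ∀ y, ∑ r with src r = y, k r * K (src r) = ∑ r with tgt r = y, k r * K (src r))
    (r : R) (h0 : K (tgt r) = 0) : K (src r) = 0 := by
  have h1 : ∑ q with src q = tgt r, k q * K (src q) = 0 := by
    apply Finset.sum_eq_zero
    intro q hq
    rw [(Finset.mem_filter.mp hq).2, h0, mul_zero]
  have h2 : ∑ q with tgt q = tgt r, k q * K (src q) = 0 := by rw [← hbal, h1]
  have h3 := (Finset.sum_eq_zero_iff_of_nonneg
    (fun q _ => mul_nonneg (hk q).le (hK (src q)))).mp h2 r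
    (Finset.mem_filter.mpr ⟨Finset.mem_univ r, rfl⟩)
  rcases mul_eq_zero.mp h3 with h | h
  · exact absurd h (hk r).ne'
  · exact h

/-- For a weakly reversible graph of reactions `src r → tgt r` on a finite vertex type, with
positive weights `k r`, and a vertex `y₀`, there is a nonnegative function `K` on the vertices,
positive at `y₀`, that is balanced at every vertex: the total of `k r * K (src r)` over the
reactions leaving `y` equals the total over the reactions entering `y`. -/
theorem exists_nonneg_kernel_fin {R C : Type} [Fintype R] [Fintype C] [DecidableEq C]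
    (src tgt : R → C) (k : R → ℝ) (hk : ∀ r, 0 < k r)
    (hwr : ∀ r, Relation.TransGen (fun a b => ∃ q, src q = a ∧ tgt q = b) (tgt r) (src r))
    (y₀ : C) :
    ∃ K : C → ℝ, (∀ y, 0 ≤ K y) ∧ 0 < K y₀ ∧
      ∀ y : C, ∑ r with src r = y, k r * K (src r) = ∑ r with tgt r = y, k r * K (src r) := by
  obtain ⟨step, hstep⟩ : ∃ step : C → C → Prop,
      step = fun a b => ∃ q, src q = a ∧ tgt q = b := ⟨_, rfl⟩
  rw [← hstep] at hwr
  have hstepr : ∀ r, step (src r) (tgt r) := by
    intro r
    rw [hstep]
    exact ⟨r, rfl, rfl⟩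
  have hback : ∀ y, Relation.ReflTransGen step y₀ y → Relation.ReflTransGen step y y₀ := by
    intro y hy
    induction hy with
    | refl => exact Relation.ReflTransGen.refl
    | tail _ hbc ih =>
      rw [hstep] at hbc
      obtain ⟨q, rfl, rfl⟩ := hbc
      exact (hwr q).to_reflTransGen.trans ih
  obtain ⟨z, hz0, hzL, hzbal⟩ := bal_exists_kernel src tgt k
    {y | Relation.ReflTransGen step y₀ y} y₀ Relation.ReflTransGen.refl
    (fun r hr => Relation.ReflTransGen.tail hr (hstepr r))
  have hKbal := bal_abs src tgt k hk z hzbal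
  have hzeroback : ∀ a b, Relation.ReflTransGen step a b → |z b| = 0 → |z a| = 0 := by
    intro a b hab
    induction hab with
    | refl => exact id
    | tail _ hbc ih =>
      intro hc
      rw [hstep] at hbc
      obtain ⟨q, rfl, rfl⟩ := hbc
      exact ih (bal_zero_back src tgt k hk (fun y => |z y|) (fun y => abs_nonneg _) hKbal q hc)
  obtain ⟨y₁, hy₁⟩ : ∃ y₁, z y₁ ≠ 0 := by
    by_contra h
    push Not at h
    exact hz0 (funext h)
  have hy₁L : Relation.ReflTransGen step y₀ y₁ := by
    by_contra h
    exact hy₁ (hzL y₁ h)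
  have hne : |z y₀| ≠ 0 := by
    intro h
    exact hy₁ (abs_eq_zero.mp (hzeroback y₁ y₀ (hback y₁ hy₁L) h))
  exact ⟨fun y => |z y|, fun y => abs_nonneg _, lt_of_le_of_ne (abs_nonneg _) (Ne.symm hne),
    hKbal⟩

end Vale.Agent.Lib.P072
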