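import Vale.Agent.Lib.P072.BalSafe
import Vale.Agent.Lib.P072.BalEntropy

/-!
# Repulsion from the origin: the safe set is forward invariant and absorbing
-/

namespace Vale.Agent.Lib.P072

open Set

set_option linter.unusedSectionVars false

variable {R ι : Type} [Fintype R] [Fintype ι]

/-- The entropy-type function along a positive solution has the dissipation as its one-sided
derivative. -/
private lemma balRepel_hasDeriv (N : MAS R ι) (xs : ι → ℝ) {x : ℝ → ι → ℝ} (hx : N.IsSol x)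
    (hpos : ∀ t, 0 ≤ t → ∀ i, 0 < x t i) {t : ℝ} (ht : 0 ≤ t) :
    HasDerivWithinAt (fun τ => entropy xs (x τ)) (N.dissip xs (x t)) (Ici 0) t :=
  hasDerivWithinAt_entropy xs (hx t ht) (hpos t ht)

/-- Linear decay of the entropy-type function when the dissipation is at most `-η`. -/
private lemma balRepel_decay (N : MAS R ι) (xs : ι → ℝ) {x : ℝ → ι → ℝ} (hx : N.IsSol x)
    (hpos : ∀ t, 0 ≤ t → ∀ i, 0 < x t i) {a b : ℝ} (ha : 0 ≤ a) (hab : a ≤ b) (η : ℝ)
    (hneg : ∀ t ∈ Ico a b, N.dissip xs (x t) ≤ -η) :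
    entropy xs (x b) ≤ entropy xs (x a) - η * (b - a) := by
  have hcont : ContinuousOn (fun τ => entropy xs (x τ)) (Icc a b) := by
    intro t ht
    have h0 : 0 ≤ t := le_trans ha ht.1
    exact ((balRepel_hasDeriv N xs hx hpos h0).continuousWithinAt).mono
      (fun s hs => le_trans ha hs.1)
  have hB : ∀ t : ℝ, HasDerivAt (fun τ : ℝ => entropy xs (x a) - η * (τ - a)) (-η) t := by
    intro t
    have h1 : HasDerivAt (fun τ : ℝ => η * (τ - a)) (η * 1) t :=
      ((hasDerivAt_id t).sub_const a).const_mul η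
    have h2 := (hasDerivAt_const t (entropy xs (x a))).sub h1
    have e : (0 : ℝ) - η * 1 = -η := by ring
    rw [e] at h2
    exact h2
  have key := image_le_of_deriv_right_le_deriv_boundary (f := fun τ => entropy xs (x τ))
    (f' := fun t => N.dissip xs (x t)) (a := a) (b := b) hcont
    (fun t ht => (balRepel_hasDeriv N xs hx hpos (le_trans ha ht.1)).mono
      (Ici_subset_Ici.mpr (le_trans ha ht.1)))
    (B := fun t => entropy xs (x a) - η * (t - a)) (B' := fun _ => -η)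
    (by simp) (fun t _ => (hB t).continuousAt.continuousWithinAt)
    (fun t _ => (hB t).hasDerivWithinAt) hneg
  exact key (right_mem_Icc.mpr hab)

/-- Along a positive solution the entropy-type function does not increase on an interval on
which its dissipation is nonpositive. -/
lemma entropy_antitone_of_dissip (N : MAS R ι) (xs : ι → ℝ) {x : ℝ → ι → ℝ} (hx : N.IsSol x)
    (hpos : ∀ t, 0 ≤ t → ∀ i, 0 < x t i) {a b : ℝ} (ha : 0 ≤ a) (hab : a ≤ b)
    (hneg : ∀ t ∈ Ico a b, N.dissip xs (x t) ≤ 0) :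
    entropy xs (x b) ≤ entropy xs (x a) := by
  have h := balRepel_decay N xs hx hpos ha hab 0 (by simpa using hneg)
  simpa using h

/-- Near the origin the entropy-type function is at most minus the sum of the coordinates. -/
private lemma balRepel_factA (xs y : ι → ℝ) (ρ : ℝ) (hy : ∀ i, 0 < y i) (hyρ : ∀ i, y i ≤ ρ)
    (hρxs : ∀ i, ρ ≤ xs i) : entropy xs y ≤ -∑ i, y i := by
  unfold entropy
  rw [← Finset.sum_neg_distrib]
  refine Finset.sum_le_sum fun i _ => ?_
  have h1 : Real.log (y i) ≤ Real.log (xs i) :=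
    Real.log_le_log (hy i) ((hyρ i).trans (hρxs i))
  nlinarith [hy i]

/-- Near the origin the entropy-type function is at most minus any coordinate. -/
private lemma balRepel_factA' (xs y : ι → ℝ) (ρ : ℝ) (hy : ∀ i, 0 < y i) (hyρ : ∀ i, y i ≤ ρ)
    (hρxs : ∀ i, ρ ≤ xs i) (j : ι) : entropy xs y ≤ -(y j) := by
  have h := balRepel_factA xs y ρ hy hyρ hρxs
  have h2 : y j ≤ ∑ i, y i :=
    Finset.single_le_sum (f := y) (fun i _ => (hy i).le) (Finset.mem_univ j)
  linarith

/-- Near the origin the dissipation is negative. -/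
private lemma balRepel_factB [Nonempty ι] (N : MAS R ι) (xs : ι → ℝ) (c : ι → ℝ) (δ B ρ : ℝ)
    (hρδ : ρ < δ)
    (h : ∀ x ∈ N.posClass c, (∀ i, δ ≤ x i ∧ x i ≤ B) ∨ N.dissip xs x < 0)
    (y : ι → ℝ) (hy : y ∈ N.posClass c) (hyρ : ∀ i, y i ≤ ρ) : N.dissip xs y < 0 := by
  rcases h y hy with hbox | hneg
  · exfalso
    obtain ⟨i⟩ := ‹Nonempty ι›
    have h1 := (hbox i).1
    have h2 := hyρ i
    linarith
  · exact hneg

/-- The safe set is forward invariant. -/
lemma safe_invariant [Nonempty ι] (N : MAS R ι) (xs : ι → ℝ) (c : ι → ℝ) (δ B ρ : ℝ)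
    (hρ : 0 < ρ) (hρδ : ρ < δ) (hρxs : ∀ i, ρ ≤ xs i)
    (h : ∀ x ∈ N.posClass c, (∀ i, δ ≤ x i ∧ x i ≤ B) ∨ N.dissip xs x < 0)
    {x : ℝ → ι → ℝ} (hx : N.IsSol x) (hP : ∀ t, 0 ≤ t → x t ∈ N.posClass c)
    {t₀ : ℝ} (ht₀ : 0 ≤ t₀) (h0 : x t₀ ∈ safeSet xs ρ) :
    ∀ t, t₀ ≤ t → x t ∈ safeSet xs ρ := by
  intro t₁ ht₁
  by_contra hcon
  have hpos : ∀ t, 0 ≤ t → ∀ i, 0 < x t i := fun t ht => (hP t ht).1
  have hcon1 : ∀ i, x t₁ i < ρ := by
    intro i
    by_contra hi
    exact hcon (Or.inl ⟨i, not_lt.mp hi⟩)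
  have hcon2 : -(ρ / 2) < entropy xs (x t₁) := by
    by_contra hi
    exact hcon (Or.inr (not_lt.mp hi))
  have hxc : ContinuousOn x (Ici 0) := fun t ht => (hx t ht).continuousWithinAt
  have hxci : ∀ i, ContinuousOn (fun t => x t i) (Ici 0) :=
    fun i => (continuous_apply i).comp_continuousOn hxc
  -- a time `s` with small entropy after which all coordinates stay at most `ρ`
  have hs : ∃ s ∈ Icc t₀ t₁, entropy xs (x s) ≤ -(ρ / 2) ∧
      ∀ t ∈ Icc s t₁, ∀ i, x t i ≤ ρ := by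
    let A : Set ℝ := {t | t ∈ Icc t₀ t₁ ∧ ∃ i, ρ ≤ x t i}
    rcases A.eq_empty_or_nonempty with hA | hA
    · have hall : ∀ t ∈ Icc t₀ t₁, ∀ i, x t i < ρ := by
        intro t ht i
        by_contra hi
        have : t ∈ A := ⟨ht, i, not_lt.mp hi⟩
        rw [hA] at this
        exact this
      refine ⟨t₀, left_mem_Icc.mpr ht₁, ?_, fun t ht i => (hall t ht i).le⟩
      rcases h0 with ⟨i, hi⟩ | h0
      · exact absurd hi (not_le.mpr (hall t₀ (left_mem_Icc.mpr ht₁) i))
      · exact h0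
    · have hAeq : A = ⋃ i, (Icc t₀ t₁ ∩ (fun t => x t i) ⁻¹' Ici ρ) := by
        ext t
        simp only [A, mem_ofPred_eq, mem_iUnion, mem_inter_iff, mem_preimage, mem_Ici]
        constructor
        · rintro ⟨h1, i, h2⟩
          exact ⟨i, h1, h2⟩
        · rintro ⟨i, h1, h2⟩
          exact ⟨h1, i, h2⟩
      have hAclosed : IsClosed A := by
        rw [hAeq]
        refine isClosed_iUnion_of_finite fun i => ?_
        exact ((hxci i).mono (fun t ht => le_trans ht₀ ht.1)).preimage_isClosed_of_isClosed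
          isClosed_Icc isClosed_Ici
      have hAsub : A ⊆ Icc t₀ t₁ := fun t ht => ht.1
      have hAcomp : IsCompact A := isCompact_Icc.of_isClosed_subset hAclosed hAsub
      obtain ⟨s, hsA, hsmax⟩ := hAcomp.exists_isGreatest hA
      have hst : s < t₁ := by
        rcases lt_or_eq_of_le hsA.1.2 with hlt | heq
        · exact hlt
        · exfalso
          obtain ⟨i, hi⟩ := hsA.2
          rw [heq] at hi
          exact absurd hi (not_le.mpr (hcon1 i))
      have hs0 : 0 ≤ s := le_trans ht₀ hsA.1.1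
      have hafter : ∀ t ∈ Ioc s t₁, ∀ i, x t i < ρ := by
        intro t ht i
        by_contra hi
        have htA : t ∈ A := ⟨⟨le_trans hsA.1.1 ht.1.le, ht.2⟩, i, not_lt.mp hi⟩
        exact absurd (hsmax htA) (not_le.mpr ht.1)
      have hat : ∀ i, x s i ≤ ρ := by
        intro i
        have hcl : s ∈ closure (Ioc s t₁) := by
          rw [closure_Ioc hst.ne]
          exact left_mem_Icc.mpr hst.le
        have hcw : ContinuousWithinAt (fun t => x t i) (Ioc s t₁) s :=
          ((hxci i) s hs0).mono (fun t ht => le_trans hs0 ht.1.le)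
        exact ContinuousWithinAt.closure_le hcl hcw continuousWithinAt_const
          (fun t ht => (hafter t ht i).le)
      refine ⟨s, hsA.1, ?_, ?_⟩
      · obtain ⟨j, hj⟩ := hsA.2
        have hA' := balRepel_factA' xs (x s) ρ (hpos s hs0) hat hρxs j
        linarith
      · intro t ht i
        rcases eq_or_lt_of_le ht.1 with heq | hlt
        · rw [← heq]
          exact hat i
        · exact (hafter t ⟨hlt, ht.2⟩ i).le
  obtain ⟨s, hsI, hVs, hall⟩ := hs
  have hs0 : 0 ≤ s := le_trans ht₀ hsI.1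
  have hanti := entropy_antitone_of_dissip N xs hx hpos hs0 hsI.2
    (fun t ht => (balRepel_factB N xs c δ B ρ hρδ h (x t) (hP t (le_trans hs0 ht.1))
      (hall t ⟨ht.1, ht.2.le⟩)).le)
  linarith

/-- Every solution enters the safe set. -/
lemma safe_absorb [Nonempty ι] (N : MAS R ι) (xs : ι → ℝ) (hxs : ∀ i, 0 < xs i) (c : ι → ℝ)
    (δ B ρ : ℝ) (hρ : 0 < ρ) (hρδ : ρ < δ) (hρxs : ∀ i, ρ ≤ xs i)
    (h : ∀ x ∈ N.posClass c, (∀ i, δ ≤ x i ∧ x i ≤ B) ∨ N.dissip xs x < 0)
    (hη : ∀ u : ℝ, 0 < u → ∃ η : ℝ, 0 < η ∧ ∀ x ∈ N.posClass c, (∀ i, x i ≤ ρ) →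
      entropy xs x ≤ -u → N.dissip xs x ≤ -η)
    {x : ℝ → ι → ℝ} (hx : N.IsSol x) (hP : ∀ t, 0 ≤ t → x t ∈ N.posClass c) :
    ∃ T, 0 ≤ T ∧ x T ∈ safeSet xs ρ := by
  by_contra hcon
  push Not at hcon
  have hpos : ∀ t, 0 ≤ t → ∀ i, 0 < x t i := fun t ht => (hP t ht).1
  have hsmall : ∀ t, 0 ≤ t → ∀ i, x t i ≤ ρ := by
    intro t ht i
    by_contra hi
    exact hcon t ht (Or.inl ⟨i, (not_le.mp hi).le⟩)
  have hV0 : entropy xs (x 0) < 0 := by
    obtain ⟨j⟩ := ‹Nonempty ι›
    have h1 := balRepel_factA' xs (x 0) ρ (hpos 0 le_rfl) (hsmall 0 le_rfl) hρxs j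
    have h2 := hpos 0 le_rfl j
    linarith
  have hVle : ∀ t, 0 ≤ t → entropy xs (x t) ≤ entropy xs (x 0) := by
    intro t ht
    exact entropy_antitone_of_dissip N xs hx hpos le_rfl ht
      (fun τ hτ => (balRepel_factB N xs c δ B ρ hρδ h (x τ) (hP τ hτ.1) (hsmall τ hτ.1)).le)
  obtain ⟨η, hηpos, hηb⟩ := hη (-(entropy xs (x 0))) (by linarith)
  have hS0 : 0 ≤ ∑ i, xs i := Finset.sum_nonneg (fun i _ => (hxs i).le)
  have hb0 : 0 ≤ (∑ i, xs i + 1) / η := div_nonneg (by linarith) hηpos.le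
  have hdec := balRepel_decay N xs hx hpos le_rfl hb0 η
    (fun τ hτ => hηb (x τ) (hP τ hτ.1) (hsmall τ hτ.1) (by linarith [hVle τ hτ.1]))
  have hge := entropy_ge xs (x ((∑ i, xs i + 1) / η)) hxs (hpos _ hb0)
  have e : η * ((∑ i, xs i + 1) / η - 0) = ∑ i, xs i + 1 := by
    field_simp
    ring
  rw [e] at hdec
  linarith

end Vale.Agent.Lib.P072
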