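import Vale.Agent.Lib.P072.DefsTV

/-!
# Classical solutions and integral solutions for constant rates

For the constant rate functions `fun r _ => N.rate r` the integral solutions of `DefsTV` are
exactly the classical solutions of `Defs`.  The rate constants of a system lie in `[ε, ε⁻¹]` for
some `ε > 0`.
-/

namespace Vale.Agent.Lib.P072

open Set MeasureTheory

variable {R ι : Type} [Fintype R] [Fintype ι]

/-- The mass-action vector field is continuous. -/
lemma bridge_continuous_field (N : MAS R ι) : Continuous N.field := by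
  unfold MAS.field mono
  have h1 : ∀ r, Continuous (fun x : ι → ℝ => N.rate r * ∏ i, x i ^ N.src r i) := fun r =>
    continuous_const.mul (continuous_finsetProd _ (fun i _ => (continuous_apply i).pow _))
  exact continuous_finsetSum _ (fun r _ => (h1 r).smul continuous_const)

lemma isSol_iff_isSolAt_const (N : MAS R ι) (x : ℝ → ι → ℝ) :
    N.IsSol x ↔ N.IsSolAt (fun r _ => N.rate r) x := by
  have hfield : ∀ (s : ℝ) (y : ι → ℝ), N.fieldAt (fun r _ => N.rate r) s y = N.field y :=
    fun _ _ => rfl
  constructor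
  · intro hsol
    have hc : ContinuousOn x (Ici 0) := fun t ht => (hsol t ht).continuousWithinAt
    refine ⟨hc, ?_⟩
    intro t ht
    simp only [hfield]
    have hcont : ContinuousOn x (Icc 0 t) := hc.mono Icc_subset_Ici_self
    have hderiv : ∀ s ∈ Ioo (0 : ℝ) t, HasDerivWithinAt x (N.field (x s)) (Ioi s) s :=
      fun s hs => (hsol s hs.1.le).mono (Ioi_subset_Ici hs.1.le)
    have hfc : ContinuousOn (fun s => N.field (x s)) (uIcc 0 t) := by
      rw [uIcc_of_le ht]
      exact (bridge_continuous_field N).comp_continuousOn hcont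
    have hint : IntervalIntegrable (fun s => N.field (x s)) volume 0 t :=
      hfc.intervalIntegrable
    have key := intervalIntegral.integral_eq_sub_of_hasDeriv_right_of_le ht hcont hderiv hint
    rw [key]
    abel
  · rintro ⟨hc, hint⟩
    intro t ht
    simp only [hfield] at hint
    have hgc : Continuous (fun s : ℝ => N.field (x (max s 0))) := by
      refine (bridge_continuous_field N).comp ?_
      exact hc.comp_continuous (continuous_id.max continuous_const) (fun s => le_max_right s 0)
    have hG : HasDerivAt (fun u : ℝ => x 0 + ∫ s in (0 : ℝ)..u, N.field (x (max s 0)))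
        (N.field (x (max t 0))) t :=
      ((hgc.integral_hasStrictDerivAt 0 t).hasDerivAt).const_add (x 0)
    have hmax : max t 0 = t := max_eq_left ht
    rw [hmax] at hG
    have heq : ∀ u ∈ Ici (0 : ℝ), x u = x 0 + ∫ s in (0 : ℝ)..u, N.field (x (max s 0)) := by
      intro u hu
      have hu0 : (0 : ℝ) ≤ u := hu
      rw [hint u hu0]
      congr 1
      refine intervalIntegral.integral_congr (fun s hs => ?_)
      rw [uIcc_of_le hu0] at hs
      rw [max_eq_left hs.1]
    exact hG.hasDerivWithinAt.congr heq (heq t ht)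

omit [Fintype ι] in
lemma exists_rate_bounds (N : MAS R ι) :
    ∃ ε : ℝ, 0 < ε ∧ ∀ r, ε ≤ N.rate r ∧ N.rate r ≤ ε⁻¹ := by
  have hterm : ∀ r, 0 ≤ N.rate r + (N.rate r)⁻¹ := fun r =>
    add_nonneg (N.rate_pos r).le (inv_nonneg.2 (N.rate_pos r).le)
  have hS : 0 ≤ ∑ r, (N.rate r + (N.rate r)⁻¹) := Finset.sum_nonneg (fun r _ => hterm r)
  have hle : ∀ r, N.rate r + (N.rate r)⁻¹ ≤ ∑ r, (N.rate r + (N.rate r)⁻¹) := fun r =>
    Finset.single_le_sum (fun r _ => hterm r) (Finset.mem_univ r)
  have hpos : 0 < 1 + ∑ r, (N.rate r + (N.rate r)⁻¹) := by linarith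
  refine ⟨(1 + ∑ r, (N.rate r + (N.rate r)⁻¹))⁻¹, inv_pos.2 hpos, ?_⟩
  intro r
  have hr := N.rate_pos r
  have hinv : 0 < (N.rate r)⁻¹ := inv_pos.2 hr
  constructor
  · rw [inv_le_comm₀ hpos hr]
    linarith [hle r]
  · rw [inv_inv]
    linarith [hle r]

end Vale.Agent.Lib.P072
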