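import Mathlib

/-!
# Barrier lemmas for functions given by integrals
-/

namespace Vale.Agent.Lib.P072

open Set MeasureTheory

/-- A scalar function with integral increments cannot cross a level from above while its
integrand is nonnegative below that level. -/
lemma scalar_barrier_ge {u h : ℝ → ℝ} {a b l : ℝ} (hu : ContinuousOn u (Icc a b))
    (hint : ∀ s t, a ≤ s → s ≤ t → t ≤ b → u t - u s = ∫ τ in s..t, h τ)
    (ha : l ≤ u a) (hsign : ∀ s ∈ Icc a b, u s < l → 0 ≤ h s) :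
    ∀ t ∈ Icc a b, l ≤ u t := by
  intro t ht
  by_contra hcon
  push Not at hcon
  set S : Set ℝ := Icc a t ∩ u ⁻¹' (Ici l) with hS
  have hScl : IsClosed S :=
    (hu.mono (Icc_subset_Icc le_rfl ht.2)).preimage_isClosed_of_isClosed isClosed_Icc isClosed_Ici
  have hScomp : IsCompact S := isCompact_Icc.of_isClosed_subset hScl inter_subset_left
  have hSne : S.Nonempty := ⟨a, ⟨le_rfl, ht.1⟩, ha⟩
  have hs₀ := hScomp.sSup_mem hSne
  set s₀ := sSup S with hs₀def
  have hs₀t : s₀ ≤ t := hs₀.1.2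
  have hlt : ∀ s, s₀ < s → s ≤ t → u s < l := by
    intro s hs1 hs2
    by_contra hne
    push Not at hne
    have hmem : s ∈ S := ⟨⟨le_trans hs₀.1.1 hs1.le, hs2⟩, hne⟩
    have := le_csSup hScomp.bddAbove hmem
    linarith
  have h1 := hint s₀ t hs₀.1.1 hs₀t ht.2
  have h2 : 0 ≤ ∫ τ in s₀..t, h τ := by
    rw [intervalIntegral.integral_of_le hs₀t]
    exact setIntegral_nonneg measurableSet_Ioc (fun τ hτ =>
      hsign τ ⟨le_trans hs₀.1.1 hτ.1.le, le_trans hτ.2 ht.2⟩ (hlt τ hτ.1 hτ.2))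
  have h3 : l ≤ u s₀ := hs₀.2
  linarith

/-- The symmetric statement for crossing a level from below. -/
lemma scalar_barrier_le {u h : ℝ → ℝ} {a b l : ℝ} (hu : ContinuousOn u (Icc a b))
    (hint : ∀ s t, a ≤ s → s ≤ t → t ≤ b → u t - u s = ∫ τ in s..t, h τ)
    (ha : u a ≤ l) (hsign : ∀ s ∈ Icc a b, l < u s → h s ≤ 0) :
    ∀ t ∈ Icc a b, u t ≤ l := by
  intro t ht
  have := scalar_barrier_ge (u := fun s => -u s) (h := fun s => -h s) (l := -l) hu.neg
    (fun s t hs hst htb => by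
      rw [intervalIntegral.integral_neg, ← hint s t hs hst htb]
      ring)
    (by linarith) (fun s hs hlt => by
      have := hsign s hs (by linarith)
      linarith) t ht
  linarith

variable {ι : Type} [Fintype ι]

/-- A box is forward invariant for a curve with integral increments if, as long as the curve
is in a larger box, the integrand points inward outside the box. -/
lemma box_barrier {x g : ℝ → ι → ℝ} {a b : ℝ} {m M m' M' : ι → ℝ}
    (hx : ContinuousOn x (Icc a b))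
    (hint : ∀ i s t, a ≤ s → s ≤ t → t ≤ b → x t i - x s i = ∫ τ in s..t, g τ i)
    (hm : ∀ i, m' i < m i) (hM : ∀ i, M i < M' i)
    (hsign : ∀ s ∈ Icc a b, x s ∈ Icc m' M' →
      ∀ i, (x s i < m i → 0 ≤ g s i) ∧ (M i < x s i → g s i ≤ 0))
    (ha : x a ∈ Icc m M) : ∀ t ∈ Icc a b, x t ∈ Icc m M := by
  intro t ht
  by_contra hcon
  set S : Set ℝ := Icc a t ∩ x ⁻¹' (Icc m M) with hS
  have hScl : IsClosed S :=
    (hx.mono (Icc_subset_Icc le_rfl ht.2)).preimage_isClosed_of_isClosed isClosed_Icc isClosed_Icc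
  have hScomp : IsCompact S := isCompact_Icc.of_isClosed_subset hScl inter_subset_left
  have hSne : S.Nonempty := ⟨a, ⟨le_rfl, ht.1⟩, ha⟩
  have hs₀ := hScomp.sSup_mem hSne
  set s₀ := sSup S with hs₀def
  have hs₀t : s₀ ≤ t := hs₀.1.2
  have hs₀a : a ≤ s₀ := hs₀.1.1
  have hs₀x : x s₀ ∈ Icc m M := hs₀.2
  have hs₀lt : s₀ < t := by
    rcases eq_or_lt_of_le hs₀t with h | h
    · exact absurd (h ▸ hs₀x) hcon
    · exact h
  have hout : ∀ s, s₀ < s → s ≤ t → x s ∉ Icc m M := by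
    intro s hs1 hs2 hmem
    have hmem' : s ∈ S := ⟨⟨le_trans hs₀a hs1.le, hs2⟩, hmem⟩
    have := le_csSup hScomp.bddAbove hmem'
    linarith
  -- a right neighbourhood of `s₀` on which the curve is in the larger box
  have hnhds : Icc m' M' ∈ nhds (x s₀) :=
    pi_Icc_mem_nhds (fun i => lt_of_lt_of_le (hm i) (hs₀x.1 i))
      (fun i => lt_of_le_of_lt (hs₀x.2 i) (hM i))
  have hcw : ContinuousWithinAt x (Icc a b) s₀ := hx s₀ ⟨hs₀a, le_trans hs₀t ht.2⟩
  have hpre : x ⁻¹' (Icc m' M') ∈ nhdsWithin s₀ (Icc a b) := hcw hnhds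
  obtain ⟨η, hη, hball⟩ := Metric.mem_nhdsWithin_iff.mp hpre
  set t' : ℝ := min t (s₀ + η / 2) with ht'
  have ht's : s₀ < t' := lt_min hs₀lt (by linarith)
  have ht't : t' ≤ t := min_le_left _ _
  have hbig : ∀ s ∈ Icc s₀ t', x s ∈ Icc m' M' := by
    intro s hs
    apply hball
    refine ⟨?_, ⟨le_trans hs₀a hs.1, le_trans hs.2 (le_trans ht't ht.2)⟩⟩
    rw [Metric.mem_ball, Real.dist_eq, abs_lt]
    have h1 : s ≤ s₀ + η / 2 := le_trans hs.2 (min_le_right _ _)
    constructor <;> linarith [hs.1]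
  have hxt' : x t' ∉ Icc m M := hout t' ht's ht't
  have hex : ∃ i, x t' i < m i ∨ M i < x t' i := by
    by_contra hno
    push Not at hno
    exact hxt' ⟨fun i => (hno i).1, fun i => (hno i).2⟩
  obtain ⟨i, hi⟩ := hex
  have hcont : ContinuousOn (fun s => x s i) (Icc s₀ t') :=
    (continuous_apply i).comp_continuousOn
      (hx.mono (Icc_subset_Icc hs₀a (le_trans ht't ht.2)))
  have hint' : ∀ s t, s₀ ≤ s → s ≤ t → t ≤ t' → x t i - x s i = ∫ τ in s..t, g τ i :=
    fun s t hs hst htt => hint i s t (le_trans hs₀a hs) hst (le_trans htt (le_trans ht't ht.2))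
  rcases hi with hi | hi
  · have := scalar_barrier_ge (u := fun s => x s i) (h := fun s => g s i) (l := m i) hcont hint'
      (hs₀x.1 i) (fun s hs hlt =>
        (hsign s ⟨le_trans hs₀a hs.1, le_trans hs.2 (le_trans ht't ht.2)⟩ (hbig s hs) i).1 hlt)
      t' ⟨ht's.le, le_rfl⟩
    linarith
  · have := scalar_barrier_le (u := fun s => x s i) (h := fun s => g s i) (l := M i) hcont hint'
      (hs₀x.2 i) (fun s hs hlt =>
        (hsign s ⟨le_trans hs₀a hs.1, le_trans hs.2 (le_trans ht't ht.2)⟩ (hbig s hs) i).2 hlt)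
      t' ⟨ht's.le, le_rfl⟩
    linarith

end Vale.Agent.Lib.P072
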