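import Vale.Agent.Lib.P072.TVInt
import Vale.Agent.Lib.P072.TVBarrier

/-!
# Absorption lemmas for linear functionals of solutions
-/

namespace Vale.Agent.Lib.P072

open Set MeasureTheory

set_option linter.unusedSectionVars false

/-- A scalar function with integral increments whose integrand is at least `η > 0` whenever
the function is below the level `l` is eventually at least `l`. -/
lemma scalar_absorb {u h : ℝ → ℝ} {T l η : ℝ} (hη : 0 < η) (hu : ContinuousOn u (Ici T))
    (hh : ∀ s t, T ≤ s → s ≤ t → IntervalIntegrable h volume s t)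
    (hint : ∀ s t, T ≤ s → s ≤ t → u t - u s = ∫ τ in s..t, h τ)
    (hsign : ∀ s, T ≤ s → u s < l → η ≤ h s) :
    ∃ T', T ≤ T' ∧ ∀ t, T' ≤ t → l ≤ u t := by
  have hex : ∃ T₁, T ≤ T₁ ∧ l ≤ u T₁ := by
    by_contra hcon
    push Not at hcon
    set L : ℝ := (l - u T) / η + 1 with hL
    have hL0 : 0 ≤ L := by
      have h0 := hcon T le_rfl
      have h1 : 0 ≤ (l - u T) / η := div_nonneg (by linarith) hη.le
      linarith
    have hTL : T ≤ T + L := by linarith
    have h1 := hint T (T + L) le_rfl hTL
    have h2 := intervalIntegral.integral_mono_on hTL intervalIntegrable_const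
      (hh T (T + L) le_rfl hTL) (fun s hs => hsign s hs.1 (hcon s hs.1))
    rw [intervalIntegral.integral_const] at h2
    simp only [add_sub_cancel_left, smul_eq_mul] at h2
    have h3 := hcon (T + L) hTL
    have h4 : L * η = (l - u T) + η := by
      rw [hL]
      field_simp
    linarith
  obtain ⟨T₁, hT₁, hT₁l⟩ := hex
  refine ⟨T₁, hT₁, fun t ht => ?_⟩
  exact scalar_barrier_ge (u := u) (h := h) (a := T₁) (b := t) (l := l)
    (hu.mono (fun s hs => le_trans hT₁ hs.1))
    (fun s t' hs hst _ => hint s t' (le_trans hT₁ hs) hst)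
    hT₁l (fun s hs hlt => le_trans hη.le (hsign s (le_trans hT₁ hs.1) hlt)) t ⟨ht, le_rfl⟩

variable {R ι : Type} [Fintype R] [Fintype ι]

/-- A linear functional of a solution whose derivative along the field is at least `η > 0`
whenever the functional is below the level `l` is eventually at least `l`. -/
lemma functional_absorb (N : MAS R ι) {ε : ℝ} {κ : R → ℝ → ℝ}
    (hκ : ∀ r, Measurable (κ r) ∧ ∀ t, ε ≤ κ r t ∧ κ r t ≤ ε⁻¹) {x : ℝ → ι → ℝ}
    (hx : N.IsSolAt κ x) (w : ι → ℝ) {T₀ l η : ℝ} (hT₀ : 0 ≤ T₀) (hη : 0 < η)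
    (hsign : ∀ s, T₀ ≤ s → ∑ i, w i * x s i < l → η ≤ ∑ i, w i * N.fieldAt κ s (x s) i) :
    ∃ T, T₀ ≤ T ∧ ∀ t, T ≤ t → l ≤ ∑ i, w i * x t i := by
  have hxc : ContinuousOn x (Ici 0) := hx.1
  have hsol : IntForm N κ x x := hx.2
  have hinti : ∀ i s t, 0 ≤ s → 0 ≤ t →
      IntervalIntegrable (fun τ => N.fieldAt κ τ (x τ) i) volume s t := by
    intro i s t hs ht
    have hint := intervalIntegrable_fieldAt N hκ hxc hs ht
    exact ⟨hint.1.eval i, hint.2.eval i⟩
  refine scalar_absorb (u := fun s => ∑ i, w i * x s i)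
    (h := fun s => ∑ i, w i * N.fieldAt κ s (x s) i) (T := T₀) hη ?_ ?_ ?_ hsign
  · apply continuousOn_finsetSum
    intro i _
    apply ContinuousOn.mul continuousOn_const
    exact (continuous_apply i).comp_continuousOn (hxc.mono (fun s hs => le_trans hT₀ hs))
  · intro s t hs hst
    have hsum := IntervalIntegrable.sum (μ := volume) (a := s) (b := t) Finset.univ
      (f := fun i τ => w i * N.fieldAt κ τ (x τ) i) (fun i _ =>
        (hinti i s t (le_trans hT₀ hs) (le_trans (le_trans hT₀ hs) hst)).const_mul (w i))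
    have heq : (∑ i, fun τ => w i * N.fieldAt κ τ (x τ) i)
        = fun τ => ∑ i, w i * N.fieldAt κ τ (x τ) i := by
      funext τ
      simp only [Finset.sum_apply]
    rw [← heq]
    exact hsum
  · intro s t hs hst
    have hs0 : 0 ≤ s := le_trans hT₀ hs
    rw [intervalIntegral.integral_finsetSum]
    · rw [← Finset.sum_sub_distrib]
      apply Finset.sum_congr rfl
      intro i _
      rw [intervalIntegral.integral_const_mul, ← intForm_sub_apply N hκ hxc hsol i hs0 hst]
      ring
    · intro i _
      exact (hinti i s t hs0 (le_trans hs0 hst)).const_mul (w i)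

/-- Downward induction over subsets: if a property of a subset holds eventually as soon as
it holds eventually for all subsets with one more element, then it holds eventually for all
subsets simultaneously. -/
lemma subset_absorb [DecidableEq ι] {P : Finset ι → ℝ → Prop}
    (hstep : ∀ A : Finset ι, ∀ T₀ : ℝ, 0 ≤ T₀ →
      (∀ j, j ∉ A → ∀ t, T₀ ≤ t → P (insert j A) t) → ∃ T, 0 ≤ T ∧ ∀ t, T ≤ t → P A t) :
    ∃ T, 0 ≤ T ∧ ∀ t, T ≤ t → ∀ A : Finset ι, P A t := by
  have key : ∀ n : ℕ, ∀ A : Finset ι, (Finset.univ \ A).card = n →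
      ∃ T, 0 ≤ T ∧ ∀ t, T ≤ t → P A t := by
    intro n
    induction n using Nat.strong_induction_on with
    | _ n ih =>
      intro A hA
      have hj : ∀ j, j ∉ A → ∃ T, 0 ≤ T ∧ ∀ t, T ≤ t → P (insert j A) t := by
        intro j hjA
        apply ih (Finset.univ \ insert j A).card _ (insert j A) rfl
        rw [← hA]
        apply Finset.card_lt_card
        rw [Finset.ssubset_iff_of_subset
          (Finset.sdiff_subset_sdiff le_rfl (Finset.subset_insert j A))]
        exact ⟨j, by simp [hjA], by simp⟩
      set Tj : ι → ℝ := fun j => if h : j ∉ A then Classical.choose (hj j h) else 0 with hTj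
      have hTj0 : ∀ j, 0 ≤ Tj j := by
        intro j
        by_cases h : j ∉ A
        · simp only [hTj, dif_pos h]
          exact (Classical.choose_spec (hj j h)).1
        · simp only [hTj, dif_neg h]
          exact le_rfl
      apply hstep A (∑ j, Tj j) (Finset.sum_nonneg (fun j _ => hTj0 j))
      intro j hjA t ht
      have h1 : Tj j ≤ ∑ j, Tj j :=
        Finset.single_le_sum (fun j _ => hTj0 j) (Finset.mem_univ j)
      have h2 := (Classical.choose_spec (hj j hjA)).2 t
      apply h2
      have h3 : Tj j = Classical.choose (hj j hjA) := by simp only [hTj, dif_pos hjA]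
      linarith
  choose TA hTA0 hTA using fun A : Finset ι => key _ A rfl
  refine ⟨∑ A, TA A, Finset.sum_nonneg (fun A _ => hTA0 A), fun t ht A => ?_⟩
  apply hTA A t
  have h1 := Finset.single_le_sum (fun A _ => hTA0 A) (Finset.mem_univ A)
  linarith

end Vale.Agent.Lib.P072
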