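import Vale.Agent.Lib.P072.TVInt
import Vale.Agent.Lib.P072.TVBarrier

/-!
# One-sided barrier lemmas for finitely many weighted sums of the coordinates
-/

namespace Vale.Agent.Lib.P072

open Set MeasureTheory

variable {R ι : Type} [Fintype R] [Fintype ι]

/-- A lower orthant is forward invariant for a curve with integral increments if, as long as
the curve is in a larger lower orthant, the integrand of every coordinate below its level is
nonnegative. -/
lemma lower_barrier {J : Type} [Fintype J] {y g : ℝ → J → ℝ} {a b : ℝ} {m m' : J → ℝ}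
    (hy : ContinuousOn y (Icc a b))
    (hint : ∀ j s t, a ≤ s → s ≤ t → t ≤ b → y t j - y s j = ∫ τ in s..t, g τ j)
    (hm : ∀ j, m' j < m j)
    (hsign : ∀ s ∈ Icc a b, (∀ j, m' j ≤ y s j) → ∀ j, y s j < m j → 0 ≤ g s j)
    (ha : ∀ j, m j ≤ y a j) : ∀ t ∈ Icc a b, ∀ j, m j ≤ y t j := by
  intro t ht
  by_contra hcon
  set S : Set ℝ := Icc a t ∩ y ⁻¹' (Ici m) with hS
  have hScl : IsClosed S :=
    (hy.mono (Icc_subset_Icc le_rfl ht.2)).preimage_isClosed_of_isClosed isClosed_Icc isClosed_Ici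
  have hScomp : IsCompact S := isCompact_Icc.of_isClosed_subset hScl inter_subset_left
  have hSne : S.Nonempty := ⟨a, ⟨le_rfl, ht.1⟩, ha⟩
  have hs₀ := hScomp.sSup_mem hSne
  set s₀ := sSup S with hs₀def
  have hs₀t : s₀ ≤ t := hs₀.1.2
  have hs₀a : a ≤ s₀ := hs₀.1.1
  have hs₀x : ∀ j, m j ≤ y s₀ j := hs₀.2
  have hs₀lt : s₀ < t := by
    rcases eq_or_lt_of_le hs₀t with h | h
    · exact absurd (h ▸ hs₀x) hcon
    · exact h
  have hout : ∀ s, s₀ < s → s ≤ t → ¬ (∀ j, m j ≤ y s j) := by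
    intro s hs1 hs2 hmem
    have hmem' : s ∈ S := ⟨⟨le_trans hs₀a hs1.le, hs2⟩, hmem⟩
    have := le_csSup hScomp.bddAbove hmem'
    linarith
  -- a right neighbourhood of `s₀` on which the curve is in the larger orthant
  have hnhds : Ici m' ∈ nhds (y s₀) :=
    pi_Ici_mem_nhds (fun j => lt_of_lt_of_le (hm j) (hs₀x j))
  have hcw : ContinuousWithinAt y (Icc a b) s₀ := hy s₀ ⟨hs₀a, le_trans hs₀t ht.2⟩
  have hpre : y ⁻¹' (Ici m') ∈ nhdsWithin s₀ (Icc a b) := hcw hnhds
  obtain ⟨η, hη, hball⟩ := Metric.mem_nhdsWithin_iff.mp hpre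
  set t' : ℝ := min t (s₀ + η / 2) with ht'
  have ht's : s₀ < t' := lt_min hs₀lt (by linarith)
  have ht't : t' ≤ t := min_le_left _ _
  have hbig : ∀ s ∈ Icc s₀ t', ∀ j, m' j ≤ y s j := by
    intro s hs
    have hmem : s ∈ y ⁻¹' (Ici m') := by
      apply hball
      refine ⟨?_, ⟨le_trans hs₀a hs.1, le_trans hs.2 (le_trans ht't ht.2)⟩⟩
      rw [Metric.mem_ball, Real.dist_eq, abs_lt]
      have h1 : s ≤ s₀ + η / 2 := le_trans hs.2 (min_le_right _ _)
      constructor <;> linarith [hs.1]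
    exact hmem
  have hxt' : ¬ (∀ j, m j ≤ y t' j) := hout t' ht's ht't
  push Not at hxt'
  obtain ⟨j, hj⟩ := hxt'
  have hcont : ContinuousOn (fun s => y s j) (Icc s₀ t') :=
    (continuous_apply j).comp_continuousOn
      (hy.mono (Icc_subset_Icc hs₀a (le_trans ht't ht.2)))
  have hint' : ∀ s t, s₀ ≤ s → s ≤ t → t ≤ t' → y t j - y s j = ∫ τ in s..t, g τ j :=
    fun s t hs hst htt => hint j s t (le_trans hs₀a hs) hst (le_trans htt (le_trans ht't ht.2))
  have := scalar_barrier_ge (u := fun s => y s j) (h := fun s => g s j) (l := m j) hcont hint'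
    (hs₀x j) (fun s hs hlt =>
      hsign s ⟨le_trans hs₀a hs.1, le_trans hs.2 (le_trans ht't ht.2)⟩ (hbig s hs) j hlt)
    t' ⟨ht's.le, le_rfl⟩
  linarith

/-- Finitely many weighted sums of the coordinates of a curve in integral form stay above
their thresholds if, as long as all of them are above smaller thresholds, the weighted sums of
the field which are below their thresholds are nonnegative. -/
lemma functional_barrier (N : MAS R ι) {ε : ℝ} {κ : R → ℝ → ℝ}
    (hκ : ∀ r, Measurable (κ r) ∧ ∀ t, ε ≤ κ r t ∧ κ r t ≤ ε⁻¹) {x z : ℝ → ι → ℝ}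
    (hxc : ContinuousOn x (Ici 0)) (hzc : ContinuousOn z (Ici 0)) (hsol : IntForm N κ x z)
    {J : Type} [Fintype J] (W : J → ι → ℝ) {thr thr' : J → ℝ} (hlt : ∀ j, thr' j < thr j)
    (hface : ∀ s, 0 ≤ s → (∀ j, thr' j ≤ ∑ i, W j i * x s i) →
      ∀ j, ∑ i, W j i * x s i < thr j → 0 ≤ ∑ i, W j i * N.fieldAt κ s (z s) i)
    (h0 : ∀ j, thr j ≤ ∑ i, W j i * x 0 i) :
    ∀ t, 0 ≤ t → ∀ j, thr j ≤ ∑ i, W j i * x t i := by
  intro t ht
  have hcont : ContinuousOn (fun s j => ∑ i, W j i * x s i) (Icc 0 t) := by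
    apply continuousOn_pi.mpr
    intro j
    apply continuousOn_finsetSum
    intro i _
    exact continuousOn_const.mul ((continuous_apply i).comp_continuousOn
      (hxc.mono (fun s hs => hs.1)))
  have hincr : ∀ j s t', 0 ≤ s → s ≤ t' → t' ≤ t →
      (∑ i, W j i * x t' i) - (∑ i, W j i * x s i)
        = ∫ τ in s..t', ∑ i, W j i * N.fieldAt κ τ (z τ) i := by
    intro j s t' hs hst _
    have hI := intervalIntegrable_fieldAt N hκ hzc hs (le_trans hs hst)
    have hIi : ∀ i, IntervalIntegrable (fun τ => N.fieldAt κ τ (z τ) i) volume s t' :=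
      fun i => ⟨hI.1.eval i, hI.2.eval i⟩
    rw [intervalIntegral.integral_finsetSum (fun i _ => (hIi i).const_mul (W j i)),
      ← Finset.sum_sub_distrib]
    apply Finset.sum_congr rfl
    intro i _
    rw [intervalIntegral.integral_const_mul, ← intForm_sub_apply N hκ hzc hsol i hs hst, mul_sub]
  exact lower_barrier (y := fun s j => ∑ i, W j i * x s i)
    (g := fun s j => ∑ i, W j i * N.fieldAt κ s (z s) i) (a := 0) (b := t) (m := thr)
    (m' := thr') hcont hincr hlt (fun s hs hbig j hj => hface s hs.1 hbig j hj) h0 t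
    ⟨ht, le_rfl⟩

end Vale.Agent.Lib.P072
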