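import Mathlib

/-!
# Global existence for integral equations with a bounded, globally Lipschitz field that is only
measurable in time
-/

namespace Vale.Agent.Lib.P072

open Set MeasureTheory
open scoped BoundedContinuousFunction NNReal

variable {E : Type} [NormedAddCommGroup E] [NormedSpace ℝ E] [CompleteSpace E]

/-- Global existence on `[0, ∞)` for `x t = x₀ + ∫ s in 0..t, G s (x s)` when `G` is bounded,
globally Lipschitz in the state uniformly in time, and measurable along continuous curves. The
proof is a contraction argument in an exponentially weighted supremum norm. -/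
theorem exists_caratheodory (G : ℝ → E → E) {B L : ℝ} (hB : ∀ s z, ‖G s z‖ ≤ B)
    (hL : ∀ s z w, ‖G s z - G s w‖ ≤ L * ‖z - w‖)
    (hmeas : ∀ z : ℝ → E, Continuous z → AEStronglyMeasurable (fun s => G s (z s)) volume)
    (x₀ : E) :
    ∃ x : ℝ → E, Continuous x ∧ ∀ t, 0 ≤ t → x t = x₀ + ∫ s in (0:ℝ)..t, G s (x s) := by
  have hB0 : 0 ≤ B := le_trans (norm_nonneg _) (hB 0 x₀)
  set lam : ℝ := 2 * |L| + 1 with hlam
  have hlampos : 0 < lam := by positivity
  set xOf : (ℝ →ᵇ E) → ℝ → E := fun y s => x₀ + Real.exp (lam * s) • y s with hxOf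
  have hxOfc : ∀ y : ℝ →ᵇ E, Continuous (xOf y) := fun y =>
    continuous_const.add
      ((Real.continuous_exp.comp (continuous_const.mul continuous_id)).smul y.continuous)
  have hII : ∀ (y : ℝ →ᵇ E) (a b : ℝ),
      IntervalIntegrable (fun s => G s (xOf y s)) volume a b := by
    intro y a b
    rw [intervalIntegrable_iff]
    exact Measure.integrableOn_of_bounded (M := B) measure_Ioc_lt_top.ne (hmeas _ (hxOfc y))
      (Filter.Eventually.of_forall (fun s => hB s _))
  set S : (ℝ →ᵇ E) → ℝ → E := fun y t =>
    Real.exp (-(lam * max t 0)) • ∫ s in (0:ℝ)..max t 0, G s (xOf y s) with hS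
  have hSc : ∀ y, Continuous (S y) := fun y =>
    (Real.continuous_exp.comp
      ((continuous_const.mul (continuous_id.max continuous_const)).neg)).smul
      ((intervalIntegral.continuous_primitive (hII y) 0).comp
        (continuous_id.max continuous_const))
  have hSb : ∀ y t, ‖S y t‖ ≤ B / lam := by
    intro y t
    have hu : 0 ≤ max t 0 := le_max_right _ _
    have h1 : ‖∫ s in (0:ℝ)..max t 0, G s (xOf y s)‖ ≤ B * |max t 0 - 0| :=
      intervalIntegral.norm_integral_le_of_norm_le_const (fun s _ => hB s _)
    rw [sub_zero, abs_of_nonneg hu] at h1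
    have h2 : Real.exp (-(lam * max t 0)) * (lam * max t 0) ≤ 1 := by
      have h3 : lam * max t 0 + 1 ≤ Real.exp (lam * max t 0) := Real.add_one_le_exp _
      rw [Real.exp_neg, inv_mul_le_iff₀ (Real.exp_pos _)]
      linarith
    simp only [hS]
    rw [norm_smul, Real.norm_eq_abs, abs_of_pos (Real.exp_pos _)]
    calc Real.exp (-(lam * max t 0)) * ‖∫ s in (0:ℝ)..max t 0, G s (xOf y s)‖
        ≤ Real.exp (-(lam * max t 0)) * (B * max t 0) :=
          mul_le_mul_of_nonneg_left h1 (Real.exp_pos _).le
      _ = (Real.exp (-(lam * max t 0)) * (lam * max t 0)) * (B / lam) := by field_simp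
      _ ≤ 1 * (B / lam) := mul_le_mul_of_nonneg_right h2 (div_nonneg hB0 hlampos.le)
      _ = B / lam := one_mul _
  set T : (ℝ →ᵇ E) → (ℝ →ᵇ E) := fun y =>
    BoundedContinuousFunction.ofNormedAddCommGroup (S y) (hSc y) (B / lam) (hSb y) with hT
  have hexpint : ∀ u : ℝ,
      ∫ s in (0:ℝ)..u, Real.exp (lam * s) = (Real.exp (lam * u) - 1) / lam := by
    intro u
    have hderiv : ∀ s ∈ uIcc (0:ℝ) u,
        HasDerivAt (fun s => Real.exp (lam * s) / lam) (Real.exp (lam * s)) s := by
      intro s _
      have h1 : HasDerivAt (fun s => lam * s) lam s := by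
        simpa using (hasDerivAt_id s).const_mul lam
      have h2 := (Real.hasDerivAt_exp (lam * s)).comp s h1
      have h3 : HasDerivAt (fun s => Real.exp (lam * s) / lam)
          (Real.exp (lam * s) * lam / lam) s := h2.div_const lam
      have e : Real.exp (lam * s) * lam / lam = Real.exp (lam * s) := by field_simp
      rw [e] at h3
      exact h3
    have hint : IntervalIntegrable (fun s => Real.exp (lam * s)) volume 0 u :=
      (Real.continuous_exp.comp (continuous_const.mul continuous_id)).intervalIntegrable _ _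
    rw [intervalIntegral.integral_eq_sub_of_hasDerivAt hderiv hint]
    simp only [mul_zero, Real.exp_zero]
    ring
  have hcontr : ContractingWith (1 / 2 : ℝ≥0) T := by
    refine ⟨by norm_num, LipschitzWith.of_dist_le_mul (fun y y' => ?_)⟩
    have hD0 : 0 ≤ dist y y' := dist_nonneg
    have hC0 : (0:ℝ) ≤ ((1 / 2 : ℝ≥0) : ℝ) * dist y y' := by positivity
    rw [BoundedContinuousFunction.dist_le hC0]
    intro t
    have hu : 0 ≤ max t 0 := le_max_right _ _
    show dist (S y t) (S y' t) ≤ _
    simp only [hS]
    rw [dist_eq_norm, ← smul_sub, norm_smul, Real.norm_eq_abs, abs_of_pos (Real.exp_pos _),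
      ← intervalIntegral.integral_sub (hII y _ _) (hII y' _ _)]
    have hbound : ‖∫ s in (0:ℝ)..max t 0, (G s (xOf y s) - G s (xOf y' s))‖
        ≤ ∫ s in (0:ℝ)..max t 0, |L| * dist y y' * Real.exp (lam * s) := by
      apply intervalIntegral.norm_integral_le_of_norm_le hu
      · refine Filter.Eventually.of_forall (fun s _ => ?_)
        have h1 := hL s (xOf y s) (xOf y' s)
        have h2 : xOf y s - xOf y' s = Real.exp (lam * s) • (y s - y' s) := by
          simp only [hxOf, smul_sub]
          abel
        have h3 : ‖xOf y s - xOf y' s‖ ≤ Real.exp (lam * s) * dist y y' := by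
          rw [h2, norm_smul, Real.norm_eq_abs, abs_of_pos (Real.exp_pos _), ← dist_eq_norm]
          exact mul_le_mul_of_nonneg_left (BoundedContinuousFunction.dist_coe_le_dist s)
            (Real.exp_pos _).le
        have h4 : L * ‖xOf y s - xOf y' s‖ ≤ |L| * ‖xOf y s - xOf y' s‖ :=
          mul_le_mul_of_nonneg_right (le_abs_self L) (norm_nonneg _)
        have h5 : |L| * ‖xOf y s - xOf y' s‖ ≤ |L| * (Real.exp (lam * s) * dist y y') :=
          mul_le_mul_of_nonneg_left h3 (abs_nonneg L)
        calc ‖G s (xOf y s) - G s (xOf y' s)‖ ≤ |L| * (Real.exp (lam * s) * dist y y') := by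
              linarith
          _ = |L| * dist y y' * Real.exp (lam * s) := by ring
      · exact ((Real.continuous_exp.comp (continuous_const.mul continuous_id)).const_mul
          _).intervalIntegrable _ _
    rw [intervalIntegral.integral_const_mul, hexpint] at hbound
    have hexp1 : Real.exp (-(lam * max t 0)) * (Real.exp (lam * max t 0) - 1) ≤ 1 := by
      have h1 : Real.exp (-(lam * max t 0)) * Real.exp (lam * max t 0) = 1 := by
        rw [← Real.exp_add]
        simp
      have h2 : 0 < Real.exp (-(lam * max t 0)) := Real.exp_pos _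
      nlinarith
    have hfrac : |L| / lam ≤ 1 / 2 := by
      rw [div_le_div_iff₀ hlampos (by norm_num)]
      rw [hlam]
      linarith [abs_nonneg L]
    calc Real.exp (-(lam * max t 0)) * ‖∫ s in (0:ℝ)..max t 0, (G s (xOf y s) - G s (xOf y' s))‖
        ≤ Real.exp (-(lam * max t 0))
            * (|L| * dist y y' * ((Real.exp (lam * max t 0) - 1) / lam)) :=
          mul_le_mul_of_nonneg_left hbound (Real.exp_pos _).le
      _ = (Real.exp (-(lam * max t 0)) * (Real.exp (lam * max t 0) - 1))
            * (|L| / lam * dist y y') := by field_simp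
      _ ≤ 1 * (|L| / lam * dist y y') :=
          mul_le_mul_of_nonneg_right hexp1 (by positivity)
      _ ≤ 1 * (1 / 2 * dist y y') := by
          have := mul_le_mul_of_nonneg_right hfrac hD0
          linarith
      _ = ((1 / 2 : ℝ≥0) : ℝ) * dist y y' := by
          simp
  set y := ContractingWith.fixedPoint T hcontr with hy
  have hfix : T y = y := hcontr.fixedPoint_isFixedPt
  refine ⟨xOf y, hxOfc y, fun t ht => ?_⟩
  have h1 : y t = S y t := by
    conv_lhs => rw [← hfix]
    rfl
  have h2 : xOf y t = x₀ + Real.exp (lam * t) • y t := rfl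
  rw [h2, h1]
  simp only [hS, max_eq_left ht]
  rw [smul_smul, ← Real.exp_add]
  simp
end Vale.Agent.Lib.P072
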