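import Vale.Agent.Lib.P072.TVInt
import Vale.Agent.Lib.P072.TVPicard

/-!
# Existence of solutions for time-dependent rates from uniform thresholds
-/

namespace Vale.Agent.Lib.P072

open Set MeasureTheory
open scoped NNReal

set_option linter.unusedSectionVars false

variable {R ι : Type} [Fintype R] [Fintype ι]

/-- Coordinatewise clamp onto the box `[m, M]`. -/
def clampBox (m M : ι → ℝ) (z : ι → ℝ) : ι → ℝ := fun i => max (m i) (min (z i) (M i))

lemma clampBox_mem {m M : ι → ℝ} (hmM : ∀ i, m i ≤ M i) (z : ι → ℝ) :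
    clampBox m M z ∈ Icc m M :=
  ⟨fun _ => le_max_left _ _, fun i => max_le (hmM i) (min_le_right _ _)⟩

lemma clampBox_eq {m M z : ι → ℝ} (hz : z ∈ Icc m M) : clampBox m M z = z := by
  funext i
  simp only [clampBox]
  rw [min_eq_left (hz.2 i), max_eq_right (hz.1 i)]

lemma continuous_clampBox (m M : ι → ℝ) : Continuous (clampBox m M) :=
  continuous_pi (fun i => continuous_const.max ((continuous_apply i).min continuous_const))

lemma norm_clampBox_sub_le (m M z w : ι → ℝ) :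
    ‖clampBox m M z - clampBox m M w‖ ≤ ‖z - w‖ := by
  rw [pi_norm_le_iff_of_nonneg (norm_nonneg _)]
  intro i
  simp only [Pi.sub_apply, clampBox, Real.norm_eq_abs]
  have h1 : |max (min (z i) (M i)) (m i) - max (min (w i) (M i)) (m i)|
      ≤ |min (z i) (M i) - min (w i) (M i)| := abs_max_sub_max_le_abs _ _ _
  have h2 : |min (z i) (M i) - min (w i) (M i)| ≤ max |z i - w i| |M i - M i| :=
    abs_min_sub_min_le_max _ _ _ _
  have h3 : max |z i - w i| |M i - M i| = |z i - w i| := by simp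
  have h4 : |z i - w i| ≤ ‖z - w‖ := by
    have := norm_le_pi_norm (z - w) i
    simpa using this
  rw [max_comm (m i), max_comm (m i)]
  linarith

/-- Norm and Lipschitz bounds of the field on a box, uniform in the rate vectors with entries in
`[ε, ε⁻¹]`. -/
lemma exists_fieldK_bounds (N : MAS R ι) {ε : ℝ} (hε : 0 < ε) (m M : ι → ℝ) :
    ∃ B L : ℝ, 0 ≤ L ∧ ∀ k : R → ℝ, (∀ r, ε ≤ k r ∧ k r ≤ ε⁻¹) →
      (∀ y ∈ Icc m M, ‖N.fieldK k y‖ ≤ B) ∧
      ∀ y ∈ Icc m M, ∀ y' ∈ Icc m M, ‖N.fieldK k y - N.fieldK k y'‖ ≤ L * ‖y - y'‖ := by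
  set Φ : (ι → ℝ) → R → ℝ := fun y r => mono (N.src r) y with hΦ
  have hΦd : ContDiff ℝ 1 Φ := contDiff_pi' (fun r => contDiff_mono (N.src r))
  have hQ : IsCompact (Icc m M) := isCompact_Icc
  obtain ⟨K, hK⟩ := LocallyLipschitzOn.exists_lipschitzOnWith_of_compact hQ
    (hΦd.locallyLipschitz.locallyLipschitzOn)
  obtain ⟨C, hC⟩ := hQ.exists_bound_of_continuousOn hΦd.continuous.continuousOn
  set V : ℝ := ∑ r, ‖N.vec r‖ with hV
  have hV0 : 0 ≤ V := Finset.sum_nonneg (fun r _ => norm_nonneg _)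
  have hεi : 0 < ε⁻¹ := inv_pos.mpr hε
  refine ⟨ε⁻¹ * C * V, ε⁻¹ * K * V, by positivity, fun k hk =>
    ⟨fun y hy => ?_, fun y hy y' hy' => ?_⟩⟩
  · have hterm : ∀ r, ‖(k r * mono (N.src r) y) • N.vec r‖ ≤ ε⁻¹ * C * ‖N.vec r‖ := by
      intro r
      rw [norm_smul, Real.norm_eq_abs, abs_mul]
      have h1 : |k r| ≤ ε⁻¹ := by
        rw [abs_of_pos (lt_of_lt_of_le hε (hk r).1)]
        exact (hk r).2
      have h2 : |mono (N.src r) y| ≤ C := le_trans (norm_le_pi_norm (Φ y) r) (hC y hy)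
      exact mul_le_mul_of_nonneg_right (mul_le_mul h1 h2 (abs_nonneg _) hεi.le) (norm_nonneg _)
    unfold MAS.fieldK
    calc ‖∑ r, (k r * mono (N.src r) y) • N.vec r‖
        ≤ ∑ r, ‖(k r * mono (N.src r) y) • N.vec r‖ := norm_sum_le _ _
      _ ≤ ∑ r, ε⁻¹ * C * ‖N.vec r‖ := Finset.sum_le_sum (fun r _ => hterm r)
      _ = ε⁻¹ * C * V := by rw [hV, Finset.mul_sum]
  · have hterm : ∀ r, ‖(k r * mono (N.src r) y) • N.vec r - (k r * mono (N.src r) y') • N.vec r‖
        ≤ ε⁻¹ * (K * ‖y - y'‖) * ‖N.vec r‖ := by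
      intro r
      rw [← sub_smul, ← mul_sub, norm_smul, Real.norm_eq_abs, abs_mul]
      have h1 : |k r| ≤ ε⁻¹ := by
        rw [abs_of_pos (lt_of_lt_of_le hε (hk r).1)]
        exact (hk r).2
      have h2 : |mono (N.src r) y - mono (N.src r) y'| ≤ K * ‖y - y'‖ := by
        have h3 := hK.dist_le_mul y hy y' hy'
        rw [dist_eq_norm, dist_eq_norm] at h3
        exact le_trans (norm_le_pi_norm (Φ y - Φ y') r) h3
      exact mul_le_mul_of_nonneg_right (mul_le_mul h1 h2 (abs_nonneg _) hεi.le) (norm_nonneg _)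
    unfold MAS.fieldK
    rw [← Finset.sum_sub_distrib]
    calc ‖∑ r, ((k r * mono (N.src r) y) • N.vec r - (k r * mono (N.src r) y') • N.vec r)‖
        ≤ ∑ r, ‖(k r * mono (N.src r) y) • N.vec r - (k r * mono (N.src r) y') • N.vec r‖ :=
          norm_sum_le _ _
      _ ≤ ∑ r, ε⁻¹ * (K * ‖y - y'‖) * ‖N.vec r‖ := Finset.sum_le_sum (fun r _ => hterm r)
      _ = ε⁻¹ * K * V * ‖y - y'‖ := by
          rw [hV, ← Finset.mul_sum]
          ring

/-- Global existence for the field evaluated at the clamped state. -/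
lemma exists_clamped_sol (N : MAS R ι) {ε : ℝ} (hε : 0 < ε) {κ : R → ℝ → ℝ}
    (hκ : ∀ r, Measurable (κ r) ∧ ∀ t, ε ≤ κ r t ∧ κ r t ≤ ε⁻¹) {m M : ι → ℝ}
    (hmM : ∀ i, m i ≤ M i) (x₀ : ι → ℝ) :
    ∃ x : ℝ → ι → ℝ, Continuous x ∧
      ∀ t, 0 ≤ t → x t = x₀ + ∫ s in (0:ℝ)..t, N.fieldAt κ s (clampBox m M (x s)) := by
  obtain ⟨B, L, hL0, hBL⟩ := exists_fieldK_bounds N hε m M
  refine exists_caratheodory (fun s z => N.fieldAt κ s (clampBox m M z)) (B := B) (L := L)
    ?_ ?_ ?_ x₀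
  · intro s z
    exact (hBL _ (fun r => (hκ r).2 s)).1 _ (clampBox_mem hmM z)
  · intro s z w
    have h1 := (hBL _ (fun r => (hκ r).2 s)).2 _ (clampBox_mem hmM z) _ (clampBox_mem hmM w)
    have h2 := norm_clampBox_sub_le m M z w
    exact le_trans h1 (mul_le_mul_of_nonneg_left h2 hL0)
  · intro z hz
    unfold MAS.fieldAt
    refine (Finset.measurable_fun_sum _ (fun r _ => ?_)).aestronglyMeasurable
    exact ((hκ r).1.mul
      ((continuous_mono _).comp ((continuous_clampBox m M).comp hz)).measurable).smul_const _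

/-- Global existence of solutions for time-dependent rates from every positive point of the
class. -/
lemma tv_exists_sol (N : MAS R ι) {ε : ℝ} (hε : 0 < ε) {c lo hi : ι → ℝ}
    (hT : TVThresholds N ε c lo hi) {κ : R → ℝ → ℝ}
    (hκ : ∀ r, Measurable (κ r) ∧ ∀ t, ε ≤ κ r t ∧ κ r t ≤ ε⁻¹)
    (x₀ : ι → ℝ) (hx₀ : ∀ i, 0 < x₀ i) (hx₀c : x₀ - c ∈ N.stoich) :
    ∃ x : ℝ → ι → ℝ, x 0 = x₀ ∧ N.IsSolAt κ x := by
  set m : ι → ℝ := fun i => min (x₀ i) (lo i) with hm
  set M : ι → ℝ := fun i => max (x₀ i) (hi i) with hM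
  set m' : ι → ℝ := fun i => m i / 2 with hm'
  set M' : ι → ℝ := fun i => M i + 1 with hM'
  have hm0 : ∀ i, 0 < m i := fun i => lt_min (hx₀ i) (hT.lo_pos i)
  have hmM : ∀ i, m i ≤ M i := fun i => le_trans (min_le_left _ _) (le_max_left _ _)
  have hm'm : ∀ i, m' i < m i := fun i => half_lt_self (hm0 i)
  have hMM' : ∀ i, M i < M' i := fun i => lt_add_one _
  have hmM' : ∀ i, m' i ≤ M' i := fun i =>
    le_trans (hm'm i).le (le_trans (hmM i) (hMM' i).le)
  obtain ⟨x, hxc, hx⟩ := exists_clamped_sol N hε hκ hmM' x₀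
  have hx0 : x 0 = x₀ := by
    have := hx 0 le_rfl
    simpa using this
  set z : ℝ → ι → ℝ := fun s => clampBox m' M' (x s) with hz
  have hzc : Continuous z := (continuous_clampBox m' M').comp hxc
  have hsol : IntForm N κ x z := fun t ht => by
    rw [hx0]
    exact hx t ht
  have hbox : ∀ t, 0 ≤ t → x t ∈ Icc m M :=
    tv_box_invariant N hT hκ hxc.continuousOn hzc.continuousOn hsol (by rw [hx0]; exact hx₀c)
      (fun i => half_pos (hm0 i)) hm'm (fun i => min_le_right _ _) (fun i => le_max_right _ _)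
      hMM' (fun s _ hbig => clampBox_eq hbig) le_rfl
      (by rw [hx0]; exact ⟨fun i => min_le_left _ _, fun i => le_max_left _ _⟩)
  refine ⟨x, hx0, hxc.continuousOn, fun t ht => ?_⟩
  rw [hsol t ht]
  congr 1
  apply intervalIntegral.integral_congr
  intro s hs
  rw [uIcc_of_le ht] at hs
  have hzs : z s = x s :=
    clampBox_eq (Icc_subset_Icc (fun i => (hm'm i).le) (fun i => (hMM' i).le) (hbox s hs.1))
  simp only [hzs]

end Vale.Agent.Lib.P072
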