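import Vale.Agent.Lib.P072.ConvField
import Vale.Agent.Lib.P072.FunBarrier
import Vale.Agent.Lib.P072.FunAbsorb
import Vale.Agent.Lib.P072.Bridge
import Vale.Agent.Lib.P072.TVExist
import Vale.Agent.Lib.P072.LinePermanent

/-!
# Permanence for linkage classes on conversion lines
-/

namespace Vale.Agent.Lib.P072

open Set MeasureTheory

set_option linter.unusedSectionVars false

variable {R ι : Type} [Fintype R] [Fintype ι]

/-- The points of the class of `c` all of whose sums over nonempty sets `A` of species are at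
least `ζ * Λ ^ A.card`. -/
def convRegion (N : MAS R ι) (c : ι → ℝ) (Λ ζ : ℝ) : Set (ι → ℝ) :=
  {x | x - c ∈ N.stoich ∧ ∀ A : Finset ι, A.Nonempty → ζ * Λ ^ A.card ≤ ∑ i ∈ A, x i}

open Classical in
/-- The weights of the sum over the set `A`: `1` on `A` and `0` elsewhere. -/
noncomputable def indW (A : Finset ι) (i : ι) : ℝ := if i ∈ A then 1 else 0

lemma sum_indW_mul (A : Finset ι) (f : ι → ℝ) : ∑ i, indW A i * f i = ∑ i ∈ A, f i := by
  classical
  unfold indW
  simp [Finset.sum_ite_mem]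

lemma pos_of_pools {Λ ζ : ℝ} (hζ : 0 < ζ) (hΛ : 1 ≤ Λ) {x : ι → ℝ}
    (h : ∀ A : Finset ι, A.Nonempty → ζ * Λ ^ A.card ≤ ∑ i ∈ A, x i) (i : ι) : 0 < x i := by
  have h1 := h {i} (Finset.singleton_nonempty i)
  simp only [Finset.card_singleton, pow_one, Finset.sum_singleton] at h1
  have h2 : 0 < ζ * Λ := mul_pos hζ (by linarith)
  linarith

lemma half_pos_of_pools {Λ ζ : ℝ} {x : ι → ℝ}
    (h : ∀ A : Finset ι, A.Nonempty → ζ * Λ ^ A.card / 2 ≤ ∑ i ∈ A, x i) (i : ι) :
    ζ * Λ / 2 ≤ x i := by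
  have h1 := h {i} (Finset.singleton_nonempty i)
  simpa only [Finset.card_singleton, pow_one, Finset.sum_singleton] using h1

/-- On the class, a sum of coordinates that vanishes on all reaction vectors is constant. -/
lemma sum_eq_of_class (N : MAS R ι) (A : Finset ι) (h : ∀ q, ∑ i ∈ A, N.vec q i = 0)
    {x c : ι → ℝ} (hx : x - c ∈ N.stoich) : ∑ i ∈ A, x i = ∑ i ∈ A, c i := by
  have h0 := stoich_weighted_sum_eq_zero N (indW A)
    (fun q => by rw [sum_indW_mul]; exact h q) hx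
  rw [sum_indW_mul] at h0
  simp only [Pi.sub_apply, Finset.sum_sub_distrib] at h0
  linarith

lemma pow_card_le {Λ : ℝ} (hΛ : 1 ≤ Λ) (A : Finset ι) : Λ ^ A.card ≤ Λ ^ Fintype.card ι :=
  pow_le_pow_right₀ hΛ (Finset.card_le_univ A)

lemma exists_pos_le (c : ι → ℝ) (hc : ∀ i, 0 < c i) : ∃ e : ℝ, 0 < e ∧ ∀ i, e ≤ c i := by
  rcases isEmpty_or_nonempty ι with h | h
  · exact ⟨1, one_pos, fun i => isEmptyElim i⟩
  · exact ⟨Finset.univ.inf' Finset.univ_nonempty c,
      (Finset.lt_inf'_iff _).2 (fun i _ => hc i), fun i => Finset.inf'_le _ (Finset.mem_univ i)⟩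

/-- Thresholds below all pools of a positive point. -/
lemma exists_small_pools {Λ : ℝ} (hΛ : 1 ≤ Λ) (c : ι → ℝ) (hc : ∀ i, 0 < c i) :
    ∃ ζ : ℝ, 0 < ζ ∧ ∀ x : ι → ℝ, (∀ i, 0 < x i) →
      ∀ A : Finset ι, A.Nonempty → (∀ i ∈ A, c i ≤ x i) → ζ * Λ ^ A.card ≤ ∑ i ∈ A, x i := by
  obtain ⟨e, he, hle⟩ := exists_pos_le c hc
  have hΛpos : 0 < Λ ^ Fintype.card ι := pow_pos (by linarith) _
  refine ⟨e / Λ ^ Fintype.card ι, div_pos he hΛpos, fun x hx A hA hcx => ?_⟩
  obtain ⟨i₀, hi₀⟩ := hA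
  have h1 : e / Λ ^ Fintype.card ι * Λ ^ A.card ≤ e := by
    rw [div_mul_eq_mul_div, div_le_iff₀ hΛpos]
    exact mul_le_mul_of_nonneg_left (pow_card_le hΛ A) he.le
  have h2 : x i₀ ≤ ∑ i ∈ A, x i :=
    Finset.single_le_sum (f := x) (fun i _ => (hx i).le) hi₀
  linarith [hle i₀, hcx i₀ hi₀]

/-- The data of a system with linkage classes on conversion lines: the directions, the
multiples `lam`, and a sign threshold `M` of the speeds for the rates in `[ε, ε⁻¹]`. -/
structure ConvData (N : MAS R ι) (ε : ℝ) (dir : (ι → ℕ) → (ι → ℝ)) (lam : R → ℝ) (M : ℝ) :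
    Prop where
  hlam : ∀ q, N.vec q = lam q • dir (N.src q)
  hconv : ∀ q, IsConv (dir (N.src q))
  hM : ∀ (q : R) (x : ι → ℝ), (∀ i, 0 < x i) →
    (logCoord (dir (N.src q)) x ≤ -M →
      0 < lineSpeedK N dir lam (loK lam ε) (dir (N.src q)) x) ∧
    (M ≤ logCoord (dir (N.src q)) x →
      lineSpeedK N dir lam (hiK lam ε) (dir (N.src q)) x < 0)

/-- The ratio between the thresholds of the sums over sets of consecutive sizes. -/
noncomputable def convΛ (M : ℝ) : ℝ := 2 * (Real.exp M + 1)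

lemma one_le_convΛ (M : ℝ) : 1 ≤ convΛ M := by
  unfold convΛ
  have := Real.exp_pos M
  linarith

variable {N : MAS R ι} {ε : ℝ} {dir : (ι → ℕ) → (ι → ℝ)} {lam : R → ℝ} {M : ℝ}

lemma ConvData.sum_vec (D : ConvData N ε dir lam M) (A : Finset ι) (q : R) :
    ∑ i ∈ A, N.vec q i = lam q * ∑ i ∈ A, dir (N.src q) i := by
  rw [D.hlam q, Finset.mul_sum]
  rfl

lemma ConvData.sum_vec_univ (D : ConvData N ε dir lam M) (q : R) : ∑ i, N.vec q i = 0 := by
  rw [D.sum_vec Finset.univ q, isConv_sum_univ (D.hconv q), mul_zero]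

/-- The field summed over a set `A` of small species is nonnegative when the species outside
`A` are larger by the factor `exp M`. -/
lemma ConvData.face (D : ConvData N ε dir lam M) {k : R → ℝ} (hk : ∀ r, ε ≤ k r ∧ k r ≤ ε⁻¹)
    (A : Finset ι) (y : ι → ℝ) (hy : ∀ i, 0 < y i) {ξ : ℝ} (hin : ∀ i ∈ A, y i ≤ ξ)
    (hout : ∀ j, j ∉ A → Real.exp M * ξ ≤ y j) : 0 ≤ ∑ i ∈ A, N.fieldK k y i :=
  le_trans (poolLower_nonneg N dir lam D.hconv D.hM A y hy hin hout)
    (poolLower_le N dir lam D.hlam D.hconv hk A y (fun i => (hy i).le))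

/-- The class is bounded and closed off by the thresholds: the region is compact. -/
lemma isCompact_convRegion (N : MAS R ι) (hsum : ∀ q, ∑ i, N.vec q i = 0) (c : ι → ℝ)
    {Λ ζ : ℝ} (hζ : 0 < ζ) (hΛ : 1 ≤ Λ) : IsCompact (convRegion N c Λ ζ) := by
  have hcl : IsClosed (convRegion N c Λ ζ) := by
    have h1 : convRegion N c Λ ζ = {x : ι → ℝ | x - c ∈ N.stoich} ∩
        ⋂ A : Finset ι, {x : ι → ℝ | A.Nonempty → ζ * Λ ^ A.card ≤ ∑ i ∈ A, x i} := by
      ext x
      simp [convRegion]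
    rw [h1]
    refine (isClosed_class N c).inter (isClosed_iInter (fun A => ?_))
    by_cases hA : A.Nonempty
    · simp only [hA, forall_true_left]
      exact isClosed_le continuous_const
        (continuous_finsetSum _ (fun i _ => continuous_apply i))
    · simp only [hA, IsEmpty.forall_iff, Set.ofPred_true]
      exact isClosed_univ
  refine (isCompact_Icc (a := fun _ : ι => (0:ℝ)) (b := fun _ : ι => ∑ j, c j)).of_isClosed_subset
    hcl (fun x hx => ?_)
  have hpos := pos_of_pools hζ hΛ hx.2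
  have hs := sum_eq_of_class N Finset.univ hsum hx.1
  refine ⟨fun i => (hpos i).le, fun i => ?_⟩
  have : x i ≤ ∑ j, x j :=
    Finset.single_le_sum (f := x) (fun j _ => (hpos j).le) (Finset.mem_univ i)
  show x i ≤ ∑ j, c j
  linarith

/-- The thresholds `ζ * Λ ^ A.card` for the sums over the nonempty sets `A` of species are kept
along every curve in integral form whose state curve is the curve itself as long as the
halved thresholds hold. -/
lemma ConvData.invariant (D : ConvData N ε dir lam M) {κ : R → ℝ → ℝ}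
    (hκ : ∀ r, Measurable (κ r) ∧ ∀ t, ε ≤ κ r t ∧ κ r t ≤ ε⁻¹) {x z : ℝ → ι → ℝ}
    (hxc : ContinuousOn x (Ici 0)) (hzc : ContinuousOn z (Ici 0)) (hsol : IntForm N κ x z)
    {ζ : ℝ} (hζ : 0 < ζ)
    (hzx : ∀ s, 0 ≤ s →
      (∀ A : Finset ι, A.Nonempty → ζ * convΛ M ^ A.card / 2 ≤ ∑ i ∈ A, x s i) → z s = x s)
    (h0 : ∀ A : Finset ι, A.Nonempty → ζ * convΛ M ^ A.card ≤ ∑ i ∈ A, x 0 i) :
    ∀ t, 0 ≤ t → ∀ A : Finset ι, A.Nonempty → ζ * convΛ M ^ A.card ≤ ∑ i ∈ A, x t i := by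
  classical
  have hΛ := one_le_convΛ M
  have hΛpos : 0 < convΛ M := by linarith
  have key := functional_barrier N hκ hxc hzc hsol (J := Finset ι) indW
    (thr := fun A => if A.Nonempty then ζ * convΛ M ^ A.card else -1)
    (thr' := fun A => if A.Nonempty then ζ * convΛ M ^ A.card / 2 else -2)
    (fun A => by
      split_ifs
      · have : 0 < ζ * convΛ M ^ A.card := mul_pos hζ (pow_pos hΛpos _)
        linarith
      · norm_num)
    (fun s hs hrel A hA => by
      have hrel' : ∀ B : Finset ι, B.Nonempty →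
          ζ * convΛ M ^ B.card / 2 ≤ ∑ i ∈ B, x s i := by
        intro B hB
        have := hrel B
        rwa [if_pos hB, sum_indW_mul] at this
      have hAne : A.Nonempty := by
        by_contra hne
        rw [if_neg hne, sum_indW_mul, Finset.not_nonempty_iff_eq_empty.mp hne,
          Finset.sum_empty] at hA
        linarith
      rw [if_pos hAne, sum_indW_mul] at hA
      have hhalf : ∀ i, ζ * convΛ M / 2 ≤ x s i := half_pos_of_pools hrel'
      have hpos : ∀ i, 0 < x s i := fun i =>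
        lt_of_lt_of_le (by have := mul_pos hζ hΛpos; linarith) (hhalf i)
      have hzs : z s = x s := hzx s hs hrel'
      rw [sum_indW_mul, hzs]
      have hξ : 0 < ζ * convΛ M ^ A.card := mul_pos hζ (pow_pos hΛpos _)
      refine D.face (fun r => (hκ r).2 s) A (x s) hpos (ξ := ζ * convΛ M ^ A.card)
        (fun i hi => ?_) (fun j hj => ?_)
      · have : x s i ≤ ∑ i ∈ A, x s i :=
          Finset.single_le_sum (f := x s) (fun j _ => (hpos j).le) hi
        linarith
      · have h1 := hrel' (insert j A) (Finset.insert_nonempty j A)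
        rw [Finset.sum_insert hj, Finset.card_insert_of_notMem hj, pow_succ] at h1
        have h2 : ζ * (convΛ M ^ A.card * convΛ M) / 2
            = ζ * convΛ M ^ A.card * (Real.exp M + 1) := by
          unfold convΛ
          ring
        rw [h2] at h1
        linarith)
    (fun A => by
      split_ifs with hA
      · rw [sum_indW_mul]
        exact h0 A hA
      · rw [sum_indW_mul, Finset.not_nonempty_iff_eq_empty.mp hA, Finset.sum_empty]
        norm_num)
  intro t ht A hA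
  have := key t ht A
  rwa [if_pos hA, sum_indW_mul] at this

/-- Along a solution starting at a positive point the sums over the nonempty sets of species
stay above thresholds `ζ * Λ ^ A.card` with some `ζ > 0`. -/
lemma ConvData.stays (D : ConvData N ε dir lam M) {κ : R → ℝ → ℝ}
    (hκ : ∀ r, Measurable (κ r) ∧ ∀ t, ε ≤ κ r t ∧ κ r t ≤ ε⁻¹) {x : ℝ → ι → ℝ}
    (hx : N.IsSolAt κ x) (hpos : ∀ i, 0 < x 0 i) :
    ∃ ζ : ℝ, 0 < ζ ∧ ∀ t, 0 ≤ t → ∀ A : Finset ι, A.Nonempty →
      ζ * convΛ M ^ A.card ≤ ∑ i ∈ A, x t i := by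
  obtain ⟨ζ, hζ, h⟩ := exists_small_pools (one_le_convΛ M) (x 0) hpos
  exact ⟨ζ, hζ, D.invariant hκ hx.1 hx.1 hx.2 hζ (fun _ _ _ => rfl)
    (fun A hA => h (x 0) hpos A hA (fun _ _ => le_rfl))⟩

/-- Global existence of solutions from every positive point. -/
lemma ConvData.exists_sol (D : ConvData N ε dir lam M) (hε : 0 < ε) {κ : R → ℝ → ℝ}
    (hκ : ∀ r, Measurable (κ r) ∧ ∀ t, ε ≤ κ r t ∧ κ r t ≤ ε⁻¹)
    (x₀ : ι → ℝ) (hx₀ : ∀ i, 0 < x₀ i) :
    ∃ x : ℝ → ι → ℝ, x 0 = x₀ ∧ N.IsSolAt κ x := by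
  obtain ⟨ζ, hζ, h⟩ := exists_small_pools (one_le_convΛ M) x₀ hx₀
  have hΛ := one_le_convΛ M
  have hΛpos : 0 < convΛ M := by linarith
  set m : ι → ℝ := fun _ => ζ * convΛ M / 2 with hm
  set B : ι → ℝ := fun _ => ∑ j, x₀ j with hB
  have h0 : ∀ A : Finset ι, A.Nonempty → ζ * convΛ M ^ A.card ≤ ∑ i ∈ A, x₀ i :=
    fun A hA => h x₀ hx₀ A hA (fun _ _ => le_rfl)
  have hmB : ∀ i, m i ≤ B i := by
    intro i
    have h1 := h0 {i} (Finset.singleton_nonempty i)
    simp only [Finset.card_singleton, pow_one, Finset.sum_singleton] at h1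
    have h2 : x₀ i ≤ ∑ j, x₀ j :=
      Finset.single_le_sum (f := x₀) (fun j _ => (hx₀ j).le) (Finset.mem_univ i)
    have h3 := mul_pos hζ hΛpos
    show ζ * convΛ M / 2 ≤ ∑ j, x₀ j
    linarith
  obtain ⟨x, hxc, hx⟩ := exists_clamped_sol N hε hκ hmB x₀
  have hx0 : x 0 = x₀ := by
    have := hx 0 le_rfl
    simpa using this
  set z : ℝ → ι → ℝ := fun s => clampBox m B (x s) with hz
  have hzc : Continuous z := (continuous_clampBox m B).comp hxc
  have hsol : IntForm N κ x z := fun t ht => by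
    rw [hx0]
    exact hx t ht
  have hsum : ∀ s, 0 ≤ s → ∑ i, x s i = ∑ i, x₀ i := by
    intro s hs
    have := sum_eq_of_class N Finset.univ (fun q => D.sum_vec_univ q)
      (intForm_mem_stoich N hκ hzc.continuousOn hsol hs)
    rw [hx0] at this
    exact this
  have hzx : ∀ s, 0 ≤ s →
      (∀ A : Finset ι, A.Nonempty → ζ * convΛ M ^ A.card / 2 ≤ ∑ i ∈ A, x s i) →
      z s = x s := by
    intro s hs hrel
    have hhalf : ∀ i, ζ * convΛ M / 2 ≤ x s i := half_pos_of_pools hrel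
    have hpos : ∀ i, 0 < x s i := fun i =>
      lt_of_lt_of_le (by have := mul_pos hζ hΛpos; linarith) (hhalf i)
    refine clampBox_eq ⟨fun i => hhalf i, fun i => ?_⟩
    have h2 : x s i ≤ ∑ j, x s j :=
      Finset.single_le_sum (f := x s) (fun j _ => (hpos j).le) (Finset.mem_univ i)
    show x s i ≤ ∑ j, x₀ j
    rw [← hsum s hs]
    exact h2
  have hinv := D.invariant hκ hxc.continuousOn hzc.continuousOn hsol hζ hzx
    (by rw [hx0]; exact h0)
  refine ⟨x, hx0, hxc.continuousOn, fun t ht => ?_⟩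
  rw [hsol t ht]
  congr 1
  apply intervalIntegral.integral_congr
  intro s hs
  rw [uIcc_of_le ht] at hs
  have hzs : z s = x s := hzx s hs.1 (fun A hA => by
    have h1 := hinv s hs.1 A hA
    have h2 : 0 < ζ * convΛ M ^ A.card := mul_pos hζ (pow_pos hΛpos _)
    linarith)
  simp only [hzs]

/-- One step of the absorption: if the sums over the sets `insert j A`, `j ∉ A`, are above the
target thresholds from some time on, then so is the sum over `A` from some later time on. -/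
lemma ConvData.step [DecidableEq ι] (D : ConvData N ε dir lam M) {κ : R → ℝ → ℝ}
    (hκ : ∀ r, Measurable (κ r) ∧ ∀ t, ε ≤ κ r t ∧ κ r t ≤ ε⁻¹) {x : ℝ → ι → ℝ}
    (hx : N.IsSolAt κ x) {c : ι → ℝ} {ζ ζ' : ℝ} (hζ : 0 < ζ) (hζ' : 0 < ζ')
    (hreg : ∀ t, 0 ≤ t → x t ∈ convRegion N c (convΛ M) ζ)
    (hc : ∀ A : Finset ι, A.Nonempty → ζ' * convΛ M ^ A.card ≤ ∑ i ∈ A, c i)
    (A : Finset ι) (hA : A.Nonempty) {T₀ : ℝ} (hT₀ : 0 ≤ T₀)
    (hup : ∀ j, j ∉ A → ∀ t, T₀ ≤ t →
      ζ' * convΛ M ^ (insert j A).card ≤ ∑ i ∈ insert j A, x t i) :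
    ∃ T, 0 ≤ T ∧ ∀ t, T ≤ t → ζ' * convΛ M ^ A.card ≤ ∑ i ∈ A, x t i := by
  have hΛ := one_le_convΛ M
  have hΛpos : 0 < convΛ M := by linarith
  by_cases hq : ∀ q, ∑ i ∈ A, dir (N.src q) i = 0
  · refine ⟨0, le_rfl, fun t ht => ?_⟩
    have := sum_eq_of_class N A (fun q => by rw [D.sum_vec A q, hq q, mul_zero]) (hreg t ht).1
    rw [this]
    exact hc A hA
  · push Not at hq
    obtain ⟨q₀, hq₀⟩ := hq
    set l : ℝ := ζ' * convΛ M ^ A.card with hl
    have hlpos : 0 < l := mul_pos hζ' (pow_pos hΛpos _)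
    set S : Set (ι → ℝ) := (convRegion N c (convΛ M) ζ ∩ {y | ∑ i ∈ A, y i ≤ l}) ∩
      {y | ∀ j, j ∉ A → ζ' * convΛ M ^ (insert j A).card ≤ ∑ i ∈ insert j A, y i} with hS
    have hScomp : IsCompact S := by
      refine ((isCompact_convRegion N (fun q => D.sum_vec_univ q) c hζ hΛ).inter_right
        (isClosed_le (continuous_finsetSum _ (fun i _ => continuous_apply i))
          continuous_const)).inter_right ?_
      have h1 : {y : ι → ℝ | ∀ j, j ∉ A →
          ζ' * convΛ M ^ (insert j A).card ≤ ∑ i ∈ insert j A, y i} =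
          ⋂ j : ι, {y : ι → ℝ | j ∉ A →
            ζ' * convΛ M ^ (insert j A).card ≤ ∑ i ∈ insert j A, y i} := by
        ext y
        simp
      rw [h1]
      refine isClosed_iInter (fun j => ?_)
      by_cases hj : j ∉ A
      · simp only [hj, not_false_eq_true, forall_true_left]
        exact isClosed_le continuous_const
          (continuous_finsetSum _ (fun i _ => continuous_apply i))
      · simp only [hj, IsEmpty.forall_iff, Set.ofPred_true]
        exact isClosed_univ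
    have hSpos : ∀ y ∈ S, 0 < poolLower N dir lam ε A y := by
      intro y hy
      have hypos : ∀ i, 0 < y i := pos_of_pools hζ hΛ hy.1.1.2
      refine poolLower_pos N dir lam D.hconv D.hM A y hypos (ξ := l) (fun i hi => ?_)
        (fun j hj => ?_) q₀ hq₀
      · have h1 : y i ≤ ∑ i ∈ A, y i :=
          Finset.single_le_sum (f := y) (fun j _ => (hypos j).le) hi
        exact le_trans h1 hy.1.2
      · have h1 := hy.2 j hj
        rw [Finset.sum_insert hj, Finset.card_insert_of_notMem hj, pow_succ] at h1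
        have h2 : ζ' * (convΛ M ^ A.card * convΛ M) = l * (2 * Real.exp M + 2) := by
          rw [hl]
          unfold convΛ
          ring
        rw [h2] at h1
        have h3 : ∑ i ∈ A, y i ≤ l := hy.1.2
        have h4 := Real.exp_pos M
        nlinarith [mul_pos hlpos h4]
    have hη : ∃ η : ℝ, 0 < η ∧ ∀ y ∈ S, η ≤ poolLower N dir lam ε A y := by
      by_cases hne : S.Nonempty
      · obtain ⟨y₀, hy₀, hmin⟩ := hScomp.exists_isMinOn hne
          (continuous_poolLower N dir lam ε A).continuousOn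
        exact ⟨poolLower N dir lam ε A y₀, hSpos y₀ hy₀, fun y hy => hmin hy⟩
      · exact ⟨1, one_pos, fun y hy => absurd ⟨y, hy⟩ hne⟩
    obtain ⟨η, hηpos, hη⟩ := hη
    obtain ⟨T, hT, hTl⟩ := functional_absorb N hκ hx (indW A) (l := l) hT₀ hηpos
      (fun s hs hlt => by
        rw [sum_indW_mul] at hlt ⊢
        have hsS : x s ∈ S := ⟨⟨hreg s (le_trans hT₀ hs), hlt.le⟩, fun j hj => hup j hj s hs⟩
        refine le_trans (hη (x s) hsS) ?_
        exact poolLower_le N dir lam D.hlam D.hconv (fun r => (hκ r).2 s) A (x s)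
          (fun i => (pos_of_pools hζ hΛ (hreg s (le_trans hT₀ hs)).2 i).le))
    refine ⟨T, le_trans hT₀ hT, fun t ht => ?_⟩
    have := hTl t ht
    rwa [sum_indW_mul] at this

/-- **Weakly reversible systems whose linkage classes lie on conversion lines are permanent for
all measurable rate functions with values in `[ε, ε⁻¹]`**, with a compact set that does not
depend on the rate functions. -/
theorem conversionLines_stronglyPermanentOn (N : MAS R ι) (hwr : N.WeaklyReversible)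
    (hC : N.ConversionLines) {ε : ℝ} (hε : 0 < ε) (c : ι → ℝ) (hc : ∀ i, 0 < c i) :
    N.StronglyPermanentOn ε (N.posClass c) := by
  classical
  obtain ⟨dir, h1, hconv⟩ := hC
  have hdir : ∀ q, dir (N.src q) = dir (N.tgt q) := fun q => (h1 q).1
  choose lam hlam using fun q => (h1 q).2
  obtain ⟨M, -, hM⟩ := lineSpeedK_sign N hwr dir lam hdir hlam hε
  have D : ConvData N ε dir lam M := ⟨hlam, hconv, hM⟩
  have hΛ := one_le_convΛ M
  obtain ⟨ζ', hζ', hsmall⟩ := exists_small_pools hΛ c hc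
  have hcpools : ∀ A : Finset ι, A.Nonempty → ζ' * convΛ M ^ A.card ≤ ∑ i ∈ A, c i :=
    fun A hA => hsmall c hc A hA (fun _ _ => le_rfl)
  refine ⟨convRegion N c (convΛ M) ζ',
    isCompact_convRegion N (fun q => D.sum_vec_univ q) c hζ' hΛ,
    fun x hx => ⟨pos_of_pools hζ' hΛ hx.2, hx.1⟩, fun κ hκ => ⟨?_, ?_, ?_⟩⟩
  · intro x₀ hx₀
    exact D.exists_sol hε hκ x₀ hx₀.1
  · intro x h0 hx t ht
    obtain ⟨ζ, hζ, hst⟩ := D.stays hκ hx h0.1
    exact ⟨pos_of_pools hζ hΛ (hst t ht),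
      class_mem_of_sub N (intForm_mem_stoich N hκ hx.1 hx.2 ht) h0.2⟩
  · intro x h0 hx
    obtain ⟨ζ, hζ, hst⟩ := D.stays hκ hx h0.1
    have hreg : ∀ t, 0 ≤ t → x t ∈ convRegion N c (convΛ M) ζ := fun t ht =>
      ⟨class_mem_of_sub N (intForm_mem_stoich N hκ hx.1 hx.2 ht) h0.2, hst t ht⟩
    obtain ⟨T, hT, hall⟩ := subset_absorb
      (P := fun A t => A.Nonempty → ζ' * convΛ M ^ A.card ≤ ∑ i ∈ A, x t i)
      (fun A T₀ hT₀ hup => by
        by_cases hA : A.Nonempty
        · obtain ⟨T, hT, hTA⟩ := D.step hκ hx hζ hζ' hreg hcpools A hA hT₀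
            (fun j hj t ht => hup j hj t ht (Finset.insert_nonempty j A))
          exact ⟨T, hT, fun t ht _ => hTA t ht⟩
        · exact ⟨0, le_rfl, fun t _ hA' => absurd hA' hA⟩)
    exact ⟨T, fun t ht => ⟨(hreg t (le_trans hT ht)).1, fun A hA => hall t ht A hA⟩⟩

/-- Permanence for all rate functions with values in `[ε, ε⁻¹]` gives permanence of the system
with constant rates, if the rate constants are in `[ε, ε⁻¹]`. -/
lemma permanentOn_of_stronglyPermanentOn (N : MAS R ι) {ε : ℝ}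
    (hr : ∀ r, ε ≤ N.rate r ∧ N.rate r ≤ ε⁻¹) {P : Set (ι → ℝ)}
    (h : N.StronglyPermanentOn ε P) : N.PermanentOn P := by
  obtain ⟨K, hK, hKP, hall⟩ := h
  obtain ⟨h1, h2, h3⟩ := hall (fun r _ => N.rate r) (fun r => ⟨measurable_const, fun _ => hr r⟩)
  refine ⟨fun x₀ hx₀ => ?_, fun x hx0 hx => h2 x hx0 ((isSol_iff_isSolAt_const N x).1 hx),
    K, hK, hKP, fun x hx0 hx => h3 x hx0 ((isSol_iff_isSolAt_const N x).1 hx)⟩
  obtain ⟨x, hx0, hx⟩ := h1 x₀ hx₀
  exact ⟨x, hx0, (isSol_iff_isSolAt_const N x).2 hx⟩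

/-- **Weakly reversible systems whose linkage classes lie on conversion lines are permanent.** -/
theorem conversionLines_permanentOn (N : MAS R ι) (hwr : N.WeaklyReversible)
    (hC : N.ConversionLines) (c : ι → ℝ) (hc : ∀ i, 0 < c i) :
    N.PermanentOn (N.posClass c) := by
  obtain ⟨ε, hε, hr⟩ := exists_rate_bounds N
  exact permanentOn_of_stronglyPermanentOn N hr
    (conversionLines_stronglyPermanentOn N hwr hC hε c hc)

end Vale.Agent.Lib.P072
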