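import Vale.Agent.Lib.P072.BalMain
import Vale.Agent.Lib.P072.BalPermanent2
import Vale.Agent.Lib.P072.BalRepel
import Vale.Agent.Lib.P072.BalCompact
import Vale.Agent.Lib.P072.ConvMain

/-!
# Permanence when the source monomials of the strongly connected system have no common zero
other than the origin
-/

namespace Vale.Agent.Lib.P072

open Set

set_option linter.unusedSectionVars false

variable {R R₁ R₂ ι : Type} [Fintype R] [Fintype R₁] [Fintype R₂] [Fintype ι]

lemma exp_cw_eq_div (xs x : ι → ℝ) (hxs : ∀ i, 0 < xs i) (hx : ∀ i, 0 < x i) (y : ι → ℕ) :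
    Real.exp (cw xs x y) = mono y x / mono y xs := by
  rw [mono_eq_mul_exp_cw xs x hxs hx y]
  field_simp [(mono_pos y xs hxs).ne']

/-- Permanence: if `N₁` is strongly connected, `N₂` is complex balanced at a positive point,
the reaction vectors of `N₂` lie in the stoichiometric subspace of `N₁`, and no nonzero
nonnegative point of `c + stoich` is a common zero of the source monomials of `N₁`, then the
union system is permanent on the positive stoichiometric class of `c`. -/
theorem union_permanentOn_of_noCommonZero (N₁ : MAS R₁ ι) (N₂ : MAS R₂ ι) (xs : ι → ℝ)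
    (hxs : ∀ i, 0 < xs i) (h₁ : N₁.StronglyConnected) (hspan : N₂.stoich ≤ N₁.stoich)
    (h₂ : N₂.ComplexBalancedAt xs) (c : ι → ℝ)
    (hz : ∀ z : ι → ℝ, (∀ i, 0 ≤ z i) → z - c ∈ (N₁.union N₂).stoich → z ≠ 0 →
      ∃ r : R₁, 0 < mono (N₁.src r) z) :
    (N₁.union N₂).PermanentOn ((N₁.union N₂).posClass c) := by
  have hb := union_boundedOn N₁ N₂ xs hxs h₁ hspan h₂ c
  by_cases hne : ((N₁.union N₂).posClass c).Nonempty
  swap
  · rw [Set.not_nonempty_iff_eq_empty] at hne
    rw [hne]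
    exact ⟨fun x hx => absurd hx (Set.notMem_empty x), fun x hx => absurd hx (Set.notMem_empty _),
      ∅, isCompact_empty, Set.empty_subset _, fun x hx => absurd hx (Set.notMem_empty _)⟩
  obtain ⟨c', hc'⟩ := hne
  have hz' : ∀ z : ι → ℝ, (∀ i, 0 ≤ z i) → z - c' ∈ (N₁.union N₂).stoich → z ≠ 0 →
      ∃ r : R₁, 0 < mono (N₁.src r) z := by
    intro z hz0 hzc hzne
    refine hz z hz0 ?_ hzne
    have : z - c = (z - c') + (c' - c) := by abel
    rw [this]
    exact Submodule.add_mem _ hzc hc'.2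
  rw [posClass_eq_of_mem _ hc'] at hb ⊢
  obtain ⟨δ, B, hδ, halt⟩ := static_alternative N₁ N₂ xs hxs h₁ hspan h₂ c' hc'.1
  rcases isEmpty_or_nonempty ι with hι | hι
  · exact permanentOn_of_dissip _ xs hxs c' δ B 1 hδ one_pos hb
      (fun x _ => Or.inl (fun i => isEmptyElim i))
  obtain ⟨e, he, hexs⟩ := exists_pos_le xs hxs
  set ρ : ℝ := min (δ / 2) e with hρdef
  have hρ : 0 < ρ := lt_min (by linarith) he
  have hρδ : ρ < δ := lt_of_le_of_lt (min_le_left _ _) (by linarith)
  have hρxs : ∀ i, ρ ≤ xs i := fun i => le_trans (min_le_right _ _) (hexs i)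
  have hweak : ∀ x ∈ (N₁.union N₂).posClass c',
      (∀ i, δ ≤ x i ∧ x i ≤ B) ∨ (N₁.union N₂).dissip xs x < 0 := by
    intro x hx
    rcases halt x hx with h | h
    · exact Or.inl h
    · exact Or.inr h.1
  -- the total of the source monomials of `N₁` at `xs`
  set Mxs : ℝ := 1 + ∑ r, mono (N₁.src r) xs with hMxs
  have hMle : ∀ r, mono (N₁.src r) xs ≤ Mxs := by
    intro r
    have := Finset.single_le_sum (fun q _ => (mono_pos (N₁.src q) xs hxs).le) (Finset.mem_univ r)
      (f := fun q => mono (N₁.src q) xs)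
    linarith
  have hMpos : 0 < Mxs := by
    have : 0 ≤ ∑ r, mono (N₁.src r) xs :=
      Finset.sum_nonneg (fun q _ => (mono_pos (N₁.src q) xs hxs).le)
    linarith
  -- a lower bound of a source monomial gives a rate of dissipation outside the box
  have hrate : ∀ θ : ℝ, 0 < θ → ∀ x ∈ (N₁.union N₂).posClass c',
      (∃ r : R₁, θ ≤ mono (N₁.src r) x) →
      (∀ i, δ ≤ x i ∧ x i ≤ B) ∨ (N₁.union N₂).dissip xs x ≤ -(θ / Mxs) := by
    intro θ hθ x hx ⟨r₀, hr₀⟩
    rcases halt x hx with h | h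
    · exact Or.inl h
    · refine Or.inr (le_trans (h.2 r₀) ?_)
      rw [exp_cw_eq_div xs x hxs hx.1, neg_le_neg_iff]
      have h1 : θ / Mxs ≤ θ / mono (N₁.src r₀) xs :=
        div_le_div_of_nonneg_left hθ.le (mono_pos _ _ hxs) (hMle r₀)
      have h2 : θ / mono (N₁.src r₀) xs ≤ mono (N₁.src r₀) x / mono (N₁.src r₀) xs :=
        div_le_div_of_nonneg_right hr₀ (mono_pos _ _ hxs).le
      exact le_trans h1 h2
  refine permanentOn_of_eventual_dissip _ xs hxs c' δ B hδ hb (safeSet xs ρ) ?_ ?_ ?_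
  · intro x hx0 hx t₀ ht₀ h0
    exact safe_invariant _ xs c' δ B ρ hρ hρδ hρxs hweak hx (hb.2.1 x hx0 hx) ht₀ h0
  · intro x hx0 hx
    refine safe_absorb _ xs hxs c' δ B ρ hρ hρδ hρxs hweak ?_ hx (hb.2.1 x hx0 hx)
    intro u hu
    obtain ⟨θ, hθ, hθz⟩ := exists_mono_lower_on (N₁.union N₂) (fun r : R₁ => N₁.src r) c' ρ
      {z | entropy xs z ≤ -u} (isClosed_entropy_le xs (-u))
      (by
        have h00 : entropy xs (0 : ι → ℝ) = 0 := by simp [entropy]
        intro hmem
        have hmem' : entropy xs (0 : ι → ℝ) ≤ -u := hmem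
        rw [h00] at hmem'
        linarith) hz'
    refine ⟨θ / Mxs, div_pos hθ hMpos, fun x hx hxρ hxu => ?_⟩
    rcases hrate θ hθ x hx (hθz x (fun i => ⟨(hx.1 i).le, hxρ i⟩) hx.2 hxu) with hbox | hneg
    · exfalso
      obtain ⟨i⟩ := hι
      have := (hbox i).1
      have := hxρ i
      linarith
    · exact hneg
  · intro B'
    obtain ⟨θ, hθ, hθz⟩ := exists_mono_lower_on (N₁.union N₂) (fun r : R₁ => N₁.src r) c' B'
      (safeSet xs ρ) (isClosed_safeSet xs ρ) (zero_notMem_safeSet xs hρ) hz'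
    refine ⟨θ / Mxs, div_pos hθ hMpos, fun x hx hxE hxB => ?_⟩
    exact hrate θ hθ x hx (hθz x (fun i => ⟨(hx.1 i).le, hxB i⟩) hx.2 hxE)

lemma mono_eq_pow_of_single (y : ι → ℕ) (z : ι → ℝ) (i : ι) (h : ∀ j, j ≠ i → y j = 0) :
    mono y z = z i ^ y i := by
  unfold mono
  rw [Finset.prod_eq_single i]
  · intro j _ hj
    rw [h j hj, pow_zero]
  · intro hi
    exact absurd (Finset.mem_univ i) hi

/-- Permanence when every species has a source complex of `N₁` that consists of that species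
alone. -/
theorem union_permanentOn_of_purePowers (N₁ : MAS R₁ ι) (N₂ : MAS R₂ ι) (xs : ι → ℝ)
    (hxs : ∀ i, 0 < xs i) (h₁ : N₁.StronglyConnected) (hspan : N₂.stoich ≤ N₁.stoich)
    (h₂ : N₂.ComplexBalancedAt xs)
    (hp : ∀ i, ∃ r, 0 < N₁.src r i ∧ ∀ j, j ≠ i → N₁.src r j = 0) (c : ι → ℝ) :
    (N₁.union N₂).PermanentOn ((N₁.union N₂).posClass c) := by
  refine union_permanentOn_of_noCommonZero N₁ N₂ xs hxs h₁ hspan h₂ c ?_
  intro z hz0 _ hzne
  have hex : ∃ i, z i ≠ 0 := by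
    by_contra hcon
    push Not at hcon
    exact hzne (funext hcon)
  obtain ⟨i, hi⟩ := hex
  obtain ⟨r, hr, hr0⟩ := hp i
  refine ⟨r, ?_⟩
  rw [mono_eq_pow_of_single _ z i hr0]
  exact pow_pos (lt_of_le_of_ne (hz0 i) (Ne.symm hi)) _

end Vale.Agent.Lib.P072
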