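import Vale.Agent.Lib.P072.BalBasic

/-!
# The safe set away from the origin (internal definition)
-/

namespace Vale.Agent.Lib.P072

variable {ι : Type} [Fintype ι]

/-- The safe set: some coordinate is at least `ρ`, or the entropy-type function is at most
`-(ρ / 2)`. Its complement is a neighbourhood of the origin in the nonnegative orthant. -/
def safeSet (xs : ι → ℝ) (ρ : ℝ) : Set (ι → ℝ) :=
  {x | (∃ i, ρ ≤ x i) ∨ entropy xs x ≤ -(ρ / 2)}

end Vale.Agent.Lib.P072
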