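import Mathlib

/-!
# Two scalar estimates for `(log s - a) * (s - c)`
-/

namespace Vale.Agent.Lib.P072

/-- Coercivity: `(log s - a) * (s - c)` dominates `Λ * |s - c|` up to a constant. -/
lemma scalar_coercive (a c Λ : ℝ) (hc : 0 < c) (hΛ : 0 ≤ Λ) :
    ∃ b : ℝ, 0 ≤ b ∧ ∀ s : ℝ, 0 < s → Λ * |s - c| - b ≤ (Real.log s - a) * (s - c) := by
  obtain ⟨lo, hlo⟩ : ∃ lo : ℝ, lo = min c (Real.exp (a - Λ)) := ⟨_, rfl⟩
  obtain ⟨hi, hhi⟩ : ∃ hi : ℝ, hi = max c (Real.exp (a + Λ)) := ⟨_, rfl⟩
  have hlo0 : 0 < lo := by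
    rw [hlo]
    exact lt_min hc (Real.exp_pos _)
  have hloc : lo ≤ c := by
    rw [hlo]
    exact min_le_left _ _
  have hloe : lo ≤ Real.exp (a - Λ) := by
    rw [hlo]
    exact min_le_right _ _
  have hchi : c ≤ hi := by
    rw [hhi]
    exact le_max_left _ _
  have hehi : Real.exp (a + Λ) ≤ hi := by
    rw [hhi]
    exact le_max_right _ _
  have hhi0 : 0 < hi := lt_of_lt_of_le hc hchi
  obtain ⟨K, hK⟩ : ∃ K : ℝ, K = |Real.log lo| + |Real.log hi| + |a| := ⟨_, rfl⟩
  have hK0 : 0 ≤ K := by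
    rw [hK]
    positivity
  have hb : 0 ≤ (K + Λ) * (hi + c) := by positivity
  refine ⟨(K + Λ) * (hi + c), hb, ?_⟩
  intro s hs
  rcases lt_or_ge hi s with h1 | h1
  · have hsc : c < s := lt_of_le_of_lt hchi h1
    have hlog : a + Λ < Real.log s := by
      rw [Real.lt_log_iff_exp_lt hs]
      exact lt_of_le_of_lt hehi h1
    have habs : |s - c| = s - c := abs_of_pos (by linarith)
    rw [habs]
    nlinarith [mul_nonneg (by linarith : (0 : ℝ) ≤ Real.log s - a - Λ)
      (by linarith : (0 : ℝ) ≤ s - c), hb]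
  · rcases lt_or_ge s lo with h2 | h2
    · have hsc : s < c := lt_of_lt_of_le h2 hloc
      have hlog : Real.log s < a - Λ := by
        rw [Real.log_lt_iff_lt_exp hs]
        exact lt_of_lt_of_le h2 hloe
      have habs : |s - c| = c - s := by
        rw [abs_of_neg (by linarith)]
        ring
      rw [habs]
      nlinarith [mul_nonneg (by linarith : (0 : ℝ) ≤ a - Λ - Real.log s)
        (by linarith : (0 : ℝ) ≤ c - s), hb]
    · have hl1 : Real.log lo ≤ Real.log s := Real.log_le_log hlo0 h2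
      have hl2 : Real.log s ≤ Real.log hi := Real.log_le_log hs h1
      have h3 : |Real.log s - a| ≤ K := by
        rw [hK, abs_le]
        constructor
        · linarith [neg_abs_le (Real.log lo), le_abs_self a, abs_nonneg (Real.log hi)]
        · linarith [le_abs_self (Real.log hi), neg_abs_le a, abs_nonneg (Real.log lo)]
      have h4 : |s - c| ≤ hi + c := by
        rw [abs_le]
        constructor <;> linarith
      have h5 : |(Real.log s - a) * (s - c)| ≤ K * (hi + c) := by
        rw [abs_mul]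
        exact mul_le_mul h3 h4 (abs_nonneg _) hK0
      have h6 := neg_abs_le ((Real.log s - a) * (s - c))
      have h7 : Λ * |s - c| ≤ Λ * (hi + c) := mul_le_mul_of_nonneg_left h4 hΛ
      nlinarith [h5, h6, h7]

/-- Blow-up at zero: a bound on `(log s - a) * (s - c)` keeps `s` away from zero. -/
lemma scalar_lower (a c B₂ : ℝ) (hc : 0 < c) :
    ∃ δ : ℝ, 0 < δ ∧ ∀ s : ℝ, 0 < s → (Real.log s - a) * (s - c) ≤ B₂ → δ ≤ s := by
  refine ⟨min (min (c / 2) (Real.exp a)) (Real.exp (a - 2 * |B₂| / c)), ?_, ?_⟩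
  · exact lt_min (lt_min (by linarith) (Real.exp_pos _)) (Real.exp_pos _)
  · intro s hs hB
    by_cases h1 : s ≤ c / 2 ∧ s ≤ Real.exp a
    · obtain ⟨h2, h3⟩ := h1
      have hlog : Real.log s ≤ a := (Real.log_le_iff_le_exp hs).mpr h3
      have h4 : (a - Real.log s) * (c / 2) ≤ B₂ := by
        nlinarith [mul_nonneg (by linarith : (0 : ℝ) ≤ a - Real.log s)
          (by linarith : (0 : ℝ) ≤ c / 2 - s)]
      have h5 : a - Real.log s ≤ 2 * |B₂| / c := by
        rw [le_div_iff₀ hc]
        nlinarith [le_abs_self B₂]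
      have h6 : Real.exp (a - 2 * |B₂| / c) ≤ s := by
        rw [← Real.le_log_iff_exp_le hs]
        linarith
      exact le_trans (min_le_right _ _) h6
    · rw [not_and_or] at h1
      rcases h1 with h1 | h1
      · exact le_trans (le_trans (min_le_left _ _) (min_le_left _ _)) (not_le.mp h1).le
      · exact le_trans (le_trans (min_le_left _ _) (min_le_right _ _)) (not_le.mp h1).le

end Vale.Agent.Lib.P072
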