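import Vale.Agent.Lib.P072.BalBasic

/-!
# The union of two mass-action systems: field, dissipation, stoichiometric subspace
-/

namespace Vale.Agent.Lib.P072

set_option linter.unusedSectionVars false

variable {R₁ R₂ ι : Type} [Fintype R₁] [Fintype R₂] [Fintype ι]

lemma union_field (N₁ : MAS R₁ ι) (N₂ : MAS R₂ ι) (x : ι → ℝ) :
    (N₁.union N₂).field x = N₁.field x + N₂.field x := by
  unfold MAS.field
  rw [Fintype.sum_sum_type]
  rfl

lemma union_dissip (N₁ : MAS R₁ ι) (N₂ : MAS R₂ ι) (xs x : ι → ℝ) :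
    (N₁.union N₂).dissip xs x = N₁.dissip xs x + N₂.dissip xs x := by
  unfold MAS.dissip
  rw [union_field, ← Finset.sum_add_distrib]
  refine Finset.sum_congr rfl (fun i _ => ?_)
  rw [Pi.add_apply, mul_add]

lemma union_stoich_of_le (N₁ : MAS R₁ ι) (N₂ : MAS R₂ ι) (h : N₂.stoich ≤ N₁.stoich) :
    (N₁.union N₂).stoich = N₁.stoich := by
  have hvec : (N₁.union N₂).vec = Sum.elim N₁.vec N₂.vec := by
    funext r
    cases r <;> rfl
  unfold MAS.stoich
  rw [hvec, Set.Sum.elim_range, Submodule.span_union]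
  exact sup_eq_left.mpr h

/-- The union of a strongly connected system and a weakly reversible system is weakly
reversible. -/
lemma union_weaklyReversible (N₁ : MAS R₁ ι) (N₂ : MAS R₂ ι) (h₁ : N₁.StronglyConnected)
    (h₂ : N₂.WeaklyReversible) : (N₁.union N₂).WeaklyReversible := by
  intro r
  rcases r with r | r
  · have h := h₁ r r
    have hle : ∀ a b : ι → ℕ, (∃ s, N₁.src s = a ∧ N₁.tgt s = b) →
        ∃ q, (N₁.union N₂).src q = a ∧ (N₁.union N₂).tgt q = b :=
      fun a b ⟨s, hs1, hs2⟩ => ⟨Sum.inl s, hs1, hs2⟩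
    rcases Relation.reflTransGen_iff_eq_or_transGen.mp h with heq | htg
    · exact absurd heq (N₁.src_ne_tgt r)
    · exact Relation.TransGen.mono hle _ _ htg
  · have hle : ∀ a b : ι → ℕ, (∃ s, N₂.src s = a ∧ N₂.tgt s = b) →
        ∃ q, (N₁.union N₂).src q = a ∧ (N₁.union N₂).tgt q = b :=
      fun a b ⟨s, hs1, hs2⟩ => ⟨Sum.inr s, hs1, hs2⟩
    exact Relation.TransGen.mono hle _ _ (h₂ r)

end Vale.Agent.Lib.P072
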