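import Vale.Agent.Lib.P072.BalTier
import Vale.Agent.Lib.P072.BalHJ
import Vale.Agent.Lib.P072.BalUnion
import Vale.Agent.Lib.P072.BalCore

/-!
# The dissipation alternative for a strongly connected system joined with a complex-balanced one
-/

namespace Vale.Agent.Lib.P072

open Set

set_option linter.unusedSectionVars false

variable {R R₁ R₂ ι : Type} [Fintype R] [Fintype R₁] [Fintype R₂] [Fintype ι]

/-- Horn-Jackson: the entropy-type function relative to a point of complex balance does not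
increase along the vector field. -/
lemma dissip_nonpos_of_complexBalanced (N : MAS R ι) (xs : ι → ℝ) (hxs : ∀ i, 0 < xs i)
    (hcb : N.ComplexBalancedAt xs) (x : ι → ℝ) (hx : ∀ i, 0 < x i) : N.dissip xs x ≤ 0 := by
  rw [dissip_eq_sum N xs x hxs hx]
  refine balanced_sum_nonpos N.src N.tgt (fun r => N.rate r * mono (N.src r) xs)
    (fun r => (mul_pos (N.rate_pos r) (mono_pos _ _ hxs)).le) (fun y => ?_) (cw xs x)
  have h := hcb y
  convert h

/-- Tier estimate: for a strongly connected system, if the logarithmic weights of the source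
complexes spread by at least `Θ`, the dissipation is at most minus the largest of the
monomials `exp (cw xs x (src r₀))`. -/
lemma dissip_le_of_spread (N : MAS R ι) (hsc : N.StronglyConnected) (xs : ι → ℝ)
    (hxs : ∀ i, 0 < xs i) :
    ∃ Θ : ℝ, 0 ≤ Θ ∧ ∀ x : ι → ℝ, (∀ i, 0 < x i) → ∀ r₁ r₂,
      Θ ≤ cw xs x (N.src r₁) - cw xs x (N.src r₂) →
      ∀ r₀, N.dissip xs x ≤ - Real.exp (cw xs x (N.src r₀)) := by
  rcases isEmpty_or_nonempty R with hR | hR
  · exact ⟨0, le_rfl, fun x hx r₁ => isEmptyElim r₁⟩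
  · obtain ⟨rmin, -, hmin⟩ := Finset.exists_min_image Finset.univ
      (fun r => N.rate r * mono (N.src r) xs) Finset.univ_nonempty
    obtain ⟨rmax, -, hmax⟩ := Finset.exists_max_image Finset.univ
      (fun r => N.rate r * mono (N.src r) xs) Finset.univ_nonempty
    obtain ⟨Θ, hΘ, hT⟩ := tier_bound N.src N.tgt (fun r => N.rate r * mono (N.src r) xs)
      (kmin := N.rate rmin * mono (N.src rmin) xs) (kmax := N.rate rmax * mono (N.src rmax) xs)
      (mul_pos (N.rate_pos rmin) (mono_pos _ _ hxs))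
      (fun r => ⟨hmin r (Finset.mem_univ r), hmax r (Finset.mem_univ r)⟩) N.src_ne_tgt hsc
    refine ⟨Θ, hΘ, fun x hx r₁ r₂ hsp r₀ => ?_⟩
    rw [dissip_eq_sum N xs x hxs hx]
    exact hT (cw xs x) r₁ r₂ hsp r₀

/-- The dissipation alternative: every point of a positive class of the union either lies in a
fixed box inside the positive orthant, or the entropy-type function strictly decreases there
along the vector field, at a rate bounded below by every monomial of the first system. -/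
theorem static_alternative (N₁ : MAS R₁ ι) (N₂ : MAS R₂ ι) (xs : ι → ℝ) (hxs : ∀ i, 0 < xs i)
    (h₁ : N₁.StronglyConnected) (hspan : N₂.stoich ≤ N₁.stoich) (h₂ : N₂.ComplexBalancedAt xs)
    (c : ι → ℝ) (hc : ∀ i, 0 < c i) :
    ∃ δ B : ℝ, 0 < δ ∧ ∀ x ∈ (N₁.union N₂).posClass c,
      (∀ i, δ ≤ x i ∧ x i ≤ B) ∨
      ((N₁.union N₂).dissip xs x < 0 ∧
        ∀ r₀ : R₁, (N₁.union N₂).dissip xs x ≤ - Real.exp (cw xs x (N₁.src r₀))) := by
  obtain ⟨Θ, -, hΘ⟩ := dissip_le_of_spread N₁ h₁ xs hxs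
  obtain ⟨δ, B, hδ, hcore⟩ := core_bounds N₁ h₁ xs c hc Θ
  refine ⟨δ, B, hδ, ?_⟩
  rintro x ⟨hx, hxc⟩
  rw [union_stoich_of_le N₁ N₂ hspan] at hxc
  by_cases hsp : ∀ r₁ r₂, cw xs x (N₁.src r₁) - cw xs x (N₁.src r₂) ≤ Θ
  · exact Or.inl (hcore x hx hxc hsp)
  · right
    push Not at hsp
    obtain ⟨r₁, r₂, hr⟩ := hsp
    have hD₂ := dissip_nonpos_of_complexBalanced N₂ xs hxs h₂ x hx
    have hall : ∀ r₀ : R₁,
        (N₁.union N₂).dissip xs x ≤ - Real.exp (cw xs x (N₁.src r₀)) := by
      intro r₀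
      have hD₁ := hΘ x hx r₁ r₂ hr.le r₀
      rw [union_dissip]
      linarith
    refine ⟨?_, hall⟩
    have := hall r₁
    have hpos := Real.exp_pos (cw xs x (N₁.src r₁))
    linarith

end Vale.Agent.Lib.P072
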