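import Mathlib

/-!
# The tier estimate for a strongly connected reaction graph
-/

namespace Vale.Agent.Lib.P072

/-- The tier sequence `θ 0 = 0`, `θ (j+1) = θ j + A * exp (θ j)`. -/
private noncomputable def tierSeq (A : ℝ) : ℕ → ℝ
  | 0 => 0
  | (j + 1) => tierSeq A j + A * Real.exp (tierSeq A j)

private theorem tierSeq_lt_succ {A : ℝ} (hA : 0 < A) (j : ℕ) :
    tierSeq A j < tierSeq A (j + 1) := by
  have h1 : tierSeq A (j + 1) = tierSeq A j + A * Real.exp (tierSeq A j) := rfl
  have h2 : 0 < A * Real.exp (tierSeq A j) := mul_pos hA (Real.exp_pos _)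
  linarith

private theorem tierSeq_strictMono {A : ℝ} (hA : 0 < A) : StrictMono (tierSeq A) :=
  strictMono_nat_of_lt_succ (tierSeq_lt_succ hA)

/-- A path from a point of `S` to a point outside `S` contains a step leaving `S`. -/
private theorem crossing_step {C : Type} (rel : C → C → Prop) (S : C → Prop) {a b : C}
    (h : Relation.ReflTransGen rel a b) (ha : S a) (hb : ¬ S b) :
    ∃ x y, rel x y ∧ S x ∧ ¬ S y := by
  induction h with
  | refl => exact absurd ha hb
  | @tail b' c _ hbc ih =>
    by_cases hb' : S b'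
    · exact ⟨b', c, hbc, hb', hb⟩
    · exact ih hb'

/-- Tier estimate. For a strongly connected graph of reactions `src r → tgt r` with weights
`κ r ∈ [kmin, kmax]` there is a threshold `Θ` such that for every function `w` on the
complexes whose values on the sources spread by at least `Θ`, the sum
`∑ r, κ r * exp (w (src r)) * (w (tgt r) - w (src r))` is at most `- exp (w (src r₀))` for
every reaction `r₀`. -/
theorem tier_bound {R C : Type} [Fintype R] (src tgt : R → C) (κ : R → ℝ) {kmin kmax : ℝ}
    (hkmin : 0 < kmin) (hκ : ∀ r, kmin ≤ κ r ∧ κ r ≤ kmax)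
    (hne : ∀ r, src r ≠ tgt r)
    (hsc : ∀ r q, Relation.ReflTransGen (fun a b => ∃ s, src s = a ∧ tgt s = b) (tgt r) (src q)) :
    ∃ Θ : ℝ, 0 ≤ Θ ∧ ∀ w : C → ℝ, ∀ r₁ r₂, Θ ≤ w (src r₁) - w (src r₂) →
      ∀ r₀, ∑ r, κ r * Real.exp (w (src r)) * (w (tgt r) - w (src r)) ≤
        - Real.exp (w (src r₀)) := by
  classical
  rcases isEmpty_or_nonempty R with hR | hR
  · exact ⟨0, le_refl 0, fun w r₁ => isEmptyElim r₁⟩
  obtain ⟨rstar⟩ := hR
  have hkmax : 0 < kmax := lt_of_lt_of_le hkmin ((hκ rstar).1.trans (hκ rstar).2)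
  have hnpos : 0 < Fintype.card R := Fintype.card_pos_iff.mpr ⟨rstar⟩
  obtain ⟨A, hAdef⟩ : ∃ A : ℝ, A = ((Fintype.card R : ℝ) * kmax + 1) / kmin := ⟨_, rfl⟩
  have hA : 0 < A := by rw [hAdef]; positivity
  have hkA : kmin * A = (Fintype.card R : ℝ) * kmax + 1 := by
    rw [hAdef]; field_simp
  have hθmono := tierSeq_strictMono hA
  have hθ0 : tierSeq A 0 = 0 := rfl
  refine ⟨tierSeq A (Fintype.card R), ?_, ?_⟩
  · have h := hθmono.monotone (Nat.zero_le (Fintype.card R))
    rw [hθ0] at h
    exact h
  intro w r₁ r₂ hspread r₀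
  -- every target is a source
  have hts : ∀ r, ∃ s, src s = tgt r := by
    intro r
    rcases Relation.ReflTransGen.cases_head (hsc r r) with h | ⟨c, ⟨s, hs, _⟩, _⟩
    · exact absurd h.symm (hne r)
    · exact ⟨s, hs⟩
  -- a source of maximal weight
  obtain ⟨rt, -, hrt⟩ := Finset.exists_max_image Finset.univ (fun r => w (src r))
    ⟨rstar, Finset.mem_univ _⟩
  obtain ⟨M, hM⟩ : ∃ M : ℝ, M = w (src rt) := ⟨_, rfl⟩
  have hsrcM : ∀ r, w (src r) ≤ M := fun r => by rw [hM]; exact hrt r (Finset.mem_univ r)
  have htgtM : ∀ r, w (tgt r) ≤ M := by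
    intro r
    obtain ⟨s, hs⟩ := hts r
    rw [← hs]
    exact hsrcM s
  have hd2 : tierSeq A (Fintype.card R) ≤ M - w (src r₂) := by linarith [hsrcM r₁]
  -- the gap
  have hgap : ∃ j, 1 ≤ j ∧ j ≤ Fintype.card R ∧
      ∀ r, ¬ (tierSeq A j ≤ M - w (src r) ∧ M - w (src r) < tierSeq A (j + 1)) := by
    by_contra hcon
    push Not at hcon
    have key : ∀ j, 1 ≤ j → j ≤ Fintype.card R →
        j ≤ (Finset.univ.filter (fun r => M - w (src r) < tierSeq A j)).card := by
      intro j hj1
      induction j, hj1 using Nat.le_induction with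
      | base =>
        intro _
        apply Finset.card_pos.mpr
        refine ⟨rt, ?_⟩
        simp only [Finset.mem_filter, Finset.mem_univ, true_and]
        have h := hθmono Nat.zero_lt_one
        rw [hθ0] at h
        linarith
      | succ j hj ih =>
        intro hjn
        have ihj := ih (by omega)
        obtain ⟨r, hr1, hr2⟩ := hcon j hj (by omega)
        have hss : (Finset.univ.filter (fun r => M - w (src r) < tierSeq A j)) ⊂
            (Finset.univ.filter (fun r => M - w (src r) < tierSeq A (j + 1))) := by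
          rw [Finset.ssubset_iff_of_subset]
          · refine ⟨r, ?_, ?_⟩
            · simp only [Finset.mem_filter, Finset.mem_univ, true_and]
              exact hr2
            · simp only [Finset.mem_filter, Finset.mem_univ, true_and, not_lt]
              exact hr1
          · intro x hx
            simp only [Finset.mem_filter, Finset.mem_univ, true_and] at hx ⊢
            exact hx.trans (hθmono (Nat.lt_succ_self j))
        have hlt := Finset.card_lt_card hss
        omega
    have hn' := key (Fintype.card R) hnpos le_rfl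
    have huniv : (Finset.univ.filter (fun r => M - w (src r) < tierSeq A (Fintype.card R)))
        = Finset.univ :=
      Finset.eq_univ_of_card _ (le_antisymm (Finset.card_le_univ _) hn')
    have hmem : r₂ ∈ (Finset.univ.filter
        (fun r => M - w (src r) < tierSeq A (Fintype.card R))) := by
      rw [huniv]; exact Finset.mem_univ _
    simp only [Finset.mem_filter, Finset.mem_univ, true_and] at hmem
    linarith
  obtain ⟨j, hj1, hjn, hgapj⟩ := hgap
  have hθj_pos : 0 < tierSeq A j := by
    have h := hθmono (show 0 < j by omega)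
    rw [hθ0] at h
    exact h
  have hθjn : tierSeq A j ≤ tierSeq A (Fintype.card R) := hθmono.monotone hjn
  -- the crossing
  have hpath : Relation.ReflTransGen (fun a b => ∃ s, src s = a ∧ tgt s = b)
      (src rt) (src r₂) :=
    Relation.ReflTransGen.head ⟨rt, rfl, rfl⟩ (hsc rt r₂)
  have hS1 : M - w (src rt) < tierSeq A j := by rw [← hM]; linarith
  have hS2 : ¬ (M - w (src r₂) < tierSeq A j) := by rw [not_lt]; linarith
  obtain ⟨x, y, ⟨s, hsx, hsy⟩, hSx, hSy⟩ :=
    crossing_step _ (fun y => M - w y < tierSeq A j) hpath hS1 hS2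
  subst hsx
  subst hsy
  have hSx' : M - w (src s) < tierSeq A j := hSx
  have hSy' : tierSeq A j ≤ M - w (tgt s) := not_lt.mp hSy
  obtain ⟨s', hs'⟩ := hts s
  have hstep : tierSeq A (j + 1) ≤ M - w (tgt s) := by
    by_contra hlt
    push Not at hlt
    refine hgapj s' ⟨?_, ?_⟩
    · rw [hs']; exact hSy'
    · rw [hs']; exact hlt
  -- the estimates
  have hθsucc : tierSeq A (j + 1) = tierSeq A j + A * Real.exp (tierSeq A j) := rfl
  have hterm_s : κ s * Real.exp (w (src s)) * (w (tgt s) - w (src s)) ≤
      - (kmin * A * Real.exp M) := by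
    have h1 : w (tgt s) - w (src s) ≤ - (A * Real.exp (tierSeq A j)) := by linarith
    have h2 : Real.exp M * Real.exp (- tierSeq A j) ≤ Real.exp (w (src s)) := by
      rw [← Real.exp_add]
      apply Real.exp_le_exp.mpr
      linarith
    have h3 : Real.exp (- tierSeq A j) * Real.exp (tierSeq A j) = 1 := by
      rw [← Real.exp_add]
      simp
    have hκs := (hκ s).1
    have hpos1 : 0 < A * Real.exp (tierSeq A j) := mul_pos hA (Real.exp_pos _)
    have hpos2 : 0 < Real.exp (w (src s)) := Real.exp_pos _
    have hpos3 : 0 ≤ Real.exp M * Real.exp (- tierSeq A j) :=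
      (mul_pos (Real.exp_pos _) (Real.exp_pos _)).le
    have h4 : kmin * (Real.exp M * Real.exp (- tierSeq A j)) ≤ κ s * Real.exp (w (src s)) :=
      mul_le_mul hκs h2 hpos3 (le_trans hkmin.le hκs)
    calc κ s * Real.exp (w (src s)) * (w (tgt s) - w (src s))
        ≤ κ s * Real.exp (w (src s)) * (- (A * Real.exp (tierSeq A j))) :=
          mul_le_mul_of_nonneg_left h1 (mul_nonneg (le_trans hkmin.le hκs) hpos2.le)
      _ = - (κ s * Real.exp (w (src s)) * (A * Real.exp (tierSeq A j))) := by ring
      _ ≤ - (kmin * (Real.exp M * Real.exp (- tierSeq A j)) *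
            (A * Real.exp (tierSeq A j))) :=
          neg_le_neg (mul_le_mul_of_nonneg_right h4 hpos1.le)
      _ = - (kmin * A * Real.exp M *
            (Real.exp (- tierSeq A j) * Real.exp (tierSeq A j))) := by ring
      _ = - (kmin * A * Real.exp M) := by rw [h3, mul_one]
  have hterm : ∀ r, κ r * Real.exp (w (src r)) * (w (tgt r) - w (src r)) ≤
      kmax * Real.exp M := by
    intro r
    have hκr := hκ r
    have hκpos : 0 < κ r := lt_of_lt_of_le hkmin hκr.1
    have hexp := Real.exp_pos (w (src r))
    have hexpM := Real.exp_pos M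
    rcases le_or_gt (w (tgt r)) (w (src r)) with hle | hgt
    · have h1 : κ r * Real.exp (w (src r)) * (w (tgt r) - w (src r)) ≤ 0 :=
        mul_nonpos_of_nonneg_of_nonpos (mul_pos hκpos hexp).le (by linarith)
      have h2 : 0 ≤ kmax * Real.exp M := (mul_pos hkmax hexpM).le
      linarith
    · obtain ⟨u, hu⟩ : ∃ u : ℝ, u = M - w (src r) := ⟨_, rfl⟩
      have hu0 : 0 ≤ u := by linarith [hsrcM r]
      have hdiff : w (tgt r) - w (src r) ≤ u := by linarith [htgtM r]
      have hexpu : Real.exp (w (src r)) = Real.exp M * Real.exp (-u) := by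
        rw [← Real.exp_add]
        have h : w (src r) = M + -u := by linarith
        rw [← h]
      have hue : u * Real.exp (-u) ≤ 1 := by
        have h1 := Real.add_one_le_exp u
        have h2 : Real.exp (-u) * Real.exp u = 1 := by
          rw [← Real.exp_add]
          simp
        have h3 := Real.exp_pos (-u)
        nlinarith
      calc κ r * Real.exp (w (src r)) * (w (tgt r) - w (src r))
          ≤ kmax * Real.exp (w (src r)) * u :=
            mul_le_mul (mul_le_mul_of_nonneg_right hκr.2 hexp.le) hdiff (by linarith)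
              (mul_pos hkmax hexp).le
        _ = kmax * Real.exp M * (u * Real.exp (-u)) := by rw [hexpu]; ring
        _ ≤ kmax * Real.exp M * 1 :=
            mul_le_mul_of_nonneg_left hue (mul_pos hkmax hexpM).le
        _ = kmax * Real.exp M := mul_one _
  rw [← Finset.add_sum_erase Finset.univ _ (Finset.mem_univ s)]
  have hrest : ∑ r ∈ Finset.univ.erase s,
      κ r * Real.exp (w (src r)) * (w (tgt r) - w (src r)) ≤
      (Fintype.card R : ℝ) * (kmax * Real.exp M) := by
    calc ∑ r ∈ Finset.univ.erase s, κ r * Real.exp (w (src r)) * (w (tgt r) - w (src r))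
        ≤ ∑ r ∈ Finset.univ.erase s, kmax * Real.exp M :=
          Finset.sum_le_sum (fun r _ => hterm r)
      _ = ((Finset.univ.erase s).card : ℝ) * (kmax * Real.exp M) := by
          rw [Finset.sum_const, nsmul_eq_mul]
      _ ≤ (Fintype.card R : ℝ) * (kmax * Real.exp M) := by
          apply mul_le_mul_of_nonneg_right _ (mul_pos hkmax (Real.exp_pos M)).le
          exact_mod_cast Finset.card_le_univ _
  have hkA' : kmin * A * Real.exp M = ((Fintype.card R : ℝ) * kmax + 1) * Real.exp M := by
    rw [hkA]
  have hexpM : Real.exp (w (src r₀)) ≤ Real.exp M := Real.exp_le_exp.mpr (hsrcM r₀)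
  have hfin : - (kmin * A * Real.exp M) + (Fintype.card R : ℝ) * (kmax * Real.exp M)
      = - Real.exp M := by
    rw [hkA']; ring
  linarith

end Vale.Agent.Lib.P072
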