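import Vale.Agent.Lib.P072.Defs

/-!
# Mass-action systems whose linkage classes lie on conversion lines (definition)
-/

namespace Vale.Agent.Lib.P072

variable {R ι : Type}

/-- A conversion direction: the vector `e_b - e_a` for two different species `a`, `b`
(entry `-1` at `a`, entry `1` at `b`, all other entries `0`). -/
def IsConv (v : ι → ℝ) : Prop :=
  ∃ a b : ι, a ≠ b ∧ v a = -1 ∧ v b = 1 ∧ ∀ i, i ≠ a → i ≠ b → v i = 0

/-- Linkage classes on conversion lines: to every complex `y` one can assign a direction vector
`dir y` such that (1) the two complexes of every reaction are assigned the same direction (so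
the assignment is constant on linkage classes), (2) every reaction vector is a real multiple of
the direction assigned to its complexes (so every linkage class lies on a line), and (3) the
direction assigned to the complexes of every reaction is a conversion direction `e_b - e_a`
(the two species `a`, `b` may depend on the linkage class). -/
def MAS.ConversionLines (N : MAS R ι) : Prop :=
  ∃ dir : (ι → ℕ) → (ι → ℝ),
    (∀ r, dir (N.src r) = dir (N.tgt r) ∧ ∃ a : ℝ, N.vec r = a • dir (N.src r)) ∧
    ∀ r, IsConv (dir (N.src r))

end Vale.Agent.Lib.P072
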