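import Vale.Agent.Lib.P072.DefsPool
import Vale.Agent.Lib.P072.DefsBinary
import Vale.Agent.Lib.P072.DefsConv

/-!
# Conservative systems with linkage classes on binary lines have dominated outflow
-/

namespace Vale.Agent.Lib.P072

set_option linter.unusedSectionVars false

variable {R ι : Type} [Fintype R] [Fintype ι]

/-- Path lemma: along a directed path of reactions on which an invariant of complexes is
preserved, if a coordinate is larger at the end than at the start then some reaction with the
invariant at its source increases this coordinate, starting from a value of the coordinate that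
is at most the value at the start of the path. -/
private lemma binarydom_path (N : MAS R ι) (e : ι) (Inv : (ι → ℕ) → Prop)
    (hInv : ∀ q, Inv (N.src q) → Inv (N.tgt q)) {y y' : ι → ℕ}
    (h : Relation.TransGen (fun a b => ∃ q, N.src q = a ∧ N.tgt q = b) y y') :
    Inv y → y e < y' e → ∃ q, Inv (N.src q) ∧ N.src q e ≤ y e ∧ N.src q e < N.tgt q e := by
  induction h using Relation.TransGen.head_induction_on with
  | @single a h =>
    obtain ⟨q, hs, ht⟩ := h
    intro hI hlt
    refine ⟨q, ?_, ?_, ?_⟩
    · rw [hs]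
      exact hI
    · rw [hs]
    · rw [hs, ht]
      exact hlt
  | @head a c h' _ ih =>
    obtain ⟨q, hs, ht⟩ := h'
    intro hI hlt
    by_cases hc : a e < c e
    · refine ⟨q, ?_, ?_, ?_⟩
      · rw [hs]
        exact hI
      · rw [hs]
      · rw [hs, ht]
        exact hc
    · have hIc : Inv c := by
        rw [← ht]
        apply hInv
        rw [hs]
        exact hI
      obtain ⟨q', h1, h2, h3⟩ := ih hIc (by omega)
      exact ⟨q', h1, by omega, h3⟩

/-- Core step: if the direction of the line of `r` is supported on two species `e ∈ A` and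
`o ∉ A`, and `r` decreases the species `e`, then a reaction on the same line increases `e` from
a smaller amount. -/
private lemma binarydom_core (N : MAS R ι) (hwr : N.WeaklyReversible)
    (dir : (ι → ℕ) → (ι → ℝ))
    (hdir : ∀ r, dir (N.src r) = dir (N.tgt r) ∧ ∃ a : ℝ, N.vec r = a • dir (N.src r))
    (θ : ι → ℝ) (hθ : ∀ i, 0 < θ i) (A : Finset ι) (r : R) (e o : ι)
    (hsupp : ∀ i, i ≠ e → i ≠ o → dir (N.src r) i = 0) (heA : e ∈ A) (hoA : o ∉ A)
    (hlt : N.tgt r e < N.src r e) :
    ∃ u, 0 < ∑ i ∈ A, θ i * N.vec u i ∧ (∀ i ∈ A, N.src u i ≤ N.src r i) ∧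
      ∃ i ∈ A, N.src u i < N.src r i := by
  classical
  have hvec0 : ∀ q, dir (N.src q) = dir (N.src r) →
      ∀ i, i ≠ e → i ≠ o → N.tgt q i = N.src q i := by
    intro q hq i hie hio
    obtain ⟨lam, hlam⟩ := (hdir q).2
    have h1 : N.vec q i = 0 := by
      rw [hlam, hq]
      simp [hsupp i hie hio]
    have h2 : (N.tgt q i : ℝ) - (N.src q i : ℝ) = 0 := h1
    have h3 : (N.tgt q i : ℝ) = (N.src q i : ℝ) := by linarith
    exact_mod_cast h3
  obtain ⟨u, ⟨hu1, hu2⟩, hu3, hu4⟩ := binarydom_path N e
    (fun y => dir y = dir (N.src r) ∧ ∀ i, i ≠ e → i ≠ o → y i = N.src r i)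
    (fun q hq => ⟨(hdir q).1.symm.trans hq.1,
      fun i hie hio => (hvec0 q hq.1 i hie hio).trans (hq.2 i hie hio)⟩)
    (hwr r) ⟨(hdir r).1.symm, fun i hie hio => hvec0 r rfl i hie hio⟩ hlt
  refine ⟨u, ?_, ?_, e, heA, by omega⟩
  · have hsum : ∑ i ∈ A, θ i * N.vec u i = θ e * N.vec u e := by
      refine Finset.sum_eq_single_of_mem e heA (fun i hi hie => ?_)
      have hio : i ≠ o := fun h => hoA (h ▸ hi)
      have h1 : N.tgt u i = N.src u i := hvec0 u hu1 i hie hio
      have h2 : N.vec u i = 0 := by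
        show (N.tgt u i : ℝ) - (N.src u i : ℝ) = 0
        rw [h1, sub_self]
      rw [h2, mul_zero]
    rw [hsum]
    have h3 : 0 < N.vec u e := by
      show 0 < (N.tgt u e : ℝ) - (N.src u e : ℝ)
      have h4 : (N.src u e : ℝ) < (N.tgt u e : ℝ) := by exact_mod_cast hu4
      linarith
    exact mul_pos (hθ e) h3
  · intro i hi
    by_cases hie : i = e
    · rw [hie]
      omega
    · have hio : i ≠ o := fun h => hoA (h ▸ hi)
      rw [hu2 i hie hio]

/-- A weakly reversible conservative system with linkage classes on binary lines has dominated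
outflow (with the weights of a conservation law). -/
lemma binaryLines_dominatedOutflow (N : MAS R ι) (hwr : N.WeaklyReversible)
    (hB : N.BinaryLines) (hC : N.Conservative) : N.DominatedOutflow := by
  classical
  obtain ⟨dir, hdir, hbin⟩ := hB
  obtain ⟨θ, hθ, hcons⟩ := hC
  intro A
  refine ⟨θ, fun i _ => hθ i, ?_⟩
  intro r hr
  obtain ⟨a, b, hab, -, -, hv0⟩ := hbin r
  obtain ⟨lam, hlam⟩ := (hdir r).2
  have hg0 : ∀ i, i ≠ a → i ≠ b → θ i * N.vec r i = 0 := by
    intro i hia hib
    rw [hlam]
    simp [hv0 i hia hib]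
  have hneg : ∀ i, θ i * N.vec r i < 0 → N.tgt r i < N.src r i := by
    intro i hi
    have h1 : N.vec r i < 0 := by
      by_contra hcon
      push Not at hcon
      have h0 := mul_nonneg (hθ i).le hcon
      linarith
    have h2 : (N.tgt r i : ℝ) - (N.src r i : ℝ) < 0 := h1
    have h3 : (N.tgt r i : ℝ) < (N.src r i : ℝ) := by linarith
    exact_mod_cast h3
  by_cases haA : a ∈ A
  · by_cases hbA : b ∈ A
    · exfalso
      have h1 : ∑ i ∈ A, θ i * N.vec r i = θ a * N.vec r a + θ b * N.vec r b :=
        Finset.sum_eq_add_of_mem a b haA hbA hab (fun c _ hc => hg0 c hc.1 hc.2)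
      have h2 : ∑ i, θ i * N.vec r i = θ a * N.vec r a + θ b * N.vec r b :=
        Finset.sum_eq_add_of_mem a b (Finset.mem_univ a) (Finset.mem_univ b) hab
          (fun c _ hc => hg0 c hc.1 hc.2)
      rw [h1, ← h2, hcons r] at hr
      exact lt_irrefl _ hr
    · have h1 : ∑ i ∈ A, θ i * N.vec r i = θ a * N.vec r a :=
        Finset.sum_eq_single_of_mem a haA
          (fun i hi hia => hg0 i hia (fun h => hbA (h ▸ hi)))
      rw [h1] at hr
      exact binarydom_core N hwr dir hdir θ hθ A r a b hv0 haA hbA (hneg a hr)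
  · by_cases hbA : b ∈ A
    · have h1 : ∑ i ∈ A, θ i * N.vec r i = θ b * N.vec r b :=
        Finset.sum_eq_single_of_mem b hbA
          (fun i hi hib => hg0 i (fun h => haA (h ▸ hi)) hib)
      rw [h1] at hr
      exact binarydom_core N hwr dir hdir θ hθ A r b a (fun i hib hia => hv0 i hia hib)
        hbA haA (hneg b hr)
    · exfalso
      have h1 : ∑ i ∈ A, θ i * N.vec r i = 0 :=
        Finset.sum_eq_zero
          (fun i hi => hg0 i (fun h => haA (h ▸ hi)) (fun h => hbA (h ▸ hi)))
      rw [h1] at hr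
      exact lt_irrefl _ hr

/-- Conversion lines are binary lines. -/
lemma conversionLines_binaryLines (N : MAS R ι) (hL : N.ConversionLines) : N.BinaryLines := by
  obtain ⟨dir, hdir, hconv⟩ := hL
  refine ⟨dir, hdir, fun r => ?_⟩
  obtain ⟨a, b, hab, hva, hvb, hv0⟩ := hconv r
  refine ⟨a, b, hab, ?_, ?_, hv0⟩
  · rw [hva]
    norm_num
  · rw [hvb]
    norm_num

/-- A system with linkage classes on conversion lines conserves the total number of
molecules. -/
lemma conversionLines_conservative (N : MAS R ι) (hL : N.ConversionLines) :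
    N.Conservative := by
  classical
  obtain ⟨dir, hdir, hconv⟩ := hL
  refine ⟨fun _ => 1, fun _ => one_pos, fun r => ?_⟩
  obtain ⟨a, b, hab, hva, hvb, hv0⟩ := hconv r
  obtain ⟨lam, hlam⟩ := (hdir r).2
  have h0 : ∀ c, c ≠ a → c ≠ b → (1 : ℝ) * N.vec r c = 0 := by
    intro c hca hcb
    rw [hlam]
    simp [hv0 c hca hcb]
  have h1 : ∑ i, (1 : ℝ) * N.vec r i = 1 * N.vec r a + 1 * N.vec r b :=
    Finset.sum_eq_add_of_mem a b (Finset.mem_univ a) (Finset.mem_univ b) hab
      (fun c _ hc => h0 c hc.1 hc.2)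
  rw [h1, hlam]
  simp [hva, hvb]

end Vale.Agent.Lib.P072
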