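import Mathlib

/-!
# Chain rule inequality along an absolutely continuous curve given in integral form
-/

namespace Vale.Agent.Lib.P072

open Set MeasureTheory

/-- A coordinate given in integral form with a bounded integrand is Lipschitz. -/
private lemma cara_coord_lip {ι : Type} {x g : ℝ → ι → ℝ} {a b : ℝ} (i : ι)
    (hgi : IntervalIntegrable (fun s => g s i) volume a b) (C : ℝ)
    (hC : ∀ s ∈ Icc a b, |g s i| ≤ C)
    (hint : ∀ t ∈ Icc a b, x t i - x a i = ∫ s in a..t, g s i)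
    (s t : ℝ) (hs : s ∈ Icc a b) (ht : t ∈ Icc a b) : |x t i - x s i| ≤ C * |t - s| := by
  have hab : a ≤ b := hs.1.trans hs.2
  have h1 : IntervalIntegrable (fun τ => g τ i) volume a t :=
    hgi.mono_set (by rw [uIcc_of_le ht.1, uIcc_of_le hab]; exact Icc_subset_Icc_right ht.2)
  have h2 : IntervalIntegrable (fun τ => g τ i) volume a s :=
    hgi.mono_set (by rw [uIcc_of_le hs.1, uIcc_of_le hab]; exact Icc_subset_Icc_right hs.2)
  have e : x t i - x s i = ∫ τ in s..t, g τ i := by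
    rw [← intervalIntegral.integral_interval_sub_left h1 h2, ← hint t ht, ← hint s hs]
    ring
  rw [e]
  have hb : ‖∫ τ in s..t, g τ i‖ ≤ C * |t - s| := by
    apply intervalIntegral.norm_integral_le_of_norm_le_const
    intro τ hτ
    rw [Real.norm_eq_abs]
    exact hC τ (uIcc_subset_Icc hs ht (uIoc_subset_uIcc hτ))
  rw [Real.norm_eq_abs] at hb
  exact hb

/-- A function with continuous derivative on the positive half-line, composed with a positive
Lipschitz curve on a compact interval, is Lipschitz. -/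
private lemma cara_comp_lip {a b : ℝ} (hab : a ≤ b) {y : ℝ → ℝ}
    (hyc : ContinuousOn y (Icc a b)) (hypos : ∀ t ∈ Icc a b, 0 < y t) (C : ℝ)
    (hylip : ∀ s ∈ Icc a b, ∀ t ∈ Icc a b, |y t - y s| ≤ C * |t - s|)
    (θ θ' : ℝ → ℝ) (hθ : ∀ u, 0 < u → HasDerivAt θ (θ' u) u)
    (hθc : ContinuousOn θ' (Ioi 0)) :
    ∃ K : ℝ, ∀ s ∈ Icc a b, ∀ t ∈ Icc a b, |θ (y t) - θ (y s)| ≤ K * |t - s| := by
  have hne : (Icc a b).Nonempty := nonempty_Icc.mpr hab
  obtain ⟨tm, htm, hmin⟩ := isCompact_Icc.exists_isMinOn hne hyc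
  obtain ⟨tM, htM, hmax⟩ := isCompact_Icc.exists_isMaxOn hne hyc
  have hmin' : ∀ s ∈ Icc a b, y tm ≤ y s := isMinOn_iff.mp hmin
  have hmax' : ∀ s ∈ Icc a b, y s ≤ y tM := isMaxOn_iff.mp hmax
  have hsub : Icc (y tm) (y tM) ⊆ Ioi 0 := fun u hu => lt_of_lt_of_le (hypos tm htm) hu.1
  obtain ⟨K, hK⟩ := isCompact_Icc.exists_bound_of_continuousOn (hθc.mono hsub)
  have hK0 : 0 ≤ K := (norm_nonneg _).trans (hK (y tm) ⟨le_rfl, hmin' tM htM⟩)
  refine ⟨K * C, fun s hs t ht => ?_⟩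
  have hys : y s ∈ Icc (y tm) (y tM) := ⟨hmin' s hs, hmax' s hs⟩
  have hyt : y t ∈ Icc (y tm) (y tM) := ⟨hmin' t ht, hmax' t ht⟩
  have h1 : ‖θ (y t) - θ (y s)‖ ≤ K * ‖y t - y s‖ :=
    Convex.norm_image_sub_le_of_norm_hasDerivWithin_le
      (fun u hu => (hθ u (hsub hu)).hasDerivWithinAt) hK (convex_Icc _ _) hys hyt
  rw [Real.norm_eq_abs, Real.norm_eq_abs] at h1
  calc |θ (y t) - θ (y s)| ≤ K * |y t - y s| := h1
    _ ≤ K * (C * |t - s|) := mul_le_mul_of_nonneg_left (hylip s hs t ht) hK0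
    _ = K * C * |t - s| := by ring

/-- The fundamental theorem of calculus for a function that is Lipschitz on an interval. -/
private lemma cara_ftc {φ : ℝ → ℝ} {a b : ℝ} (hab : a ≤ b) (K : ℝ)
    (hlip : ∀ s ∈ Icc a b, ∀ t ∈ Icc a b, |φ t - φ s| ≤ K * |t - s|) :
    IntervalIntegrable (deriv φ) volume a b ∧ ∫ t in a..b, deriv φ t = φ b - φ a := by
  have hL : LipschitzOnWith K.toNNReal φ (uIcc a b) := by
    rw [uIcc_of_le hab]
    apply LipschitzOnWith.of_dist_le_mul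
    intro s hs t ht
    rw [Real.dist_eq, Real.dist_eq]
    have h1 := hlip t ht s hs
    have h2 : K ≤ (K.toNNReal : ℝ) := Real.le_coe_toNNReal K
    exact h1.trans (mul_le_mul_of_nonneg_right h2 (abs_nonneg _))
  have hAC := hL.absolutelyContinuousOnInterval
  exact ⟨hAC.intervalIntegrable_deriv, hAC.integral_deriv_eq_sub⟩

/-- Almost everywhere in the open interval, the chain rule holds along the curve. -/
private lemma cara_ae_deriv {ι : Type} [Fintype ι] (W : Finset ι) {x g : ℝ → ι → ℝ}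
    {a b : ℝ} (hg : ∀ i ∈ W, IntervalIntegrable (fun s => g s i) volume a b)
    (hint : ∀ i ∈ W, ∀ t ∈ Icc a b, x t i - x a i = ∫ s in a..t, g s i)
    (hpos : ∀ t ∈ Icc a b, ∀ i ∈ W, 0 < x t i)
    (θ θ' : ι → ℝ → ℝ) (hθ : ∀ i ∈ W, ∀ u, 0 < u → HasDerivAt (θ i) (θ' i u) u) :
    ∀ᵐ t, t ∈ Ioo a b →
      HasDerivAt (fun u => ∑ i ∈ W, θ i (x u i)) (∑ i ∈ W, θ' i (x t i) * g t i) t := by
  have hall : ∀ᵐ t, ∀ i, i ∈ W → t ∈ uIcc a b → ∀ c ∈ uIcc a b,
      HasDerivAt (fun u => ∫ τ in c..u, g τ i) (g t i) t := by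
    rw [ae_all_iff]
    intro i
    by_cases hi : i ∈ W
    · exact (hg i hi).ae_hasDerivAt_integral.mono (fun t h _ => h)
    · exact Filter.Eventually.of_forall (fun t h => absurd h hi)
  filter_upwards [hall] with t ht htI
  have hab : a ≤ b := htI.1.le.trans htI.2.le
  have htu : t ∈ uIcc a b := by
    rw [uIcc_of_le hab]
    exact Ioo_subset_Icc_self htI
  have hau : a ∈ uIcc a b := left_mem_uIcc
  apply HasDerivAt.fun_sum
  intro i hi
  have h1 : HasDerivAt (fun u => ∫ τ in a..u, g τ i) (g t i) t := ht i hi htu a hau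
  have h2 : HasDerivAt (fun u => x u i) (g t i) t := by
    apply (h1.const_add (x a i)).congr_of_eventuallyEq
    filter_upwards [Ioo_mem_nhds htI.1 htI.2] with u hu
    have h3 := hint i hi u (Ioo_subset_Icc_self hu)
    show x u i = x a i + ∫ τ in a..u, g τ i
    linarith
  exact (hθ i hi (x t i) (hpos t (Ioo_subset_Icc_self htI) i hi)).comp t h2

/-- Let the coordinates `i ∈ W` of a curve `x` be given on `[a, b]` in integral form,
`x t i - x a i = ∫ s in a..t, g s i`, with bounded integrable `g`, and stay positive. Let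
`θ i` be differentiable on `(0, ∞)` with continuous derivative `θ' i`. If
`∑ i ∈ W, θ' i (x s i) * g s i ≤ -η` for all `s` in the open interval, then
`∑ i ∈ W, θ i (x b i) ≤ ∑ i ∈ W, θ i (x a i) - η * (b - a)`. -/
theorem caratheodory_chain_le {ι : Type} [Fintype ι] (W : Finset ι) {x g : ℝ → ι → ℝ}
    {a b : ℝ} (hab : a ≤ b) (hxc : ContinuousOn x (Icc a b))
    (hg : ∀ i ∈ W, IntervalIntegrable (fun s => g s i) volume a b)
    (hgb : ∃ C : ℝ, ∀ s ∈ Icc a b, ∀ i ∈ W, |g s i| ≤ C)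
    (hint : ∀ i ∈ W, ∀ t ∈ Icc a b, x t i - x a i = ∫ s in a..t, g s i)
    (hpos : ∀ t ∈ Icc a b, ∀ i ∈ W, 0 < x t i)
    (θ θ' : ι → ℝ → ℝ) (hθ : ∀ i ∈ W, ∀ u, 0 < u → HasDerivAt (θ i) (θ' i u) u)
    (hθc : ∀ i ∈ W, ContinuousOn (θ' i) (Ioi 0)) (η : ℝ)
    (hneg : ∀ s ∈ Ioo a b, ∑ i ∈ W, θ' i (x s i) * g s i ≤ -η) :
    ∑ i ∈ W, θ i (x b i) ≤ ∑ i ∈ W, θ i (x a i) - η * (b - a) := by
  rcases hab.eq_or_lt with hab' | hab'
  · exact le_of_eq (by rw [hab', sub_self, mul_zero, sub_zero])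
  obtain ⟨C, hC⟩ := hgb
  have hlip : ∃ K : ℝ, ∀ s ∈ Icc a b, ∀ t ∈ Icc a b,
      |(∑ i ∈ W, θ i (x t i)) - ∑ i ∈ W, θ i (x s i)| ≤ K * |t - s| := by
    have hi : ∀ i ∈ W, ∃ K : ℝ, ∀ s ∈ Icc a b, ∀ t ∈ Icc a b,
        |θ i (x t i) - θ i (x s i)| ≤ K * |t - s| := by
      intro i hi
      exact cara_comp_lip hab ((continuous_apply i).comp_continuousOn hxc)
        (fun t ht => hpos t ht i hi) C
        (fun s hs t ht => cara_coord_lip i (hg i hi) C (fun s hs => hC s hs i hi)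
          (hint i hi) s t hs ht)
        (θ i) (θ' i) (hθ i hi) (hθc i hi)
    choose! K hK using hi
    refine ⟨∑ i ∈ W, K i, fun s hs t ht => ?_⟩
    rw [← Finset.sum_sub_distrib, Finset.sum_mul]
    exact (Finset.abs_sum_le_sum_abs _ _).trans
      (Finset.sum_le_sum (fun i hi => hK i hi s hs t ht))
  obtain ⟨K, hK⟩ := hlip
  obtain ⟨hII, hFTC⟩ := cara_ftc (φ := fun u => ∑ i ∈ W, θ i (x u i)) hab K hK
  have hD := cara_ae_deriv W hg hint hpos θ θ' hθ
  have hae : (deriv fun u => ∑ i ∈ W, θ i (x u i)) ≤ᵐ[volume.restrict (Icc a b)]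
      fun _ => -η := by
    refine (ae_restrict_iff' measurableSet_Icc).mpr ?_
    have hnot : ∀ᵐ t : ℝ, t ∉ ({a, b} : Set ℝ) :=
      (Set.toFinite {a, b}).countable.ae_notMem volume
    filter_upwards [hD, hnot] with t ht htn htI
    have hta : t ≠ a := fun e => htn (by rw [e]; exact mem_insert _ _)
    have htb : t ≠ b := fun e => htn (by rw [e]; exact mem_insert_of_mem _ (mem_singleton b))
    have hto : t ∈ Ioo a b := ⟨lt_of_le_of_ne htI.1 (Ne.symm hta), lt_of_le_of_ne htI.2 htb⟩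
    rw [(ht hto).deriv]
    exact hneg t hto
  have hle := intervalIntegral.integral_mono_ae_restrict hab hII intervalIntegrable_const hae
  rw [hFTC, intervalIntegral.integral_const, smul_eq_mul] at hle
  linarith

end Vale.Agent.Lib.P072
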