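import Mathlib

/-!
# Time changes for ordinary differential equations on `[0, ∞)`
-/

namespace Vale.Agent.Lib.P072

open Set Filter Topology

variable {E : Type} [NormedAddCommGroup E] [NormedSpace ℝ E]

/-- The clock `t ↦ ∫₀ᵗ h`. -/
noncomputable def clock (h : ℝ → ℝ) (t : ℝ) : ℝ := ∫ s in (0:ℝ)..t, h s

lemma clock_zero (h : ℝ → ℝ) : clock h 0 = 0 := by simp [clock]

lemma hasDerivAt_clock {h : ℝ → ℝ} (hc : Continuous h) (t : ℝ) :
    HasDerivAt (clock h) (h t) t :=
  (hc.integral_hasStrictDerivAt 0 t).hasDerivAt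

lemma continuous_clock {h : ℝ → ℝ} (hc : Continuous h) : Continuous (clock h) :=
  continuous_iff_continuousAt.mpr (fun t => (hasDerivAt_clock hc t).continuousAt)

lemma strictMono_clock {h : ℝ → ℝ} (hc : Continuous h) (hpos : ∀ t, 0 < h t) :
    StrictMono (clock h) :=
  strictMono_of_hasDerivAt_pos (fun t => hasDerivAt_clock hc t) hpos

lemma clock_nonneg {h : ℝ → ℝ} (hc : Continuous h) (hpos : ∀ t, 0 < h t) {t : ℝ} (ht : 0 ≤ t) :
    0 ≤ clock h t := by
  have := (strictMono_clock hc hpos).monotone ht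
  rwa [clock_zero] at this

/-- If `Z` solves `Z' = F Z` on `[0, ∞)` then `Z ∘ clock h` solves `z' = h t • F z`. -/
lemma comp_clock_sol {h : ℝ → ℝ} (hc : Continuous h) (hpos : ∀ t, 0 < h t) {F : E → E}
    {Z : ℝ → E} (hZ : ∀ s, 0 ≤ s → HasDerivWithinAt Z (F (Z s)) (Ici 0) s) :
    ∀ t, 0 ≤ t → HasDerivWithinAt (Z ∘ clock h) (h t • F (Z (clock h t))) (Ici 0) t := by
  intro t ht
  have h1 := hZ (clock h t) (clock_nonneg hc hpos ht)
  have h2 : HasDerivWithinAt (clock h) (h t) (Ici 0) t :=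
    (hasDerivAt_clock hc t).hasDerivWithinAt
  exact h1.scomp t h2 (fun u hu => clock_nonneg hc hpos hu)

lemma tendsto_clock_atTop {h : ℝ → ℝ} (hc : Continuous h) {a T : ℝ} (ha : 0 < a)
    (hge : ∀ t, T ≤ t → a ≤ h t) : Tendsto (clock h) atTop atTop := by
  have hmono : MonotoneOn (fun t => clock h t - a * t) (Ici T) := by
    apply monotoneOn_of_deriv_nonneg (convex_Ici T)
    · exact ((continuous_clock hc).sub (continuous_const.mul continuous_id)).continuousOn
    · intro t _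
      exact (((hasDerivAt_clock hc t).sub ((hasDerivAt_id t).const_mul a)).differentiableAt).differentiableWithinAt
    · intro t ht
      rw [interior_Ici] at ht
      have hd : HasDerivAt (fun t => clock h t - a * t) (h t - a * 1) t :=
        (hasDerivAt_clock hc t).sub ((hasDerivAt_id t).const_mul a)
      rw [hd.deriv]
      have := hge t ht.le
      linarith
  have hbound : ∀ᶠ t in atTop, (clock h T - a * T) + a * t ≤ clock h t := by
    filter_upwards [eventually_ge_atTop T] with t ht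
    have := hmono (mem_Ici.mpr le_rfl) (mem_Ici.mpr ht) ht
    simp only at this
    linarith
  refine tendsto_atTop_mono' atTop hbound ?_
  exact tendsto_atTop_add_const_left atTop _ (Tendsto.const_mul_atTop ha tendsto_id)

lemma clock_of_nonpos {h : ℝ → ℝ} (hneg : ∀ t, t ≤ 0 → h t = h 0) {t : ℝ} (ht : t ≤ 0) :
    clock h t = h 0 * t := by
  unfold clock
  have : ∫ s in (0:ℝ)..t, h s = ∫ _s in (0:ℝ)..t, h 0 := by
    apply intervalIntegral.integral_congr
    intro s hs
    rw [uIcc_of_ge ht] at hs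
    exact hneg s hs.2
  rw [this, intervalIntegral.integral_const]
  simp [mul_comm]

lemma tendsto_clock_atBot {h : ℝ → ℝ} (hpos : ∀ t, 0 < h t) (hneg : ∀ t, t ≤ 0 → h t = h 0) :
    Tendsto (clock h) atBot atBot := by
  have h1 : Tendsto (fun t : ℝ => h 0 * t) atBot atBot :=
    Tendsto.const_mul_atBot (hpos 0) tendsto_id
  refine h1.congr' ?_
  filter_upwards [eventually_le_atBot (0:ℝ)] with t ht
  exact (clock_of_nonpos hneg ht).symm

/-- The inverse of the clock. -/
lemma exists_inverse_clock {h : ℝ → ℝ} (hc : Continuous h) (hpos : ∀ t, 0 < h t)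
    (hneg : ∀ t, t ≤ 0 → h t = h 0) {a T : ℝ} (ha : 0 < a) (hge : ∀ t, T ≤ t → a ≤ h t) :
    ∃ σ : ℝ → ℝ, (∀ s, clock h (σ s) = s) ∧ (∀ t, σ (clock h t) = t) ∧
      (∀ s, HasDerivAt σ (h (σ s))⁻¹ s) ∧ (∀ s, 0 ≤ s → 0 ≤ σ s) ∧ σ 0 = 0 := by
  have hmono := strictMono_clock hc hpos
  have hsurj : Function.Surjective (clock h) :=
    (continuous_clock hc).surjective (tendsto_clock_atTop hc ha hge) (tendsto_clock_atBot hpos hneg)
  let e : ℝ ≃o ℝ := StrictMono.orderIsoOfSurjective (clock h) hmono hsurj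
  have he : ∀ t, e t = clock h t := fun t => rfl
  have h1 : ∀ s, clock h (e.symm s) = s := fun s => by rw [← he]; exact e.apply_symm_apply s
  have h2 : ∀ t, e.symm (clock h t) = t := fun t => by rw [← he]; exact e.symm_apply_apply t
  have h0 : e.symm 0 = 0 := by
    have := h2 0
    rwa [clock_zero] at this
  refine ⟨e.symm, h1, h2, ?_, ?_, h0⟩
  · intro s
    apply HasDerivAt.of_local_left_inverse e.symm.continuous.continuousAt (hasDerivAt_clock hc _)
      (hpos _).ne'
    exact Filter.Eventually.of_forall h1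
  · intro s hs
    have := e.symm.monotone hs
    rwa [h0] at this

/-- If `z` solves `z' = h t • F z` on `[0, ∞)` then `z ∘ σ` solves `Z' = F Z`, where `σ` is the
inverse clock. -/
lemma comp_inverse_sol {h σ : ℝ → ℝ} (hσd : ∀ s, HasDerivAt σ (h (σ s))⁻¹ s)
    (hσ0 : ∀ s, 0 ≤ s → 0 ≤ σ s) (hpos : ∀ t, 0 < h t) {F : E → E} {z : ℝ → E}
    (hz : ∀ t, 0 ≤ t → HasDerivWithinAt z (h t • F (z t)) (Ici 0) t) :
    ∀ s, 0 ≤ s → HasDerivWithinAt (z ∘ σ) (F (z (σ s))) (Ici 0) s := by
  intro s hs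
  have h1 := hz (σ s) (hσ0 s hs)
  have h2 : HasDerivWithinAt σ (h (σ s))⁻¹ (Ici 0) s := (hσd s).hasDerivWithinAt
  have h3 := h1.scomp s h2 (fun u hu => hσ0 u hu)
  have h4 : (h (σ s))⁻¹ • h (σ s) • F (z (σ s)) = F (z (σ s)) := by
    rw [smul_smul, inv_mul_cancel₀ (hpos _).ne', one_smul]
  rwa [h4] at h3

end Vale.Agent.Lib.P072
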