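import Vale.Agent.Lib.P072.Cascade
import Vale.Agent.Lib.P072.TimeChange

/-!
# Permanence of a cascade
-/

namespace Vale.Agent.Lib.P072

open Set Filter Topology

set_option linter.unusedSectionVars false

variable {R₁ R₂ ι κ : Type} [Fintype R₁] [Fintype R₂] [Fintype ι] [Fintype κ]

lemma MAS.IsSol.continuousOn {R ι : Type} [Fintype R] [Fintype ι] {N : MAS R ι} {x : ℝ → ι → ℝ}
    (hx : N.IsSol x) : ContinuousOn x (Ici 0) :=
  fun t ht => (hx t ht).continuousWithinAt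

/-- A solution of the cascade splits into a solution of `N₁` and a solution of the
time-dependent system `z' = x(t)^α • f₂(z)`. -/
lemma cascade_isSol_iff (N₁ : MAS R₁ ι) (N₂ : MAS R₂ κ) (α : ι → ℕ) (w : ℝ → ι ⊕ κ → ℝ) :
    (cascade N₁ N₂ α).IsSol w ↔
      N₁.IsSol (fun t => w t ∘ Sum.inl) ∧
      ∀ t, 0 ≤ t → HasDerivWithinAt (fun t => w t ∘ Sum.inr)
        (mono α (w t ∘ Sum.inl) • N₂.field (w t ∘ Sum.inr)) (Ici 0) t := by
  unfold MAS.IsSol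
  simp only [cascade_field, hasDerivWithinAt_pi, Sum.forall, Sum.elim_inl, Sum.elim_inr,
    Function.comp]
  constructor
  · intro h
    exact ⟨fun t ht => (h t ht).1, fun t ht => (h t ht).2⟩
  · rintro ⟨h1, h2⟩ t ht
    exact ⟨h1 t ht, h2 t ht⟩

/-- The speed function of the time change along a solution `x` of `N₁`. -/
noncomputable def speed (α : ι → ℕ) (x : ℝ → ι → ℝ) (t : ℝ) : ℝ := mono α (x (max t 0))

lemma speed_of_nonneg (α : ι → ℕ) (x : ℝ → ι → ℝ) {t : ℝ} (ht : 0 ≤ t) :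
    speed α x t = mono α (x t) := by
  simp [speed, max_eq_left ht]

lemma speed_of_nonpos (α : ι → ℕ) (x : ℝ → ι → ℝ) {t : ℝ} (ht : t ≤ 0) :
    speed α x t = speed α x 0 := by
  simp [speed, max_eq_right ht]

lemma continuous_speed (α : ι → ℕ) {x : ℝ → ι → ℝ} (hx : ContinuousOn x (Ici 0)) :
    Continuous (speed α x) := by
  unfold speed
  refine (continuous_mono α).comp ?_
  exact hx.comp_continuous (continuous_id.max continuous_const) (fun t => le_max_right t 0)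

lemma speed_pos (α : ι → ℕ) {x : ℝ → ι → ℝ} (hx : ∀ t, 0 ≤ t → ∀ i, 0 < x t i) (t : ℝ) :
    0 < speed α x t :=
  mono_pos α _ (hx _ (le_max_right t 0))

/-- Existence of solutions of the cascade. -/
lemma cascade_exists (N₁ : MAS R₁ ι) (N₂ : MAS R₂ κ) (α : ι → ℕ) (w₀ : ι ⊕ κ → ℝ)
    {x : ℝ → ι → ℝ} (hx0 : x 0 = w₀ ∘ Sum.inl) (hx : N₁.IsSol x)
    (hxpos : ∀ t, 0 ≤ t → ∀ i, 0 < x t i)
    {Z : ℝ → κ → ℝ} (hZ0 : Z 0 = w₀ ∘ Sum.inr) (hZ : N₂.IsSol Z) :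
    ∃ w : ℝ → ι ⊕ κ → ℝ, w 0 = w₀ ∧ (cascade N₁ N₂ α).IsSol w := by
  have hc := continuous_speed α hx.continuousOn
  have hpos := speed_pos α hxpos
  refine ⟨fun t => Sum.elim (x t) (Z (clock (speed α x) t)), ?_, ?_⟩
  · simp only [clock_zero, hx0, hZ0]
    exact Sum.elim_comp_inl_inr w₀
  · rw [cascade_isSol_iff]
    refine ⟨?_, ?_⟩
    · simpa [Sum.elim_comp_inl] using hx
    · intro t ht
      have h1 := comp_clock_sol hc hpos (F := N₂.field) hZ t ht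
      simp only [Sum.elim_comp_inl, Sum.elim_comp_inr]
      rw [speed_of_nonneg α x ht] at h1
      exact h1

/-- Every solution of the cascade starting in a product of classes is a time change of a
solution of `N₂`. -/
lemma cascade_sol_timeChange (N₁ : MAS R₁ ι) (N₂ : MAS R₂ κ) (α : ι → ℕ)
    {w : ℝ → ι ⊕ κ → ℝ} (hw : (cascade N₁ N₂ α).IsSol w)
    (hxpos : ∀ t, 0 ≤ t → ∀ i, 0 < w t (Sum.inl i))
    {K₁ : Set (ι → ℝ)} (hK₁ : IsCompact K₁) (hK₁pos : ∀ y ∈ K₁, ∀ i, 0 < y i) {T₁ : ℝ}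
    (hT₁ : ∀ t, T₁ ≤ t → w t ∘ Sum.inl ∈ K₁) :
    ∃ τ σ : ℝ → ℝ, Monotone τ ∧ (∀ t, 0 ≤ t → 0 ≤ τ t) ∧ (∀ s, τ (σ s) = s) ∧
      (∀ t, σ (τ t) = t) ∧ σ 0 = 0 ∧ N₂.IsSol (fun s => w (σ s) ∘ Sum.inr) := by
  rw [cascade_isSol_iff] at hw
  obtain ⟨hx, hz⟩ := hw
  set x : ℝ → ι → ℝ := fun t => w t ∘ Sum.inl with hxdef
  have hc := continuous_speed α hx.continuousOn
  have hpos : ∀ t, 0 < speed α x t := speed_pos α (fun t ht i => hxpos t ht i)
  have hne : K₁.Nonempty := ⟨_, hT₁ (max T₁ 0) (le_max_left _ _)⟩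
  obtain ⟨y₀, hy₀, hmin⟩ := hK₁.exists_isMinOn hne (continuous_mono α).continuousOn
  have ha : 0 < mono α y₀ := mono_pos α y₀ (hK₁pos y₀ hy₀)
  have hge : ∀ t, max T₁ 0 ≤ t → mono α y₀ ≤ speed α x t := by
    intro t ht
    have ht0 : 0 ≤ t := le_trans (le_max_right _ _) ht
    rw [speed_of_nonneg α x ht0]
    exact hmin (hT₁ t (le_trans (le_max_left _ _) ht))
  obtain ⟨σ, h1, h2, h3, h4, h5⟩ :=
    exists_inverse_clock hc hpos (fun t ht => speed_of_nonpos α x ht) ha hge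
  refine ⟨clock (speed α x), σ, (strictMono_clock hc hpos).monotone,
    fun t ht => clock_nonneg hc hpos ht, h1, h2, h5, ?_⟩
  have hz' : ∀ t, 0 ≤ t → HasDerivWithinAt (fun t => w t ∘ Sum.inr)
      (speed α x t • N₂.field (w t ∘ Sum.inr)) (Ici 0) t := by
    intro t ht
    rw [speed_of_nonneg α x ht]
    exact hz t ht
  exact comp_inverse_sol h3 h4 hpos (F := N₂.field) hz'

/-- Permanence passes to the cascade. -/
theorem cascade_permanentOn (N₁ : MAS R₁ ι) (N₂ : MAS R₂ κ) (α : ι → ℕ) (c : ι ⊕ κ → ℝ)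
    (h₁ : N₁.PermanentOn (N₁.posClass (c ∘ Sum.inl)))
    (h₂ : N₂.PermanentOn (N₂.posClass (c ∘ Sum.inr))) :
    (cascade N₁ N₂ α).PermanentOn ((cascade N₁ N₂ α).posClass c) := by
  obtain ⟨hex₁, hinv₁, K₁, hK₁, hK₁P, habs₁⟩ := h₁
  obtain ⟨hex₂, hinv₂, K₂, hK₂, hK₂P, habs₂⟩ := h₂
  -- the common analysis of an arbitrary solution
  have key : ∀ w : ℝ → ι ⊕ κ → ℝ, w 0 ∈ (cascade N₁ N₂ α).posClass c →
      (cascade N₁ N₂ α).IsSol w →
      (∀ t, 0 ≤ t → w t ∈ (cascade N₁ N₂ α).posClass c) ∧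
      ∃ T, ∀ t, T ≤ t → w t ∘ Sum.inl ∈ K₁ ∧ w t ∘ Sum.inr ∈ K₂ := by
    intro w hw0 hw
    rw [mem_cascade_posClass] at hw0
    have hx : N₁.IsSol (fun t => w t ∘ Sum.inl) := ((cascade_isSol_iff N₁ N₂ α w).mp hw).1
    have hxP := hinv₁ _ hw0.1 hx
    obtain ⟨T₁, hT₁⟩ := habs₁ _ hw0.1 hx
    obtain ⟨τ, σ, hτmono, hτ0, hτσ, hστ, hσ0, hZ⟩ :=
      cascade_sol_timeChange N₁ N₂ α hw (fun t ht i => (hxP t ht).1 i) hK₁
        (fun y hy => (hK₁P hy).1) hT₁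
    have hZ0 : (fun s => w (σ s) ∘ Sum.inr) 0 ∈ N₂.posClass (c ∘ Sum.inr) := by
      simp only [hσ0]
      exact hw0.2
    have hZP := hinv₂ _ hZ0 hZ
    obtain ⟨S₂, hS₂⟩ := habs₂ _ hZ0 hZ
    refine ⟨?_, ?_⟩
    · intro t ht
      rw [mem_cascade_posClass]
      refine ⟨hxP t ht, ?_⟩
      have := hZP (τ t) (hτ0 t ht)
      simpa only [hστ] using this
    · refine ⟨max T₁ (σ S₂), fun t ht => ⟨hT₁ t (le_trans (le_max_left _ _) ht), ?_⟩⟩
      have h1 : S₂ ≤ τ t := by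
        have := hτmono (le_trans (le_max_right _ _) ht)
        rwa [hτσ] at this
      have := hS₂ (τ t) h1
      simpa only [hστ] using this
  refine ⟨?_, fun w hw0 hw => (key w hw0 hw).1, ?_⟩
  · -- existence
    intro w₀ hw₀
    rw [mem_cascade_posClass] at hw₀
    obtain ⟨x, hx0, hx⟩ := hex₁ _ hw₀.1
    obtain ⟨Z, hZ0, hZ⟩ := hex₂ _ hw₀.2
    have hxP := hinv₁ x (by rw [hx0]; exact hw₀.1) hx
    exact cascade_exists N₁ N₂ α w₀ hx0 hx (fun t ht i => (hxP t ht).1 i) hZ0 hZ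
  · -- the compact absorbing set
    have hcont : Continuous (fun p : (ι → ℝ) × (κ → ℝ) => (Sum.elim p.1 p.2 : ι ⊕ κ → ℝ)) := by
      apply continuous_pi
      rintro (i | j)
      · exact (continuous_apply i).comp continuous_fst
      · exact (continuous_apply j).comp continuous_snd
    refine ⟨(fun p : (ι → ℝ) × (κ → ℝ) => (Sum.elim p.1 p.2 : ι ⊕ κ → ℝ)) '' (K₁ ×ˢ K₂),
      (hK₁.prod hK₂).image hcont, ?_, ?_⟩
    · rintro _ ⟨p, hp, rfl⟩
      rw [mem_cascade_posClass]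
      exact ⟨by simpa using hK₁P hp.1, by simpa using hK₂P hp.2⟩
    · intro w hw0 hw
      obtain ⟨T, hT⟩ := (key w hw0 hw).2
      refine ⟨T, fun t ht => ⟨(w t ∘ Sum.inl, w t ∘ Sum.inr), ⟨(hT t ht).1, (hT t ht).2⟩, ?_⟩⟩
      exact Sum.elim_comp_inl_inr (w t)

end Vale.Agent.Lib.P072
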