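import Vale.Agent.Lib.P072.ColClamp

/-!
# The correction term grows at most linearly
-/

namespace Vale.Agent.Lib.P072

open Set

set_option linter.unusedSectionVars false

variable {ι : Type} [Fintype ι]

lemma slabCorr_one (u : ι → ℝ) (M : ℝ) (hM : 0 ≤ M) : slabCorr u M (fun _ => 1) = 0 := by
  have h1 : logCoord u (fun _ => (1 : ℝ)) = 0 := by
    unfold logCoord
    simp
  have h2 : clampR M 0 = 0 := by
    unfold clampR
    rw [min_eq_right hM, max_eq_right (by linarith)]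
  unfold slabCorr
  rw [h1, h2, sub_self]

/-- The operator norm of a linear functional with bounded coefficients. -/
private lemma colAbs_gradCLM_norm (g : ι → ℝ) (c : ℝ) (hc : 0 ≤ c) (hg : ∀ i, |g i| ≤ c) :
    ‖gradCLM g‖ ≤ Fintype.card ι * c := by
  refine ContinuousLinearMap.opNorm_le_bound _ (mul_nonneg (Nat.cast_nonneg _) hc) (fun y => ?_)
  rw [gradCLM_apply, Real.norm_eq_abs]
  calc |∑ i, g i * y i| ≤ ∑ i, |g i * y i| := Finset.abs_sum_le_sum_abs _ _
    _ ≤ ∑ _i : ι, c * ‖y‖ := by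
        refine Finset.sum_le_sum (fun i _ => ?_)
        rw [abs_mul]
        have h1 : |y i| ≤ ‖y‖ := by
          have h2 := norm_le_pi_norm y i
          rwa [Real.norm_eq_abs] at h2
        exact mul_le_mul (hg i) h1 (abs_nonneg _) hc
    _ = Fintype.card ι * c * ‖y‖ := by
        rw [Finset.sum_const, Finset.card_univ, nsmul_eq_mul]
        ring

theorem slabCorr_abs_le (u x : ι → ℝ) (hu : ∃ i, u i ≠ 0) (hx : ∀ i, 0 < x i) (M : ℝ)
    (hM : 0 < M) (umin : ℝ) (humin : 0 < umin) (hmin : ∀ i, u i ≠ 0 → umin ≤ |u i|) :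
    |slabCorr u M x| ≤ Fintype.card ι * (M / umin) * ∑ i, |x i - 1| := by
  have hC : 0 ≤ (Fintype.card ι : ℝ) * (M / umin) :=
    mul_nonneg (Nat.cast_nonneg _) (div_nonneg hM.le humin.le)
  obtain ⟨s, hs⟩ : ∃ s : Set (ι → ℝ), s = Set.univ.pi (fun _ : ι => Set.Ioi (0 : ℝ)) :=
    ⟨_, rfl⟩
  have hmem : ∀ y : ι → ℝ, y ∈ s ↔ ∀ i, 0 < y i := by
    intro y
    rw [hs, Set.mem_univ_pi]
    exact Iff.rfl
  have hconv : Convex ℝ s := by
    rw [hs]
    exact convex_pi (fun i _ => convex_Ioi 0)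
  have hone : (fun _ : ι => (1 : ℝ)) ∈ s := (hmem _).2 (fun _ => one_pos)
  have hxs : x ∈ s := (hmem x).2 hx
  have hf : ∀ y ∈ s, HasFDerivWithinAt (slabCorr u M) (gradCLM (slabGrad u M y)) s y :=
    fun y hy => (hasFDerivAt_slabCorr u y hu ((hmem y).1 hy) M hM).hasFDerivWithinAt
  have hb : ∀ y ∈ s, ‖gradCLM (slabGrad u M y)‖ ≤ Fintype.card ι * (M / umin) :=
    fun y hy => colAbs_gradCLM_norm _ _ (div_nonneg hM.le humin.le)
      (fun i => slabGrad_abs_le u y hu ((hmem y).1 hy) M hM.le umin humin hmin i)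
  have key := hconv.norm_image_sub_le_of_norm_hasFDerivWithin_le hf hb hone hxs
  rw [slabCorr_one u M hM.le, sub_zero, Real.norm_eq_abs] at key
  have hn : ‖x - fun _ : ι => (1 : ℝ)‖ ≤ ∑ i, |x i - 1| := by
    rw [pi_norm_le_iff_of_nonneg (Finset.sum_nonneg (fun i _ => abs_nonneg _))]
    intro i
    rw [Real.norm_eq_abs]
    exact Finset.single_le_sum (f := fun j => |x j - 1|) (fun j _ => abs_nonneg _)
      (Finset.mem_univ i)
  exact key.trans (mul_le_mul_of_nonneg_left hn hC)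

end Vale.Agent.Lib.P072
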