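import Vale.Agent.Lib.P072.ColExist

/-!
# Projections onto two levels have bounded logarithmic ratios
-/

namespace Vale.Agent.Lib.P072

open Set

set_option linter.unusedSectionVars false

variable {ι : Type} [Fintype ι]

/-- One-sided form of `lineProj_log_ratio`: the multiplier of the first level is at most the
multiplier of the second level. -/
private lemma lineProj_log_ratio_aux (u x : ι → ℝ) (hu : ∃ i, u i ≠ 0) (hx : ∀ i, 0 < x i)
    (γ₁ γ₂ : ℝ) (hμ : lineMu u x γ₁ ≤ lineMu u x γ₂) (i : ι) :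
    |u i| * |Real.log (lineProj u x γ₁ i) - Real.log (lineProj u x γ₂ i)| ≤ |γ₁ - γ₂| := by
  have hP1 : ∀ j, 0 < lineProj u x γ₁ j := fun j => lineProj_pos u x hu hx γ₁ j
  have hP2 : ∀ j, 0 < lineProj u x γ₂ j := fun j => lineProj_pos u x hu hx γ₂ j
  have hd : ∀ j, 0 ≤ u j * (Real.log (lineProj u x γ₁ j) - Real.log (lineProj u x γ₂ j)) := by
    intro j
    rcases lt_trichotomy (u j) 0 with hneg | hzero | hpos
    · have hle : lineProj u x γ₁ j ≤ lineProj u x γ₂ j := by
        show x j - lineMu u x γ₁ * u j ≤ x j - lineMu u x γ₂ * u j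
        nlinarith [mul_nonneg (sub_nonneg.mpr hμ) (neg_nonneg.mpr hneg.le)]
      have hlog : Real.log (lineProj u x γ₁ j) ≤ Real.log (lineProj u x γ₂ j) :=
        Real.log_le_log (hP1 j) hle
      exact mul_nonneg_of_nonpos_of_nonpos hneg.le (by linarith)
    · rw [hzero, zero_mul]
    · have hle : lineProj u x γ₂ j ≤ lineProj u x γ₁ j := by
        show x j - lineMu u x γ₂ * u j ≤ x j - lineMu u x γ₁ * u j
        nlinarith [mul_nonneg (sub_nonneg.mpr hμ) hpos.le]
      have hlog : Real.log (lineProj u x γ₂ j) ≤ Real.log (lineProj u x γ₁ j) :=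
        Real.log_le_log (hP2 j) hle
      exact mul_nonneg hpos.le (by linarith)
  have hsum : ∑ j, u j * (Real.log (lineProj u x γ₁ j) - Real.log (lineProj u x γ₂ j))
      = γ₁ - γ₂ := by
    have h1 : ∑ j, u j * Real.log (lineProj u x γ₁ j) = γ₁ := logCoord_lineProj u x hu hx γ₁
    have h2 : ∑ j, u j * Real.log (lineProj u x γ₂ j) = γ₂ := logCoord_lineProj u x hu hx γ₂
    have hs : ∑ j, u j * (Real.log (lineProj u x γ₁ j) - Real.log (lineProj u x γ₂ j))
        = ∑ j, u j * Real.log (lineProj u x γ₁ j)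
          - ∑ j, u j * Real.log (lineProj u x γ₂ j) := by
      rw [← Finset.sum_sub_distrib]
      apply Finset.sum_congr rfl
      intro j _
      ring
    rw [hs, h1, h2]
  have hge : 0 ≤ γ₁ - γ₂ := by
    rw [← hsum]
    exact Finset.sum_nonneg (fun j _ => hd j)
  have hi : u i * (Real.log (lineProj u x γ₁ i) - Real.log (lineProj u x γ₂ i)) ≤ γ₁ - γ₂ := by
    rw [← hsum]
    exact Finset.single_le_sum (f := fun j =>
      u j * (Real.log (lineProj u x γ₁ j) - Real.log (lineProj u x γ₂ j)))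
      (fun j _ => hd j) (Finset.mem_univ i)
  rw [← abs_mul, abs_of_nonneg (hd i), abs_of_nonneg hge]
  exact hi

/-- The logarithms of the projections of `x` onto two levels differ, in each coordinate `i`,
by at most the distance of the levels divided by `|u i|`. -/
theorem lineProj_log_ratio (u x : ι → ℝ) (hu : ∃ i, u i ≠ 0) (hx : ∀ i, 0 < x i) (γ₁ γ₂ : ℝ)
    (i : ι) :
    |u i| * |Real.log (lineProj u x γ₁ i) - Real.log (lineProj u x γ₂ i)| ≤ |γ₁ - γ₂| := by
  rcases le_total (lineMu u x γ₁) (lineMu u x γ₂) with h | h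
  · exact lineProj_log_ratio_aux u x hu hx γ₁ γ₂ h i
  · have h' := lineProj_log_ratio_aux u x hu hx γ₂ γ₁ h i
    rw [abs_sub_comm (Real.log (lineProj u x γ₁ i)), abs_sub_comm γ₁]
    exact h'

lemma abs_clampR_le (M s : ℝ) (hM : 0 ≤ M) : |clampR M s| ≤ M := by
  unfold clampR
  rw [abs_le]
  constructor
  · exact le_max_left _ _
  · exact max_le (by linarith) (min_le_left _ _)

lemma slabGrad_of_zero (u : ι → ℝ) (M : ℝ) (x : ι → ℝ) (i : ι) (hi : u i = 0) :
    slabGrad u M x i = 0 := by
  simp only [slabGrad, lineProj, hi, mul_zero, sub_zero, sub_self]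

theorem slabGrad_abs_le (u x : ι → ℝ) (hu : ∃ i, u i ≠ 0) (hx : ∀ i, 0 < x i) (M : ℝ)
    (hM : 0 ≤ M) (umin : ℝ) (humin : 0 < umin) (hmin : ∀ i, u i ≠ 0 → umin ≤ |u i|) (i : ι) :
    |slabGrad u M x i| ≤ M / umin := by
  by_cases hi : u i = 0
  · rw [slabGrad_of_zero u M x i hi, abs_zero]
    exact div_nonneg hM humin.le
  · have h := lineProj_log_ratio u x hu hx 0 (clampR M (logCoord u x)) i
    have h2 : |(0 : ℝ) - clampR M (logCoord u x)| ≤ M := by
      rw [zero_sub, abs_neg]
      exact abs_clampR_le M (logCoord u x) hM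
    have hpos : 0 < |u i| := abs_pos.mpr hi
    have h1 : |u i| * |slabGrad u M x i| ≤ M := le_trans h h2
    have h3 : |slabGrad u M x i| ≤ M / |u i| := by
      rw [le_div_iff₀ hpos]
      linarith [mul_comm |u i| |slabGrad u M x i|]
    have h4 : M / |u i| ≤ M / umin := div_le_div_of_nonneg_left hM humin (hmin i hi)
    exact le_trans h3 h4

theorem slabGrad_pair (u x : ι → ℝ) (hu : ∃ i, u i ≠ 0) (hx : ∀ i, 0 < x i) (M : ℝ) :
    ∑ i, u i * slabGrad u M x i = - clampR M (logCoord u x) := by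
  have key : ∀ γ : ℝ, ∑ i, u i * Real.log (lineProj u x γ i) = γ :=
    fun γ => logCoord_lineProj u x hu hx γ
  have hsplit : ∑ i, u i * slabGrad u M x i
      = ∑ i, u i * Real.log (lineProj u x 0 i)
        - ∑ i, u i * Real.log (lineProj u x (clampR M (logCoord u x)) i) := by
    rw [← Finset.sum_sub_distrib]
    apply Finset.sum_congr rfl
    intro j _
    show u j * (Real.log (lineProj u x 0 j)
      - Real.log (lineProj u x (clampR M (logCoord u x)) j)) = _
    ring
  rw [hsplit, key 0, key (clampR M (logCoord u x))]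
  ring

end Vale.Agent.Lib.P072
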