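import Vale.Agent.Lib.P072.ColDeriv
import Vale.Agent.Lib.P072.ColRatio

/-!
# The correction term is differentiable
-/

namespace Vale.Agent.Lib.P072

open Set Filter Topology

set_option linter.unusedSectionVars false

variable {ι : Type} [Fintype ι]

private lemma colClamp_of_ge {M t : ℝ} (hM : 0 < M) (h : M ≤ t) : clampR M t = M := by
  unfold clampR
  rw [min_eq_left h, max_eq_right (by linarith)]

private lemma colClamp_of_le {M t : ℝ} (hM : 0 < M) (h : t ≤ -M) : clampR M t = -M := by
  unfold clampR
  rw [min_eq_right (by linarith), max_eq_left h]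

private lemma colClamp_of_mem {M t : ℝ} (h1 : -M ≤ t) (h2 : t ≤ M) : clampR M t = t := by
  unfold clampR
  rw [min_eq_right h2, max_eq_right h1]

private lemma colClamp_continuousAt (u x : ι → ℝ) (hx : ∀ i, 0 < x i) :
    Tendsto (logCoord u) (𝓝 x) (𝓝 (logCoord u x)) := by
  show Tendsto (fun y : ι → ℝ => ∑ i, u i * Real.log (y i)) (𝓝 x)
    (𝓝 (∑ i, u i * Real.log (x i)))
  refine tendsto_finsetSum _ (fun i _ => ?_)
  exact tendsto_const_nhds.mul
    (((Real.continuousAt_log (hx i).ne').tendsto).comp ((continuous_apply i).tendsto x))

private lemma colClamp_eventually_pos (x : ι → ℝ) (hx : ∀ i, 0 < x i) :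
    ∀ᶠ y in 𝓝 x, ∀ i, 0 < y i := by
  rw [Filter.eventually_all]
  intro i
  exact ((continuous_apply i).tendsto x).eventually (lt_mem_nhds (hx i))

/-- The value function at the clamped level is differentiable at every positive point. -/
private lemma colClamp_hasFDerivAt (u x : ι → ℝ) (hu : ∃ i, u i ≠ 0) (hx : ∀ i, 0 < x i)
    (M : ℝ) (hM : 0 < M) :
    HasFDerivAt (fun y => lineF u y (clampR M (logCoord u y)))
      (gradCLM (fun i => Real.log (lineProj u x (clampR M (logCoord u x)) i))) x := by
  have hs := colClamp_continuousAt u x hx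
  have hpos := colClamp_eventually_pos x hx
  have hup : ∀ᶠ y in 𝓝 x, lineF u y (clampR M (logCoord u y)) ≤ hEnt y := by
    filter_upwards [hpos] with y hy
    exact lineF_le_hEnt u y hu hy _
  rcases lt_trichotomy (logCoord u x) M with h | h | h
  · rcases lt_trichotomy (logCoord u x) (-M) with h' | h' | h'
    · -- the level is below the interval
      have hev : ∀ᶠ y in 𝓝 x, logCoord u y < -M := hs.eventually (gt_mem_nhds h')
      have hE : (fun y => lineF u y (clampR M (logCoord u y)))
          =ᶠ[𝓝 x] (fun y => lineF u y (-M)) := by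
        filter_upwards [hev] with y hy
        show lineF u y (clampR M (logCoord u y)) = lineF u y (-M)
        rw [colClamp_of_le hM hy.le]
      rw [colClamp_of_le hM h'.le]
      exact (hasFDerivAt_lineF u x hu hx (-M)).congr_of_eventuallyEq hE
    · -- the level is the lower end of the interval
      have hp : lineProj u x (-M) = x := by
        rw [← h']
        exact lineProj_self u x hu hx
      have hlo := hasFDerivAt_lineF u x hu hx (-M)
      rw [hp] at hlo
      have hev : ∀ᶠ y in 𝓝 x, logCoord u y < M := hs.eventually (gt_mem_nhds h)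
      have h1 : ∀ᶠ y in 𝓝 x, lineF u y (-M) ≤ lineF u y (clampR M (logCoord u y)) := by
        filter_upwards [hpos, hev] with y hy hyM
        by_cases hc : logCoord u y ≤ -M
        · exact le_of_eq (by rw [colClamp_of_le hM hc])
        · push Not at hc
          have e : lineF u y (clampR M (logCoord u y)) = hEnt y := by
            rw [colClamp_of_mem hc.le hyM.le]
            exact lineF_self u y hu hy
          rw [e]
          exact lineF_le_hEnt u y hu hy (-M)
      have e1 : lineF u x (-M) = lineF u x (clampR M (logCoord u x)) := by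
        rw [colClamp_of_le hM h'.le]
      have e2 : hEnt x = lineF u x (clampR M (logCoord u x)) := by
        rw [colClamp_of_le hM h'.le]
        have h3 := lineF_self u x hu hx
        rw [h'] at h3
        exact h3.symm
      rw [colClamp_of_le hM h'.le, hp]
      exact hasFDerivAt_of_squeeze hlo (hasFDerivAt_hEnt x hx) h1 hup e1 e2
    · -- the level is inside the interval
      have hE : (fun y => lineF u y (clampR M (logCoord u y))) =ᶠ[𝓝 x] hEnt := by
        filter_upwards [hpos, hs.eventually (lt_mem_nhds h'), hs.eventually (gt_mem_nhds h)]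
          with y hy h1 h2
        show lineF u y (clampR M (logCoord u y)) = hEnt y
        rw [colClamp_of_mem h1.le h2.le]
        exact lineF_self u y hu hy
      rw [colClamp_of_mem h'.le h.le, lineProj_self u x hu hx]
      exact (hasFDerivAt_hEnt x hx).congr_of_eventuallyEq hE
  · -- the level is the upper end of the interval
    have hp : lineProj u x M = x := by
      rw [← h]
      exact lineProj_self u x hu hx
    have hlo := hasFDerivAt_lineF u x hu hx M
    rw [hp] at hlo
    have hlt : -M < logCoord u x := by
      rw [h]
      linarith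
    have hev : ∀ᶠ y in 𝓝 x, -M < logCoord u y := hs.eventually (lt_mem_nhds hlt)
    have h1 : ∀ᶠ y in 𝓝 x, lineF u y M ≤ lineF u y (clampR M (logCoord u y)) := by
      filter_upwards [hpos, hev] with y hy hyM
      by_cases hc : M ≤ logCoord u y
      · exact le_of_eq (by rw [colClamp_of_ge hM hc])
      · push Not at hc
        have e : lineF u y (clampR M (logCoord u y)) = hEnt y := by
          rw [colClamp_of_mem hyM.le hc.le]
          exact lineF_self u y hu hy
        rw [e]
        exact lineF_le_hEnt u y hu hy M
    have e1 : lineF u x M = lineF u x (clampR M (logCoord u x)) := by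
      rw [colClamp_of_ge hM h.ge]
    have e2 : hEnt x = lineF u x (clampR M (logCoord u x)) := by
      rw [colClamp_of_ge hM h.ge]
      have h3 := lineF_self u x hu hx
      rw [h] at h3
      exact h3.symm
    rw [colClamp_of_ge hM h.ge, hp]
    exact hasFDerivAt_of_squeeze hlo (hasFDerivAt_hEnt x hx) h1 hup e1 e2
  · -- the level is above the interval
    have hev : ∀ᶠ y in 𝓝 x, M < logCoord u y := hs.eventually (lt_mem_nhds h)
    have hE : (fun y => lineF u y (clampR M (logCoord u y)))
        =ᶠ[𝓝 x] (fun y => lineF u y M) := by
      filter_upwards [hev] with y hy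
      show lineF u y (clampR M (logCoord u y)) = lineF u y M
      rw [colClamp_of_ge hM hy.le]
    rw [colClamp_of_ge hM h.le]
    exact (hasFDerivAt_lineF u x hu hx M).congr_of_eventuallyEq hE

/-- The correction term is differentiable at every positive point, with gradient
`slabGrad`. -/
theorem hasFDerivAt_slabCorr (u x : ι → ℝ) (hu : ∃ i, u i ≠ 0) (hx : ∀ i, 0 < x i) (M : ℝ)
    (hM : 0 < M) : HasFDerivAt (slabCorr u M) (gradCLM (slabGrad u M x)) x := by
  have h0 := hasFDerivAt_lineF u x hu hx 0
  have h1 := colClamp_hasFDerivAt u x hu hx M hM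
  have h2 := h0.sub h1
  have hA : gradCLM (fun i => Real.log (lineProj u x 0 i))
        - gradCLM (fun i => Real.log (lineProj u x (clampR M (logCoord u x)) i))
      = gradCLM (slabGrad u M x) := by
    refine ContinuousLinearMap.ext (fun y => ?_)
    simp [gradCLM_apply, slabGrad, sub_mul, Finset.sum_sub_distrib]
  rw [hA] at h2
  exact h2

lemma slabCorr_hasGradOn (u : ι → ℝ) (hu : ∃ i, u i ≠ 0) (M : ℝ) (hM : 0 < M) :
    HasGradOn (slabCorr u M) (slabGrad u M) :=
  hasGradOn_of_hasFDerivAt _ _ (fun x hx => hasFDerivAt_slabCorr u x hu hx M hM)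

end Vale.Agent.Lib.P072
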