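import Vale.Agent.Lib.P072.ColSmall

/-!
# Corner estimates: directions with mixed signs
-/

namespace Vale.Agent.Lib.P072

open Set

set_option linter.unusedSectionVars false

variable {ι : Type} [Fintype ι]

/-- A positive lower bound for the absolute values of the nonzero coordinates. -/
private lemma cornerB_umin (v : ι → ℝ) :
    ∃ umin : ℝ, 0 < umin ∧ ∀ i, v i ≠ 0 → umin ≤ |v i| := by
  classical
  by_cases h : (Finset.univ.filter (fun i => v i ≠ 0)).Nonempty
  · obtain ⟨i0, hi0, hmin⟩ := Finset.exists_min_image _ (fun i => |v i|) h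
    exact ⟨|v i0|, abs_pos.mpr (Finset.mem_filter.mp hi0).2,
      fun i hi => hmin i (Finset.mem_filter.mpr ⟨Finset.mem_univ i, hi⟩)⟩
  · exact ⟨1, one_pos, fun i hi =>
      absurd ⟨i, Finset.mem_filter.mpr ⟨Finset.mem_univ i, hi⟩⟩ h⟩

private lemma cornerB_maskv_mem (W : Finset ι) (v : ι → ℝ) (i : ι) (hi : i ∈ W) :
    maskv W v i = v i := by
  unfold maskv
  rw [if_pos hi]

private lemma cornerB_maskv_notMem (W : Finset ι) (v : ι → ℝ) (i : ι) (hi : i ∉ W) :
    maskv W v i = 0 := by
  unfold maskv
  rw [if_neg hi]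

/-- Directions with mixed signs on `W`: there are `M'` and `Cη` (depending on `η`, `B`) such
that for every `W` on which `v` takes both signs, with `u = maskv W v`, at every positive
point with the coordinates outside `W` between `η` and `B`: the product of `g x` and the
pairing of `v` with the gradient `log x` on `W` plus `slabGrad u M' x` is nonpositive, the
correction term `slabCorr u M' x` is at most `Cη * ∑ i ∈ W, x i` in absolute value, and the
gradient `slabGrad u M' x` is bounded by `Cη`. -/
theorem corner_mixed (v : ι → ℝ) (g : (ι → ℝ) → ℝ) (M : ℝ) (hM : 0 < M)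
    (hpos : ∀ x : ι → ℝ, (∀ i, 0 < x i) → logCoord v x ≤ -M → 0 < g x)
    (hneg : ∀ x : ι → ℝ, (∀ i, 0 < x i) → M ≤ logCoord v x → g x < 0)
    (η B : ℝ) (hη : 0 < η) :
    ∃ M' Cη : ℝ, 0 < M' ∧ 0 ≤ Cη ∧ ∀ W : Finset ι,
      (∃ ip ∈ W, ∃ im ∈ W, 0 < v ip ∧ v im < 0) →
      ∀ x : ι → ℝ, (∀ i, 0 < x i) → (∀ i, x i ≤ B) → (∀ j, j ∉ W → η ≤ x j) →
        g x * (∑ i ∈ W, v i * Real.log (x i) + ∑ i, v i * slabGrad (maskv W v) M' x i) ≤ 0 ∧
        |slabCorr (maskv W v) M' x| ≤ Cη * ∑ i ∈ W, x i ∧
        ∀ i, |slabGrad (maskv W v) M' x i| ≤ Cη := by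
  classical
  obtain ⟨umin, humin, hmin⟩ := cornerB_umin v
  obtain ⟨A, hA⟩ : ∃ A : ℝ, A = ∑ j, |v j| := ⟨_, rfl⟩
  have hA0 : 0 ≤ A := by
    rw [hA]
    exact Finset.sum_nonneg (fun j _ => abs_nonneg _)
  obtain ⟨T, hT⟩ : ∃ T : ℝ, T = A * (|Real.log η| + |Real.log B|) := ⟨_, rfl⟩
  have hL0 : 0 ≤ |Real.log η| + |Real.log B| := add_nonneg (abs_nonneg _) (abs_nonneg _)
  have hT0 : 0 ≤ T := by
    rw [hT]
    exact mul_nonneg hA0 hL0
  have hM' : 0 < M + T := by linarith
  have hC0 : 0 ≤ (M + T) / umin + 2 * A / umin :=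
    add_nonneg (div_nonneg hM'.le humin.le) (div_nonneg (mul_nonneg zero_le_two hA0) humin.le)
  refine ⟨M + T, (M + T) / umin + 2 * A / umin, hM', hC0, ?_⟩
  rintro W ⟨ip, hipW, im, himW, hvp, hvm⟩ x hx hxB hxη
  -- the masked direction
  have hup : 0 < maskv W v ip := by
    rw [cornerB_maskv_mem W v ip hipW]
    exact hvp
  have hum : maskv W v im < 0 := by
    rw [cornerB_maskv_mem W v im himW]
    exact hvm
  have hu : ∃ i, maskv W v i ≠ 0 := ⟨ip, hup.ne'⟩
  have hminu : ∀ i, maskv W v i ≠ 0 → umin ≤ |maskv W v i| := by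
    intro i hi
    by_cases hiW : i ∈ W
    · rw [cornerB_maskv_mem W v i hiW] at hi ⊢
      exact hmin i hi
    · exact absurd (cornerB_maskv_notMem W v i hiW) hi
  have hWu : ∀ i, maskv W v i ≠ 0 → i ∈ W := by
    intro i hi
    by_contra hiW
    exact hi (cornerB_maskv_notMem W v i hiW)
  refine ⟨?_, ?_, ?_⟩
  · -- the sign of the pairing
    have hs : ∑ i ∈ W, v i * Real.log (x i) = logCoord (maskv W v) x := by
      have e1 : ∑ i, maskv W v i * Real.log (x i) = ∑ i ∈ W, maskv W v i * Real.log (x i) := by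
        symm
        apply Finset.sum_subset (Finset.subset_univ W)
        intro i _ hi
        rw [cornerB_maskv_notMem W v i hi, zero_mul]
      unfold logCoord
      rw [e1]
      apply Finset.sum_congr rfl
      intro i hi
      rw [cornerB_maskv_mem W v i hi]
    have hg : ∑ i, v i * slabGrad (maskv W v) (M + T) x i
        = -clampR (M + T) (logCoord (maskv W v) x) := by
      rw [← slabGrad_pair (maskv W v) x hu hx (M + T)]
      apply Finset.sum_congr rfl
      intro i _
      by_cases hiW : i ∈ W
      · rw [cornerB_maskv_mem W v i hiW]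
      · rw [slabGrad_of_zero (maskv W v) (M + T) x i (cornerB_maskv_notMem W v i hiW),
          mul_zero, mul_zero]
    obtain ⟨s, hsdef⟩ : ∃ s : ℝ, s = logCoord (maskv W v) x := ⟨_, rfl⟩
    rw [← hsdef] at hs hg
    rw [hs, hg]
    -- the coordinates outside `W` contribute at most `T`
    have hR : |logCoord v x - s| ≤ T := by
      have h0 : ∑ i ∈ W, v i * Real.log (x i) + ∑ i ∈ Wᶜ, v i * Real.log (x i)
          = logCoord v x := Finset.sum_add_sum_compl W (fun i => v i * Real.log (x i))
      have e : logCoord v x - s = ∑ i ∈ Wᶜ, v i * Real.log (x i) := by linarith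
      rw [e]
      calc |∑ i ∈ Wᶜ, v i * Real.log (x i)|
          ≤ ∑ i ∈ Wᶜ, |v i * Real.log (x i)| := Finset.abs_sum_le_sum_abs _ _
        _ ≤ ∑ i ∈ Wᶜ, |v i| * (|Real.log η| + |Real.log B|) := by
            apply Finset.sum_le_sum
            intro i hi
            have hiW : i ∉ W := Finset.mem_compl.mp hi
            rw [abs_mul]
            apply mul_le_mul_of_nonneg_left _ (abs_nonneg _)
            have h1 : Real.log η ≤ Real.log (x i) := Real.log_le_log hη (hxη i hiW)
            have h2 : Real.log (x i) ≤ Real.log B := Real.log_le_log (hx i) (hxB i)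
            rw [abs_le]
            constructor
            · have h3 := neg_abs_le (Real.log η)
              have h4 := abs_nonneg (Real.log B)
              linarith
            · have h3 := le_abs_self (Real.log B)
              have h4 := abs_nonneg (Real.log η)
              linarith
        _ = (∑ i ∈ Wᶜ, |v i|) * (|Real.log η| + |Real.log B|) := by rw [Finset.sum_mul]
        _ ≤ T := by
            rw [hT, hA]
            apply mul_le_mul_of_nonneg_right _ hL0
            exact Finset.sum_le_sum_of_subset_of_nonneg (Finset.subset_univ _)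
              (fun i _ _ => abs_nonneg _)
    rw [abs_le] at hR
    by_cases h1 : M + T < s
    · have hc : clampR (M + T) s = M + T := by
        unfold clampR
        rw [min_eq_left h1.le, max_eq_right (by linarith)]
      rw [hc]
      have hgx : g x < 0 := hneg x hx (by linarith [hR.1])
      exact mul_nonpos_of_nonpos_of_nonneg hgx.le (by linarith)
    · by_cases h2 : s < -(M + T)
      · have hc : clampR (M + T) s = -(M + T) := by
          unfold clampR
          rw [min_eq_right (by linarith), max_eq_left h2.le]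
        rw [hc]
        have hgx : 0 < g x := hpos x hx (by linarith [hR.2])
        exact mul_nonpos_of_nonneg_of_nonpos hgx.le (by linarith)
      · have hc : clampR (M + T) s = s := by
          unfold clampR
          rw [min_eq_right (not_lt.mp h1), max_eq_right (not_lt.mp h2)]
        rw [hc]
        simp
  · -- the correction term
    have hm1 : x ip ≤ max (x ip) (x im) := le_max_left _ _
    have hm2 : x im ≤ max (x ip) (x im) := le_max_right _ _
    have hb := slabCorr_abs_le_small (maskv W v) x hu hx (M + T) hM'.le ip im hup hum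
      (max (x ip) (x im)) hm1 hm2 umin humin hminu W hWu
    have hS1 : x ip ≤ ∑ i ∈ W, x i :=
      Finset.single_le_sum (f := x) (fun i _ => (hx i).le) hipW
    have hS2 : x im ≤ ∑ i ∈ W, x i :=
      Finset.single_le_sum (f := x) (fun i _ => (hx i).le) himW
    have hmS : max (x ip) (x im) ≤ ∑ i ∈ W, x i := max_le hS1 hS2
    have hm0 : 0 ≤ max (x ip) (x im) := (hx ip).le.trans hm1
    have hUA : ∑ i, |maskv W v i| ≤ A := by
      rw [hA]
      apply Finset.sum_le_sum
      intro i _
      by_cases hiW : i ∈ W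
      · rw [cornerB_maskv_mem W v i hiW]
      · rw [cornerB_maskv_notMem W v i hiW, abs_zero]
        exact abs_nonneg _
    have hU0 : 0 ≤ ∑ i, |maskv W v i| := Finset.sum_nonneg (fun i _ => abs_nonneg _)
    have hd1 : max (x ip) (x im) / umin ≤ (∑ i ∈ W, x i) / umin :=
      div_le_div_of_nonneg_right hmS humin.le
    have hd0 : 0 ≤ (∑ i ∈ W, x i) / umin := div_nonneg (hm0.trans hmS) humin.le
    have h3 : 2 * (max (x ip) (x im) / umin) * ∑ i, |maskv W v i|
        ≤ 2 * ((∑ i ∈ W, x i) / umin) * A :=
      mul_le_mul (by linarith) hUA hU0 (by linarith)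
    calc |slabCorr (maskv W v) (M + T) x|
        ≤ (M + T) / umin * ∑ i ∈ W, x i
            + 2 * (max (x ip) (x im) / umin) * ∑ i, |maskv W v i| := hb
      _ ≤ (M + T) / umin * ∑ i ∈ W, x i + 2 * ((∑ i ∈ W, x i) / umin) * A := by linarith
      _ = ((M + T) / umin + 2 * A / umin) * ∑ i ∈ W, x i := by ring
  · -- the gradient
    intro i
    have hc := slabGrad_abs_le (maskv W v) x hu hx (M + T) hM'.le umin humin hminu i
    have h0 : 0 ≤ 2 * A / umin := div_nonneg (mul_nonneg zero_le_two hA0) humin.le
    linarith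

end Vale.Agent.Lib.P072
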