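import Vale.Agent.Lib.P072.ColCornerA
import Vale.Agent.Lib.P072.ColCornerB
import Vale.Agent.Lib.P072.ColClamp
import Vale.Agent.Lib.P072.BalUnion

/-!
# Corner estimate for a strongly connected system joined with a system with parallel
reaction vectors
-/

namespace Vale.Agent.Lib.P072

open Set

set_option linter.unusedSectionVars false

variable {R₁ R₂ ι : Type} [Fintype R₁] [Fintype R₂] [Fintype ι]

open Classical in
/-- The gradient of the face function of `W`. -/
private noncomputable def facGrad (W : Finset ι) (y : ι → ℝ) : ι → ℝ :=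
  fun i => if i ∈ W then Real.log (y i) else 0

private lemma facGrad_of_mem (W : Finset ι) (y : ι → ℝ) {i : ι} (hi : i ∈ W) :
    facGrad W y i = Real.log (y i) := by
  unfold facGrad
  rw [if_pos hi]

private lemma facGrad_of_notMem (W : Finset ι) (y : ι → ℝ) {i : ι} (hi : i ∉ W) :
    facGrad W y i = 0 := by
  unfold facGrad
  rw [if_neg hi]

private lemma facGrad_sum (W : Finset ι) (x w : ι → ℝ) :
    ∑ i, facGrad W x i * w i = ∑ i ∈ W, w i * Real.log (x i) := by
  have h := Finset.sum_subset (Finset.subset_univ W) (f := fun i => facGrad W x i * w i)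
    (fun i _ hi => by rw [facGrad_of_notMem W x hi, zero_mul])
  rw [← h]
  exact Finset.sum_congr rfl fun i hi => by rw [facGrad_of_mem W x hi, mul_comm]

/-- Chain rule for the face function of `W` along a positive curve. -/
private lemma colFace_hasGradOn (W : Finset ι) :
    HasGradOn (fun y : ι → ℝ => ∑ i ∈ W, y i * (Real.log (y i) - Real.log 1 - 1))
      (facGrad W) := by
  intro γ γ' s t hγ hpos
  have h : HasDerivWithinAt (fun τ => ∑ i ∈ W, γ τ i * (Real.log (γ τ i) - Real.log 1 - 1))
      (∑ i ∈ W, γ' i * Real.log (γ t i)) s t := by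
    apply HasDerivWithinAt.fun_sum
    intro i _
    have hi : HasDerivWithinAt (fun τ => γ τ i) (γ' i) s t := hasDerivWithinAt_pi.mp hγ i
    have hlog : HasDerivWithinAt (fun τ => Real.log (γ τ i)) (γ' i / γ t i) s t :=
      hi.log (hpos i).ne'
    have hprod := hi.mul ((hlog.sub_const (Real.log 1)).sub_const 1)
    have hne : γ t i ≠ 0 := (hpos i).ne'
    have h2 : γ t i * (γ' i / γ t i) = γ' i := by
      field_simp
    have e : γ' i * (Real.log (γ t i) - Real.log 1 - 1) + γ t i * (γ' i / γ t i)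
        = γ' i * Real.log (γ t i) := by
      rw [h2, Real.log_one]
      ring
    rw [e] at hprod
    exact hprod
  rw [facGrad_sum W (γ t) γ']
  exact h

private lemma hasGradOn_add {V₁ V₂ : (ι → ℝ) → ℝ} {g₁ g₂ : (ι → ℝ) → ι → ℝ}
    (h₁ : HasGradOn V₁ g₁) (h₂ : HasGradOn V₂ g₂) :
    HasGradOn (fun y => V₁ y + V₂ y) (fun y i => g₁ y i + g₂ y i) := by
  intro γ γ' s t hγ hpos
  have h := (h₁ γ γ' s t hγ hpos).add (h₂ γ γ' s t hγ hpos)
  have e : ∑ i, (g₁ (γ t) i + g₂ (γ t) i) * γ' i
      = ∑ i, g₁ (γ t) i * γ' i + ∑ i, g₂ (γ t) i * γ' i := by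
    rw [← Finset.sum_add_distrib]
    exact Finset.sum_congr rfl fun i _ => add_mul _ _ _
  show HasDerivWithinAt (fun τ => V₁ (γ τ) + V₂ (γ τ))
    (∑ i, (g₁ (γ t) i + g₂ (γ t) i) * γ' i) s t
  rw [e]
  exact h

private lemma abs_log_le_of_between {η B t : ℝ} (hη : 0 < η) (h1 : η ≤ t) (h2 : t ≤ B) :
    |Real.log t| ≤ |Real.log η| + |Real.log B| := by
  have ht : 0 < t := lt_of_lt_of_le hη h1
  have l1 : Real.log η ≤ Real.log t := Real.log_le_log hη h1
  have l2 : Real.log t ≤ Real.log B := Real.log_le_log ht h2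
  rw [abs_le]
  constructor
  · linarith [neg_abs_le (Real.log η), abs_nonneg (Real.log B)]
  · linarith [le_abs_self (Real.log B), abs_nonneg (Real.log η)]

/-- The derivative along the field of the union, split into the part of the first system
and the part of the second system. -/
private lemma col_corner_ineq (N₁ : MAS R₁ ι) (N₂ : MAS R₂ ι) (v : ι → ℝ)
    (g : (ι → ℝ) → ℝ) (hf : ∀ x, N₂.field x = g x • v) (x : ι → ℝ) (q b : ι → ℝ)
    (hb : ∀ i, b i = q i - Real.log (x i))
    (h1 : N₁.dissip (fun _ => 1) x + ∑ i, b i * N₁.field x i ≤ 0)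
    (h2 : g x * ∑ i, q i * v i ≤ 0) :
    ∑ i, q i * (N₁.union N₂).field x i ≤ 0 := by
  rw [union_field, hf x]
  have e : ∑ i, q i * (N₁.field x + g x • v) i
      = (N₁.dissip (fun _ => 1) x + ∑ i, b i * N₁.field x i) + g x * ∑ i, q i * v i := by
    unfold MAS.dissip
    rw [Finset.mul_sum, ← Finset.sum_add_distrib, ← Finset.sum_add_distrib]
    refine Finset.sum_congr rfl fun i _ => ?_
    rw [hb i]
    simp only [Pi.add_apply, Pi.smul_apply, smul_eq_mul, Real.log_one]
    ring
  rw [e]
  linarith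

/-- Corner estimate: for every `η > 0` and `B` there are `ε > 0` and `Cη` such that for every
nonempty set `W` of coordinates there is a function `Ψ` with a gradient field `p` whose
derivative along the vector field of the union is nonpositive at every point of the class with
all coordinates at most `B`, the coordinates outside `W` at least `η` and the coordinates in
`W` at most `ε`, and which differs there from the face function of `W` by at most
`Cη * ∑ i ∈ W, x i`. -/
theorem col_corner (N₁ : MAS R₁ ι) (N₂ : MAS R₂ ι)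
    (h₁ : N₁.StronglyConnected) (hspan : N₂.stoich ≤ N₁.stoich)
    (v : ι → ℝ) (g : (ι → ℝ) → ℝ) (M : ℝ) (hM : 0 < M)
    (hf : ∀ x, N₂.field x = g x • v)
    (hpos : ∀ x : ι → ℝ, (∀ i, 0 < x i) → logCoord v x ≤ -M → 0 < g x)
    (hneg : ∀ x : ι → ℝ, (∀ i, 0 < x i) → M ≤ logCoord v x → g x < 0)
    (c : ι → ℝ) (hc : ∀ i, 0 < c i) (η B : ℝ) (hη : 0 < η) :
    ∃ ε Cη : ℝ, 0 < ε ∧ ε ≤ 1 ∧ 0 ≤ Cη ∧ ∀ W : Finset ι, W.Nonempty →
      ∃ (Ψ : (ι → ℝ) → ℝ) (p : (ι → ℝ) → ι → ℝ), HasGradOn Ψ p ∧
        ∀ x ∈ (N₁.union N₂).posClass c, (∀ i, x i ≤ B) → (∀ j, j ∉ W → η ≤ x j) →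
          (∀ i ∈ W, x i ≤ ε) →
          (∑ i, p x i * (N₁.union N₂).field x i ≤ 0 ∧
           |Ψ x - ∑ i ∈ W, x i * (Real.log (x i) - Real.log 1 - 1)| ≤ Cη * ∑ i ∈ W, x i) := by
  obtain ⟨M', Cη, hM', hCη, hmix⟩ := corner_mixed v g M hM hpos hneg η B hη
  obtain ⟨ε₁, hε₁, hcore⟩ := corner_core N₁ h₁ c hc (|Real.log η| + |Real.log B| + Cη)
  obtain ⟨ε₂, hε₂, hε₂1, hun⟩ := corner_unmixed v g M hpos hneg η B hη
  refine ⟨min ε₁ ε₂, Cη, lt_min hε₁ hε₂, (min_le_right _ _).trans hε₂1, hCη, ?_⟩
  intro W hW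
  obtain ⟨i₀, hi₀⟩ := hW
  by_cases hmx : ∃ ip ∈ W, ∃ im ∈ W, 0 < v ip ∧ v im < 0
  · have hu : ∃ i, maskv W v i ≠ 0 := by
      obtain ⟨ip, hip, _, _, hvp, _⟩ := hmx
      refine ⟨ip, ?_⟩
      unfold maskv
      rw [if_pos hip]
      exact hvp.ne'
    refine ⟨fun y => (∑ i ∈ W, y i * (Real.log (y i) - Real.log 1 - 1))
        + slabCorr (maskv W v) M' y,
      fun y i => facGrad W y i + slabGrad (maskv W v) M' y i,
      hasGradOn_add (colFace_hasGradOn W) (slabCorr_hasGradOn _ hu M' hM'), ?_⟩
    intro x hx hxB hxη hxε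
    have hxpos : ∀ i, 0 < x i := hx.1
    have hxc : x - c ∈ N₁.stoich := by
      have h := hx.2
      rwa [union_stoich_of_le N₁ N₂ hspan] at h
    obtain ⟨hm1, hm2, hm3⟩ := hmix W hmx x hxpos hxB hxη
    constructor
    · refine col_corner_ineq N₁ N₂ v g hf x
        (fun i => facGrad W x i + slabGrad (maskv W v) M' x i)
        (fun i => facGrad W x i + slabGrad (maskv W v) M' x i - Real.log (x i))
        (fun _ => rfl) ?_ ?_
      · refine hcore x hxpos hxc ⟨i₀, (hxε i₀ hi₀).trans (min_le_left _ _)⟩ _ (fun i => ?_)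
        show |facGrad W x i + slabGrad (maskv W v) M' x i - Real.log (x i)|
          ≤ |Real.log η| + |Real.log B| + Cη
        by_cases hi : i ∈ W
        · rw [facGrad_of_mem W x hi]
          have e : Real.log (x i) + slabGrad (maskv W v) M' x i - Real.log (x i)
              = slabGrad (maskv W v) M' x i := by ring
          rw [e]
          linarith [hm3 i, abs_nonneg (Real.log η), abs_nonneg (Real.log B)]
        · rw [facGrad_of_notMem W x hi]
          have h1 := abs_log_le_of_between hη (hxη i hi) (hxB i)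
          have e : 0 + slabGrad (maskv W v) M' x i - Real.log (x i)
              = slabGrad (maskv W v) M' x i - Real.log (x i) := by ring
          rw [e]
          have h2 := abs_sub (slabGrad (maskv W v) M' x i) (Real.log (x i))
          linarith [hm3 i]
      · have e : ∑ i, (facGrad W x i + slabGrad (maskv W v) M' x i) * v i
            = ∑ i ∈ W, v i * Real.log (x i) + ∑ i, v i * slabGrad (maskv W v) M' x i := by
          rw [← facGrad_sum W x v, ← Finset.sum_add_distrib]
          exact Finset.sum_congr rfl fun i _ => by ring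
        rw [e]
        exact hm1
    · have e : (∑ i ∈ W, x i * (Real.log (x i) - Real.log 1 - 1))
            + slabCorr (maskv W v) M' x - ∑ i ∈ W, x i * (Real.log (x i) - Real.log 1 - 1)
          = slabCorr (maskv W v) M' x := by ring
      show |(∑ i ∈ W, x i * (Real.log (x i) - Real.log 1 - 1))
            + slabCorr (maskv W v) M' x - ∑ i ∈ W, x i * (Real.log (x i) - Real.log 1 - 1)|
          ≤ Cη * ∑ i ∈ W, x i
      rw [e]
      exact hm2
  · refine ⟨fun y => ∑ i ∈ W, y i * (Real.log (y i) - Real.log 1 - 1), facGrad W,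
      colFace_hasGradOn W, ?_⟩
    intro x hx hxB hxη hxε
    have hxpos : ∀ i, 0 < x i := hx.1
    have hxc : x - c ∈ N₁.stoich := by
      have h := hx.2
      rwa [union_stoich_of_le N₁ N₂ hspan] at h
    constructor
    · refine col_corner_ineq N₁ N₂ v g hf x (fun i => facGrad W x i)
        (fun i => facGrad W x i - Real.log (x i)) (fun _ => rfl) ?_ ?_
      · refine hcore x hxpos hxc ⟨i₀, (hxε i₀ hi₀).trans (min_le_left _ _)⟩ _ (fun i => ?_)
        show |facGrad W x i - Real.log (x i)| ≤ |Real.log η| + |Real.log B| + Cη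
        by_cases hi : i ∈ W
        · rw [facGrad_of_mem W x hi, sub_self, abs_zero]
          linarith [abs_nonneg (Real.log η), abs_nonneg (Real.log B)]
        · rw [facGrad_of_notMem W x hi, zero_sub, abs_neg]
          linarith [abs_log_le_of_between hη (hxη i hi) (hxB i)]
      · rw [facGrad_sum W x v]
        exact hun W hmx x hxpos hxB hxη (fun i hi => (hxε i hi).trans (min_le_right _ _))
    · show |(∑ i ∈ W, x i * (Real.log (x i) - Real.log 1 - 1))
            - ∑ i ∈ W, x i * (Real.log (x i) - Real.log 1 - 1)| ≤ Cη * ∑ i ∈ W, x i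
      rw [sub_self, abs_zero]
      exact mul_nonneg hCη (Finset.sum_nonneg fun i _ => (hxpos i).le)

end Vale.Agent.Lib.P072
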