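import Vale.Agent.Lib.P072.BalStatic

/-!
# The tier estimate absorbs bounded shifts of the reference point
-/

namespace Vale.Agent.Lib.P072

open Set

set_option linter.unusedSectionVars false

variable {R ι : Type} [Fintype R] [Fintype ι]

/-- Bound of the vector field at a positive point by the largest of the monomials
`exp (cw xs x (src r))`. -/
private lemma field_abs_le_of_exp_le (N : MAS R ι) (xs x : ι → ℝ) (hxs : ∀ i, 0 < xs i)
    (hx : ∀ i, 0 < x i) (E : ℝ) (hE : ∀ r, Real.exp (cw xs x (N.src r)) ≤ E) (i : ι) :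
    |N.field x i| ≤ (∑ r, N.rate r * mono (N.src r) xs * ∑ j, |N.vec r j|) * E := by
  rw [field_apply, Finset.sum_mul]
  refine (Finset.abs_sum_le_sum_abs _ _).trans (Finset.sum_le_sum (fun r _ => ?_))
  have hpos : 0 < N.rate r * mono (N.src r) xs := mul_pos (N.rate_pos r) (mono_pos _ _ hxs)
  have hexp := Real.exp_pos (cw xs x (N.src r))
  rw [mono_eq_mul_exp_cw xs x hxs hx (N.src r)]
  have h1 : |N.rate r * (mono (N.src r) xs * Real.exp (cw xs x (N.src r))) * N.vec r i|
      = N.rate r * mono (N.src r) xs * Real.exp (cw xs x (N.src r)) * |N.vec r i| := by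
    rw [abs_mul, abs_of_pos (mul_pos (N.rate_pos r) (mul_pos (mono_pos _ _ hxs) hexp))]
    ring
  rw [h1]
  have h2 : |N.vec r i| ≤ ∑ j, |N.vec r j| :=
    Finset.single_le_sum (f := fun j => |N.vec r j|) (fun j _ => abs_nonneg _)
      (Finset.mem_univ i)
  calc N.rate r * mono (N.src r) xs * Real.exp (cw xs x (N.src r)) * |N.vec r i|
      ≤ N.rate r * mono (N.src r) xs * E * ∑ j, |N.vec r j| := by
        apply mul_le_mul (mul_le_mul_of_nonneg_left (hE r) hpos.le) h2 (abs_nonneg _)
        exact mul_nonneg hpos.le (hexp.le.trans (hE r))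
    _ = N.rate r * mono (N.src r) xs * (∑ j, |N.vec r j|) * E := by ring

/-- Tier estimate with a bounded shift: for a strongly connected system and a bound `Cb`
there is a threshold `Θ` such that, whenever the logarithmic weights of the source complexes
spread by at least `Θ`, the dissipation plus any combination `∑ i, b i * field x i` with
coefficients bounded by `Cb` is at most minus every monomial `exp (cw xs x (src r₀))`. -/
theorem dissip_shift_le (N : MAS R ι) (hsc : N.StronglyConnected) (xs : ι → ℝ)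
    (hxs : ∀ i, 0 < xs i) (Cb : ℝ) :
    ∃ Θ : ℝ, 0 ≤ Θ ∧ ∀ x : ι → ℝ, (∀ i, 0 < x i) → ∀ b : ι → ℝ, (∀ i, |b i| ≤ Cb) →
      ∀ r₁ r₂, Θ ≤ cw xs x (N.src r₁) - cw xs x (N.src r₂) →
      ∀ r₀, N.dissip xs x + ∑ i, b i * N.field x i ≤ - Real.exp (cw xs x (N.src r₀)) := by
  rcases isEmpty_or_nonempty R with hR | hR
  · exact ⟨0, le_rfl, fun x hx b hb r₁ => isEmptyElim r₁⟩
  · obtain ⟨C, hCdef⟩ : ∃ C : ℝ,
        C = ∑ r, N.rate r * mono (N.src r) xs * ∑ j, |N.vec r j| := ⟨_, rfl⟩
    have hC0 : 0 ≤ C := by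
      rw [hCdef]
      exact Finset.sum_nonneg (fun r _ =>
        mul_nonneg (mul_pos (N.rate_pos r) (mono_pos _ _ hxs)).le
          (Finset.sum_nonneg (fun j _ => abs_nonneg _)))
    obtain ⟨K, hKdef⟩ : ∃ K : ℝ, K = (Fintype.card ι : ℝ) * max Cb 0 * C + 1 := ⟨_, rfl⟩
    have hK : 0 < K := by
      rw [hKdef]
      have : 0 ≤ (Fintype.card ι : ℝ) * max Cb 0 * C :=
        mul_nonneg (mul_nonneg (Nat.cast_nonneg _) (le_max_right _ _)) hC0
      linarith
    have hκpos : ∀ r, 0 < N.rate r * mono (N.src r) xs / K := fun r =>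
      div_pos (mul_pos (N.rate_pos r) (mono_pos _ _ hxs)) hK
    obtain ⟨rmin, -, hmin⟩ := Finset.exists_min_image Finset.univ
      (fun r => N.rate r * mono (N.src r) xs / K) Finset.univ_nonempty
    obtain ⟨rmax, -, hmax⟩ := Finset.exists_max_image Finset.univ
      (fun r => N.rate r * mono (N.src r) xs / K) Finset.univ_nonempty
    obtain ⟨Θ, hΘ, hT⟩ := tier_bound N.src N.tgt (fun r => N.rate r * mono (N.src r) xs / K)
      (kmin := N.rate rmin * mono (N.src rmin) xs / K)
      (kmax := N.rate rmax * mono (N.src rmax) xs / K)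
      (hκpos rmin) (fun r => ⟨hmin r (Finset.mem_univ r), hmax r (Finset.mem_univ r)⟩)
      N.src_ne_tgt hsc
    refine ⟨Θ, hΘ, fun x hx b hb r₁ r₂ hsp r₀ => ?_⟩
    obtain ⟨rm, -, hrm⟩ := Finset.exists_max_image Finset.univ
      (fun r => Real.exp (cw xs x (N.src r))) Finset.univ_nonempty
    have hE : ∀ r, Real.exp (cw xs x (N.src r)) ≤ Real.exp (cw xs x (N.src rm)) :=
      fun r => hrm r (Finset.mem_univ r)
    have hEpos := Real.exp_pos (cw xs x (N.src rm))
    have hD : N.dissip xs x ≤ - (K * Real.exp (cw xs x (N.src rm))) := by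
      have h1 := hT (cw xs x) r₁ r₂ hsp rm
      have h2 : N.dissip xs x = K * ∑ r, N.rate r * mono (N.src r) xs / K
          * Real.exp (cw xs x (N.src r)) * (cw xs x (N.tgt r) - cw xs x (N.src r)) := by
        rw [dissip_eq_sum N xs x hxs hx, Finset.mul_sum]
        refine Finset.sum_congr rfl (fun r _ => ?_)
        field_simp
      rw [h2]
      have h3 := mul_le_mul_of_nonneg_left h1 hK.le
      linarith
    have hF : ∑ i, b i * N.field x i
        ≤ (Fintype.card ι : ℝ) * max Cb 0 * C * Real.exp (cw xs x (N.src rm)) := by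
      have h1 : ∀ i ∈ (Finset.univ : Finset ι),
          b i * N.field x i ≤ max Cb 0 * (C * Real.exp (cw xs x (N.src rm))) := by
        intro i _
        have hf := field_abs_le_of_exp_le N xs x hxs hx _ hE i
        rw [← hCdef] at hf
        calc b i * N.field x i ≤ |b i * N.field x i| := le_abs_self _
          _ = |b i| * |N.field x i| := abs_mul _ _
          _ ≤ max Cb 0 * (C * Real.exp (cw xs x (N.src rm))) :=
              mul_le_mul ((hb i).trans (le_max_left _ _)) hf (abs_nonneg _) (le_max_right _ _)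
      have h2 := Finset.sum_le_sum h1
      rw [Finset.sum_const, Finset.card_univ, nsmul_eq_mul] at h2
      linarith
    have hr0 := hE r₀
    rw [hKdef] at hD
    linarith

end Vale.Agent.Lib.P072
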