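import Vale.Agent.Lib.P072.LineSign
import Vale.Agent.Lib.P072.BalBasic

/-!
# Projections along a direction onto level sets of a logarithmic coordinate (definitions)

For a direction `u`, a positive point `x` and a level `γ` there is a unique `μ` such that
`x - μ u` is positive and its logarithmic coordinate `∑ i, u i * log ((x - μ u) i)` equals `γ`
(`lineMu`, proved in `ColExist`). The point `lineProj u x γ = x - μ u` is the projection of
`x` along `u` onto the level set. The function `slabCorr u M` is a correction term, with
bounded gradient `slabGrad u M`, that is added to entropy-type functions: the pairing of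
`log x + slabGrad u M x` with `u` is the distance of the logarithmic coordinate of `x` from
the interval `[-M, M]`.
-/

namespace Vale.Agent.Lib.P072

set_option linter.unusedSectionVars false

variable {ι : Type} [Fintype ι]

/-- The function `∑ i, (z i * log (z i) - z i)`. -/
noncomputable def hEnt (z : ι → ℝ) : ℝ := ∑ i, (z i * Real.log (z i) - z i)

/-- The linear functional `y ↦ ∑ i, g i * y i`. -/
noncomputable def gradCLM (g : ι → ℝ) : (ι → ℝ) →L[ℝ] ℝ :=
  ∑ i, g i • (ContinuousLinearMap.proj i : (ι → ℝ) →L[ℝ] ℝ)

lemma gradCLM_apply (g y : ι → ℝ) : gradCLM g y = ∑ i, g i * y i := by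
  unfold gradCLM
  simp

/-- A function `V` has the gradient field `g` along curves in the positive orthant. -/
def HasGradOn (V : (ι → ℝ) → ℝ) (g : (ι → ℝ) → ι → ℝ) : Prop :=
  ∀ (γ : ℝ → ι → ℝ) (γ' : ι → ℝ) (s : Set ℝ) (t : ℝ), HasDerivWithinAt γ γ' s t →
    (∀ i, 0 < γ t i) → HasDerivWithinAt (fun τ => V (γ τ)) (∑ i, g (γ t) i * γ' i) s t

open Classical in
/-- The multiplier `μ` with `x - μ u` positive and of logarithmic coordinate `γ` (zero if there
is none). -/
noncomputable def lineMu (u x : ι → ℝ) (γ : ℝ) : ℝ :=
  if h : ∃ μ : ℝ, (∀ i, 0 < x i - μ * u i) ∧ ∑ i, u i * Real.log (x i - μ * u i) = γ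
  then h.choose else 0

/-- The projection of `x` along `u` onto the level `γ` of the logarithmic coordinate. -/
noncomputable def lineProj (u x : ι → ℝ) (γ : ℝ) : ι → ℝ := fun i => x i - lineMu u x γ * u i

/-- The value function of the projection. -/
noncomputable def lineF (u x : ι → ℝ) (γ : ℝ) : ℝ := hEnt (lineProj u x γ) + lineMu u x γ * γ

/-- Clamping of a real number to the interval `[-M, M]`. -/
noncomputable def clampR (M s : ℝ) : ℝ := max (-M) (min M s)

/-- The correction term of the direction `u` and the interval `[-M, M]`. -/
noncomputable def slabCorr (u : ι → ℝ) (M : ℝ) (x : ι → ℝ) : ℝ :=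
  lineF u x 0 - lineF u x (clampR M (logCoord u x))

/-- The gradient of the correction term. -/
noncomputable def slabGrad (u : ι → ℝ) (M : ℝ) (x : ι → ℝ) : ι → ℝ :=
  fun i => Real.log (lineProj u x 0 i) - Real.log (lineProj u x (clampR M (logCoord u x)) i)

/-- The entropy-type function with the correction term of the direction `v`. -/
noncomputable def colV (v : ι → ℝ) (M : ℝ) (x : ι → ℝ) : ℝ := hEnt x + slabCorr v M x

/-- The gradient of `colV`. -/
noncomputable def colGrad (v : ι → ℝ) (M : ℝ) (x : ι → ℝ) : ι → ℝ :=
  fun i => Real.log (x i) + slabGrad v M x i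

open Classical in
/-- The vector `v` with the coordinates outside `W` replaced by zero. -/
noncomputable def maskv (W : Finset ι) (v : ι → ℝ) : ι → ℝ := fun i => if i ∈ W then v i else 0

end Vale.Agent.Lib.P072
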