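import Vale.Agent.Lib.P072.ColIneq

/-!
# Differentiability of the value function of the projection
-/

namespace Vale.Agent.Lib.P072

open Set Filter Topology

set_option linter.unusedSectionVars false

variable {ι : Type} [Fintype ι]

/-- A function squeezed between two functions that touch it at `x` and have the same
derivative there is differentiable at `x` with that derivative. -/
lemma hasFDerivAt_of_squeeze {E : Type} [NormedAddCommGroup E] [NormedSpace ℝ E]
    {f lo up : E → ℝ} {A : E →L[ℝ] ℝ} {x : E}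
    (hlo : HasFDerivAt lo A x) (hup : HasFDerivAt up A x)
    (h1 : ∀ᶠ y in 𝓝 x, lo y ≤ f y) (h2 : ∀ᶠ y in 𝓝 x, f y ≤ up y)
    (e1 : lo x = f x) (e2 : up x = f x) : HasFDerivAt f A x := by
  rw [hasFDerivAt_iff_isLittleO_nhds_zero] at hlo hup ⊢
  rw [Asymptotics.isLittleO_iff] at hlo hup ⊢
  intro c hc
  have ht : Tendsto (fun h : E => x + h) (𝓝 0) (𝓝 x) := by
    have hcont : Continuous (fun h : E => x + h) := continuous_const.add continuous_id
    simpa using hcont.tendsto 0
  filter_upwards [hlo hc, hup hc, ht.eventually h1, ht.eventually h2] with h hyl hyu hy1 hy2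
  rw [Real.norm_eq_abs] at hyl hyu ⊢
  rw [e1] at hyl
  rw [e2] at hyu
  rw [abs_le] at hyl hyu ⊢
  constructor <;> linarith [hyl.1, hyl.2, hyu.1, hyu.2]

lemma hasFDerivAt_hEnt (z : ι → ℝ) (hz : ∀ i, 0 < z i) :
    HasFDerivAt (hEnt : (ι → ℝ) → ℝ) (gradCLM (fun i => Real.log (z i))) z := by
  have hmain : HasFDerivAt (fun y : ι → ℝ => ∑ i, (y i * Real.log (y i) - y i))
      (∑ i, Real.log (z i) • (ContinuousLinearMap.proj i : (ι → ℝ) →L[ℝ] ℝ)) z := by
    apply HasFDerivAt.fun_sum
    intro i _
    have hproj : HasFDerivAt (fun y : ι → ℝ => y i)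
        (ContinuousLinearMap.proj i : (ι → ℝ) →L[ℝ] ℝ) z := hasFDerivAt_apply i z
    have hs : HasDerivAt (fun s : ℝ => s * Real.log s - s) (Real.log (z i)) (z i) := by
      have h1 := (hasDerivAt_id (z i)).mul (Real.hasDerivAt_log (hz i).ne')
      have h2 := h1.sub (hasDerivAt_id (z i))
      refine h2.congr_deriv ?_
      have hne : z i ≠ 0 := (hz i).ne'
      simp only [id]
      field_simp
      ring
    exact hs.comp_hasFDerivAt z hproj
  exact hmain

/-- The value function `y ↦ lineF u y γ` is differentiable at every positive point, with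
gradient the logarithm of the projection. -/
theorem hasFDerivAt_lineF (u x : ι → ℝ) (hu : ∃ i, u i ≠ 0) (hx : ∀ i, 0 < x i) (γ : ℝ) :
    HasFDerivAt (fun y => lineF u y γ) (gradCLM (fun i => Real.log (lineProj u x γ i))) x := by
  have hP := lineProj_pos u x hu hx γ
  have hlo : HasFDerivAt (fun y : ι → ℝ => lineF u x γ
      + gradCLM (fun i => Real.log (lineProj u x γ i)) (y - x))
      (gradCLM (fun i => Real.log (lineProj u x γ i))) x := by
    have h1 : HasFDerivAt (fun y : ι → ℝ => y - x) (ContinuousLinearMap.id ℝ (ι → ℝ)) x :=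
      (hasFDerivAt_id x).sub_const x
    have h2 : HasFDerivAt (fun y : ι → ℝ => gradCLM (fun i => Real.log (lineProj u x γ i)) (y - x))
        ((gradCLM (fun i => Real.log (lineProj u x γ i))).comp
          (ContinuousLinearMap.id ℝ (ι → ℝ))) x :=
      HasFDerivAt.comp x (g := gradCLM (fun i => Real.log (lineProj u x γ i)))
        (f := fun y => y - x) (gradCLM (fun i => Real.log (lineProj u x γ i))).hasFDerivAt h1
    rw [ContinuousLinearMap.comp_id] at h2
    exact h2.const_add (lineF u x γ)
  have hup : HasFDerivAt (fun y : ι → ℝ => hEnt (fun i => y i - lineMu u x γ * u i)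
      + lineMu u x γ * γ) (gradCLM (fun i => Real.log (lineProj u x γ i))) x := by
    have h1 : HasFDerivAt (fun y : ι → ℝ => y - lineMu u x γ • u)
        (ContinuousLinearMap.id ℝ (ι → ℝ)) x := (hasFDerivAt_id x).sub_const _
    have hz : x - lineMu u x γ • u = lineProj u x γ := by
      funext i
      simp [lineProj]
    have h2 : HasFDerivAt (hEnt : (ι → ℝ) → ℝ) (gradCLM (fun i => Real.log (lineProj u x γ i)))
        (x - lineMu u x γ • u) := by
      rw [hz]
      exact hasFDerivAt_hEnt (lineProj u x γ) hP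
    have h3 : HasFDerivAt (fun y : ι → ℝ => hEnt (y - lineMu u x γ • u))
        ((gradCLM (fun i => Real.log (lineProj u x γ i))).comp
          (ContinuousLinearMap.id ℝ (ι → ℝ))) x :=
      HasFDerivAt.comp x (g := hEnt) (f := fun y => y - lineMu u x γ • u) h2 h1
    rw [ContinuousLinearMap.comp_id] at h3
    exact h3.add_const (lineMu u x γ * γ)
  have hev1 : ∀ᶠ y in 𝓝 x, ∀ i, 0 < y i := by
    rw [Filter.eventually_all]
    intro i
    exact (continuous_apply i).continuousAt (lt_mem_nhds (hx i))
  have hev2 : ∀ᶠ y in 𝓝 x, ∀ i, 0 < y i - lineMu u x γ * u i := by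
    rw [Filter.eventually_all]
    intro i
    have hc : ContinuousAt (fun y : ι → ℝ => y i - lineMu u x γ * u i) x :=
      ((continuous_apply i).sub continuous_const).continuousAt
    exact hc (lt_mem_nhds (hP i))
  refine hasFDerivAt_of_squeeze hlo hup ?_ ?_ ?_ ?_
  · filter_upwards [hev1] with y hy
    have h := lineF_lower u y x hu hy hx γ
    rw [gradCLM_apply]
    exact h
  · filter_upwards [hev1, hev2] with y hy hy2
    have h := lineF_star u y y hu hy γ (lineMu u x γ) hy2
    simpa using h
  · simp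
  · rfl

lemma hasGradOn_of_hasFDerivAt (V : (ι → ℝ) → ℝ) (g : (ι → ℝ) → ι → ℝ)
    (h : ∀ x : ι → ℝ, (∀ i, 0 < x i) → HasFDerivAt V (gradCLM (g x)) x) : HasGradOn V g := by
  intro γ γ' s t hγ hpos
  have h1 := (h (γ t) hpos).comp_hasDerivWithinAt t hγ
  rw [gradCLM_apply] at h1
  exact h1

end Vale.Agent.Lib.P072
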