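import Vale.Agent.Lib.P072.ColDefs

/-!
# Existence and uniqueness of the projection along a direction
-/

namespace Vale.Agent.Lib.P072

open Set

set_option linter.unusedSectionVars false

variable {ι : Type} [Fintype ι]

/-- Each term of the logarithmic coordinate is nonincreasing in the multiplier. -/
private lemma colTerm_anti (u x : ι → ℝ) (i : ι) (μ₁ μ₂ : ℝ) (h : μ₁ ≤ μ₂)
    (h1 : 0 < x i - μ₁ * u i) (h2 : 0 < x i - μ₂ * u i) :
    u i * Real.log (x i - μ₂ * u i) ≤ u i * Real.log (x i - μ₁ * u i) := by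
  rcases lt_trichotomy (u i) 0 with hn | hz | hp
  · have h3 : x i - μ₁ * u i ≤ x i - μ₂ * u i := by nlinarith
    have hl := Real.log_le_log h1 h3
    nlinarith
  · simp [hz]
  · have h3 : x i - μ₂ * u i ≤ x i - μ₁ * u i := by nlinarith
    have hl := Real.log_le_log h2 h3
    nlinarith

/-- A term with a nonzero coefficient is strictly decreasing in the multiplier. -/
private lemma colTerm_strict (u x : ι → ℝ) (i : ι) (μ₁ μ₂ : ℝ) (h : μ₁ < μ₂) (hu : u i ≠ 0)
    (h1 : 0 < x i - μ₁ * u i) (h2 : 0 < x i - μ₂ * u i) :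
    u i * Real.log (x i - μ₂ * u i) < u i * Real.log (x i - μ₁ * u i) := by
  rcases lt_or_gt_of_ne hu with hn | hp
  · have h3 : x i - μ₁ * u i < x i - μ₂ * u i := by nlinarith
    have hl := Real.log_lt_log h1 h3
    nlinarith
  · have h3 : x i - μ₂ * u i < x i - μ₁ * u i := by nlinarith
    have hl := Real.log_lt_log h2 h3
    nlinarith

/-- The logarithmic coordinate is strictly decreasing in the multiplier. -/
private lemma colSum_strict (u x : ι → ℝ) (hu : ∃ i, u i ≠ 0) (μ₁ μ₂ : ℝ) (h : μ₁ < μ₂)
    (h1 : ∀ i, 0 < x i - μ₁ * u i) (h2 : ∀ i, 0 < x i - μ₂ * u i) :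
    ∑ i, u i * Real.log (x i - μ₂ * u i) < ∑ i, u i * Real.log (x i - μ₁ * u i) := by
  obtain ⟨i0, hi0⟩ := hu
  apply Finset.sum_lt_sum
  · intro i _
    exact colTerm_anti u x i μ₁ μ₂ h.le (h1 i) (h2 i)
  · exact ⟨i0, Finset.mem_univ _, colTerm_strict u x i0 μ₁ μ₂ h hi0 (h1 i0) (h2 i0)⟩

/-- A term at a nonnegative multiplier is at most the term at zero. -/
private lemma colTerm_le_zero (u x : ι → ℝ) (hx : ∀ i, 0 < x i) (i : ι) (μ : ℝ) (hμ : 0 ≤ μ)
    (h2 : 0 < x i - μ * u i) :
    u i * Real.log (x i - μ * u i) ≤ u i * Real.log (x i) := by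
  have h := colTerm_anti u x i 0 μ hμ (by simpa using hx i) h2
  simpa using h

/-- There is a nonnegative admissible multiplier at which the logarithmic coordinate is at most
the level. -/
private lemma colLow (u x : ι → ℝ) (hu : ∃ i, u i ≠ 0) (hx : ∀ i, 0 < x i) (γ : ℝ) :
    ∃ μ : ℝ, 0 ≤ μ ∧ (∀ i, 0 < x i - μ * u i) ∧
      ∑ i, u i * Real.log (x i - μ * u i) ≤ γ := by
  classical
  by_cases hpos : ∃ i, 0 < u i
  · -- some coefficient is positive
    have hs : (Finset.univ.filter (fun i => 0 < u i)).Nonempty := by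
      obtain ⟨i, hi⟩ := hpos
      exact ⟨i, by simp [hi]⟩
    obtain ⟨istar, his, hmin⟩ :=
      Finset.exists_min_image (Finset.univ.filter (fun i => 0 < u i)) (fun i => x i / u i) hs
    have hustar : 0 < u istar := by simpa using his
    set a : ℝ := x istar / u istar with ha
    have ha0 : 0 < a := div_pos (hx istar) hustar
    have hau : a * u istar = x istar := by
      rw [ha]
      field_simp
    set S : ℝ := ∑ i ∈ Finset.univ.erase istar, u i * Real.log (x i) with hS
    set E : ℝ := Real.exp ((γ - S) / u istar) / u istar with hE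
    have hE0 : 0 < E := div_pos (Real.exp_pos _) hustar
    set t : ℝ := min (a / 2) E with ht
    have ht0 : 0 < t := lt_min (by linarith) hE0
    have hta : t ≤ a / 2 := min_le_left _ _
    have htE : t ≤ E := min_le_right _ _
    refine ⟨a - t, by linarith, ?_, ?_⟩
    · intro i
      by_cases hui : 0 < u i
      · have h1 : a ≤ x i / u i := hmin i (by simp [hui])
        have h2 : a * u i ≤ x i := by
          rw [le_div_iff₀ hui] at h1
          exact h1
        nlinarith
      · have hui' : u i ≤ 0 := not_lt.mp hui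
        have h1 := hx i
        nlinarith
    · have hdom : ∀ i, 0 < x i - (a - t) * u i := by
        intro i
        by_cases hui : 0 < u i
        · have h1 : a ≤ x i / u i := hmin i (by simp [hui])
          have h2 : a * u i ≤ x i := by
            rw [le_div_iff₀ hui] at h1
            exact h1
          nlinarith
        · have hui' : u i ≤ 0 := not_lt.mp hui
          have h1 := hx i
          nlinarith
      have hsplit : ∑ i, u i * Real.log (x i - (a - t) * u i)
          = ∑ i ∈ Finset.univ.erase istar, u i * Real.log (x i - (a - t) * u i)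
            + u istar * Real.log (x istar - (a - t) * u istar) :=
        (Finset.sum_erase_add Finset.univ (fun i => u i * Real.log (x i - (a - t) * u i))
          (Finset.mem_univ istar)).symm
      have hrest : ∑ i ∈ Finset.univ.erase istar, u i * Real.log (x i - (a - t) * u i) ≤ S := by
        apply Finset.sum_le_sum
        intro i _
        exact colTerm_le_zero u x hx i (a - t) (by linarith) (hdom i)
      have harg : x istar - (a - t) * u istar = u istar * t := by
        rw [← hau]
        ring
      have hstar : u istar * Real.log (x istar - (a - t) * u istar) ≤ γ - S := by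
        rw [harg]
        have h1 : u istar * t ≤ Real.exp ((γ - S) / u istar) := by
          have h2 : u istar * t ≤ u istar * E := mul_le_mul_of_nonneg_left htE hustar.le
          have h3 : u istar * E = Real.exp ((γ - S) / u istar) := by
            rw [hE]
            field_simp
          linarith
        have h4 : Real.log (u istar * t) ≤ (γ - S) / u istar := by
          have h5 := Real.log_le_log (mul_pos hustar ht0) h1
          rwa [Real.log_exp] at h5
        have h6 : u istar * Real.log (u istar * t) ≤ u istar * ((γ - S) / u istar) :=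
          mul_le_mul_of_nonneg_left h4 hustar.le
        have h7 : u istar * ((γ - S) / u istar) = γ - S := by
          field_simp
        linarith
      rw [hsplit]
      linarith
  · -- all coefficients are nonpositive
    have hnp : ∀ i, u i ≤ 0 := fun i => not_lt.mp (fun h => hpos ⟨i, h⟩)
    obtain ⟨i0, hi0⟩ := hu
    have hneg : u i0 < 0 := lt_of_le_of_ne (hnp i0) hi0
    set w : ℝ := -u i0 with hw
    have hw0 : 0 < w := by linarith
    set S : ℝ := ∑ i ∈ Finset.univ.erase i0, u i * Real.log (x i) with hS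
    set μ : ℝ := Real.exp ((S - γ) / w) / w with hμ
    have hμ0 : 0 < μ := div_pos (Real.exp_pos _) hw0
    have hdom : ∀ i, 0 < x i - μ * u i := by
      intro i
      have h1 := hx i
      have h2 := hnp i
      nlinarith
    refine ⟨μ, hμ0.le, hdom, ?_⟩
    have hsplit : ∑ i, u i * Real.log (x i - μ * u i)
        = ∑ i ∈ Finset.univ.erase i0, u i * Real.log (x i - μ * u i)
          + u i0 * Real.log (x i0 - μ * u i0) :=
      (Finset.sum_erase_add Finset.univ (fun i => u i * Real.log (x i - μ * u i))
        (Finset.mem_univ i0)).symm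
    have hrest : ∑ i ∈ Finset.univ.erase i0, u i * Real.log (x i - μ * u i) ≤ S := by
      apply Finset.sum_le_sum
      intro i _
      exact colTerm_le_zero u x hx i μ hμ0.le (hdom i)
    have hstar : u i0 * Real.log (x i0 - μ * u i0) ≤ γ - S := by
      have h1 : Real.exp ((S - γ) / w) ≤ x i0 - μ * u i0 := by
        have h2 : μ * w = Real.exp ((S - γ) / w) := by
          rw [hμ]
          field_simp
        have h3 := hx i0
        have h4 : x i0 - μ * u i0 = x i0 + μ * w := by
          rw [hw]
          ring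
        linarith
      have h5 : (S - γ) / w ≤ Real.log (x i0 - μ * u i0) := by
        have h6 := Real.log_le_log (Real.exp_pos _) h1
        rwa [Real.log_exp] at h6
      have h7 : w * ((S - γ) / w) ≤ w * Real.log (x i0 - μ * u i0) :=
        mul_le_mul_of_nonneg_left h5 hw0.le
      have h8 : w * ((S - γ) / w) = S - γ := by
        field_simp
      have h9 : u i0 * Real.log (x i0 - μ * u i0) = -(w * Real.log (x i0 - μ * u i0)) := by
        rw [hw]
        ring
      linarith
    rw [hsplit]
    linarith

/-- There is a nonpositive admissible multiplier at which the logarithmic coordinate is at least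
the level. -/
private lemma colHigh (u x : ι → ℝ) (hu : ∃ i, u i ≠ 0) (hx : ∀ i, 0 < x i) (γ : ℝ) :
    ∃ μ : ℝ, μ ≤ 0 ∧ (∀ i, 0 < x i - μ * u i) ∧
      γ ≤ ∑ i, u i * Real.log (x i - μ * u i) := by
  have hu' : ∃ i, (fun j => -u j) i ≠ 0 := by
    obtain ⟨i, hi⟩ := hu
    exact ⟨i, by simpa using hi⟩
  obtain ⟨μ', hμ'0, hdom, hle⟩ := colLow (fun j => -u j) x hu' hx (-γ)
  refine ⟨-μ', by linarith, ?_, ?_⟩
  · intro i
    have h := hdom i
    have h2 : x i - -μ' * u i = x i - μ' * -u i := by ring
    rw [h2]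
    exact h
  · have h1 : ∑ i, u i * Real.log (x i - -μ' * u i)
        = -∑ i, -u i * Real.log (x i - μ' * -u i) := by
      rw [← Finset.sum_neg_distrib]
      apply Finset.sum_congr rfl
      intro i _
      have h2 : x i - -μ' * u i = x i - μ' * -u i := by ring
      rw [h2]
      ring
    rw [h1]
    linarith

/-- For a nonzero direction `u`, a positive point `x` and a level `γ` there is exactly one `μ`
such that `x - μ u` is positive and has logarithmic coordinate `γ`. -/
theorem lineMu_exists_unique (u x : ι → ℝ) (hu : ∃ i, u i ≠ 0) (hx : ∀ i, 0 < x i) (γ : ℝ) :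
    ∃! μ : ℝ, (∀ i, 0 < x i - μ * u i) ∧ ∑ i, u i * Real.log (x i - μ * u i) = γ := by
  obtain ⟨μp, hμp0, hdomp, hlep⟩ := colLow u x hu hx γ
  obtain ⟨μm, hμm0, hdomm, hlem⟩ := colHigh u x hu hx γ
  have hmp : μm ≤ μp := by linarith
  have hdom : ∀ μ ∈ Icc μm μp, ∀ i, 0 < x i - μ * u i := by
    intro μ hμ i
    obtain ⟨h1, h2⟩ := hμ
    have hp := hdomp i
    have hm := hdomm i
    rcases le_or_gt 0 (u i) with hui | hui
    · nlinarith
    · nlinarith
  have hcont : ContinuousOn (fun μ : ℝ => ∑ i, u i * Real.log (x i - μ * u i)) (Icc μm μp) := by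
    apply continuousOn_finsetSum
    intro i _
    apply ContinuousOn.mul continuousOn_const
    apply ContinuousOn.log
    · exact (continuous_const.sub (continuous_id.mul continuous_const)).continuousOn
    · intro μ hμ
      exact (hdom μ hμ i).ne'
  have hmem : γ ∈ Icc (∑ i, u i * Real.log (x i - μp * u i))
      (∑ i, u i * Real.log (x i - μm * u i)) := ⟨hlep, hlem⟩
  obtain ⟨μ, hμ, hval⟩ := intermediate_value_Icc' hmp hcont hmem
  refine ⟨μ, ⟨hdom μ hμ, hval⟩, ?_⟩
  rintro ν ⟨hν1, hν2⟩
  by_contra hne
  rcases lt_or_gt_of_ne hne with hlt | hgt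
  · have h := colSum_strict u x hu ν μ hlt hν1 (hdom μ hμ)
    have h2 : ∑ i, u i * Real.log (x i - μ * u i) = γ := hval
    linarith
  · have h := colSum_strict u x hu μ ν hgt (hdom μ hμ) hν1
    have h2 : ∑ i, u i * Real.log (x i - μ * u i) = γ := hval
    linarith

private lemma lineMu_spec (u x : ι → ℝ) (hu : ∃ i, u i ≠ 0) (hx : ∀ i, 0 < x i) (γ : ℝ) :
    (∀ i, 0 < x i - lineMu u x γ * u i) ∧
      ∑ i, u i * Real.log (x i - lineMu u x γ * u i) = γ := by
  have hex : ∃ μ : ℝ, (∀ i, 0 < x i - μ * u i) ∧ ∑ i, u i * Real.log (x i - μ * u i) = γ :=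
    (lineMu_exists_unique u x hu hx γ).exists
  unfold lineMu
  rw [dif_pos hex]
  exact hex.choose_spec

lemma lineProj_pos (u x : ι → ℝ) (hu : ∃ i, u i ≠ 0) (hx : ∀ i, 0 < x i) (γ : ℝ) (i : ι) :
    0 < lineProj u x γ i :=
  (lineMu_spec u x hu hx γ).1 i

lemma logCoord_lineProj (u x : ι → ℝ) (hu : ∃ i, u i ≠ 0) (hx : ∀ i, 0 < x i) (γ : ℝ) :
    logCoord u (lineProj u x γ) = γ :=
  (lineMu_spec u x hu hx γ).2

lemma lineMu_unique (u x : ι → ℝ) (hu : ∃ i, u i ≠ 0) (hx : ∀ i, 0 < x i) (γ μ : ℝ)
    (h1 : ∀ i, 0 < x i - μ * u i) (h2 : ∑ i, u i * Real.log (x i - μ * u i) = γ) :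
    lineMu u x γ = μ :=
  (lineMu_exists_unique u x hu hx γ).unique (lineMu_spec u x hu hx γ) ⟨h1, h2⟩

lemma lineMu_self (u x : ι → ℝ) (hu : ∃ i, u i ≠ 0) (hx : ∀ i, 0 < x i) :
    lineMu u x (logCoord u x) = 0 := by
  apply lineMu_unique u x hu hx
  · intro i
    simpa using hx i
  · simp [logCoord]

lemma lineProj_self (u x : ι → ℝ) (hu : ∃ i, u i ≠ 0) (hx : ∀ i, 0 < x i) :
    lineProj u x (logCoord u x) = x := by
  funext i
  simp [lineProj, lineMu_self u x hu hx]

lemma lineF_self (u x : ι → ℝ) (hu : ∃ i, u i ≠ 0) (hx : ∀ i, 0 < x i) :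
    lineF u x (logCoord u x) = hEnt x := by
  unfold lineF
  rw [lineProj_self u x hu hx, lineMu_self u x hu hx]
  simp

end Vale.Agent.Lib.P072
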