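import Vale.Agent.Lib.P072.LineSign

/-!
# Weakly reversible systems with parallel reaction vectors
-/

namespace Vale.Agent.Lib.P072

open Set

set_option linter.unusedSectionVars false

variable {R ι : Type} [Fintype R] [Fintype ι]

/-- A weakly reversible system all of whose reaction vectors are multiples of one vector `v`
(and which has a reaction): `v` is nonzero, the vector field is a scalar function `g` times
`v`, and `g` is positive where the logarithmic coordinate along `v` is at most `-M` and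
negative where it is at least `M`. -/
theorem collinear_field (N : MAS R ι) (hwr : N.WeaklyReversible) (v : ι → ℝ)
    (hv : ∀ r, ∃ a : ℝ, N.vec r = a • v) [Nonempty R] :
    (∃ i, v i ≠ 0) ∧ ∃ (g : (ι → ℝ) → ℝ) (M : ℝ), 1 ≤ M ∧ (∀ x, N.field x = g x • v) ∧
      (∀ x : ι → ℝ, (∀ i, 0 < x i) → logCoord v x ≤ -M → 0 < g x) ∧
      (∀ x : ι → ℝ, (∀ i, 0 < x i) → M ≤ logCoord v x → g x < 0) := by
  classical
  choose lam hlam using hv
  obtain ⟨r⟩ := ‹Nonempty R›
  have hv0 : ∃ i, v i ≠ 0 := by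
    obtain ⟨i, hi⟩ := vec_ne_zero N r
    refine ⟨i, fun h0 => hi ?_⟩
    rw [hlam r, Pi.smul_apply, h0, smul_zero]
  refine ⟨hv0, ?_⟩
  have hlam' : ∀ q, N.vec q = lam q • (fun _ : ι → ℕ => v) (N.src q) := fun q => hlam q
  obtain ⟨M₁, hM₁⟩ :=
    lineSpeed_pos N hwr (fun _ => v) lam (fun _ => rfl) hlam' v ⟨r, rfl⟩
  obtain ⟨M₂, hM₂⟩ :=
    lineSpeed_neg N hwr (fun _ => v) lam (fun _ => rfl) hlam' v ⟨r, rfl⟩
  have h1 : M₁ ≤ max 1 (max M₁ M₂) := (le_max_left _ _).trans (le_max_right _ _)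
  have h2 : M₂ ≤ max 1 (max M₁ M₂) := (le_max_right _ _).trans (le_max_right _ _)
  refine ⟨lineSpeed N (fun _ => v) lam v, max 1 (max M₁ M₂), le_max_left _ _, ?_, ?_, ?_⟩
  · intro x
    funext i
    rw [field_apply, Pi.smul_apply, smul_eq_mul]
    unfold lineSpeed
    rw [Finset.sum_mul]
    refine Finset.sum_congr rfl (fun q _ => ?_)
    rw [if_pos rfl, hlam q, Pi.smul_apply, smul_eq_mul]
    ring
  · intro x hx hle
    exact hM₁ x hx (by linarith)
  · intro x hx hle
    exact hM₂ x hx (h2.trans hle)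

end Vale.Agent.Lib.P072
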