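import Vale.Agent.Lib.P072.ColExist

/-!
# The basic inequality for the value function of the projection
-/

namespace Vale.Agent.Lib.P072

open Set

set_option linter.unusedSectionVars false

variable {ι : Type} [Fintype ι]

/-- Convexity of `hEnt`: the tangent plane at `z'` lies below the graph. -/
lemma hEnt_ge (z z' : ι → ℝ) (hz : ∀ i, 0 < z i) (hz' : ∀ i, 0 < z' i) :
    hEnt z' + ∑ i, Real.log (z' i) * (z i - z' i) ≤ hEnt z := by
  unfold hEnt
  rw [← Finset.sum_add_distrib]
  refine Finset.sum_le_sum (fun i _ => ?_)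
  have ha := hz i
  have hb := hz' i
  have h1 : Real.log (z' i / z i) ≤ z' i / z i - 1 :=
    Real.log_le_sub_one_of_pos (div_pos hb ha)
  rw [Real.log_div hb.ne' ha.ne'] at h1
  have h2 : z i * (Real.log (z' i) - Real.log (z i)) ≤ z i * (z' i / z i - 1) :=
    mul_le_mul_of_nonneg_left h1 ha.le
  have e : z i * (z' i / z i - 1) = z' i - z i := by
    field_simp
  rw [e] at h2
  have e2 : z' i * Real.log (z' i) - z' i + Real.log (z' i) * (z i - z' i)
      = z i * Real.log (z' i) - z' i := by ring
  have e3 : z i * (Real.log (z' i) - Real.log (z i))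
      = z i * Real.log (z' i) - z i * Real.log (z i) := by ring
  rw [e2]
  rw [e3] at h2
  linarith

/-- The basic inequality: for every admissible `μ` at the point `x`, the value
`hEnt (x - μ u) + μ γ` is at least the affine function of `x` given by the value function and
the logarithm of the projection at `x'`. -/
theorem lineF_star (u x x' : ι → ℝ) (hu : ∃ i, u i ≠ 0) (hx' : ∀ i, 0 < x' i) (γ μ : ℝ)
    (hpos : ∀ i, 0 < x i - μ * u i) :
    lineF u x' γ + ∑ i, Real.log (lineProj u x' γ i) * (x i - x' i)
      ≤ hEnt (fun i => x i - μ * u i) + μ * γ := by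
  have hP := lineProj_pos u x' hu hx' γ
  have h := hEnt_ge (fun i => x i - μ * u i) (lineProj u x' γ) hpos hP
  have hlog : ∑ i, u i * Real.log (lineProj u x' γ i) = γ := by
    have := logCoord_lineProj u x' hu hx' γ
    unfold logCoord at this
    exact this
  have e : ∑ i, Real.log (lineProj u x' γ i) * ((x i - μ * u i) - lineProj u x' γ i)
      = ∑ i, Real.log (lineProj u x' γ i) * (x i - x' i)
        - (μ - lineMu u x' γ) * ∑ i, u i * Real.log (lineProj u x' γ i) := by
    rw [Finset.mul_sum, ← Finset.sum_sub_distrib]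
    refine Finset.sum_congr rfl (fun i _ => ?_)
    have hp : lineProj u x' γ i = x' i - lineMu u x' γ * u i := rfl
    generalize Real.log (lineProj u x' γ i) = L
    rw [hp]
    ring
  have h' : hEnt (lineProj u x' γ)
      + ∑ i, Real.log (lineProj u x' γ i) * ((x i - μ * u i) - lineProj u x' γ i)
      ≤ hEnt (fun i => x i - μ * u i) := h
  rw [e, hlog] at h'
  have e4 : (μ - lineMu u x' γ) * γ = μ * γ - lineMu u x' γ * γ := by ring
  rw [e4] at h'
  unfold lineF
  linarith

lemma lineF_le_hEnt (u x : ι → ℝ) (hu : ∃ i, u i ≠ 0) (hx : ∀ i, 0 < x i) (γ : ℝ) :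
    lineF u x γ ≤ hEnt x := by
  have h := lineF_star u x x hu hx γ 0 (by simpa using hx)
  simpa using h

lemma lineF_lower (u x x' : ι → ℝ) (hu : ∃ i, u i ≠ 0) (hx : ∀ i, 0 < x i)
    (hx' : ∀ i, 0 < x' i) (γ : ℝ) :
    lineF u x' γ + ∑ i, Real.log (lineProj u x' γ i) * (x i - x' i) ≤ lineF u x γ :=
  lineF_star u x x' hu hx' γ (lineMu u x γ) (fun i => lineProj_pos u x hu hx γ i)

/-- A formula for the value function. -/
theorem lineF_eq (u x : ι → ℝ) (hu : ∃ i, u i ≠ 0) (hx : ∀ i, 0 < x i) (γ : ℝ) :
    lineF u x γ = ∑ i, x i * Real.log (lineProj u x γ i) - ∑ i, x i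
      + lineMu u x γ * ∑ i, u i := by
  have hlog : ∑ i, u i * Real.log (lineProj u x γ i) = γ := by
    have := logCoord_lineProj u x hu hx γ
    unfold logCoord at this
    exact this
  have e : ∑ i, (lineProj u x γ i * Real.log (lineProj u x γ i) - lineProj u x γ i)
      = ∑ i, x i * Real.log (lineProj u x γ i)
        - lineMu u x γ * ∑ i, u i * Real.log (lineProj u x γ i)
        - ∑ i, x i + lineMu u x γ * ∑ i, u i := by
    rw [Finset.mul_sum, Finset.mul_sum, ← Finset.sum_sub_distrib, ← Finset.sum_sub_distrib,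
      ← Finset.sum_add_distrib]
    refine Finset.sum_congr rfl (fun i _ => ?_)
    have hp : lineProj u x γ i = x i - lineMu u x γ * u i := rfl
    generalize Real.log (lineProj u x γ i) = L
    rw [hp]
    ring
  unfold lineF hEnt
  rw [e, hlog]
  ring

end Vale.Agent.Lib.P072
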