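import Vale.Agent.Lib.P072.ColSmall

/-!
# Corner estimates: directions with mixed signs, with constants that do not depend on the
scalar function
-/

namespace Vale.Agent.Lib.P072

open Set

set_option linter.unusedSectionVars false

variable {ι : Type} [Fintype ι]

/-- A positive lower bound for the absolute values of the nonzero coordinates of `v`. -/
private lemma cornerU_exists_umin (v : ι → ℝ) :
    ∃ umin : ℝ, 0 < umin ∧ ∀ i, v i ≠ 0 → umin ≤ |v i| := by
  classical
  by_cases h : (Finset.univ.filter fun i => v i ≠ 0).Nonempty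
  · refine ⟨(Finset.univ.filter fun i => v i ≠ 0).inf' h (fun i => |v i|), ?_, ?_⟩
    · rw [Finset.lt_inf'_iff]
      intro i hi
      exact abs_pos.mpr (Finset.mem_filter.mp hi).2
    · intro i hi
      exact Finset.inf'_le _ (Finset.mem_filter.mpr ⟨Finset.mem_univ i, hi⟩)
  · refine ⟨1, one_pos, ?_⟩
    intro i hi
    exact absurd ⟨i, Finset.mem_filter.mpr ⟨Finset.mem_univ i, hi⟩⟩ h

/-- Directions with mixed signs on `W`, with constants that do not depend on the function
`g`: there are `M'` and `Cη` (depending on `v`, `M`, `η`, `B`) such that for every `g` that is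
positive where the logarithmic coordinate along `v` is at most `-M` and negative where it is
at least `M`, and every `W` on which `v` takes both signs, with `u = maskv W v`, at every
positive point with the coordinates outside `W` between `η` and `B`: the product of `g x` and
the pairing of `v` with the gradient `log x` on `W` plus `slabGrad u M' x` is nonpositive, the
correction term `slabCorr u M' x` is at most `Cη * ∑ i ∈ W, x i` in absolute value, and the
gradient `slabGrad u M' x` is bounded by `Cη`. -/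
theorem corner_mixedU (v : ι → ℝ) (M : ℝ) (hM : 0 < M) (η B : ℝ) (hη : 0 < η) :
    ∃ M' Cη : ℝ, 0 < M' ∧ 0 ≤ Cη ∧ ∀ g : (ι → ℝ) → ℝ,
      (∀ x : ι → ℝ, (∀ i, 0 < x i) → logCoord v x ≤ -M → 0 < g x) →
      (∀ x : ι → ℝ, (∀ i, 0 < x i) → M ≤ logCoord v x → g x < 0) →
      ∀ W : Finset ι, (∃ ip ∈ W, ∃ im ∈ W, 0 < v ip ∧ v im < 0) →
      ∀ x : ι → ℝ, (∀ i, 0 < x i) → (∀ i, x i ≤ B) → (∀ j, j ∉ W → η ≤ x j) →
        g x * (∑ i ∈ W, v i * Real.log (x i) + ∑ i, v i * slabGrad (maskv W v) M' x i) ≤ 0 ∧
        |slabCorr (maskv W v) M' x| ≤ Cη * ∑ i ∈ W, x i ∧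
        ∀ i, |slabGrad (maskv W v) M' x i| ≤ Cη := by
  classical
  obtain ⟨umin, humin, hmin⟩ := cornerU_exists_umin v
  have hS0 : 0 ≤ ∑ j, |v j| := Finset.sum_nonneg (fun j _ => abs_nonneg _)
  obtain ⟨T, hT⟩ : ∃ T : ℝ, T = (∑ j, |v j|) * (|Real.log η| + |Real.log B|) := ⟨_, rfl⟩
  have hT0 : 0 ≤ T := by
    rw [hT]
    exact mul_nonneg hS0 (add_nonneg (abs_nonneg _) (abs_nonneg _))
  have hM' : 0 ≤ M + T := by linarith
  have hC0 : 0 ≤ 2 * (∑ j, |v j|) / umin :=
    div_nonneg (mul_nonneg (by norm_num) hS0) humin.le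
  refine ⟨M + T, (M + T) / umin + 2 * (∑ j, |v j|) / umin, by linarith,
    add_nonneg (div_nonneg hM' humin.le) hC0, ?_⟩
  intro g hpos hneg W hW x hx hxB hxη
  obtain ⟨ip, hipW, im, himW, hvp, hvm⟩ := hW
  have hmask_in : ∀ i ∈ W, maskv W v i = v i := by
    intro i hi
    unfold maskv
    rw [if_pos hi]
  have hmask_out : ∀ i, i ∉ W → maskv W v i = 0 := by
    intro i hi
    unfold maskv
    rw [if_neg hi]
  have hu : ∃ i, maskv W v i ≠ 0 := ⟨ip, by rw [hmask_in ip hipW]; exact hvp.ne'⟩
  have hmin' : ∀ i, maskv W v i ≠ 0 → umin ≤ |maskv W v i| := by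
    intro i hi
    by_cases hiW : i ∈ W
    · rw [hmask_in i hiW] at hi ⊢
      exact hmin i hi
    · exact absurd (hmask_out i hiW) hi
  have hWsupp : ∀ i, maskv W v i ≠ 0 → i ∈ W := by
    intro i hi
    by_contra hiW
    exact hi (hmask_out i hiW)
  have hpair : ∑ i, v i * slabGrad (maskv W v) (M + T) x i
      = - clampR (M + T) (logCoord (maskv W v) x) := by
    rw [← slabGrad_pair (maskv W v) x hu hx (M + T)]
    apply Finset.sum_congr rfl
    intro i _
    by_cases hiW : i ∈ W
    · rw [hmask_in i hiW]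
    · rw [slabGrad_of_zero (maskv W v) (M + T) x i (hmask_out i hiW), mul_zero, mul_zero]
  have hlogW : ∑ i ∈ W, v i * Real.log (x i) = logCoord (maskv W v) x := by
    unfold logCoord
    rw [← Finset.sum_subset (Finset.subset_univ W)
      (fun i _ hi => by rw [hmask_out i hi, zero_mul])]
    exact Finset.sum_congr rfl (fun i hi => by rw [hmask_in i hi])
  have hdiff : |logCoord v x - logCoord (maskv W v) x| ≤ T := by
    unfold logCoord
    rw [← Finset.sum_sub_distrib, hT, Finset.sum_mul]
    refine (Finset.abs_sum_le_sum_abs _ _).trans (Finset.sum_le_sum fun i _ => ?_)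
    by_cases hiW : i ∈ W
    · rw [hmask_in i hiW, sub_self, abs_zero]
      exact mul_nonneg (abs_nonneg _) (add_nonneg (abs_nonneg _) (abs_nonneg _))
    · rw [hmask_out i hiW, zero_mul, sub_zero, abs_mul]
      refine mul_le_mul_of_nonneg_left ?_ (abs_nonneg _)
      have h1 : Real.log η ≤ Real.log (x i) := Real.log_le_log hη (hxη i hiW)
      have h2 : Real.log (x i) ≤ Real.log B := Real.log_le_log (hx i) (hxB i)
      rw [abs_le]
      constructor
      · linarith [neg_abs_le (Real.log η), abs_nonneg (Real.log B)]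
      · linarith [le_abs_self (Real.log B), abs_nonneg (Real.log η)]
  refine ⟨?_, ?_, ?_⟩
  · rw [hpair, hlogW]
    obtain ⟨L, hL⟩ : ∃ L : ℝ, L = logCoord (maskv W v) x := ⟨_, rfl⟩
    rw [← hL] at hdiff ⊢
    have hd := abs_le.mp hdiff
    unfold clampR
    rcases le_or_gt L (-(M + T)) with h1 | h1
    · have hg := hpos x hx (by linarith [hd.2])
      have hc : max (-(M + T)) (min (M + T) L) = -(M + T) :=
        max_eq_left ((min_le_right _ _).trans h1)
      rw [hc]
      nlinarith [mul_nonneg hg.le (by linarith : (0 : ℝ) ≤ -(L + (M + T)))]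
    · rcases le_or_gt (M + T) L with h2 | h2
      · have hg := hneg x hx (by linarith [hd.1])
        have hc : max (-(M + T)) (min (M + T) L) = M + T := by
          rw [min_eq_left h2, max_eq_right (by linarith)]
        rw [hc]
        nlinarith [mul_nonneg (by linarith : (0 : ℝ) ≤ -(g x))
          (by linarith : (0 : ℝ) ≤ L - (M + T))]
      · have hc : max (-(M + T)) (min (M + T) L) = L := by
          rw [min_eq_right h2.le, max_eq_right h1.le]
        rw [hc, add_neg_cancel, mul_zero]
  · have hm1 : x ip ≤ ∑ i ∈ W, x i := Finset.single_le_sum (fun i _ => (hx i).le) hipW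
    have hm2 : x im ≤ ∑ i ∈ W, x i := Finset.single_le_sum (fun i _ => (hx i).le) himW
    have h := slabCorr_abs_le_small (maskv W v) x hu hx (M + T) hM' ip im
      (by rw [hmask_in ip hipW]; exact hvp) (by rw [hmask_in im himW]; exact hvm)
      (∑ i ∈ W, x i) hm1 hm2 umin humin hmin' W hWsupp
    have hsum_u : ∑ i, |maskv W v i| ≤ ∑ j, |v j| := by
      apply Finset.sum_le_sum
      intro i _
      by_cases hiW : i ∈ W
      · rw [hmask_in i hiW]
      · rw [hmask_out i hiW, abs_zero]
        exact abs_nonneg _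
    have hX0 : 0 ≤ ∑ i ∈ W, x i := Finset.sum_nonneg (fun i _ => (hx i).le)
    have hfac : 0 ≤ 2 * ((∑ i ∈ W, x i) / umin) :=
      mul_nonneg (by norm_num) (div_nonneg hX0 humin.le)
    calc |slabCorr (maskv W v) (M + T) x|
        ≤ (M + T) / umin * ∑ i ∈ W, x i
          + 2 * ((∑ i ∈ W, x i) / umin) * ∑ i, |maskv W v i| := h
      _ ≤ (M + T) / umin * ∑ i ∈ W, x i + 2 * ((∑ i ∈ W, x i) / umin) * ∑ j, |v j| := by
          linarith [mul_le_mul_of_nonneg_left hsum_u hfac]
      _ = ((M + T) / umin + 2 * (∑ j, |v j|) / umin) * ∑ i ∈ W, x i := by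
          field_simp
  · intro i
    have h := slabGrad_abs_le (maskv W v) x hu hx (M + T) hM' umin humin hmin' i
    linarith

end Vale.Agent.Lib.P072
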