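import Vale.Agent.Lib.P072.TVField
import Vale.Agent.Lib.P072.TVBarrier

/-!
# Curves in integral form for mass-action systems with time-dependent rates
-/

namespace Vale.Agent.Lib.P072

open Set MeasureTheory

set_option linter.unusedSectionVars false

variable {R ι : Type} [Fintype R] [Fintype ι]

lemma integrableOn_fieldAt (N : MAS R ι) {ε : ℝ} {κ : R → ℝ → ℝ}
    (hκ : ∀ r, Measurable (κ r) ∧ ∀ t, ε ≤ κ r t ∧ κ r t ≤ ε⁻¹) {z : ℝ → ι → ℝ} {a b : ℝ}
    (hz : ContinuousOn z (Icc a b)) :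
    IntegrableOn (fun s => N.fieldAt κ s (z s)) (Icc a b) := by
  unfold MAS.fieldAt
  apply integrable_finsetSum
  intro r _
  apply Integrable.smul_const
  have hφ : IntegrableOn (fun s => mono (N.src r) (z s)) (Icc a b) :=
    ((continuous_mono (N.src r)).comp_continuousOn hz).integrableOn_Icc
  exact hφ.bdd_mul (c := max |ε| |ε⁻¹|) (hκ r).1.aestronglyMeasurable
    (Filter.Eventually.of_forall (fun s => by
      rw [Real.norm_eq_abs]
      exact abs_le_max_abs_abs ((hκ r).2 s).1 ((hκ r).2 s).2))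

lemma intervalIntegrable_fieldAt (N : MAS R ι) {ε : ℝ} {κ : R → ℝ → ℝ}
    (hκ : ∀ r, Measurable (κ r) ∧ ∀ t, ε ≤ κ r t ∧ κ r t ≤ ε⁻¹) {z : ℝ → ι → ℝ}
    (hz : ContinuousOn z (Ici 0)) {s t : ℝ} (hs : 0 ≤ s) (ht : 0 ≤ t) :
    IntervalIntegrable (fun τ => N.fieldAt κ τ (z τ)) volume s t := by
  rw [intervalIntegrable_iff]
  have hsub : Icc (min s t) (max s t) ⊆ Ici (0:ℝ) := fun τ hτ => le_trans (le_min hs ht) hτ.1
  exact (integrableOn_fieldAt N hκ (hz.mono hsub)).mono_set uIoc_subset_uIcc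

/-- `x` has the integral form with the state curve `z`:
`x t = x 0 + ∫ s in 0..t, fieldAt κ s (z s)` for `t ≥ 0`. -/
def IntForm (N : MAS R ι) (κ : R → ℝ → ℝ) (x z : ℝ → ι → ℝ) : Prop :=
  ∀ t, 0 ≤ t → x t = x 0 + ∫ s in (0:ℝ)..t, N.fieldAt κ s (z s)

lemma intForm_sub (N : MAS R ι) {ε : ℝ} {κ : R → ℝ → ℝ}
    (hκ : ∀ r, Measurable (κ r) ∧ ∀ t, ε ≤ κ r t ∧ κ r t ≤ ε⁻¹) {x z : ℝ → ι → ℝ}
    (hz : ContinuousOn z (Ici 0)) (hsol : IntForm N κ x z) {s t : ℝ} (hs : 0 ≤ s)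
    (hst : s ≤ t) : x t - x s = ∫ τ in s..t, N.fieldAt κ τ (z τ) := by
  have h1 := hsol t (le_trans hs hst)
  have h2 := hsol s hs
  have h3 := intervalIntegral.integral_add_adjacent_intervals
    (intervalIntegrable_fieldAt N hκ hz le_rfl hs)
    (intervalIntegrable_fieldAt N hκ hz hs (le_trans hs hst))
  rw [h1, h2, ← h3]
  abel

lemma intForm_sub_apply (N : MAS R ι) {ε : ℝ} {κ : R → ℝ → ℝ}
    (hκ : ∀ r, Measurable (κ r) ∧ ∀ t, ε ≤ κ r t ∧ κ r t ≤ ε⁻¹) {x z : ℝ → ι → ℝ}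
    (hz : ContinuousOn z (Ici 0)) (hsol : IntForm N κ x z) (i : ι) {s t : ℝ} (hs : 0 ≤ s)
    (hst : s ≤ t) : x t i - x s i = ∫ τ in s..t, N.fieldAt κ τ (z τ) i := by
  have h := intForm_sub N hκ hz hsol hs hst
  have h4 := (ContinuousLinearMap.proj (R := ℝ) (φ := fun _ : ι => ℝ) i).intervalIntegral_comp_comm
    (intervalIntegrable_fieldAt N hκ hz hs (le_trans hs hst))
  have h5 := congrFun h i
  simp only [Pi.sub_apply] at h5
  rw [h5]
  exact h4.symm

lemma intForm_mem_stoich (N : MAS R ι) {ε : ℝ} {κ : R → ℝ → ℝ}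
    (hκ : ∀ r, Measurable (κ r) ∧ ∀ t, ε ≤ κ r t ∧ κ r t ≤ ε⁻¹) {x z : ℝ → ι → ℝ}
    (hz : ContinuousOn z (Ici 0)) (hsol : IntForm N κ x z) {t : ℝ} (ht : 0 ≤ t) :
    x t - x 0 ∈ N.stoich := by
  rw [← Subspace.dualAnnihilator_dualCoannihilator_eq (W := N.stoich),
    Submodule.mem_dualCoannihilator]
  intro φ hφ
  rw [Submodule.mem_dualAnnihilator] at hφ
  rw [intForm_sub N hκ hz hsol le_rfl ht]
  have h4 := (LinearMap.toContinuousLinearMap φ).intervalIntegral_comp_comm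
    (intervalIntegrable_fieldAt N hκ hz le_rfl ht)
  have h5 : ∀ τ, (LinearMap.toContinuousLinearMap φ) (N.fieldAt κ τ (z τ)) = 0 :=
    fun τ => hφ _ (fieldK_mem_stoich N _ _)
  simp only [h5, intervalIntegral.integral_zero] at h4
  exact h4.symm

/-- Boxes that are large enough are forward invariant for curves in integral form whose state
curve agrees with the curve while the curve is in a larger positive box. -/
lemma tv_box_invariant (N : MAS R ι) {ε : ℝ} {c lo hi : ι → ℝ} (hT : TVThresholds N ε c lo hi)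
    {κ : R → ℝ → ℝ} (hκ : ∀ r, Measurable (κ r) ∧ ∀ t, ε ≤ κ r t ∧ κ r t ≤ ε⁻¹)
    {x z : ℝ → ι → ℝ} (hxc : ContinuousOn x (Ici 0)) (hzc : ContinuousOn z (Ici 0))
    (hsol : IntForm N κ x z) (h0 : x 0 - c ∈ N.stoich)
    {m M m' M' : ι → ℝ} (hm'0 : ∀ i, 0 < m' i) (hm' : ∀ i, m' i < m i)
    (hmlo : ∀ i, m i ≤ lo i) (hhiM : ∀ i, hi i ≤ M i) (hM' : ∀ i, M i < M' i)
    (hzx : ∀ s, 0 ≤ s → x s ∈ Icc m' M' → z s = x s)
    {a : ℝ} (ha : 0 ≤ a) (hxa : x a ∈ Icc m M) : ∀ t, a ≤ t → x t ∈ Icc m M := by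
  intro t hat
  refine box_barrier (g := fun s => N.fieldAt κ s (z s)) (a := a) (b := t)
    (hxc.mono (fun s hs => le_trans ha hs.1))
    (fun i s t' hs hst _ => intForm_sub_apply N hκ hzc hsol i (le_trans ha hs) hst)
    hm' hM' ?_ hxa t ⟨hat, le_rfl⟩
  intro s hs hbig i
  have hs0 : 0 ≤ s := le_trans ha hs.1
  have hzs : z s = x s := hzx s hs0 hbig
  have hpos : ∀ j, 0 < x s j := fun j => lt_of_lt_of_le (hm'0 j) (hbig.1 j)
  have hcl : x s - c ∈ N.stoich := by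
    have h1 := intForm_mem_stoich N hκ hzc hsol hs0
    have h2 : x s - c = (x s - x 0) + (x 0 - c) := by abel
    rw [h2]
    exact Submodule.add_mem _ h1 h0
  have hk : ∀ r, ε ≤ κ r s ∧ κ r s ≤ ε⁻¹ := fun r => (hκ r).2 s
  rw [hzs, fieldAt_eq_fieldK]
  rcases hT.sign i with hin | hact
  · rw [fieldK_eq_zero_of_inert N i hin]
    exact ⟨fun _ => le_rfl, fun _ => le_rfl⟩
  · obtain ⟨h1, h2⟩ := hact (x s) hpos hcl
    constructor
    · intro hlt
      have h3 := h1 (le_trans hlt.le (hmlo i))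
      have h4 := fieldK_loRate_le N i hk (x s) (fun j => (hpos j).le)
      linarith
    · intro hlt
      have h3 := h2 (le_trans (hhiM i) hlt.le)
      have h4 := fieldK_le_hiRate N i hk (x s) (fun j => (hpos j).le)
      linarith

end Vale.Agent.Lib.P072
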