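import Vale.Agent.Lib.P072.FlatDefs
import Vale.Agent.Lib.P072.TVInt

/-!
# The union of two systems with a vector of rates
-/

namespace Vale.Agent.Lib.P072

set_option linter.unusedSectionVars false

variable {R₁ R₂ ι : Type} [Fintype R₁] [Fintype R₂] [Fintype ι]

/-- The field of the union with the rate vector `k` is the sum of the fields of the two
systems with the restrictions of `k`. -/
lemma union_fieldK (N₁ : MAS R₁ ι) (N₂ : MAS R₂ ι) (k : R₁ ⊕ R₂ → ℝ) (x : ι → ℝ) :
    (N₁.union N₂).fieldK k x =
      N₁.fieldK (fun r => k (Sum.inl r)) x + N₂.fieldK (fun r => k (Sum.inr r)) x := by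
  unfold MAS.fieldK
  rw [Fintype.sum_sum_type]
  rfl

end Vale.Agent.Lib.P072
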