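import Vale.Agent.Lib.P072.ColKCornerA
import Vale.Agent.Lib.P072.ColKCornerB
import Vale.Agent.Lib.P072.ColCorner
import Vale.Agent.Lib.P072.FlatKDefs

/-!
# Corner estimate, uniformly in the rates, for a strongly connected system joined with a
system with parallel reaction vectors
-/

namespace Vale.Agent.Lib.P072

open Set

set_option linter.unusedSectionVars false

variable {R₁ R₂ ι : Type} [Fintype R₁] [Fintype R₂] [Fintype ι]

open Classical in
/-- The gradient of the face function of `W`. -/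
private noncomputable def facGradK (W : Finset ι) (y : ι → ℝ) : ι → ℝ :=
  fun i => if i ∈ W then Real.log (y i) else 0

private lemma facGradK_of_mem (W : Finset ι) (y : ι → ℝ) {i : ι} (hi : i ∈ W) :
    facGradK W y i = Real.log (y i) := by
  unfold facGradK
  rw [if_pos hi]

private lemma facGradK_of_notMem (W : Finset ι) (y : ι → ℝ) {i : ι} (hi : i ∉ W) :
    facGradK W y i = 0 := by
  unfold facGradK
  rw [if_neg hi]

private lemma facGradK_sum (W : Finset ι) (x w : ι → ℝ) :
    ∑ i, facGradK W x i * w i = ∑ i ∈ W, w i * Real.log (x i) := by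
  have h := Finset.sum_subset (Finset.subset_univ W) (f := fun i => facGradK W x i * w i)
    (fun i _ hi => by rw [facGradK_of_notMem W x hi, zero_mul])
  rw [← h]
  exact Finset.sum_congr rfl fun i hi => by rw [facGradK_of_mem W x hi, mul_comm]

/-- Chain rule for the face function of `W` along a positive curve. -/
private lemma colFaceK_hasGradOn (W : Finset ι) :
    HasGradOn (fun y : ι → ℝ => ∑ i ∈ W, y i * (Real.log (y i) - Real.log 1 - 1))
      (facGradK W) := by
  intro γ γ' s t hγ hpos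
  have h : HasDerivWithinAt (fun τ => ∑ i ∈ W, γ τ i * (Real.log (γ τ i) - Real.log 1 - 1))
      (∑ i ∈ W, γ' i * Real.log (γ t i)) s t := by
    apply HasDerivWithinAt.fun_sum
    intro i _
    have hi : HasDerivWithinAt (fun τ => γ τ i) (γ' i) s t := hasDerivWithinAt_pi.mp hγ i
    have hlog : HasDerivWithinAt (fun τ => Real.log (γ τ i)) (γ' i / γ t i) s t :=
      hi.log (hpos i).ne'
    have hprod := hi.mul ((hlog.sub_const (Real.log 1)).sub_const 1)
    have hne : γ t i ≠ 0 := (hpos i).ne'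
    have h2 : γ t i * (γ' i / γ t i) = γ' i := by
      field_simp
    have e : γ' i * (Real.log (γ t i) - Real.log 1 - 1) + γ t i * (γ' i / γ t i)
        = γ' i * Real.log (γ t i) := by
      rw [h2, Real.log_one]
      ring
    rw [e] at hprod
    exact hprod
  rw [facGradK_sum W (γ t) γ']
  exact h

private lemma hasGradOn_addK {V₁ V₂ : (ι → ℝ) → ℝ} {g₁ g₂ : (ι → ℝ) → ι → ℝ}
    (h₁ : HasGradOn V₁ g₁) (h₂ : HasGradOn V₂ g₂) :
    HasGradOn (fun y => V₁ y + V₂ y) (fun y i => g₁ y i + g₂ y i) := by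
  intro γ γ' s t hγ hpos
  have h := (h₁ γ γ' s t hγ hpos).add (h₂ γ γ' s t hγ hpos)
  have e : ∑ i, (g₁ (γ t) i + g₂ (γ t) i) * γ' i
      = ∑ i, g₁ (γ t) i * γ' i + ∑ i, g₂ (γ t) i * γ' i := by
    rw [← Finset.sum_add_distrib]
    exact Finset.sum_congr rfl fun i _ => add_mul _ _ _
  show HasDerivWithinAt (fun τ => V₁ (γ τ) + V₂ (γ τ))
    (∑ i, (g₁ (γ t) i + g₂ (γ t) i) * γ' i) s t
  rw [e]
  exact h

private lemma abs_log_le_of_betweenK {η B t : ℝ} (hη : 0 < η) (h1 : η ≤ t) (h2 : t ≤ B) :
    |Real.log t| ≤ |Real.log η| + |Real.log B| := by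
  have ht : 0 < t := lt_of_lt_of_le hη h1
  have l1 : Real.log η ≤ Real.log t := Real.log_le_log hη h1
  have l2 : Real.log t ≤ Real.log B := Real.log_le_log ht h2
  rw [abs_le]
  constructor
  · linarith [neg_abs_le (Real.log η), abs_nonneg (Real.log B)]
  · linarith [le_abs_self (Real.log B), abs_nonneg (Real.log η)]

/-- The gradient of the face function is bounded on boxes inside the positive orthant. -/
private lemma facGradK_abs_le (W : Finset ι) {δ' B' : ℝ} (hδ' : 0 < δ') (y : ι → ℝ)
    (hy : ∀ i, δ' ≤ y i ∧ y i ≤ B') (i : ι) :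
    |facGradK W y i| ≤ |Real.log δ'| + |Real.log B'| := by
  by_cases hi : i ∈ W
  · rw [facGradK_of_mem W y hi]
    exact abs_log_le_of_betweenK hδ' (hy i).1 (hy i).2
  · rw [facGradK_of_notMem W y hi, abs_zero]
    exact add_nonneg (abs_nonneg _) (abs_nonneg _)

/-- A positive lower bound for the absolute values of the nonzero coordinates. -/
private lemma exists_umin (u : ι → ℝ) (hu : ∃ i, u i ≠ 0) :
    ∃ umin : ℝ, 0 < umin ∧ ∀ i, u i ≠ 0 → umin ≤ |u i| := by
  classical
  obtain ⟨i₀, hi₀⟩ := hu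
  obtain ⟨j, hj, hmin⟩ := Finset.exists_min_image (Finset.univ.filter fun i => u i ≠ 0)
    (fun i => |u i|) ⟨i₀, Finset.mem_filter.mpr ⟨Finset.mem_univ i₀, hi₀⟩⟩
  refine ⟨|u j|, abs_pos.mpr (Finset.mem_filter.mp hj).2, fun i hi => ?_⟩
  exact hmin i (Finset.mem_filter.mpr ⟨Finset.mem_univ i, hi⟩)

/-- The derivative along the field of the union with a rate vector, split into the part of the
first system and the part of the second system. -/
private lemma col_cornerK_ineq (N₁ : MAS R₁ ι) (N₂ : MAS R₂ ι) (v : ι → ℝ)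
    (k : R₁ ⊕ R₂ → ℝ) (gx : ℝ) (x : ι → ℝ)
    (hf : N₂.fieldK (fun r => k (Sum.inr r)) x = gx • v) (q b : ι → ℝ)
    (hb : ∀ i, b i = q i - Real.log (x i))
    (h1 : ∑ i, Real.log (x i) * N₁.fieldK (fun r => k (Sum.inl r)) x i
      + ∑ i, b i * N₁.fieldK (fun r => k (Sum.inl r)) x i ≤ 0)
    (h2 : gx * ∑ i, q i * v i ≤ 0) :
    ∑ i, q i * (N₁.union N₂).fieldK k x i ≤ 0 := by
  rw [union_fieldK, hf]
  have e : ∑ i, q i * (N₁.fieldK (fun r => k (Sum.inl r)) x + gx • v) i
      = (∑ i, Real.log (x i) * N₁.fieldK (fun r => k (Sum.inl r)) x i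
        + ∑ i, b i * N₁.fieldK (fun r => k (Sum.inl r)) x i) + gx * ∑ i, q i * v i := by
    rw [Finset.mul_sum, ← Finset.sum_add_distrib, ← Finset.sum_add_distrib]
    refine Finset.sum_congr rfl fun i _ => ?_
    rw [hb i]
    simp only [Pi.add_apply, Pi.smul_apply, smul_eq_mul]
    ring
  rw [e]
  linarith

/-- Corner estimate, uniformly in the rates: for every `η > 0` and `B` there are `ε' > 0` and
`Cη` such that for every nonempty set `W` of coordinates there is a function `Ψ` with a
gradient field `p`, bounded on boxes inside the positive orthant, whose derivative along the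
vector field of the union with any rate vector with values in `[ε, ε⁻¹]` is nonpositive at
every point of the class with all coordinates at most `B`, the coordinates outside `W` at
least `η` and the coordinates in `W` at most `ε'`, and which differs there from the face
function of `W` by at most `Cη * ∑ i ∈ W, x i`. -/
theorem col_cornerK (N₁ : MAS R₁ ι) (N₂ : MAS R₂ ι)
    (h₁ : N₁.StronglyConnected) (hspan : N₂.stoich ≤ N₁.stoich)
    (v : ι → ℝ) (M : ℝ) (hM : 0 < M) {ε : ℝ} (hε : 0 < ε)
    (hf : ∀ k : R₂ → ℝ, (∀ r, ε ≤ k r ∧ k r ≤ ε⁻¹) → ∃ g : (ι → ℝ) → ℝ,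
      (∀ x, N₂.fieldK k x = g x • v) ∧
      (∀ x : ι → ℝ, (∀ i, 0 < x i) → logCoord v x ≤ -M → 0 < g x) ∧
      (∀ x : ι → ℝ, (∀ i, 0 < x i) → M ≤ logCoord v x → g x < 0))
    (c : ι → ℝ) (hc : ∀ i, 0 < c i) (η B : ℝ) (hη : 0 < η) :
    ∃ ε' Cη : ℝ, 0 < ε' ∧ ε' ≤ 1 ∧ 0 ≤ Cη ∧ ∀ W : Finset ι, W.Nonempty →
      ∃ (Ψ : (ι → ℝ) → ℝ) (p : (ι → ℝ) → ι → ℝ), HasGradOn Ψ p ∧
        (∀ δ' B' : ℝ, 0 < δ' → ∃ L : ℝ, ∀ y : ι → ℝ, (∀ i, δ' ≤ y i ∧ y i ≤ B') →
          ∀ i, |p y i| ≤ L) ∧
        ∀ x ∈ (N₁.union N₂).posClass c, (∀ i, x i ≤ B) → (∀ j, j ∉ W → η ≤ x j) →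
          (∀ i ∈ W, x i ≤ ε') →
          ((∀ k : R₁ ⊕ R₂ → ℝ, (∀ r, ε ≤ k r ∧ k r ≤ ε⁻¹) →
              ∑ i, p x i * (N₁.union N₂).fieldK k x i ≤ 0) ∧
           |Ψ x - ∑ i ∈ W, x i * (Real.log (x i) - Real.log 1 - 1)| ≤ Cη * ∑ i ∈ W, x i) := by
  obtain ⟨M', Cη, hM', hCη, hmix⟩ := corner_mixedU v M hM η B hη
  obtain ⟨ε₁, hε₁, hcore⟩ := corner_coreK N₁ h₁ c hc hε (|Real.log η| + |Real.log B| + Cη)
  obtain ⟨ε₂, hε₂, hε₂1, hun⟩ := corner_unmixedU v M η B hη
  refine ⟨min ε₁ ε₂, Cη, lt_min hε₁ hε₂, (min_le_right _ _).trans hε₂1, hCη, ?_⟩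
  intro W hW
  obtain ⟨i₀, hi₀⟩ := hW
  by_cases hmx : ∃ ip ∈ W, ∃ im ∈ W, 0 < v ip ∧ v im < 0
  · have hu : ∃ i, maskv W v i ≠ 0 := by
      obtain ⟨ip, hip, _, _, hvp, _⟩ := hmx
      refine ⟨ip, ?_⟩
      unfold maskv
      rw [if_pos hip]
      exact hvp.ne'
    refine ⟨fun y => (∑ i ∈ W, y i * (Real.log (y i) - Real.log 1 - 1))
        + slabCorr (maskv W v) M' y,
      fun y i => facGradK W y i + slabGrad (maskv W v) M' y i,
      hasGradOn_addK (colFaceK_hasGradOn W) (slabCorr_hasGradOn _ hu M' hM'), ?_, ?_⟩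
    · intro δ' B' hδ'
      obtain ⟨umin, humin, hmin⟩ := exists_umin (maskv W v) hu
      refine ⟨|Real.log δ'| + |Real.log B'| + M' / umin, ?_⟩
      intro y hy i
      have hypos : ∀ i, 0 < y i := fun i => lt_of_lt_of_le hδ' (hy i).1
      have h1 := facGradK_abs_le W hδ' y hy i
      have h2 := slabGrad_abs_le (maskv W v) y hu hypos M' hM'.le umin humin hmin i
      have h3 := abs_add_le (facGradK W y i) (slabGrad (maskv W v) M' y i)
      show |facGradK W y i + slabGrad (maskv W v) M' y i|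
        ≤ |Real.log δ'| + |Real.log B'| + M' / umin
      linarith
    · intro x hx hxB hxη hxε
      have hxpos : ∀ i, 0 < x i := hx.1
      have hxc : x - c ∈ N₁.stoich := by
        have h := hx.2
        rwa [union_stoich_of_le N₁ N₂ hspan] at h
      obtain ⟨-, hm2, hm3⟩ := hmix (fun y => -logCoord v y)
        (fun y _ h => by linarith) (fun y _ h => by linarith) W hmx x hxpos hxB hxη
      constructor
      · intro k hk
        obtain ⟨g, hg, hgpos, hgneg⟩ := hf (fun r => k (Sum.inr r)) (fun r => hk (Sum.inr r))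
        obtain ⟨hm1, -, -⟩ := hmix g hgpos hgneg W hmx x hxpos hxB hxη
        refine col_cornerK_ineq N₁ N₂ v k (g x) x (hg x)
          (fun i => facGradK W x i + slabGrad (maskv W v) M' x i)
          (fun i => facGradK W x i + slabGrad (maskv W v) M' x i - Real.log (x i))
          (fun _ => rfl) ?_ ?_
        · refine hcore x hxpos hxc ⟨i₀, (hxε i₀ hi₀).trans (min_le_left _ _)⟩
            (fun r => k (Sum.inl r)) (fun r => hk (Sum.inl r)) _ (fun i => ?_)
          show |facGradK W x i + slabGrad (maskv W v) M' x i - Real.log (x i)|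
            ≤ |Real.log η| + |Real.log B| + Cη
          by_cases hi : i ∈ W
          · rw [facGradK_of_mem W x hi]
            have e : Real.log (x i) + slabGrad (maskv W v) M' x i - Real.log (x i)
                = slabGrad (maskv W v) M' x i := by ring
            rw [e]
            linarith [hm3 i, abs_nonneg (Real.log η), abs_nonneg (Real.log B)]
          · rw [facGradK_of_notMem W x hi]
            have h1 := abs_log_le_of_betweenK hη (hxη i hi) (hxB i)
            have e : 0 + slabGrad (maskv W v) M' x i - Real.log (x i)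
                = slabGrad (maskv W v) M' x i - Real.log (x i) := by ring
            rw [e]
            have h2 := abs_sub (slabGrad (maskv W v) M' x i) (Real.log (x i))
            linarith [hm3 i]
        · have e : ∑ i, (facGradK W x i + slabGrad (maskv W v) M' x i) * v i
              = ∑ i ∈ W, v i * Real.log (x i) + ∑ i, v i * slabGrad (maskv W v) M' x i := by
            rw [← facGradK_sum W x v, ← Finset.sum_add_distrib]
            exact Finset.sum_congr rfl fun i _ => by ring
          rw [e]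
          exact hm1
      · have e : (∑ i ∈ W, x i * (Real.log (x i) - Real.log 1 - 1))
              + slabCorr (maskv W v) M' x - ∑ i ∈ W, x i * (Real.log (x i) - Real.log 1 - 1)
            = slabCorr (maskv W v) M' x := by ring
        show |(∑ i ∈ W, x i * (Real.log (x i) - Real.log 1 - 1))
              + slabCorr (maskv W v) M' x - ∑ i ∈ W, x i * (Real.log (x i) - Real.log 1 - 1)|
            ≤ Cη * ∑ i ∈ W, x i
        rw [e]
        exact hm2
  · refine ⟨fun y => ∑ i ∈ W, y i * (Real.log (y i) - Real.log 1 - 1), facGradK W,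
      colFaceK_hasGradOn W, ?_, ?_⟩
    · intro δ' B' hδ'
      exact ⟨|Real.log δ'| + |Real.log B'|, fun y hy i => facGradK_abs_le W hδ' y hy i⟩
    · intro x hx hxB hxη hxε
      have hxpos : ∀ i, 0 < x i := hx.1
      have hxc : x - c ∈ N₁.stoich := by
        have h := hx.2
        rwa [union_stoich_of_le N₁ N₂ hspan] at h
      constructor
      · intro k hk
        obtain ⟨g, hg, hgpos, hgneg⟩ := hf (fun r => k (Sum.inr r)) (fun r => hk (Sum.inr r))
        refine col_cornerK_ineq N₁ N₂ v k (g x) x (hg x) (fun i => facGradK W x i)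
          (fun i => facGradK W x i - Real.log (x i)) (fun _ => rfl) ?_ ?_
        · refine hcore x hxpos hxc ⟨i₀, (hxε i₀ hi₀).trans (min_le_left _ _)⟩
            (fun r => k (Sum.inl r)) (fun r => hk (Sum.inl r)) _ (fun i => ?_)
          show |facGradK W x i - Real.log (x i)| ≤ |Real.log η| + |Real.log B| + Cη
          by_cases hi : i ∈ W
          · rw [facGradK_of_mem W x hi, sub_self, abs_zero]
            linarith [abs_nonneg (Real.log η), abs_nonneg (Real.log B)]
          · rw [facGradK_of_notMem W x hi, zero_sub, abs_neg]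
            linarith [abs_log_le_of_betweenK hη (hxη i hi) (hxB i)]
        · rw [facGradK_sum W x v]
          exact hun g hgpos hgneg W hmx x hxpos hxB hxη
            (fun i hi => (hxε i hi).trans (min_le_right _ _))
      · show |(∑ i ∈ W, x i * (Real.log (x i) - Real.log 1 - 1))
              - ∑ i ∈ W, x i * (Real.log (x i) - Real.log 1 - 1)| ≤ Cη * ∑ i ∈ W, x i
        rw [sub_self, abs_zero]
        exact mul_nonneg hCη (Finset.sum_nonneg fun i _ => (hxpos i).le)

end Vale.Agent.Lib.P072
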