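import Vale.Agent.Lib.P072.FlatKDefs
import Vale.Agent.Lib.P072.FlatShift

/-!
# The tier estimate with a bounded shift, uniform in the rate vector
-/

namespace Vale.Agent.Lib.P072

open Set

set_option linter.unusedSectionVars false

variable {R ι : Type} [Fintype R] [Fintype ι]

/-- Tier estimate, uniform in the weights: the threshold `Θ` of `tier_bound` can be chosen
independently of the weights `κ r ∈ [kmin, kmax]`. -/
theorem tier_bound_unif {R C : Type} [Fintype R] (src tgt : R → C) {kmin kmax : ℝ}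
    (hkmin : 0 < kmin) (hne : ∀ r, src r ≠ tgt r)
    (hsc : ∀ r q, Relation.ReflTransGen (fun a b => ∃ s, src s = a ∧ tgt s = b) (tgt r) (src q)) :
    ∃ Θ : ℝ, 0 ≤ Θ ∧ ∀ κ : R → ℝ, (∀ r, kmin ≤ κ r ∧ κ r ≤ kmax) →
      ∀ w : C → ℝ, ∀ r₁ r₂, Θ ≤ w (src r₁) - w (src r₂) →
      ∀ r₀, ∑ r, κ r * Real.exp (w (src r)) * (w (tgt r) - w (src r)) ≤
        - Real.exp (w (src r₀)) := by
  classical
  by_cases hkk : kmin ≤ kmax
  · have hσ : ∀ σ : R → Bool, ∃ Θ : ℝ, 0 ≤ Θ ∧ ∀ w : C → ℝ, ∀ r₁ r₂,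
        Θ ≤ w (src r₁) - w (src r₂) →
        ∀ r₀, ∑ r, (if σ r = true then kmax else kmin) * Real.exp (w (src r)) *
          (w (tgt r) - w (src r)) ≤ - Real.exp (w (src r₀)) := by
      intro σ
      refine tier_bound src tgt (fun r => if σ r = true then kmax else kmin)
        (kmin := kmin) (kmax := kmax) hkmin (fun r => ?_) hne hsc
      by_cases h : σ r = true
      · rw [if_pos h]
        exact ⟨hkk, le_rfl⟩
      · rw [if_neg h]
        exact ⟨le_rfl, hkk⟩
    choose Θσ hΘ0 hΘ using hσ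
    refine ⟨∑ σ : R → Bool, Θσ σ, Finset.sum_nonneg (fun σ _ => hΘ0 σ), ?_⟩
    intro κ hκ w r₁ r₂ hsp r₀
    obtain ⟨σ, hσdef⟩ : ∃ σ : R → Bool, σ = fun r =>
        decide (0 ≤ Real.exp (w (src r)) * (w (tgt r) - w (src r))) := ⟨_, rfl⟩
    have hle : Θσ σ ≤ ∑ σ' : R → Bool, Θσ σ' :=
      Finset.single_le_sum (f := Θσ) (fun σ' _ => hΘ0 σ') (Finset.mem_univ σ)
    have h1 := hΘ σ w r₁ r₂ (hle.trans hsp) r₀
    refine le_trans (Finset.sum_le_sum (fun r _ => ?_)) h1
    rw [mul_assoc, mul_assoc]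
    by_cases h : 0 ≤ Real.exp (w (src r)) * (w (tgt r) - w (src r))
    · have hs : σ r = true := by
        rw [hσdef]
        exact decide_eq_true h
      rw [if_pos hs]
      exact mul_le_mul_of_nonneg_right (hκ r).2 h
    · have hs : ¬ σ r = true := by
        rw [hσdef]
        intro hh
        exact h (of_decide_eq_true hh)
      rw [if_neg hs]
      exact mul_le_mul_of_nonpos_right (hκ r).1 (le_of_lt (not_le.mp h))
  · refine ⟨0, le_rfl, fun κ hκ w r₁ r₂ _ r₀ => ?_⟩
    exact absurd ((hκ r₁).1.trans (hκ r₁).2) hkk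

/-- Bound of the vector field with rate vector `k` at a positive point by the largest of the
monomials `exp (cw xs x (src r))`, uniform in `k` with entries in `[ε, ε⁻¹]`. -/
private lemma fieldK_abs_le_of_exp_le (N : MAS R ι) (xs x : ι → ℝ) (hxs : ∀ i, 0 < xs i)
    (hx : ∀ i, 0 < x i) {ε : ℝ} (hε : 0 < ε) (k : R → ℝ) (hk : ∀ r, ε ≤ k r ∧ k r ≤ ε⁻¹)
    (E : ℝ) (hE : ∀ r, Real.exp (cw xs x (N.src r)) ≤ E) (i : ι) :
    |N.fieldK k x i| ≤ (∑ r, ε⁻¹ * mono (N.src r) xs * ∑ j, |N.vec r j|) * E := by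
  rw [fieldK_apply, Finset.sum_mul]
  refine (Finset.abs_sum_le_sum_abs _ _).trans (Finset.sum_le_sum (fun r _ => ?_))
  have hkpos : 0 < k r := lt_of_lt_of_le hε (hk r).1
  have hεi : 0 < ε⁻¹ := inv_pos.mpr hε
  have hmpos : 0 < mono (N.src r) xs := mono_pos _ _ hxs
  have hexp := Real.exp_pos (cw xs x (N.src r))
  rw [mono_eq_mul_exp_cw xs x hxs hx (N.src r)]
  have h1 : |k r * (mono (N.src r) xs * Real.exp (cw xs x (N.src r))) * N.vec r i|
      = k r * mono (N.src r) xs * Real.exp (cw xs x (N.src r)) * |N.vec r i| := by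
    rw [abs_mul, abs_of_pos (mul_pos hkpos (mul_pos hmpos hexp))]
    ring
  rw [h1]
  have h2 : |N.vec r i| ≤ ∑ j, |N.vec r j| :=
    Finset.single_le_sum (f := fun j => |N.vec r j|) (fun j _ => abs_nonneg _)
      (Finset.mem_univ i)
  have h3 : k r * mono (N.src r) xs * Real.exp (cw xs x (N.src r))
      ≤ ε⁻¹ * mono (N.src r) xs * E :=
    mul_le_mul (mul_le_mul_of_nonneg_right (hk r).2 hmpos.le) (hE r) hexp.le
      (mul_nonneg hεi.le hmpos.le)
  calc k r * mono (N.src r) xs * Real.exp (cw xs x (N.src r)) * |N.vec r i|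
      ≤ ε⁻¹ * mono (N.src r) xs * E * ∑ j, |N.vec r j| :=
        mul_le_mul h3 h2 (abs_nonneg _)
          (mul_nonneg (mul_nonneg hεi.le hmpos.le) (hexp.le.trans (hE r)))
    _ = ε⁻¹ * mono (N.src r) xs * (∑ j, |N.vec r j|) * E := by ring

/-- Tier estimate with a bounded shift, uniform in the rate vectors with entries in
`[ε, ε⁻¹]`: for a strongly connected system and a bound `Cb` there is a threshold `Θ` such
that, whenever the logarithmic weights of the source complexes spread by at least `Θ`, the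
dissipation for the rate vector `k` plus any combination `∑ i, b i * fieldK k x i` with
coefficients bounded by `Cb` is at most minus every monomial `exp (cw xs x (src r₀))`. -/
theorem dissip_shiftK_le (N : MAS R ι) (hsc : N.StronglyConnected) (xs : ι → ℝ)
    (hxs : ∀ i, 0 < xs i) {ε : ℝ} (hε : 0 < ε) (Cb : ℝ) :
    ∃ Θ : ℝ, 0 ≤ Θ ∧ ∀ k : R → ℝ, (∀ r, ε ≤ k r ∧ k r ≤ ε⁻¹) →
      ∀ x : ι → ℝ, (∀ i, 0 < x i) → ∀ b : ι → ℝ, (∀ i, |b i| ≤ Cb) →
      ∀ r₁ r₂, Θ ≤ cw xs x (N.src r₁) - cw xs x (N.src r₂) →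
      ∀ r₀, ∑ i, (Real.log (x i) - Real.log (xs i)) * N.fieldK k x i
          + ∑ i, b i * N.fieldK k x i ≤ - Real.exp (cw xs x (N.src r₀)) := by
  rcases isEmpty_or_nonempty R with hR | hR
  · exact ⟨0, le_rfl, fun k hk x hx b hb r₁ => isEmptyElim r₁⟩
  · have hεi : 0 < ε⁻¹ := inv_pos.mpr hε
    obtain ⟨C, hCdef⟩ : ∃ C : ℝ,
        C = ∑ r, ε⁻¹ * mono (N.src r) xs * ∑ j, |N.vec r j| := ⟨_, rfl⟩
    have hC0 : 0 ≤ C := by
      rw [hCdef]
      exact Finset.sum_nonneg (fun r _ =>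
        mul_nonneg (mul_pos hεi (mono_pos _ _ hxs)).le
          (Finset.sum_nonneg (fun j _ => abs_nonneg _)))
    obtain ⟨K, hKdef⟩ : ∃ K : ℝ, K = (Fintype.card ι : ℝ) * max Cb 0 * C + 1 := ⟨_, rfl⟩
    have hK : 0 < K := by
      rw [hKdef]
      have : 0 ≤ (Fintype.card ι : ℝ) * max Cb 0 * C :=
        mul_nonneg (mul_nonneg (Nat.cast_nonneg _) (le_max_right _ _)) hC0
      linarith
    obtain ⟨rmin, -, hmin⟩ := Finset.exists_min_image Finset.univ
      (fun r => mono (N.src r) xs) Finset.univ_nonempty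
    obtain ⟨rmax, -, hmax⟩ := Finset.exists_max_image Finset.univ
      (fun r => mono (N.src r) xs) Finset.univ_nonempty
    have hm0 : 0 < mono (N.src rmin) xs := mono_pos _ _ hxs
    obtain ⟨Θ, hΘ, hT⟩ := tier_bound_unif N.src N.tgt
      (kmin := ε * mono (N.src rmin) xs / K) (kmax := ε⁻¹ * mono (N.src rmax) xs / K)
      (div_pos (mul_pos hε hm0) hK) N.src_ne_tgt hsc
    refine ⟨Θ, hΘ, fun k hk x hx b hb r₁ r₂ hsp r₀ => ?_⟩
    have hkpos : ∀ r, 0 < k r := fun r => lt_of_lt_of_le hε (hk r).1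
    have hκ : ∀ r, ε * mono (N.src rmin) xs / K ≤ k r * mono (N.src r) xs / K ∧
        k r * mono (N.src r) xs / K ≤ ε⁻¹ * mono (N.src rmax) xs / K := by
      intro r
      have hmr : 0 < mono (N.src r) xs := mono_pos _ _ hxs
      constructor
      · exact div_le_div_of_nonneg_right
          (mul_le_mul (hk r).1 (hmin r (Finset.mem_univ r)) hm0.le (hkpos r).le) hK.le
      · exact div_le_div_of_nonneg_right
          (mul_le_mul (hk r).2 (hmax r (Finset.mem_univ r)) hmr.le hεi.le) hK.le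
    obtain ⟨rm, -, hrm⟩ := Finset.exists_max_image Finset.univ
      (fun r => Real.exp (cw xs x (N.src r))) Finset.univ_nonempty
    have hE : ∀ r, Real.exp (cw xs x (N.src r)) ≤ Real.exp (cw xs x (N.src rm)) :=
      fun r => hrm r (Finset.mem_univ r)
    have hEpos := Real.exp_pos (cw xs x (N.src rm))
    have hD : ∑ i, (Real.log (x i) - Real.log (xs i)) * N.fieldK k x i
        ≤ - (K * Real.exp (cw xs x (N.src rm))) := by
      have h1 := hT (fun r => k r * mono (N.src r) xs / K) hκ (cw xs x) r₁ r₂ hsp rm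
      have h2 : ∑ i, (Real.log (x i) - Real.log (xs i)) * N.fieldK k x i
          = K * ∑ r, k r * mono (N.src r) xs / K
          * Real.exp (cw xs x (N.src r)) * (cw xs x (N.tgt r) - cw xs x (N.src r)) := by
        have h0 : ∑ i, (Real.log (x i) - Real.log (xs i)) * N.fieldK k x i
            = (N.withRate k hkpos).dissip xs x := rfl
        rw [h0, dissip_eq_sum (N.withRate k hkpos) xs x hxs hx, Finset.mul_sum]
        refine Finset.sum_congr rfl (fun r _ => ?_)
        show k r * mono (N.src r) xs * Real.exp (cw xs x (N.src r)) *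
            (cw xs x (N.tgt r) - cw xs x (N.src r)) = _
        field_simp
      rw [h2]
      have h3 := mul_le_mul_of_nonneg_left h1 hK.le
      linarith
    have hF : ∑ i, b i * N.fieldK k x i
        ≤ (Fintype.card ι : ℝ) * max Cb 0 * C * Real.exp (cw xs x (N.src rm)) := by
      have h1 : ∀ i ∈ (Finset.univ : Finset ι),
          b i * N.fieldK k x i ≤ max Cb 0 * (C * Real.exp (cw xs x (N.src rm))) := by
        intro i _
        have hf := fieldK_abs_le_of_exp_le N xs x hxs hx hε k hk _ hE i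
        rw [← hCdef] at hf
        calc b i * N.fieldK k x i ≤ |b i * N.fieldK k x i| := le_abs_self _
          _ = |b i| * |N.fieldK k x i| := abs_mul _ _
          _ ≤ max Cb 0 * (C * Real.exp (cw xs x (N.src rm))) :=
              mul_le_mul ((hb i).trans (le_max_left _ _)) hf (abs_nonneg _) (le_max_right _ _)
      have h2 := Finset.sum_le_sum h1
      rw [Finset.sum_const, Finset.card_univ, nsmul_eq_mul] at h2
      linarith
    have hr0 := hE r₀
    rw [hKdef] at hD
    linarith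

end Vale.Agent.Lib.P072
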