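import Vale.Agent.Lib.P072.ColCornerA
import Vale.Agent.Lib.P072.FlatKShift

/-!
# Corner estimates, uniformly in the rates: the strongly connected system, and directions
without mixed signs
-/

namespace Vale.Agent.Lib.P072

open Set

set_option linter.unusedSectionVars false

variable {R₁ ι : Type} [Fintype R₁] [Fintype ι]

/-- For a strongly connected system, rate bounds `[ε, ε⁻¹]` and a bound `Cb` there is
`ε' > 0` such that at every positive point of the class of `c` with a coordinate at most `ε'`,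
for every rate vector `k` with values in `[ε, ε⁻¹]`, the pairing of `log x` with the field
plus any combination `∑ i, b i * fieldK k x i` with coefficients bounded by `Cb` is
nonpositive. -/
theorem corner_coreK (N₁ : MAS R₁ ι) (h₁ : N₁.StronglyConnected) (c : ι → ℝ)
    (hc : ∀ i, 0 < c i) {ε : ℝ} (hε : 0 < ε) (Cb : ℝ) :
    ∃ ε' : ℝ, 0 < ε' ∧ ∀ x : ι → ℝ, (∀ i, 0 < x i) → x - c ∈ N₁.stoich → (∃ i, x i ≤ ε') →
      ∀ k : R₁ → ℝ, (∀ r, ε ≤ k r ∧ k r ≤ ε⁻¹) → ∀ b : ι → ℝ, (∀ i, |b i| ≤ Cb) →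
        ∑ i, Real.log (x i) * N₁.fieldK k x i + ∑ i, b i * N₁.fieldK k x i ≤ 0 := by
  classical
  obtain ⟨Θ, -, hΘ⟩ := dissip_shiftK_le N₁ h₁ (fun _ => 1) (fun _ => one_pos) hε Cb
  obtain ⟨δc, Bc, hδc, hcore⟩ := core_bounds N₁ h₁ (fun _ => 1) c hc Θ
  refine ⟨δc / 2, by linarith, ?_⟩
  rintro x hx hxc ⟨i₀, hi₀⟩ k hk b hb
  -- the spread is large, since a coordinate of `x` is small
  have hspread : ¬ ∀ r₁ r₂,
      cw (fun _ => 1) x (N₁.src r₁) - cw (fun _ => 1) x (N₁.src r₂) ≤ Θ := by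
    intro hall
    have h := (hcore x hx hxc hall i₀).1
    linarith
  push Not at hspread
  obtain ⟨r₁, r₂, hr⟩ := hspread
  have hD := hΘ k hk x hx b hb r₁ r₂ hr.le r₁
  have hpos := Real.exp_pos (cw (fun _ => 1) x (N₁.src r₁))
  have hEq : ∑ i, (Real.log (x i) - Real.log ((fun _ : ι => (1 : ℝ)) i)) * N₁.fieldK k x i
      = ∑ i, Real.log (x i) * N₁.fieldK k x i := by
    refine Finset.sum_congr rfl fun i _ => ?_
    simp
  rw [hEq] at hD
  linarith

/-- Directions without mixed signs on `W`, with a threshold that does not depend on the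
function `g`: in a corner where the coordinates in `W` are small and the others are between
`η` and `B`, for every `g` that is positive where the logarithmic coordinate along `v` is at
most `-M` and negative where it is at least `M`, the product of `g x` and
`∑ i ∈ W, v i * log (x i)` is nonpositive, provided `v` does not take both signs on `W`. -/
theorem corner_unmixedU (v : ι → ℝ) (M : ℝ) (η B : ℝ) (hη : 0 < η) :
    ∃ ε : ℝ, 0 < ε ∧ ε ≤ 1 ∧ ∀ g : (ι → ℝ) → ℝ,
      (∀ x : ι → ℝ, (∀ i, 0 < x i) → logCoord v x ≤ -M → 0 < g x) →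
      (∀ x : ι → ℝ, (∀ i, 0 < x i) → M ≤ logCoord v x → g x < 0) →
      ∀ W : Finset ι, (¬ ∃ ip ∈ W, ∃ im ∈ W, 0 < v ip ∧ v im < 0) →
      ∀ x : ι → ℝ, (∀ i, 0 < x i) → (∀ i, x i ≤ B) → (∀ j, j ∉ W → η ≤ x j) →
        (∀ i ∈ W, x i ≤ ε) → g x * ∑ i ∈ W, v i * Real.log (x i) ≤ 0 := by
  classical
  obtain ⟨T, hT⟩ : ∃ T : ℝ, T = (∑ j, |v j|) * (|Real.log η| + |Real.log B|) := ⟨_, rfl⟩
  by_cases hv0 : ∀ i, v i = 0
  · refine ⟨1, one_pos, le_refl 1, ?_⟩
    intro g _ _ W _ x _ _ _ _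
    have h0 : ∑ i ∈ W, v i * Real.log (x i) = 0 :=
      Finset.sum_eq_zero fun i _ => by rw [hv0 i, zero_mul]
    rw [h0, mul_zero]
  push Not at hv0
  obtain ⟨i₂, hi₂⟩ := hv0
  have hSne : (Finset.univ.filter fun i => v i ≠ 0).Nonempty :=
    ⟨i₂, Finset.mem_filter.mpr ⟨Finset.mem_univ i₂, hi₂⟩⟩
  obtain ⟨im, him, hmin⟩ := Finset.exists_min_image _ (fun i => |v i|) hSne
  have him' : v im ≠ 0 := (Finset.mem_filter.mp him).2
  obtain ⟨umin, humin⟩ : ∃ umin : ℝ, umin = |v im| := ⟨_, rfl⟩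
  have hupos : 0 < umin := by
    rw [humin]
    exact abs_pos.mpr him'
  have hule : ∀ i, v i ≠ 0 → umin ≤ |v i| := by
    intro i hi
    rw [humin]
    exact hmin i (Finset.mem_filter.mpr ⟨Finset.mem_univ i, hi⟩)
  have hT0 : 0 ≤ T := by
    rw [hT]
    exact mul_nonneg (Finset.sum_nonneg fun j _ => abs_nonneg _)
      (add_nonneg (abs_nonneg _) (abs_nonneg _))
  obtain ⟨L, hL⟩ : ∃ L : ℝ, L = -(|M| + T) / umin := ⟨_, rfl⟩
  have huL : umin * L = -(|M| + T) := by
    rw [hL]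
    field_simp
  have hL0 : L ≤ 0 := by
    rw [hL]
    have hM0 := abs_nonneg M
    exact div_nonpos_of_nonpos_of_nonneg (by linarith) hupos.le
  refine ⟨min 1 (Real.exp L), lt_min one_pos (Real.exp_pos L), min_le_left _ _, ?_⟩
  intro g hpos hneg W hW x hx hxB hxη hxε
  have hlogW : ∀ i ∈ W, Real.log (x i) ≤ L := by
    intro i hi
    have h1 : x i ≤ Real.exp L := (hxε i hi).trans (min_le_right _ _)
    have h2 := Real.log_le_log (hx i) h1
    rwa [Real.log_exp] at h2
  have hout : ∀ j, j ∉ W → |Real.log (x j)| ≤ |Real.log η| + |Real.log B| := by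
    intro j hj
    have h1 : Real.log η ≤ Real.log (x j) := Real.log_le_log hη (hxη j hj)
    have h2 : Real.log (x j) ≤ Real.log B := Real.log_le_log (hx j) (hxB j)
    have h3 := abs_nonneg (Real.log B)
    have h4 := abs_nonneg (Real.log η)
    rw [abs_le]
    constructor
    · have h5 := neg_abs_le (Real.log η)
      linarith
    · have h5 := le_abs_self (Real.log B)
      linarith
  have hcompl : |∑ j ∈ Wᶜ, v j * Real.log (x j)| ≤ T := by
    calc |∑ j ∈ Wᶜ, v j * Real.log (x j)|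
        ≤ ∑ j ∈ Wᶜ, |v j * Real.log (x j)| := Finset.abs_sum_le_sum_abs _ _
      _ ≤ ∑ j ∈ Wᶜ, |v j| * (|Real.log η| + |Real.log B|) := by
          refine Finset.sum_le_sum fun j hj => ?_
          rw [abs_mul]
          exact mul_le_mul_of_nonneg_left (hout j (Finset.mem_compl.mp hj)) (abs_nonneg _)
      _ ≤ ∑ j, |v j| * (|Real.log η| + |Real.log B|) := by
          refine Finset.sum_le_sum_of_subset_of_nonneg (Finset.subset_univ _) fun j _ _ => ?_
          exact mul_nonneg (abs_nonneg _) (add_nonneg (abs_nonneg _) (abs_nonneg _))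
      _ = T := by rw [hT, Finset.sum_mul]
  have hsplit : logCoord v x
      = ∑ i ∈ W, v i * Real.log (x i) + ∑ i ∈ Wᶜ, v i * Real.log (x i) := by
    unfold logCoord
    exact (Finset.sum_add_sum_compl W _).symm
  have hc1 := (abs_le.mp hcompl).1
  have hc2 := (abs_le.mp hcompl).2
  have hM1 := le_abs_self M
  by_cases hsign : ∀ i ∈ W, 0 ≤ v i
  · have hterm : ∀ i ∈ W, v i * Real.log (x i) ≤ 0 := fun i hi =>
      mul_nonpos_of_nonneg_of_nonpos (hsign i hi) ((hlogW i hi).trans hL0)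
    have hS : ∑ i ∈ W, v i * Real.log (x i) ≤ 0 := Finset.sum_nonpos hterm
    by_cases hz : ∀ i ∈ W, v i = 0
    · have h0 : ∑ i ∈ W, v i * Real.log (x i) = 0 :=
        Finset.sum_eq_zero fun i hi => by rw [hz i hi, zero_mul]
      rw [h0, mul_zero]
    push Not at hz
    obtain ⟨i₁, hi₁, hvi₁⟩ := hz
    have hvpos : 0 < v i₁ := lt_of_le_of_ne (hsign i₁ hi₁) (Ne.symm hvi₁)
    have hu1 : umin ≤ v i₁ := by
      have h := hule i₁ hvi₁
      rwa [abs_of_pos hvpos] at h
    have hS1 : ∑ i ∈ W, v i * Real.log (x i) ≤ v i₁ * Real.log (x i₁) := by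
      rw [← Finset.add_sum_erase W _ hi₁]
      have h : ∑ i ∈ W.erase i₁, v i * Real.log (x i) ≤ 0 :=
        Finset.sum_nonpos fun i hi => hterm i (Finset.mem_of_mem_erase hi)
      linarith
    have hS2 : v i₁ * Real.log (x i₁) ≤ umin * L := by
      have h1 : v i₁ * Real.log (x i₁) ≤ v i₁ * L :=
        mul_le_mul_of_nonneg_left (hlogW i₁ hi₁) hvpos.le
      have h2 : v i₁ * L ≤ umin * L := mul_le_mul_of_nonpos_right hu1 hL0
      linarith
    have hlc : logCoord v x ≤ -M := by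
      rw [hsplit]
      linarith
    exact mul_nonpos_of_nonneg_of_nonpos (hpos x hx hlc).le hS
  · push Not at hsign
    obtain ⟨i₃, hi₃, hvi₃⟩ := hsign
    have hsign' : ∀ i ∈ W, v i ≤ 0 := by
      intro i hi
      by_contra hcon
      push Not at hcon
      exact hW ⟨i, hi, i₃, hi₃, hcon, hvi₃⟩
    have hterm : ∀ i ∈ W, 0 ≤ v i * Real.log (x i) := fun i hi =>
      mul_nonneg_of_nonpos_of_nonpos (hsign' i hi) ((hlogW i hi).trans hL0)
    have hS : 0 ≤ ∑ i ∈ W, v i * Real.log (x i) := Finset.sum_nonneg hterm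
    have hu3 : umin ≤ -v i₃ := by
      have h := hule i₃ hvi₃.ne
      rwa [abs_of_neg hvi₃] at h
    have hS1 : v i₃ * Real.log (x i₃) ≤ ∑ i ∈ W, v i * Real.log (x i) := by
      rw [← Finset.add_sum_erase W _ hi₃]
      have h : 0 ≤ ∑ i ∈ W.erase i₃, v i * Real.log (x i) :=
        Finset.sum_nonneg fun i hi => hterm i (Finset.mem_of_mem_erase hi)
      linarith
    have hS2 : -(umin * L) ≤ v i₃ * Real.log (x i₃) := by
      have h1 : v i₃ * L ≤ v i₃ * Real.log (x i₃) :=
        mul_le_mul_of_nonpos_left (hlogW i₃ hi₃) hvi₃.le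
      have h2 : (-umin) * L ≤ v i₃ * L := mul_le_mul_of_nonpos_right (by linarith) hL0
      linarith
    have hlc : M ≤ logCoord v x := by
      rw [hsplit]
      linarith
    exact mul_nonpos_of_nonpos_of_nonneg (hneg x hx hlc).le hS

end Vale.Agent.Lib.P072
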