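import Vale.Agent.Lib.P072.DefsTV
import Vale.Agent.Lib.P072.Sign
import Vale.Agent.Lib.P072.DomProof

/-!
# The mass-action field with a vector of rates, and comparison rate vectors
-/

namespace Vale.Agent.Lib.P072

open Set

set_option linter.unusedSectionVars false

variable {R ι : Type} [Fintype R] [Fintype ι]

/-- The mass-action field of the reactions of `N` with the rate vector `k`. -/
def MAS.fieldK (N : MAS R ι) (k : R → ℝ) (x : ι → ℝ) : ι → ℝ :=
  ∑ r, (k r * mono (N.src r) x) • N.vec r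

lemma fieldAt_eq_fieldK (N : MAS R ι) (κ : R → ℝ → ℝ) (t : ℝ) (x : ι → ℝ) :
    N.fieldAt κ t x = N.fieldK (fun r => κ r t) x := rfl

lemma fieldK_apply (N : MAS R ι) (k : R → ℝ) (x : ι → ℝ) (i : ι) :
    N.fieldK k x i = ∑ r, k r * mono (N.src r) x * N.vec r i := by
  simp [MAS.fieldK, Finset.sum_apply]

lemma fieldK_eq_zero_of_inert (N : MAS R ι) (i : ι) (h : ∀ r, N.tgt r i = N.src r i)
    (k : R → ℝ) (x : ι → ℝ) : N.fieldK k x i = 0 := by
  rw [fieldK_apply]
  apply Finset.sum_eq_zero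
  intro r _
  simp [MAS.vec, h r]

lemma fieldK_mem_stoich (N : MAS R ι) (k : R → ℝ) (x : ι → ℝ) : N.fieldK k x ∈ N.stoich := by
  unfold MAS.fieldK
  apply Submodule.sum_mem
  intro r _
  exact Submodule.smul_mem _ _ (Submodule.subset_span ⟨r, rfl⟩)

lemma continuous_fieldK (N : MAS R ι) (k : R → ℝ) : Continuous (N.fieldK k) := by
  unfold MAS.fieldK
  apply continuous_finsetSum
  intro r _
  exact (continuous_const.mul (continuous_mono _)).smul continuous_const

/-- The same reactions with other rate constants. -/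
def MAS.withRate (N : MAS R ι) (ρ : R → ℝ) (hρ : ∀ r, 0 < ρ r) : MAS R ι where
  src := N.src
  tgt := N.tgt
  rate := ρ
  rate_pos := hρ
  src_ne_tgt := N.src_ne_tgt

lemma withRate_field (N : MAS R ι) (ρ : R → ℝ) (hρ : ∀ r, 0 < ρ r) (x : ι → ℝ) :
    (N.withRate ρ hρ).field x = N.fieldK ρ x := rfl

open Classical in
/-- The rate vector that is smallest for the reactions increasing species `i` and largest for
the others. -/
noncomputable def MAS.loRate (N : MAS R ι) (ε : ℝ) (i : ι) (r : R) : ℝ :=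
  if 0 < N.vec r i then ε else ε⁻¹

open Classical in
/-- The rate vector that is largest for the reactions increasing species `i` and smallest for
the others. -/
noncomputable def MAS.hiRate (N : MAS R ι) (ε : ℝ) (i : ι) (r : R) : ℝ :=
  if 0 < N.vec r i then ε⁻¹ else ε

lemma loRate_pos (N : MAS R ι) {ε : ℝ} (hε : 0 < ε) (i : ι) (r : R) : 0 < N.loRate ε i r := by
  unfold MAS.loRate
  split_ifs
  · exact hε
  · exact inv_pos.mpr hε

lemma hiRate_pos (N : MAS R ι) {ε : ℝ} (hε : 0 < ε) (i : ι) (r : R) : 0 < N.hiRate ε i r := by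
  unfold MAS.hiRate
  split_ifs
  · exact inv_pos.mpr hε
  · exact hε

lemma mono_nonneg (a : ι → ℕ) (x : ι → ℝ) (hx : ∀ i, 0 ≤ x i) : 0 ≤ mono a x :=
  Finset.prod_nonneg (fun i _ => pow_nonneg (hx i) _)

/-- Comparison from below with the rate vector `loRate`. -/
lemma fieldK_loRate_le (N : MAS R ι) {ε : ℝ} (i : ι) {k : R → ℝ}
    (hk : ∀ r, ε ≤ k r ∧ k r ≤ ε⁻¹) (x : ι → ℝ) (hx : ∀ j, 0 ≤ x j) :
    N.fieldK (N.loRate ε i) x i ≤ N.fieldK k x i := by
  rw [fieldK_apply, fieldK_apply]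
  apply Finset.sum_le_sum
  intro r _
  have hm := mono_nonneg (N.src r) x hx
  unfold MAS.loRate
  split_ifs with h
  · exact mul_le_mul_of_nonneg_right (mul_le_mul_of_nonneg_right (hk r).1 hm) h.le
  · push Not at h
    have h1 : mono (N.src r) x * N.vec r i ≤ 0 := mul_nonpos_of_nonneg_of_nonpos hm h
    have h2 := mul_le_mul_of_nonpos_right (hk r).2 h1
    linarith

/-- Comparison from above with the rate vector `hiRate`. -/
lemma fieldK_le_hiRate (N : MAS R ι) {ε : ℝ} (i : ι) {k : R → ℝ}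
    (hk : ∀ r, ε ≤ k r ∧ k r ≤ ε⁻¹) (x : ι → ℝ) (hx : ∀ j, 0 ≤ x j) :
    N.fieldK k x i ≤ N.fieldK (N.hiRate ε i) x i := by
  rw [fieldK_apply, fieldK_apply]
  apply Finset.sum_le_sum
  intro r _
  have hm := mono_nonneg (N.src r) x hx
  unfold MAS.hiRate
  split_ifs with h
  · exact mul_le_mul_of_nonneg_right (mul_le_mul_of_nonneg_right (hk r).2 hm) h.le
  · push Not at h
    have h1 : mono (N.src r) x * N.vec r i ≤ 0 := mul_nonpos_of_nonneg_of_nonpos hm h
    have h2 := mul_le_mul_of_nonpos_right (hk r).1 h1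
    linarith

/-- Thresholds for all species at once, valid on the affine class `c + stoich` and uniform in
the rate vectors with entries in `[ε, ε⁻¹]` (through the two comparison rate vectors). -/
structure TVThresholds (N : MAS R ι) (ε : ℝ) (c lo hi : ι → ℝ) : Prop where
  lo_pos : ∀ i, 0 < lo i
  lo_le : ∀ i, lo i ≤ c i
  le_hi : ∀ i, c i ≤ hi i
  sign : ∀ i, (∀ r, N.tgt r i = N.src r i) ∨
    ∀ x : ι → ℝ, (∀ j, 0 < x j) → x - c ∈ N.stoich →
      (x i ≤ lo i → 0 < N.fieldK (N.loRate ε i) x i) ∧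
      (hi i ≤ x i → N.fieldK (N.hiRate ε i) x i < 0)

end Vale.Agent.Lib.P072
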