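import Vale.Agent.Lib.P072.ColField
import Vale.Agent.Lib.P072.TVField

/-!
# Weakly reversible systems with parallel reaction vectors: all rate vectors in given bounds
-/

namespace Vale.Agent.Lib.P072

open Set

set_option linter.unusedSectionVars false

variable {R ι : Type} [Fintype R] [Fintype ι]

/-- A weakly reversible system all of whose reaction vectors are multiples of one vector `v`
(and which has a reaction): there is `M ≥ 1` such that for every rate vector `k` with values
in `[ε, ε⁻¹]` the vector field with the rates `k` is a scalar function `g` times `v`, and `g`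
is positive where the logarithmic coordinate along `v` is at most `-M` and negative where it
is at least `M`. -/
theorem collinear_fieldK (N : MAS R ι) (hwr : N.WeaklyReversible) (v : ι → ℝ)
    (hv : ∀ r, ∃ a : ℝ, N.vec r = a • v) [Nonempty R] {ε : ℝ} (hε : 0 < ε) :
    ∃ M : ℝ, 1 ≤ M ∧ ∀ k : R → ℝ, (∀ r, ε ≤ k r ∧ k r ≤ ε⁻¹) →
      ∃ g : (ι → ℝ) → ℝ, (∀ x, N.fieldK k x = g x • v) ∧
        (∀ x : ι → ℝ, (∀ i, 0 < x i) → logCoord v x ≤ -M → 0 < g x) ∧
        (∀ x : ι → ℝ, (∀ i, 0 < x i) → M ≤ logCoord v x → g x < 0) := by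
  classical
  choose a ha using hv
  -- the worst-case rate vectors
  obtain ⟨ρlo, hρlo_def⟩ : ∃ ρ : R → ℝ, ρ = fun r => if 0 < a r then ε else ε⁻¹ := ⟨_, rfl⟩
  obtain ⟨ρhi, hρhi_def⟩ : ∃ ρ : R → ℝ, ρ = fun r => if 0 < a r then ε⁻¹ else ε := ⟨_, rfl⟩
  have hρlo : ∀ r, 0 < ρlo r := by
    intro r
    rw [hρlo_def]
    dsimp only
    split_ifs
    · exact hε
    · exact inv_pos.mpr hε
  have hρhi : ∀ r, 0 < ρhi r := by
    intro r
    rw [hρhi_def]
    dsimp only
    split_ifs
    · exact inv_pos.mpr hε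
    · exact hε
  -- the field is a scalar multiple of `v`
  have hfield : ∀ (k : R → ℝ) (x : ι → ℝ),
      N.fieldK k x = (∑ r, k r * mono (N.src r) x * a r) • v := by
    intro k x
    funext i
    rw [fieldK_apply, Pi.smul_apply, smul_eq_mul, Finset.sum_mul]
    refine Finset.sum_congr rfl (fun r _ => ?_)
    rw [ha r, Pi.smul_apply, smul_eq_mul]
    ring
  -- the two comparison systems
  have hwrlo : (N.withRate ρlo hρlo).WeaklyReversible := hwr
  have hwrhi : (N.withRate ρhi hρhi).WeaklyReversible := hwr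
  have hvlo : ∀ r, ∃ b : ℝ, (N.withRate ρlo hρlo).vec r = b • v := fun r => ⟨a r, ha r⟩
  have hvhi : ∀ r, ∃ b : ℝ, (N.withRate ρhi hρhi).vec r = b • v := fun r => ⟨a r, ha r⟩
  obtain ⟨⟨i₀, hi₀⟩, glo, Mlo, hMlo1, hglo, hglopos, -⟩ :=
    collinear_field (N.withRate ρlo hρlo) hwrlo v hvlo
  obtain ⟨-, ghi, Mhi, -, hghi, -, hghineg⟩ :=
    collinear_field (N.withRate ρhi hρhi) hwrhi v hvhi
  have hglo_eq : ∀ x, glo x = ∑ r, ρlo r * mono (N.src r) x * a r := by
    intro x
    have h1 := hglo x
    rw [withRate_field, hfield] at h1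
    have h2 := congrFun h1 i₀
    rw [Pi.smul_apply, Pi.smul_apply, smul_eq_mul, smul_eq_mul] at h2
    exact (mul_right_cancel₀ hi₀ h2).symm
  have hghi_eq : ∀ x, ghi x = ∑ r, ρhi r * mono (N.src r) x * a r := by
    intro x
    have h1 := hghi x
    rw [withRate_field, hfield] at h1
    have h2 := congrFun h1 i₀
    rw [Pi.smul_apply, Pi.smul_apply, smul_eq_mul, smul_eq_mul] at h2
    exact (mul_right_cancel₀ hi₀ h2).symm
  refine ⟨max Mlo Mhi, le_max_of_le_left hMlo1, ?_⟩
  intro k hk
  refine ⟨fun x => ∑ r, k r * mono (N.src r) x * a r, hfield k, ?_, ?_⟩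
  · intro x hx hle
    have h1 : 0 < glo x := hglopos x hx (by linarith [le_max_left Mlo Mhi])
    rw [hglo_eq] at h1
    refine lt_of_lt_of_le h1 (Finset.sum_le_sum (fun r _ => ?_))
    have hm := mono_nonneg (N.src r) x (fun j => (hx j).le)
    rw [hρlo_def]
    dsimp only
    split_ifs with h
    · exact mul_le_mul_of_nonneg_right (mul_le_mul_of_nonneg_right (hk r).1 hm) h.le
    · push Not at h
      have h3 : mono (N.src r) x * a r ≤ 0 := mul_nonpos_of_nonneg_of_nonpos hm h
      have h4 := mul_le_mul_of_nonpos_right (hk r).2 h3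
      linarith
  · intro x hx hle
    have h1 : ghi x < 0 := hghineg x hx (le_trans (le_max_right Mlo Mhi) hle)
    rw [hghi_eq] at h1
    refine lt_of_le_of_lt (Finset.sum_le_sum (fun r _ => ?_)) h1
    have hm := mono_nonneg (N.src r) x (fun j => (hx j).le)
    rw [hρhi_def]
    dsimp only
    split_ifs with h
    · exact mul_le_mul_of_nonneg_right (mul_le_mul_of_nonneg_right (hk r).2 hm) h.le
    · push Not at h
      have h3 : mono (N.src r) x * a r ≤ 0 := mul_nonpos_of_nonneg_of_nonpos hm h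
      have h4 := mul_le_mul_of_nonpos_right (hk r).1 h3
      linarith

end Vale.Agent.Lib.P072
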