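import Vale.Agent.Lib.P072.FlatKDefs
import Vale.Agent.Lib.P072.FlatStatic

/-!
# The dissipation alternative for the flattened entropy-type function, uniform in the rates
-/

namespace Vale.Agent.Lib.P072

open Set

set_option linter.unusedSectionVars false

variable {R₁ R₂ ι : Type} [Fintype R₁] [Fintype R₂] [Fintype ι]

/-- The dissipation alternative for the flattened entropy-type function, uniform in the rate
vectors with entries in `[ε, ε⁻¹]`: every point of a positive class of the union either lies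
in a fixed box inside the positive orthant, or for every such rate vector the flattened
dissipation of the union is at most minus every monomial `exp (cw lo x (src r₀))` of `N₁`
(and `N₁` has a reaction). -/
theorem flat_static_alternativeK (N₁ : MAS R₁ ι) (N₂ : MAS R₂ ι) (lo hi : ι → ℝ)
    (hlo : ∀ i, 0 < lo i) (hle : ∀ i, lo i ≤ hi i)
    (h₁ : N₁.StronglyConnected) (hspan : N₂.stoich ≤ N₁.stoich) (ε : ℝ)
    (hsh : ∀ Cb : ℝ, ∃ Θ : ℝ, 0 ≤ Θ ∧ ∀ k : R₁ → ℝ, (∀ r, ε ≤ k r ∧ k r ≤ ε⁻¹) →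
      ∀ x : ι → ℝ, (∀ i, 0 < x i) → ∀ b : ι → ℝ, (∀ i, |b i| ≤ Cb) →
      ∀ r₁ r₂, Θ ≤ cw lo x (N₁.src r₁) - cw lo x (N₁.src r₂) →
      ∀ r₀, ∑ i, (Real.log (x i) - Real.log (lo i)) * N₁.fieldK k x i
          + ∑ i, b i * N₁.fieldK k x i ≤ - Real.exp (cw lo x (N₁.src r₀)))
    (h₂ : ∀ k : R₂ → ℝ, (∀ r, ε ≤ k r ∧ k r ≤ ε⁻¹) → ∀ x : ι → ℝ, (∀ i, 0 < x i) →
      ∑ i, (Real.log (x i) - Real.log (clampv lo hi x i)) * N₂.fieldK k x i ≤ 0)
    (c : ι → ℝ) (hc : ∀ i, 0 < c i) :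
    ∃ δ B : ℝ, 0 < δ ∧ ∀ x ∈ (N₁.union N₂).posClass c,
      (∀ i, δ ≤ x i ∧ x i ≤ B) ∨
      (Nonempty R₁ ∧ ∀ k : R₁ ⊕ R₂ → ℝ, (∀ r, ε ≤ k r ∧ k r ≤ ε⁻¹) → ∀ r₀ : R₁,
        ∑ i, (Real.log (x i) - Real.log (clampv lo hi x i)) * (N₁.union N₂).fieldK k x i
          ≤ - Real.exp (cw lo x (N₁.src r₀))) := by
  have hterm : ∀ i, 0 ≤ Real.log (hi i) - Real.log (lo i) := fun i =>
    sub_nonneg.mpr (Real.log_le_log (hlo i) (hle i))
  obtain ⟨Θ, -, hΘ⟩ := hsh (∑ i, (Real.log (hi i) - Real.log (lo i)))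
  obtain ⟨δ, B, hδ, hcore⟩ := core_bounds N₁ h₁ lo c hc Θ
  refine ⟨δ, B, hδ, ?_⟩
  rintro x ⟨hx, hxc⟩
  rw [union_stoich_of_le N₁ N₂ hspan] at hxc
  by_cases hsp : ∀ r₁ r₂, cw lo x (N₁.src r₁) - cw lo x (N₁.src r₂) ≤ Θ
  · exact Or.inl (hcore x hx hxc hsp)
  · right
    push Not at hsp
    obtain ⟨r₁, r₂, hr⟩ := hsp
    refine ⟨⟨r₁⟩, fun k hk r₀ => ?_⟩
    have hD₂ := h₂ (fun r => k (Sum.inr r)) (fun r => hk (Sum.inr r)) x hx
    have hU : ∑ i, (Real.log (x i) - Real.log (clampv lo hi x i)) *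
          (N₁.union N₂).fieldK k x i =
        ∑ i, (Real.log (x i) - Real.log (clampv lo hi x i)) *
          N₁.fieldK (fun r => k (Sum.inl r)) x i +
        ∑ i, (Real.log (x i) - Real.log (clampv lo hi x i)) *
          N₂.fieldK (fun r => k (Sum.inr r)) x i := by
      rw [union_fieldK, ← Finset.sum_add_distrib]
      refine Finset.sum_congr rfl (fun i _ => ?_)
      rw [Pi.add_apply, mul_add]
    have hb : ∀ i, |Real.log (lo i) - Real.log (clampv lo hi x i)| ≤
        ∑ j, (Real.log (hi j) - Real.log (lo j)) := by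
      intro i
      have e1 : Real.log (lo i) ≤ Real.log (clampv lo hi x i) :=
        Real.log_le_log (hlo i) (clampv_ge lo hi x i)
      have e2 : Real.log (clampv lo hi x i) ≤ Real.log (hi i) :=
        Real.log_le_log (clampv_pos lo hi x hlo i) (clampv_le lo hi x hle i)
      have e3 : Real.log (hi i) - Real.log (lo i) ≤
          ∑ j, (Real.log (hi j) - Real.log (lo j)) :=
        Finset.single_le_sum (f := fun j => Real.log (hi j) - Real.log (lo j))
          (fun j _ => hterm j) (Finset.mem_univ i)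
      rw [abs_le]
      constructor <;> linarith
    have hsplit : ∑ i, (Real.log (x i) - Real.log (clampv lo hi x i)) *
          N₁.fieldK (fun r => k (Sum.inl r)) x i =
        ∑ i, (Real.log (x i) - Real.log (lo i)) * N₁.fieldK (fun r => k (Sum.inl r)) x i +
        ∑ i, (Real.log (lo i) - Real.log (clampv lo hi x i)) *
          N₁.fieldK (fun r => k (Sum.inl r)) x i := by
      rw [← Finset.sum_add_distrib]
      refine Finset.sum_congr rfl (fun i _ => ?_)
      ring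
    have hD₁ := hΘ (fun r => k (Sum.inl r)) (fun r => hk (Sum.inl r)) x hx
      (fun i => Real.log (lo i) - Real.log (clampv lo hi x i)) hb r₁ r₂ hr.le r₀
    rw [hU, hsplit]
    linarith

end Vale.Agent.Lib.P072
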