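import Vale.Agent.Lib.P072.ColRatio
import Vale.Agent.Lib.P072.FlatKShift
import Vale.Agent.Lib.P072.FlatKStatic

/-!
# The dissipation alternative for the corrected entropy-type function, uniformly in the rates
-/

namespace Vale.Agent.Lib.P072

open Set

set_option linter.unusedSectionVars false

variable {R₁ R₂ ι : Type} [Fintype R₁] [Fintype R₂] [Fintype ι]

/-- The dissipation alternative, uniformly in the rates: let `N₁` be strongly connected, let
the reaction vectors of `N₂` lie in the stoichiometric subspace of `N₁`, and let the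
derivative of `colV v M` along the vector field of `N₂` with any rate vector with values in
`[ε, ε⁻¹]` be nonpositive. Then every point of a positive class of the union either lies in a
fixed box inside the positive orthant, or for every rate vector with values in `[ε, ε⁻¹]` the
derivative of `colV v M` along the vector field of the union is at most minus every monomial
`exp (cw 1 x (src r₀))` of `N₁` (and `N₁` has a reaction). -/
theorem col_static_alternativeK (N₁ : MAS R₁ ι) (N₂ : MAS R₂ ι)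
    (h₁ : N₁.StronglyConnected) (hspan : N₂.stoich ≤ N₁.stoich)
    (v : ι → ℝ) (hv0 : ∃ i, v i ≠ 0) (M : ℝ) (hM : 0 < M) {ε : ℝ} (hε : 0 < ε)
    (h₂ : ∀ k : R₂ → ℝ, (∀ r, ε ≤ k r ∧ k r ≤ ε⁻¹) → ∀ x : ι → ℝ, (∀ i, 0 < x i) →
      ∑ i, colGrad v M x i * N₂.fieldK k x i ≤ 0)
    (c : ι → ℝ) (hc : ∀ i, 0 < c i) :
    ∃ δ B : ℝ, 0 < δ ∧ ∀ x ∈ (N₁.union N₂).posClass c,
      (∀ i, δ ≤ x i ∧ x i ≤ B) ∨
      (Nonempty R₁ ∧ ∀ k : R₁ ⊕ R₂ → ℝ, (∀ r, ε ≤ k r ∧ k r ≤ ε⁻¹) → ∀ r₀ : R₁,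
        ∑ i, colGrad v M x i * (N₁.union N₂).fieldK k x i
          ≤ - Real.exp (cw (fun _ => 1) x (N₁.src r₀))) := by
  classical
  -- the smallest absolute value of a nonzero coordinate of the direction
  obtain ⟨umin, humin, hmin⟩ : ∃ umin : ℝ, 0 < umin ∧ ∀ i, v i ≠ 0 → umin ≤ |v i| := by
    obtain ⟨i0, hi0⟩ := hv0
    have hne : (Finset.univ.filter (fun i => v i ≠ 0)).Nonempty :=
      ⟨i0, Finset.mem_filter.mpr ⟨Finset.mem_univ i0, hi0⟩⟩
    obtain ⟨j, hj, hjmin⟩ := Finset.exists_min_image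
      (Finset.univ.filter (fun i => v i ≠ 0)) (fun i => |v i|) hne
    exact ⟨|v j|, abs_pos.mpr (Finset.mem_filter.mp hj).2,
      fun i hi => hjmin i (Finset.mem_filter.mpr ⟨Finset.mem_univ i, hi⟩)⟩
  obtain ⟨Θ, -, hΘ⟩ := dissip_shiftK_le N₁ h₁ (fun _ => 1) (fun _ => one_pos) hε (M / umin)
  obtain ⟨δ, B, hδ, hcore⟩ := core_bounds N₁ h₁ (fun _ => 1) c hc Θ
  refine ⟨δ, B, hδ, ?_⟩
  rintro x ⟨hx, hxc⟩
  rw [union_stoich_of_le N₁ N₂ hspan] at hxc
  by_cases hsp : ∀ r₁ r₂,
      cw (fun _ => 1) x (N₁.src r₁) - cw (fun _ => 1) x (N₁.src r₂) ≤ Θ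
  · exact Or.inl (hcore x hx hxc hsp)
  · right
    push Not at hsp
    obtain ⟨r₁, r₂, hr⟩ := hsp
    refine ⟨⟨r₁⟩, fun k hk r₀ => ?_⟩
    have hD₂ := h₂ (fun r => k (Sum.inr r)) (fun r => hk (Sum.inr r)) x hx
    have hD₁ : ∑ i, (Real.log (x i) - Real.log 1) * N₁.fieldK (fun r => k (Sum.inl r)) x i
          + ∑ i, slabGrad v M x i * N₁.fieldK (fun r => k (Sum.inl r)) x i
        ≤ - Real.exp (cw (fun _ => 1) x (N₁.src r₀)) :=
      hΘ (fun r => k (Sum.inl r)) (fun r => hk (Sum.inl r)) x hx (slabGrad v M x)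
        (fun i => slabGrad_abs_le v x hv0 hx M hM.le umin humin hmin i) r₁ r₂ hr.le r₀
    have hU : ∑ i, colGrad v M x i * (N₁.union N₂).fieldK k x i =
        (∑ i, (Real.log (x i) - Real.log 1) * N₁.fieldK (fun r => k (Sum.inl r)) x i
          + ∑ i, slabGrad v M x i * N₁.fieldK (fun r => k (Sum.inl r)) x i)
        + ∑ i, colGrad v M x i * N₂.fieldK (fun r => k (Sum.inr r)) x i := by
      rw [union_fieldK, ← Finset.sum_add_distrib, ← Finset.sum_add_distrib]
      refine Finset.sum_congr rfl (fun i _ => ?_)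
      rw [Pi.add_apply]
      simp only [colGrad, Real.log_one]
      ring
    rw [hU]
    linarith

end Vale.Agent.Lib.P072
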