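import Vale.Agent.Lib.P072.ColAbs

/-!
# The corrected entropy-type function: gradient, sublevel sets, bound on boxes
-/

namespace Vale.Agent.Lib.P072

open Set

set_option linter.unusedSectionVars false

variable {ι : Type} [Fintype ι]

lemma colV_hasGradOn (v : ι → ℝ) (hv0 : ∃ i, v i ≠ 0) (M : ℝ) (hM : 0 < M) :
    HasGradOn (colV v M) (colGrad v M) := by
  have h1 : HasGradOn (hEnt : (ι → ℝ) → ℝ) (fun x i => Real.log (x i)) :=
    hasGradOn_of_hasFDerivAt hEnt (fun x i => Real.log (x i))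
      (fun x hx => hasFDerivAt_hEnt x hx)
  have h2 := slabCorr_hasGradOn v hv0 M hM
  intro γ γ' s t hγ hpos
  have e1 := h1 γ γ' s t hγ hpos
  have e2 := h2 γ γ' s t hγ hpos
  have e3 := e1.add e2
  have hsum : ∑ i, colGrad v M (γ t) i * γ' i
      = ∑ i, Real.log (γ t i) * γ' i + ∑ i, slabGrad v M (γ t) i * γ' i := by
    rw [← Finset.sum_add_distrib]
    refine Finset.sum_congr rfl fun i _ => ?_
    unfold colGrad
    ring
  rw [hsum]
  exact e3

/-- A positive lower bound for the absolute values of the nonzero coordinates. -/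
private lemma colAux_umin (v : ι → ℝ) (hv0 : ∃ i, v i ≠ 0) :
    ∃ umin : ℝ, 0 < umin ∧ ∀ i, v i ≠ 0 → umin ≤ |v i| := by
  classical
  obtain ⟨i0, hi0⟩ := hv0
  have hne : (Finset.univ.filter fun i => v i ≠ 0).Nonempty :=
    ⟨i0, Finset.mem_filter.mpr ⟨Finset.mem_univ i0, hi0⟩⟩
  obtain ⟨j, hj, hmin⟩ := Finset.exists_min_image _ (fun i => |v i|) hne
  refine ⟨|v j|, abs_pos.mpr (Finset.mem_filter.mp hj).2, fun i hi => ?_⟩
  exact hmin i (Finset.mem_filter.mpr ⟨Finset.mem_univ i, hi⟩)

/-- The correction term grows at most linearly, with a constant depending only on `v, M`. -/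
private lemma colAux_corr (v : ι → ℝ) (hv0 : ∃ i, v i ≠ 0) (M : ℝ) (hM : 0 < M) :
    ∃ K : ℝ, 0 ≤ K ∧ ∀ x : ι → ℝ, (∀ i, 0 < x i) →
      |slabCorr v M x| ≤ K * ∑ i, |x i - 1| := by
  obtain ⟨umin, humin, hmin⟩ := colAux_umin v hv0
  refine ⟨Fintype.card ι * (M / umin), by positivity, fun x hx => ?_⟩
  exact slabCorr_abs_le v x hv0 hx M hM umin humin hmin

/-- The one-variable function `s * log s - (1 + K) * s - K` is bounded below. -/
private lemma colAux_phi_lower (K s : ℝ) (hs : 0 < s) :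
    -(Real.exp K + K) ≤ s * Real.log s - (1 + K) * s - K := by
  have h := Real.log_le_sub_one_of_pos (show 0 < Real.exp K / s by positivity)
  rw [Real.log_div (Real.exp_ne_zero K) hs.ne', Real.log_exp] at h
  have h2 := mul_le_mul_of_nonneg_right h hs.le
  have h3 : (Real.exp K / s - 1) * s = Real.exp K - s := by field_simp
  have h4 : (K - Real.log s) * s = K * s - s * Real.log s := by ring
  rw [h3, h4] at h2
  linarith

/-- The one-variable function `s * log s - (1 + K) * s - K` is at least `s - K` for large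
`s`. -/
private lemma colAux_phi_large (K s : ℝ) (hs : Real.exp (K + 2) ≤ s) :
    s - K ≤ s * Real.log s - (1 + K) * s - K := by
  have hs0 : 0 < s := lt_of_lt_of_le (Real.exp_pos _) hs
  have hlog : K + 2 ≤ Real.log s := by
    rw [Real.le_log_iff_exp_le hs0]
    exact hs
  have h := mul_le_mul_of_nonneg_left hlog hs0.le
  linarith

theorem colV_sublevel_bdd (v : ι → ℝ) (hv0 : ∃ i, v i ≠ 0) (M : ℝ) (hM : 0 < M) (L : ℝ) :
    ∃ B' : ℝ, ∀ x : ι → ℝ, (∀ i, 0 < x i) → colV v M x ≤ L → ∀ i, x i ≤ B' := by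
  obtain ⟨K, hK, hcorr⟩ := colAux_corr v hv0 M hM
  refine ⟨max (Real.exp (K + 2)) (L + Fintype.card ι * (Real.exp K + K) + K),
    fun x hx hL i => ?_⟩
  have hc := hcorr x hx
  have hsum1 : ∑ j, |x j - 1| ≤ ∑ j, (x j + 1) := Finset.sum_le_sum fun j _ => by
    rw [abs_le]
    constructor <;> linarith [hx j]
  have hlow : ∑ j, (x j * Real.log (x j) - (1 + K) * x j - K) ≤ colV v M x := by
    unfold colV hEnt
    have h1 : -(K * ∑ j, (x j + 1)) ≤ slabCorr v M x := by
      have h0 := neg_abs_le (slabCorr v M x)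
      have h2 : K * ∑ j, |x j - 1| ≤ K * ∑ j, (x j + 1) :=
        mul_le_mul_of_nonneg_left hsum1 hK
      linarith
    have h3 : ∑ j, (x j * Real.log (x j) - (1 + K) * x j - K)
        = ∑ j, (x j * Real.log (x j) - x j) - K * ∑ j, (x j + 1) := by
      rw [Finset.mul_sum, ← Finset.sum_sub_distrib]
      refine Finset.sum_congr rfl fun j _ => ?_
      ring
    rw [h3]
    linarith
  have hnn : ∀ j ∈ Finset.univ,
      0 ≤ x j * Real.log (x j) - (1 + K) * x j - K + (Real.exp K + K) := by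
    intro j _
    have h0 := colAux_phi_lower K (x j) (hx j)
    linarith
  have hsingle := Finset.single_le_sum hnn (Finset.mem_univ i)
  rw [Finset.sum_add_distrib, Finset.sum_const, Finset.card_univ, nsmul_eq_mul] at hsingle
  have hE : 0 ≤ Real.exp K + K := by positivity
  by_cases hbig : Real.exp (K + 2) ≤ x i
  · have h4 := colAux_phi_large K (x i) hbig
    refine le_trans ?_ (le_max_right _ _)
    linarith
  · push Not at hbig
    exact le_trans hbig.le (le_max_left _ _)

theorem colV_le_of_box (v : ι → ℝ) (hv0 : ∃ i, v i ≠ 0) (M : ℝ) (hM : 0 < M) (δ B : ℝ)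
    (hδ : 0 < δ) :
    ∃ G₀ : ℝ, ∀ x : ι → ℝ, (∀ i, δ ≤ x i ∧ x i ≤ B) → colV v M x ≤ G₀ := by
  obtain ⟨K, hK, hcorr⟩ := colAux_corr v hv0 M hM
  refine ⟨Fintype.card ι * (|B| * (|Real.log δ| + |Real.log B| + 1))
      + K * (Fintype.card ι * (|B| + 1)), fun x hx => ?_⟩
  have hpos : ∀ i, 0 < x i := fun i => lt_of_lt_of_le hδ (hx i).1
  have hc := hcorr x hpos
  have h1 : ∑ i, |x i - 1| ≤ ∑ _i : ι, (|B| + 1) := Finset.sum_le_sum fun i _ => by
    have hB : x i ≤ |B| := le_trans (hx i).2 (le_abs_self B)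
    rw [abs_le]
    constructor <;> linarith [hpos i, abs_nonneg B]
  rw [Finset.sum_const, Finset.card_univ, nsmul_eq_mul] at h1
  have h2 : hEnt x ≤ ∑ _i : ι, (|B| * (|Real.log δ| + |Real.log B| + 1)) := by
    unfold hEnt
    refine Finset.sum_le_sum fun i _ => ?_
    have hl1 : Real.log δ ≤ Real.log (x i) := Real.log_le_log hδ (hx i).1
    have hl2 : Real.log (x i) ≤ Real.log B := Real.log_le_log (hpos i) (hx i).2
    have hl : |Real.log (x i)| ≤ |Real.log δ| + |Real.log B| := by
      rw [abs_le]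
      constructor
      · linarith [neg_abs_le (Real.log δ), abs_nonneg (Real.log B)]
      · linarith [le_abs_self (Real.log B), abs_nonneg (Real.log δ)]
    have hxB : x i ≤ |B| := le_trans (hx i).2 (le_abs_self B)
    have h3 : x i * Real.log (x i) ≤ x i * |Real.log (x i)| :=
      mul_le_mul_of_nonneg_left (le_abs_self _) (hpos i).le
    have h4 : x i * |Real.log (x i)| ≤ |B| * (|Real.log δ| + |Real.log B|) :=
      mul_le_mul hxB hl (abs_nonneg _) (abs_nonneg _)
    have h5 : (0 : ℝ) ≤ |B| := abs_nonneg B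
    linarith [hpos i]
  rw [Finset.sum_const, Finset.card_univ, nsmul_eq_mul] at h2
  unfold colV
  have h6 : slabCorr v M x ≤ K * (Fintype.card ι * (|B| + 1)) := by
    have h0 := le_abs_self (slabCorr v M x)
    have h7 : K * ∑ i, |x i - 1| ≤ K * (Fintype.card ι * (|B| + 1)) :=
      mul_le_mul_of_nonneg_left h1 hK
    linarith
  linarith

end Vale.Agent.Lib.P072
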