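import Vale.Agent.Lib.P072.ColRatio
import Vale.Agent.Lib.P072.FlatShift

/-!
# The dissipation alternative for the corrected entropy-type function
-/

namespace Vale.Agent.Lib.P072

open Set

set_option linter.unusedSectionVars false

variable {R₁ R₂ ι : Type} [Fintype R₁] [Fintype R₂] [Fintype ι]

/-- The dissipation alternative: let `N₁` be strongly connected, let the reaction vectors of
`N₂` lie in the stoichiometric subspace of `N₁`, and let the vector field of `N₂` be `g x • v`
with `g` positive where the logarithmic coordinate along `v` is at most `-M` and negative where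
it is at least `M`. Then every point of a positive class of the union either lies in a fixed
box inside the positive orthant, or the derivative of `colV v M` along the vector field of the
union is at most minus every monomial `exp (cw 1 x (src r₀))` of `N₁` (and `N₁` has a
reaction). -/
theorem col_static_alternative (N₁ : MAS R₁ ι) (N₂ : MAS R₂ ι)
    (h₁ : N₁.StronglyConnected) (hspan : N₂.stoich ≤ N₁.stoich)
    (v : ι → ℝ) (hv0 : ∃ i, v i ≠ 0) (g : (ι → ℝ) → ℝ) (M : ℝ) (hM : 0 < M)
    (hf : ∀ x, N₂.field x = g x • v)
    (hpos : ∀ x : ι → ℝ, (∀ i, 0 < x i) → logCoord v x ≤ -M → 0 < g x)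
    (hneg : ∀ x : ι → ℝ, (∀ i, 0 < x i) → M ≤ logCoord v x → g x < 0)
    (c : ι → ℝ) (hc : ∀ i, 0 < c i) :
    ∃ δ B : ℝ, 0 < δ ∧ ∀ x ∈ (N₁.union N₂).posClass c,
      (∀ i, δ ≤ x i ∧ x i ≤ B) ∨
      (Nonempty R₁ ∧ ∀ r₀ : R₁,
        ∑ i, colGrad v M x i * (N₁.union N₂).field x i
          ≤ - Real.exp (cw (fun _ => 1) x (N₁.src r₀))) := by
  classical
  -- the smallest absolute value of a nonzero coordinate of the direction
  obtain ⟨umin, humin, hmin⟩ : ∃ umin : ℝ, 0 < umin ∧ ∀ i, v i ≠ 0 → umin ≤ |v i| := by
    obtain ⟨i0, hi0⟩ := hv0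
    have hne : (Finset.univ.filter (fun i => v i ≠ 0)).Nonempty :=
      ⟨i0, Finset.mem_filter.mpr ⟨Finset.mem_univ i0, hi0⟩⟩
    obtain ⟨j, hj, hjmin⟩ := Finset.exists_min_image
      (Finset.univ.filter (fun i => v i ≠ 0)) (fun i => |v i|) hne
    exact ⟨|v j|, abs_pos.mpr (Finset.mem_filter.mp hj).2,
      fun i hi => hjmin i (Finset.mem_filter.mpr ⟨Finset.mem_univ i, hi⟩)⟩
  obtain ⟨Θ, -, hΘ⟩ := dissip_shift_le N₁ h₁ (fun _ => 1) (fun _ => one_pos) (M / umin)
  obtain ⟨δ, B, hδ, hcore⟩ := core_bounds N₁ h₁ (fun _ => 1) c hc Θ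
  refine ⟨δ, B, hδ, ?_⟩
  rintro x ⟨hx, hxc⟩
  rw [union_stoich_of_le N₁ N₂ hspan] at hxc
  by_cases hsp : ∀ r₁ r₂,
      cw (fun _ => 1) x (N₁.src r₁) - cw (fun _ => 1) x (N₁.src r₂) ≤ Θ
  · exact Or.inl (hcore x hx hxc hsp)
  · right
    push Not at hsp
    obtain ⟨r₁, r₂, hr⟩ := hsp
    refine ⟨⟨r₁⟩, fun r₀ => ?_⟩
    have hD₁ := hΘ x hx (slabGrad v M x)
      (fun i => slabGrad_abs_le v x hv0 hx M hM.le umin humin hmin i) r₁ r₂ hr.le r₀
    have hdis : N₁.dissip (fun _ => 1) x = ∑ i, Real.log (x i) * N₁.field x i := by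
      unfold MAS.dissip
      refine Finset.sum_congr rfl (fun i _ => ?_)
      simp
    have hsplit : ∑ i, colGrad v M x i * (N₁.union N₂).field x i =
        (N₁.dissip (fun _ => 1) x + ∑ i, slabGrad v M x i * N₁.field x i) +
          g x * ∑ i, colGrad v M x i * v i := by
      rw [union_field, hf x, hdis, Finset.mul_sum, ← Finset.sum_add_distrib,
        ← Finset.sum_add_distrib]
      refine Finset.sum_congr rfl (fun i _ => ?_)
      rw [Pi.add_apply, Pi.smul_apply, smul_eq_mul]
      simp only [colGrad]
      ring
    have hpair : ∑ i, colGrad v M x i * v i = logCoord v x - clampR M (logCoord v x) := by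
      have h := slabGrad_pair v x hv0 hx M
      have e : ∑ i, colGrad v M x i * v i =
          logCoord v x + ∑ i, v i * slabGrad v M x i := by
        unfold logCoord
        rw [← Finset.sum_add_distrib]
        refine Finset.sum_congr rfl (fun i _ => ?_)
        simp only [colGrad]
        ring
      rw [e, h]
      ring
    have hlast : g x * (logCoord v x - clampR M (logCoord v x)) ≤ 0 := by
      by_cases hs1 : M ≤ logCoord v x
      · have hg := hneg x hx hs1
        have hcl : clampR M (logCoord v x) = M := by
          unfold clampR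
          rw [min_eq_left hs1, max_eq_right (by linarith)]
        rw [hcl]
        have hd : 0 ≤ logCoord v x - M := by linarith
        have hprod := mul_nonneg (neg_nonneg.mpr hg.le) hd
        linarith
      · by_cases hs2 : logCoord v x ≤ -M
        · have hg := hpos x hx hs2
          have hcl : clampR M (logCoord v x) = -M := by
            unfold clampR
            rw [min_eq_right (by linarith), max_eq_left hs2]
          rw [hcl]
          have hd : 0 ≤ -(logCoord v x - -M) := by linarith
          have hprod := mul_nonneg hg.le hd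
          linarith
        · have hcl : clampR M (logCoord v x) = logCoord v x := by
            unfold clampR
            rw [min_eq_right (by linarith), max_eq_right (by linarith)]
          rw [hcl, sub_self, mul_zero]
    rw [hsplit, hpair]
    linarith

end Vale.Agent.Lib.P072
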