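import Vale.Agent.Lib.P072.FlatDefs
import Vale.Agent.Lib.P072.BalStatic

/-!
# The face functions do not increase near the faces of the orthant
-/

namespace Vale.Agent.Lib.P072

open Set

set_option linter.unusedSectionVars false

variable {R₁ R₂ ι : Type} [Fintype R₁] [Fintype R₂] [Fintype ι]

/-- Corner estimate: let `N₁` be strongly connected and satisfy the shifted tier estimate `hsh`
relative to `lam`, let the reaction vectors of `N₂` lie in the stoichiometric subspace of
`N₁`, and let the `i`-th component of the vector field of `N₂` be nonnegative wherever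
`x i ≤ lam i`. Then for every `η > 0` and `B` there is `ε > 0` such that at every point of
the class with all coordinates at most `B`, the coordinates outside `W` at least `η` and the
coordinates in `W` at most `ε`, the derivative of the face function of `W` along the vector
field of the union is nonpositive. -/
theorem corner_nonpos (N₁ : MAS R₁ ι) (N₂ : MAS R₂ ι) (lam : ι → ℝ) (hlam : ∀ i, 0 < lam i)
    (h₁ : N₁.StronglyConnected) (hspan : N₂.stoich ≤ N₁.stoich)
    (hsh : ∀ Cb : ℝ, ∃ Θ : ℝ, 0 ≤ Θ ∧ ∀ x : ι → ℝ, (∀ i, 0 < x i) → ∀ b : ι → ℝ,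
      (∀ i, |b i| ≤ Cb) → ∀ r₁ r₂, Θ ≤ cw lam x (N₁.src r₁) - cw lam x (N₁.src r₂) →
      ∀ r₀, N₁.dissip lam x + ∑ i, b i * N₁.field x i ≤ - Real.exp (cw lam x (N₁.src r₀)))
    (hth : ∀ x : ι → ℝ, (∀ j, 0 < x j) → ∀ i, x i ≤ lam i → 0 ≤ N₂.field x i)
    (c : ι → ℝ) (hc : ∀ i, 0 < c i) (η B : ℝ) (hη : 0 < η) :
    ∃ ε : ℝ, 0 < ε ∧ (∀ i, ε ≤ lam i) ∧ ∀ W : Finset ι, W.Nonempty →
      ∀ x ∈ (N₁.union N₂).posClass c, (∀ i, x i ≤ B) → (∀ j, j ∉ W → η ≤ x j) →
      (∀ i ∈ W, x i ≤ ε) →
      ∑ i ∈ W, (Real.log (x i) - Real.log (lam i)) * (N₁.union N₂).field x i ≤ 0 := by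
  classical
  rcases isEmpty_or_nonempty ι with hι | hι
  · refine ⟨1, one_pos, fun i => isEmptyElim i, fun W hW => ?_⟩
    obtain ⟨i, -⟩ := hW
    exact isEmptyElim i
  obtain ⟨imin, -, hmin⟩ := Finset.exists_min_image Finset.univ lam Finset.univ_nonempty
  obtain ⟨Cb, hCb⟩ : ∃ Cb : ℝ,
      Cb = |Real.log η| + |Real.log B| + ∑ i, |Real.log (lam i)| := ⟨_, rfl⟩
  obtain ⟨Θ, -, hΘ⟩ := hsh Cb
  obtain ⟨δc, Bc, hδc, hcore⟩ := core_bounds N₁ h₁ lam c hc Θ
  have hεle : ∀ i, min (δc / 2) (lam imin) ≤ lam i :=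
    fun i => (min_le_right _ _).trans (hmin i (Finset.mem_univ i))
  refine ⟨min (δc / 2) (lam imin), lt_min (by linarith) (hlam imin), hεle, ?_⟩
  intro W hW x hxP hxB hxη hxε
  obtain ⟨hx, hxc⟩ := hxP
  rw [union_stoich_of_le N₁ N₂ hspan] at hxc
  obtain ⟨i₀, hi₀⟩ := hW
  -- the sum splits into the parts of the two systems
  have hsplit : ∑ i ∈ W, (Real.log (x i) - Real.log (lam i)) * (N₁.union N₂).field x i
      = ∑ i ∈ W, (Real.log (x i) - Real.log (lam i)) * N₁.field x i
        + ∑ i ∈ W, (Real.log (x i) - Real.log (lam i)) * N₂.field x i := by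
    rw [union_field, ← Finset.sum_add_distrib]
    refine Finset.sum_congr rfl (fun i _ => ?_)
    rw [Pi.add_apply, mul_add]
  -- the part of the second system
  have hN2 : ∑ i ∈ W, (Real.log (x i) - Real.log (lam i)) * N₂.field x i ≤ 0 := by
    refine Finset.sum_nonpos (fun i hi => ?_)
    have hxi : x i ≤ lam i := (hxε i hi).trans (hεle i)
    have hlog : Real.log (x i) ≤ Real.log (lam i) := Real.log_le_log (hx i) hxi
    exact mul_nonpos_of_nonpos_of_nonneg (by linarith) (hth x hx i hxi)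
  -- the part of the first system, as a shifted dissipation
  obtain ⟨b, hb⟩ : ∃ b : ι → ℝ, ∀ i,
      b i = if i ∈ W then 0 else -(Real.log (x i) - Real.log (lam i)) := ⟨_, fun _ => rfl⟩
  have hbW : ∀ i, i ∈ W → b i = 0 := fun i hi => by rw [hb i, if_pos hi]
  have hbn : ∀ i, i ∉ W → b i = -(Real.log (x i) - Real.log (lam i)) :=
    fun i hi => by rw [hb i, if_neg hi]
  have hbb : ∀ i, |b i| ≤ Cb := by
    intro i
    have hsum : |Real.log (lam i)| ≤ ∑ j, |Real.log (lam j)| :=
      Finset.single_le_sum (f := fun j => |Real.log (lam j)|) (fun j _ => abs_nonneg _)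
        (Finset.mem_univ i)
    have hη0 := abs_nonneg (Real.log η)
    have hB0 := abs_nonneg (Real.log B)
    by_cases hi : i ∈ W
    · rw [hbW i hi, abs_zero, hCb]
      have hs0 : 0 ≤ ∑ j, |Real.log (lam j)| := Finset.sum_nonneg (fun j _ => abs_nonneg _)
      linarith
    · rw [hbn i hi, abs_neg, hCb]
      have h1 : Real.log η ≤ Real.log (x i) := Real.log_le_log hη (hxη i hi)
      have h2 : Real.log (x i) ≤ Real.log B := Real.log_le_log (hx i) (hxB i)
      have h3 : |Real.log (x i)| ≤ |Real.log η| + |Real.log B| := by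
        rw [abs_le]
        constructor
        · have h5 := neg_abs_le (Real.log η)
          linarith
        · have h5 := le_abs_self (Real.log B)
          linarith
      have h4 : |Real.log (x i) - Real.log (lam i)| ≤ |Real.log (x i)| + |Real.log (lam i)| :=
        abs_sub _ _
      linarith
  have hid : ∑ i ∈ W, (Real.log (x i) - Real.log (lam i)) * N₁.field x i
      = N₁.dissip lam x + ∑ i, b i * N₁.field x i := by
    have h1 : ∑ i ∈ W, (Real.log (x i) - Real.log (lam i)) * N₁.field x i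
        = ∑ i, if i ∈ W then (Real.log (x i) - Real.log (lam i)) * N₁.field x i else 0 := by
      rw [Finset.sum_ite_mem, Finset.univ_inter]
    rw [h1]
    unfold MAS.dissip
    rw [← Finset.sum_add_distrib]
    refine Finset.sum_congr rfl (fun i _ => ?_)
    by_cases hi : i ∈ W
    · rw [if_pos hi, hbW i hi]
      ring
    · rw [if_neg hi, hbn i hi]
      ring
  -- the spread is large, since a coordinate of `x` is small
  have hspread : ¬ ∀ r₁ r₂, cw lam x (N₁.src r₁) - cw lam x (N₁.src r₂) ≤ Θ := by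
    intro hall
    have h := (hcore x hx hxc hall i₀).1
    have h2 : x i₀ ≤ min (δc / 2) (lam imin) := hxε i₀ hi₀
    have h3 := min_le_left (δc / 2) (lam imin)
    linarith
  push Not at hspread
  obtain ⟨r₁, r₂, hr⟩ := hspread
  have hD := hΘ x hx b hbb r₁ r₂ hr.le r₁
  have hpos := Real.exp_pos (cw lam x (N₁.src r₁))
  rw [hsplit, hid]
  linarith

end Vale.Agent.Lib.P072
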