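import Vale.Agent.Lib.P072.BalEntropy

/-!
# The face functions along solutions
-/

namespace Vale.Agent.Lib.P072

open Set

set_option linter.unusedSectionVars false

variable {R ι : Type} [Fintype R] [Fintype ι]

/-- Chain rule for a face function along a positive curve. -/
private lemma flatFace_hasDeriv (lam : ι → ℝ) (W : Finset ι) {γ : ℝ → ι → ℝ} {γ' : ι → ℝ}
    {s : Set ℝ} {t : ℝ} (hγ : HasDerivWithinAt γ γ' s t) (hpos : ∀ i, 0 < γ t i) :
    HasDerivWithinAt (fun τ => ∑ i ∈ W, γ τ i * (Real.log (γ τ i) - Real.log (lam i) - 1))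
      (∑ i ∈ W, (Real.log (γ t i) - Real.log (lam i)) * γ' i) s t := by
  apply HasDerivWithinAt.fun_sum
  intro i _
  have hi : HasDerivWithinAt (fun τ => γ τ i) (γ' i) s t := hasDerivWithinAt_pi.mp hγ i
  have hlog : HasDerivWithinAt (fun τ => Real.log (γ τ i)) (γ' i / γ t i) s t :=
    hi.log (hpos i).ne'
  have hprod := hi.mul ((hlog.sub_const (Real.log (lam i))).sub_const 1)
  have e : γ' i * (Real.log (γ t i) - Real.log (lam i) - 1) + γ t i * (γ' i / γ t i)
      = (Real.log (γ t i) - Real.log (lam i)) * γ' i := by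
    have hne : γ t i ≠ 0 := (hpos i).ne'
    field_simp
    ring
  rw [e] at hprod
  exact hprod

/-- Along a positive solution the face function
`∑ i ∈ W, x i * (log (x i) - log (lam i) - 1)` does not increase on an interval on which its
derivative along the vector field is nonpositive. -/
lemma face_antitone (N : MAS R ι) (lam : ι → ℝ) (W : Finset ι) {x : ℝ → ι → ℝ}
    (hx : N.IsSol x) (hpos : ∀ t, 0 ≤ t → ∀ i, 0 < x t i) {a b : ℝ} (ha : 0 ≤ a) (hab : a ≤ b)
    (hneg : ∀ t ∈ Ico a b,
      ∑ i ∈ W, (Real.log (x t i) - Real.log (lam i)) * N.field (x t) i ≤ 0) :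
    ∑ i ∈ W, x b i * (Real.log (x b i) - Real.log (lam i) - 1) ≤
      ∑ i ∈ W, x a i * (Real.log (x a i) - Real.log (lam i) - 1) := by
  obtain ⟨F, hF⟩ : ∃ F : ℝ → ℝ,
      F = fun τ => ∑ i ∈ W, x τ i * (Real.log (x τ i) - Real.log (lam i) - 1) := ⟨_, rfl⟩
  have hd : ∀ t, 0 ≤ t → HasDerivWithinAt F
      (∑ i ∈ W, (Real.log (x t i) - Real.log (lam i)) * N.field (x t) i) (Ici 0) t := by
    intro t ht
    rw [hF]
    exact flatFace_hasDeriv lam W (hx t ht) (hpos t ht)
  have hcont : ContinuousOn F (Icc a b) := by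
    intro t ht
    have h0 : 0 ≤ t := le_trans ha ht.1
    exact ((hd t h0).continuousWithinAt).mono (fun s hs => le_trans ha hs.1)
  have key := image_le_of_deriv_right_le_deriv_boundary (f := F)
    (f' := fun t => ∑ i ∈ W, (Real.log (x t i) - Real.log (lam i)) * N.field (x t) i)
    (a := a) (b := b) hcont
    (fun t ht => (hd t (le_trans ha ht.1)).mono (Ici_subset_Ici.mpr (le_trans ha ht.1)))
    (B := fun _ => F a) (B' := fun _ => 0)
    le_rfl continuousOn_const
    (fun t _ => hasDerivWithinAt_const t (Ici t) (F a)) hneg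
  have h := key (right_mem_Icc.mpr hab)
  rw [hF] at h
  exact h

end Vale.Agent.Lib.P072
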