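import Vale.Agent.Lib.P072.FlatThresh
import Vale.Agent.Lib.P072.FlatShift
import Vale.Agent.Lib.P072.FlatStatic
import Vale.Agent.Lib.P072.FlatCorner
import Vale.Agent.Lib.P072.FlatBounded
import Vale.Agent.Lib.P072.FlatBarrier
import Vale.Agent.Lib.P072.FlatFace
import Vale.Agent.Lib.P072.BalMain2

/-!
# Permanence for a strongly connected system joined with a system with coordinate thresholds

If `N₁` is strongly connected, the reaction vectors of `N₂` lie in the stoichiometric subspace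
of `N₁`, and `N₂` has coordinate thresholds (in particular if `N₂` is source dominated), then
the union is permanent on every positive stoichiometric class.
-/

namespace Vale.Agent.Lib.P072

open Set

set_option linter.unusedSectionVars false

variable {R R₁ R₂ ι : Type} [Fintype R] [Fintype R₁] [Fintype R₂] [Fintype ι]

lemma mono_const_le (y : ι → ℕ) (x : ι → ℝ) (d : ℝ) (hd : 0 < d) (hx : ∀ i, d ≤ x i) :
    mono y (fun _ => d) ≤ mono y x := by
  unfold mono
  exact Finset.prod_le_prod (fun i _ => pow_nonneg hd.le _)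
    (fun i _ => pow_le_pow_left₀ hd.le (hx i) _)

/-- Permanence from coordinate thresholds: if `N₁` is strongly connected, the reaction vectors
of `N₂` lie in the stoichiometric subspace of `N₁`, and for every species `i` the `i`-th
component of the vector field of `N₂` is nonnegative wherever `x i ≤ lo i` and nonpositive
wherever `hi i ≤ x i`, then the union system is permanent on every positive stoichiometric
class. -/
theorem union_permanentOn_of_thresholds (N₁ : MAS R₁ ι) (N₂ : MAS R₂ ι)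
    (h₁ : N₁.StronglyConnected) (hspan : N₂.stoich ≤ N₁.stoich)
    (lo hi : ι → ℝ) (hlo : ∀ i, 0 < lo i) (hle : ∀ i, lo i ≤ hi i)
    (hth : ∀ x : ι → ℝ, (∀ j, 0 < x j) → ∀ i,
      (x i ≤ lo i → 0 ≤ N₂.field x i) ∧ (hi i ≤ x i → N₂.field x i ≤ 0))
    (c : ι → ℝ) : (N₁.union N₂).PermanentOn ((N₁.union N₂).posClass c) := by
  classical
  by_cases hne : ((N₁.union N₂).posClass c).Nonempty
  swap
  · rw [Set.not_nonempty_iff_eq_empty] at hne
    rw [hne]
    exact ⟨fun x hx => absurd hx (Set.notMem_empty x), fun x hx => absurd hx (Set.notMem_empty _),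
      ∅, isCompact_empty, Set.empty_subset _, fun x hx => absurd hx (Set.notMem_empty _)⟩
  obtain ⟨c', hc'⟩ := hne
  rw [posClass_eq_of_mem _ hc']
  have hsh : ∀ Cb : ℝ, ∃ Θ : ℝ, 0 ≤ Θ ∧ ∀ x : ι → ℝ, (∀ i, 0 < x i) → ∀ b : ι → ℝ,
      (∀ i, |b i| ≤ Cb) → ∀ r₁ r₂, Θ ≤ cw lo x (N₁.src r₁) - cw lo x (N₁.src r₂) →
      ∀ r₀, N₁.dissip lo x + ∑ i, b i * N₁.field x i ≤ - Real.exp (cw lo x (N₁.src r₀)) :=
    fun Cb => dissip_shift_le N₁ h₁ lo hlo Cb
  have h₂ : ∀ x : ι → ℝ, (∀ i, 0 < x i) → N₂.flatDissip lo hi x ≤ 0 :=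
    fun x hx => flatDissip_nonpos_of_thresholds N₂ lo hi hlo hle hth x hx
  obtain ⟨δ, B, hδ, halt⟩ :=
    flat_static_alternative N₁ N₂ lo hi hlo hle h₁ hspan hsh h₂ c' hc'.1
  have hweak : ∀ x ∈ (N₁.union N₂).posClass c',
      (∀ i, δ ≤ x i ∧ x i ≤ B) ∨ (N₁.union N₂).flatDissip lo hi x < 0 := by
    intro x hx
    rcases halt x hx with h | ⟨⟨r₀⟩, h⟩
    · exact Or.inl h
    · exact Or.inr (lt_of_le_of_lt (h r₀) (neg_lt_zero.mpr (Real.exp_pos _)))
  obtain ⟨hex, hstay, hbdd⟩ :=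
    boundedOn_of_flatDissip (N₁.union N₂) lo hi hlo hle c' δ B hδ hweak
  refine ⟨hex, hstay, ?_⟩
  obtain ⟨G₀, hG₀⟩ := flatEntropy_le_of_box lo hi hlo hle δ B hδ
  obtain ⟨B₁, hB₁⟩ := flatEntropy_sublevel_bdd lo hi hlo hle (G₀ + 1)
  -- the corner constants, as a function of the upper bound and of `η`
  have hEex : ∀ B' : ℝ, ∃ E : ℝ → ℝ, ∀ η, 0 < η → (0 < E η ∧ (∀ i, E η ≤ lo i) ∧
      ∀ W : Finset ι, W.Nonempty → ∀ x ∈ (N₁.union N₂).posClass c', (∀ i, x i ≤ B') →
      (∀ j, j ∉ W → η ≤ x j) → (∀ i ∈ W, x i ≤ E η) →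
      ∑ i ∈ W, (Real.log (x i) - Real.log (lo i)) * (N₁.union N₂).field x i ≤ 0) := by
    intro B'
    have hcorner := fun (η : ℝ) (hη : 0 < η) => corner_nonpos N₁ N₂ lo hlo h₁ hspan hsh
      (fun x hx i hi => (hth x hx i).1 hi) c' hc'.1 η B' hη
    choose! E hE using hcorner
    exact ⟨E, hE⟩
  -- the barrier step for solutions bounded by `B'` from time `a` on
  have hstep : ∀ (B' δ₀ : ℝ), 0 < δ₀ → ∃ δf : ℝ, 0 < δf ∧ ∀ x : ℝ → ι → ℝ,
      x 0 ∈ (N₁.union N₂).posClass c' → (N₁.union N₂).IsSol x → ∀ a, 0 ≤ a →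
      (∀ i, δ₀ ≤ x a i) → (∀ t, a ≤ t → ∀ i, x t i ≤ B') → ∀ t, a ≤ t → ∀ i, δf ≤ x t i := by
    intro B' δ₀ hδ₀
    obtain ⟨E, hE⟩ := hEex B'
    obtain ⟨δf, hδf, hbar⟩ := barrier_lower_bound lo hlo E
      (fun η hη => ⟨(hE η hη).1, (hE η hη).2.1⟩) δ₀ hδ₀
    refine ⟨δf, hδf, fun x hx0 hx a ha hxa hxB => ?_⟩
    have hP : ∀ t, 0 ≤ t → x t ∈ (N₁.union N₂).posClass c' := hstay x hx0 hx
    have hcont : ContinuousOn x (Ici a) := by
      intro t ht
      exact ((hx t (le_trans ha ht)).continuousWithinAt).mono (Ici_subset_Ici.mpr ha)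
    refine hbar x a (fun t ht => (hP t (le_trans ha ht)).1) hcont hxa ?_
    intro W η hW hη s t hs hst hτ
    refine face_antitone (N₁.union N₂) lo W hx (fun t ht => (hP t ht).1) (le_trans ha hs) hst ?_
    intro τ hτ'
    have hτm : τ ∈ Icc s t := ⟨hτ'.1, hτ'.2.le⟩
    exact (hE η hη).2.2 W hW (x τ) (hP τ (le_trans (le_trans ha hs) hτ'.1))
      (hxB τ (le_trans hs hτ'.1)) (hτ τ hτm).1 (hτ τ hτm).2
  obtain ⟨δf, hδf, hfin⟩ := hstep B₁ δ hδ
  refine ⟨{x | x - c' ∈ (N₁.union N₂).stoich} ∩ Icc (fun _ => δf) (fun _ => B₁),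
    isCompact_Icc.inter_left (isClosed_class _ c'), ?_, ?_⟩
  · rintro x ⟨hxc, hxl, -⟩
    exact ⟨fun i => lt_of_lt_of_le hδf (hxl i), hxc⟩
  · intro x hx0 hx
    have hP : ∀ t, 0 ≤ t → x t ∈ (N₁.union N₂).posClass c' := hstay x hx0 hx
    have hpos : ∀ t, 0 ≤ t → ∀ i, 0 < x t i := fun t ht => (hP t ht).1
    -- the solution enters the box at some time
    have hT₁ : ∃ T₁, 0 ≤ T₁ ∧ ∀ i, δ ≤ x T₁ i ∧ x T₁ i ≤ B := by
      by_contra hcon
      have hout : ∀ t, 0 ≤ t → ¬ (∀ i, δ ≤ x t i ∧ x t i ≤ B) :=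
        fun t ht hbox => hcon ⟨t, ht, hbox⟩
      rcases isEmpty_or_nonempty ι with hι | hι
      · exact hout 0 le_rfl (fun i => isEmptyElim i)
      obtain ⟨Bx, hBx⟩ := hbdd x hx0 hx
      obtain ⟨i₀, -, hi₀⟩ := Finset.exists_min_image Finset.univ (fun i => x 0 i)
        Finset.univ_nonempty
      obtain ⟨d, hd, hdx⟩ := hstep Bx (x 0 i₀) (hpos 0 le_rfl i₀)
      have hlow : ∀ t, 0 ≤ t → ∀ i, d ≤ x t i :=
        hdx x hx0 hx 0 le_rfl (fun i => hi₀ i (Finset.mem_univ i)) (fun t ht i => hBx t ht i)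
      have hR : Nonempty R₁ := by
        rcases halt (x 0) (hP 0 le_rfl) with h | h
        · exact absurd h (hout 0 le_rfl)
        · exact h.1
      obtain ⟨r₀⟩ := hR
      set κ : ℝ := mono (N₁.src r₀) (fun _ => d) / mono (N₁.src r₀) lo with hκ
      have hκpos : 0 < κ := div_pos (mono_pos _ _ (fun _ => hd)) (mono_pos _ _ hlo)
      have hdis : ∀ t, 0 ≤ t → (N₁.union N₂).flatDissip lo hi (x t) ≤ -κ := by
        intro t ht
        rcases halt (x t) (hP t ht) with h | h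
        · exact absurd h (hout t ht)
        · refine le_trans (h.2 r₀) ?_
          rw [exp_cw_eq_div lo (x t) hlo (hpos t ht), neg_le_neg_iff]
          exact div_le_div_of_nonneg_right (mono_const_le _ _ d hd (hlow t ht))
            (mono_pos _ _ hlo).le
      set T : ℝ := (flatEntropy lo hi (x 0) + 1) / κ with hT
      have hV0 : 0 ≤ flatEntropy lo hi (x 0) :=
        flatEntropy_nonneg lo hi (x 0) hlo (fun i => (hpos 0 le_rfl i).le)
      have hT0 : 0 ≤ T := div_nonneg (by linarith) hκpos.le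
      have h1 := flat_decay (N₁.union N₂) lo hi hlo hle hx hpos le_rfl hT0 κ
        (fun t ht => hdis t ht.1)
      have h2 : 0 ≤ flatEntropy lo hi (x T) :=
        flatEntropy_nonneg lo hi (x T) hlo (fun i => (hpos T hT0 i).le)
      have h3 : κ * (T - 0) = flatEntropy lo hi (x 0) + 1 := by
        rw [hT]
        field_simp
        ring
      linarith
    obtain ⟨T₁, hT₁0, hT₁box⟩ := hT₁
    -- from then on the flattened entropy-type function stays below `G₀ + 1`
    have hVle : ∀ t, T₁ ≤ t → flatEntropy lo hi (x t) ≤ G₀ + 1 := by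
      intro t ht
      have h1 := flat_apriori_from (N₁.union N₂) lo hi hlo hle c' δ B G₀ hweak hG₀ hx hP hT₁0 t ht
      have h2 := hG₀ (x T₁) hT₁box
      rw [max_eq_right h2] at h1
      exact h1
    have hxB₁ : ∀ t, T₁ ≤ t → ∀ i, x t i ≤ B₁ :=
      fun t ht => hB₁ (x t) (hpos t (le_trans hT₁0 ht)) (hVle t ht)
    have hlow := hfin x hx0 hx T₁ hT₁0 (fun i => (hT₁box i).1) hxB₁
    exact ⟨T₁, fun t ht => ⟨(hP t (le_trans hT₁0 ht)).2, fun i => hlow t ht i,
      fun i => hxB₁ t ht i⟩⟩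

/-- Permanence: if `N₁` is strongly connected, `N₂` is source dominated and the reaction
vectors of `N₂` lie in the stoichiometric subspace of `N₁`, then the union system is permanent
on every positive stoichiometric class. -/
theorem union_permanentOn_of_sourceDominated (N₁ : MAS R₁ ι) (N₂ : MAS R₂ ι)
    (h₁ : N₁.StronglyConnected) (hspan : N₂.stoich ≤ N₁.stoich) (hsd : N₂.SourceDominated)
    (c : ι → ℝ) : (N₁.union N₂).PermanentOn ((N₁.union N₂).posClass c) := by
  obtain ⟨lo, hi, hlo, hle, hth⟩ := exists_flat_thresholds N₂ hsd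
  exact union_permanentOn_of_thresholds N₁ N₂ h₁ hspan lo hi hlo hle hth c

/-- Boundedness from coordinate thresholds: under the hypotheses of
`union_permanentOn_of_thresholds`, in the union system every solution starting in a positive
stoichiometric class exists for all times, stays in the class and is bounded. -/
theorem union_boundedOn_of_thresholds (N₁ : MAS R₁ ι) (N₂ : MAS R₂ ι)
    (h₁ : N₁.StronglyConnected) (hspan : N₂.stoich ≤ N₁.stoich)
    (lo hi : ι → ℝ) (hlo : ∀ i, 0 < lo i) (hle : ∀ i, lo i ≤ hi i)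
    (hth : ∀ x : ι → ℝ, (∀ j, 0 < x j) → ∀ i,
      (x i ≤ lo i → 0 ≤ N₂.field x i) ∧ (hi i ≤ x i → N₂.field x i ≤ 0))
    (c : ι → ℝ) : (N₁.union N₂).BoundedOn ((N₁.union N₂).posClass c) := by
  by_cases hne : ((N₁.union N₂).posClass c).Nonempty
  swap
  · rw [Set.not_nonempty_iff_eq_empty] at hne
    rw [hne]
    exact ⟨fun x hx => absurd hx (Set.notMem_empty x), fun x hx => absurd hx (Set.notMem_empty _),
      fun x hx => absurd hx (Set.notMem_empty _)⟩
  obtain ⟨c', hc'⟩ := hne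
  rw [posClass_eq_of_mem _ hc']
  have hsh : ∀ Cb : ℝ, ∃ Θ : ℝ, 0 ≤ Θ ∧ ∀ x : ι → ℝ, (∀ i, 0 < x i) → ∀ b : ι → ℝ,
      (∀ i, |b i| ≤ Cb) → ∀ r₁ r₂, Θ ≤ cw lo x (N₁.src r₁) - cw lo x (N₁.src r₂) →
      ∀ r₀, N₁.dissip lo x + ∑ i, b i * N₁.field x i ≤ - Real.exp (cw lo x (N₁.src r₀)) :=
    fun Cb => dissip_shift_le N₁ h₁ lo hlo Cb
  have h₂ : ∀ x : ι → ℝ, (∀ i, 0 < x i) → N₂.flatDissip lo hi x ≤ 0 :=
    fun x hx => flatDissip_nonpos_of_thresholds N₂ lo hi hlo hle hth x hx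
  obtain ⟨δ, B, hδ, halt⟩ :=
    flat_static_alternative N₁ N₂ lo hi hlo hle h₁ hspan hsh h₂ c' hc'.1
  refine boundedOn_of_flatDissip (N₁.union N₂) lo hi hlo hle c' δ B hδ (fun x hx => ?_)
  rcases halt x hx with h | ⟨⟨r₀⟩, h⟩
  · exact Or.inl h
  · exact Or.inr (lt_of_le_of_lt (h r₀) (neg_lt_zero.mpr (Real.exp_pos _)))

/-- Boundedness: if `N₁` is strongly connected, `N₂` is source dominated and the reaction
vectors of `N₂` lie in the stoichiometric subspace of `N₁`, then in the union system every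
solution starting in a positive stoichiometric class exists for all times, stays in the class
and is bounded. -/
theorem union_boundedOn_of_sourceDominated (N₁ : MAS R₁ ι) (N₂ : MAS R₂ ι)
    (h₁ : N₁.StronglyConnected) (hspan : N₂.stoich ≤ N₁.stoich) (hsd : N₂.SourceDominated)
    (c : ι → ℝ) : (N₁.union N₂).BoundedOn ((N₁.union N₂).posClass c) := by
  obtain ⟨lo, hi, hlo, hle, hth⟩ := exists_flat_thresholds N₂ hsd
  exact union_boundedOn_of_thresholds N₁ N₂ h₁ hspan lo hi hlo hle hth c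

end Vale.Agent.Lib.P072
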