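import Mathlib

/-!
# A barrier argument on the faces of the orthant, with perturbed face functions
-/

namespace Vale.Agent.Lib.P072

open Set

-- `s * (log L - log s) ≤ 2 * √(s * L)` for positive `s` and `L`.
private lemma gb_mul_log_le {s L : ℝ} (hs : 0 < s) (hL : 0 < L) :
    s * (Real.log L - Real.log s) ≤ 2 * Real.sqrt (s * L) := by
  have hu : 0 < L / s := div_pos hL hs
  have h1 : Real.log L - Real.log s = Real.log (L / s) := (Real.log_div hL.ne' hs.ne').symm
  have h2 : Real.log (Real.sqrt (L / s)) = Real.log (L / s) / 2 := Real.log_sqrt hu.le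
  have h3 : Real.log (Real.sqrt (L / s)) ≤ Real.sqrt (L / s) - 1 :=
    Real.log_le_sub_one_of_pos (Real.sqrt_pos.mpr hu)
  have e0 : s * (L / s) = L := by field_simp
  have h4 : s * Real.sqrt (L / s) = Real.sqrt (s * L) := by
    have e : s * L = s ^ 2 * (L / s) := by rw [pow_two, mul_assoc, e0]
    rw [e, Real.sqrt_mul (sq_nonneg s), Real.sqrt_sq hs.le]
  have h5 : Real.log (L / s) ≤ 2 * Real.sqrt (L / s) := by linarith
  rw [h1]
  calc s * Real.log (L / s) ≤ s * (2 * Real.sqrt (L / s)) :=
        mul_le_mul_of_nonneg_left h5 hs.le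
    _ = 2 * (s * Real.sqrt (L / s)) := by ring
    _ = 2 * Real.sqrt (s * L) := by rw [h4]

-- Upper bound for a perturbed face term of a coordinate below `l * exp (-K)`.
private lemma gb_theta_le {s l K : ℝ} (hs : 0 < s) (hl : 0 < l)
    (hsl : s ≤ l * Real.exp (-K)) :
    s * (Real.log s - Real.log l - 1) + K * s ≤ -s := by
  have h : Real.log s ≤ Real.log (l * Real.exp (-K)) := Real.log_le_log hs hsl
  rw [Real.log_mul hl.ne' (Real.exp_pos _).ne', Real.log_exp] at h
  have h2 : 0 ≤ s * (Real.log l - K - Real.log s) := mul_nonneg hs.le (by linarith)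
  have e : s * (Real.log s - Real.log l - 1) + K * s
      = -s - s * (Real.log l - K - Real.log s) := by ring
  rw [e]
  linarith

-- Lower bound for a face term of a small coordinate.
private lemma gb_theta_ge {s l L dd : ℝ} (hs : 0 < s) (hl : 0 < l) (hlL : l ≤ L)
    (hsd : s ≤ dd) :
    -(dd + 2 * Real.sqrt (dd * L)) ≤ s * (Real.log s - Real.log l - 1) := by
  have h1 := gb_mul_log_le hs hl
  have h2 : Real.sqrt (s * l) ≤ Real.sqrt (dd * L) :=
    Real.sqrt_le_sqrt (mul_le_mul hsd hlL hl.le (le_trans hs.le hsd))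
  have e : s * (Real.log s - Real.log l - 1) = -s - s * (Real.log l - Real.log s) := by ring
  rw [e]
  linarith

/-- The barrier argument with perturbed face functions: if for every nonempty set `W` of
coordinates and every `η > 0` there is a function `Ψ` that differs from the face function
`∑ i ∈ W, x i * (log (x i) - log (lam i) - 1)` by at most `C η * ∑ i ∈ W, x i` at the points
of the curve where the coordinates in `W` are at most `E η` and the others at least `η`, and
that does not increase along the curve on every time interval on which this holds, then all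
coordinates stay above a constant that depends only on the lower bound `δ₀` of the initial
point (and on `lam`, `E`, `C`). -/
theorem barrier_lower_bound_pert {ι : Type} [Fintype ι] (lam : ι → ℝ) (hlam : ∀ i, 0 < lam i)
    (E C : ℝ → ℝ) (hE : ∀ η, 0 < η → 0 < E η ∧ ∀ i, E η ≤ lam i)
    (hC : ∀ η, 0 < η → 0 ≤ C η) (δ₀ : ℝ) (hδ₀ : 0 < δ₀) :
    ∃ δf : ℝ, 0 < δf ∧ ∀ (x : ℝ → ι → ℝ) (a : ℝ),
      (∀ t, a ≤ t → ∀ i, 0 < x t i) →
      ContinuousOn x (Ici a) →
      (∀ i, δ₀ ≤ x a i) →
      (∀ (W : Finset ι) (η : ℝ), W.Nonempty → 0 < η → ∃ Ψ : (ι → ℝ) → ℝ,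
        (∀ τ, a ≤ τ → (∀ j, j ∉ W → η ≤ x τ j) → (∀ i ∈ W, x τ i ≤ E η) →
          |Ψ (x τ) - ∑ i ∈ W, x τ i * (Real.log (x τ i) - Real.log (lam i) - 1)|
            ≤ C η * ∑ i ∈ W, x τ i) ∧
        ∀ s t, a ≤ s → s ≤ t →
          (∀ τ ∈ Icc s t, (∀ j, j ∉ W → η ≤ x τ j) ∧ ∀ i ∈ W, x τ i ≤ E η) →
          Ψ (x t) ≤ Ψ (x s)) →
      ∀ t, a ≤ t → ∀ i, δf ≤ x t i := by
  classical
  obtain ⟨L, hL0, hL⟩ : ∃ L : ℝ, 0 < L ∧ ∀ i, lam i ≤ L := by
    refine ⟨1 + ∑ i, lam i, ?_, fun i => ?_⟩
    · have h0 : 0 ≤ ∑ i, lam i := Finset.sum_nonneg (fun i _ => (hlam i).le)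
      linarith
    · have h0 : lam i ≤ ∑ j, lam j :=
        Finset.single_le_sum (fun j _ => (hlam j).le) (Finset.mem_univ i)
      linarith
  obtain ⟨N, hN⟩ : ∃ N : ℝ, N = (Fintype.card ι : ℝ) + 1 := ⟨_, rfl⟩
  have hN0 : 0 < N := by
    rw [hN]
    positivity
  have key : ∀ m : ℕ, m ≤ Fintype.card ι → ∃ d : ℝ, 0 < d ∧ d ≤ δ₀ ∧
      ∀ (x : ℝ → ι → ℝ) (a : ℝ),
      (∀ t, a ≤ t → ∀ i, 0 < x t i) → ContinuousOn x (Ici a) → (∀ i, δ₀ ≤ x a i) →
      (∀ (W : Finset ι) (η : ℝ), W.Nonempty → 0 < η → ∃ Ψ : (ι → ℝ) → ℝ,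
        (∀ τ, a ≤ τ → (∀ j, j ∉ W → η ≤ x τ j) → (∀ i ∈ W, x τ i ≤ E η) →
          |Ψ (x τ) - ∑ i ∈ W, x τ i * (Real.log (x τ i) - Real.log (lam i) - 1)|
            ≤ C η * ∑ i ∈ W, x τ i) ∧
        ∀ s t, a ≤ s → s ≤ t →
          (∀ τ ∈ Icc s t, (∀ j, j ∉ W → η ≤ x τ j) ∧ ∀ i ∈ W, x τ i ≤ E η) →
          Ψ (x t) ≤ Ψ (x s)) →
      ∀ t, a ≤ t → ∀ W : Finset ι, Fintype.card ι + 1 - m ≤ W.card → ∃ i ∈ W, d ≤ x t i := by
    intro m
    induction m with
    | zero =>
      intro _
      refine ⟨δ₀, hδ₀, le_rfl, ?_⟩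
      intro x a _ _ _ _ t _ W hW
      have hcard := Finset.card_le_univ W
      omega
    | succ m ih =>
      intro hm
      obtain ⟨d', hd'0, hd'δ, hQ⟩ := ih (by omega)
      obtain ⟨hE0, hElam⟩ := hE d' hd'0
      obtain ⟨Cd, hCd⟩ : ∃ Cd : ℝ, Cd = C d' := ⟨_, rfl⟩
      have hCd0 : 0 ≤ Cd := by
        rw [hCd]
        exact hC d' hd'0
      obtain ⟨ε, hε⟩ : ∃ ε : ℝ, ε = min (min (E d') (d' / 2)) (E d' * Real.exp (-Cd)) :=
        ⟨_, rfl⟩
      have hε0 : 0 < ε := by
        rw [hε]
        exact lt_min (lt_min hE0 (by linarith)) (mul_pos hE0 (Real.exp_pos _))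
      have hεE : ε ≤ E d' := by
        rw [hε]
        exact le_trans (min_le_left _ _) (min_le_left _ _)
      have hεd : ε ≤ d' / 2 := by
        rw [hε]
        exact le_trans (min_le_left _ _) (min_le_right _ _)
      have hεexp : ∀ i, ε ≤ lam i * Real.exp (-Cd) := by
        intro i
        have h1 : ε ≤ E d' * Real.exp (-Cd) := by
          rw [hε]
          exact min_le_right _ _
        exact le_trans h1 (mul_le_mul_of_nonneg_right (hElam i) (Real.exp_pos _).le)
      obtain ⟨c, hc⟩ : ∃ c : ℝ, c = ε / (8 * N) := ⟨_, rfl⟩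
      have hc0 : 0 < c := by
        rw [hc]
        positivity
      have hNc : N * c = ε / 8 := by
        rw [hc]
        field_simp
      obtain ⟨d, hd⟩ : ∃ d : ℝ, d = min ε (min c (min (c ^ 2 / L) (c / (Cd + 1)))) :=
        ⟨_, rfl⟩
      have hCd1 : 0 < Cd + 1 := by linarith
      have hd0 : 0 < d := by
        rw [hd]
        exact lt_min hε0 (lt_min hc0 (lt_min (by positivity) (div_pos hc0 hCd1)))
      have hdε : d ≤ ε := by
        rw [hd]
        exact min_le_left _ _
      have hdc : d ≤ c := by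
        rw [hd]
        exact le_trans (min_le_right _ _) (min_le_left _ _)
      have hdL : d * L ≤ c ^ 2 := by
        have h0 : d ≤ c ^ 2 / L := by
          rw [hd]
          exact le_trans (min_le_right _ _) (le_trans (min_le_right _ _) (min_le_left _ _))
        calc d * L ≤ c ^ 2 / L * L := mul_le_mul_of_nonneg_right h0 hL0.le
          _ = c ^ 2 := div_mul_cancel₀ _ hL0.ne'
      have hdC : Cd * d ≤ c := by
        have h0 : d ≤ c / (Cd + 1) := by
          rw [hd]
          exact le_trans (min_le_right _ _) (le_trans (min_le_right _ _) (min_le_right _ _))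
        have h1 : d * (Cd + 1) ≤ c := by
          calc d * (Cd + 1) ≤ c / (Cd + 1) * (Cd + 1) :=
                mul_le_mul_of_nonneg_right h0 hCd1.le
            _ = c := div_mul_cancel₀ _ hCd1.ne'
        nlinarith
      have hsq : Real.sqrt (d * L) ≤ c := by
        calc Real.sqrt (d * L) ≤ Real.sqrt (c ^ 2) := Real.sqrt_le_sqrt hdL
          _ = c := Real.sqrt_sq hc0.le
      have hBnn : 0 ≤ d + 2 * Real.sqrt (d * L) + Cd * d := by positivity
      have hB : N * (d + 2 * Real.sqrt (d * L) + Cd * d) < ε := by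
        have h1 : N * (d + 2 * Real.sqrt (d * L) + Cd * d) ≤ N * (c + 2 * c + c) :=
          mul_le_mul_of_nonneg_left (by linarith) hN0.le
        have h2 : N * (c + 2 * c + c) = 4 * (N * c) := by ring
        linarith
      refine ⟨d, hd0, by linarith, ?_⟩
      intro x a hpos hcont hinit hpert t₁ ht₁ W hW
      by_cases hW' : Fintype.card ι + 1 - m ≤ W.card
      · obtain ⟨i, hi, hdi⟩ := hQ x a hpos hcont hinit hpert t₁ ht₁ W hW'
        exact ⟨i, hi, by linarith⟩
      · have hWpos : 0 < W.card := by omega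
        have hWne : W.Nonempty := Finset.card_pos.mp hWpos
        by_contra hcon
        push Not at hcon
        have hci : ∀ i, ContinuousOn (fun τ => x τ i) (Ici a) := fun i =>
          (continuous_apply i).comp_continuousOn hcont
        obtain ⟨S, hS⟩ : ∃ S : Set ℝ,
            S = ⋃ i ∈ W, (Icc a t₁ ∩ (fun τ => x τ i) ⁻¹' Ici ε) := ⟨_, rfl⟩
        have hSclosed : IsClosed S := by
          rw [hS]
          refine isClosed_biUnion_finset (fun i _ => ?_)
          exact ((hci i).mono Icc_subset_Ici_self).preimage_isClosed_of_isClosed isClosed_Icc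
            isClosed_Ici
        have hSmem : ∀ τ, τ ∈ S ↔ τ ∈ Icc a t₁ ∧ ∃ i ∈ W, ε ≤ x τ i := by
          intro τ
          rw [hS]
          simp only [mem_iUnion, mem_inter_iff, mem_preimage, mem_Ici, exists_prop]
          constructor
          · rintro ⟨i, hi, h1, h2⟩
            exact ⟨h1, i, hi, h2⟩
          · rintro ⟨h1, i, hi, h2⟩
            exact ⟨i, hi, h1, h2⟩
        have haS : a ∈ S := by
          obtain ⟨i, hi⟩ := hWne
          exact (hSmem a).mpr ⟨left_mem_Icc.mpr ht₁, i, hi, by linarith [hinit i]⟩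
        have hSbdd : BddAbove S := ⟨t₁, fun τ hτ => ((hSmem τ).mp hτ).1.2⟩
        obtain ⟨t₀, ht₀⟩ : ∃ t₀ : ℝ, t₀ = sSup S := ⟨_, rfl⟩
        have ht₀S : t₀ ∈ S := by
          rw [ht₀]
          exact hSclosed.csSup_mem ⟨a, haS⟩ hSbdd
        obtain ⟨⟨hat₀, ht₀t₁⟩, istar, histar, hεstar⟩ := (hSmem t₀).mp ht₀S
        have ht₁S : t₁ ∉ S := by
          intro h
          obtain ⟨_, i, hi, h2⟩ := (hSmem t₁).mp h
          linarith [hcon i hi]
        have hlt : t₀ < t₁ := by
          refine lt_of_le_of_ne ht₀t₁ (fun h => ht₁S ?_)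
          rw [← h]
          exact ht₀S
        have hafter : ∀ τ ∈ Ioc t₀ t₁, ∀ i ∈ W, x τ i < ε := by
          intro τ hτ i hi
          by_contra h
          push Not at h
          have hτS : τ ∈ S := (hSmem τ).mpr ⟨⟨by linarith [hτ.1], hτ.2⟩, i, hi, h⟩
          have h3 := le_csSup hSbdd hτS
          rw [← ht₀] at h3
          linarith [hτ.1]
        have hat₀le : ∀ i ∈ W, x t₀ i ≤ ε := by
          intro i hi
          have hcl : IsClosed (Icc t₀ t₁ ∩ (fun τ => x τ i) ⁻¹' Iic ε) :=
            ((hci i).mono (fun τ hτ => le_trans hat₀ hτ.1)).preimage_isClosed_of_isClosed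
              isClosed_Icc isClosed_Iic
          have hsub : Ioc t₀ t₁ ⊆ Icc t₀ t₁ ∩ (fun τ => x τ i) ⁻¹' Iic ε :=
            fun τ hτ => ⟨Ioc_subset_Icc_self hτ, le_of_lt (hafter τ hτ i hi)⟩
          have h3 := closure_minimal hsub hcl
          rw [closure_Ioc (ne_of_lt hlt)] at h3
          exact (h3 (left_mem_Icc.mpr hlt.le)).2
        have hstar : x t₀ istar = ε := le_antisymm (hat₀le istar histar) hεstar
        have hallle : ∀ τ ∈ Icc t₀ t₁, ∀ i ∈ W, x τ i ≤ ε := by
          intro τ hτ i hi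
          rcases eq_or_lt_of_le hτ.1 with h | h
          · rw [← h]
            exact hat₀le i hi
          · exact le_of_lt (hafter τ ⟨h, hτ.2⟩ i hi)
        have hcorner : ∀ τ ∈ Icc t₀ t₁,
            (∀ j, j ∉ W → d' ≤ x τ j) ∧ ∀ i ∈ W, x τ i ≤ E d' := by
          intro τ hτ
          refine ⟨fun j hj => ?_, fun i hi => le_trans (hallle τ hτ i hi) hεE⟩
          have hcardj : Fintype.card ι + 1 - m ≤ (insert j W).card := by
            rw [Finset.card_insert_of_notMem hj]
            omega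
          obtain ⟨i, hi, hdi⟩ :=
            hQ x a hpos hcont hinit hpert τ (le_trans hat₀ hτ.1) (insert j W) hcardj
          rcases Finset.mem_insert.mp hi with hij | hiW
          · rw [← hij]
            exact hdi
          · have h5 := hallle τ hτ i hiW
            linarith
        obtain ⟨Ψ, hΨ1, hΨ2⟩ := hpert W d' hWne hd'0
        have hmon : Ψ (x t₁) ≤ Ψ (x t₀) := hΨ2 t₀ t₁ hat₀ hlt.le hcorner
        have hc0' := hcorner t₀ (left_mem_Icc.mpr hlt.le)
        have hc1' := hcorner t₁ (right_mem_Icc.mpr hlt.le)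
        have habs0 := hΨ1 t₀ hat₀ hc0'.1 hc0'.2
        have habs1 := hΨ1 t₁ ht₁ hc1'.1 hc1'.2
        rw [← hCd] at habs0 habs1
        have hup : ∑ i ∈ W, x t₀ i * (Real.log (x t₀ i) - Real.log (lam i) - 1)
            + Cd * ∑ i ∈ W, x t₀ i ≤ -ε := by
          rw [Finset.mul_sum, ← Finset.sum_add_distrib]
          have hsplit : (x t₀ istar * (Real.log (x t₀ istar) - Real.log (lam istar) - 1)
                + Cd * x t₀ istar)
              + ∑ i ∈ W.erase istar, (x t₀ i * (Real.log (x t₀ i) - Real.log (lam i) - 1)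
                + Cd * x t₀ i)
              = ∑ i ∈ W, (x t₀ i * (Real.log (x t₀ i) - Real.log (lam i) - 1)
                + Cd * x t₀ i) :=
            Finset.add_sum_erase W
              (fun i => x t₀ i * (Real.log (x t₀ i) - Real.log (lam i) - 1) + Cd * x t₀ i)
              histar
          have h1 : x t₀ istar * (Real.log (x t₀ istar) - Real.log (lam istar) - 1)
              + Cd * x t₀ istar ≤ -ε := by
            rw [hstar]
            exact gb_theta_le hε0 (hlam istar) (hεexp istar)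
          have h2 : ∑ i ∈ W.erase istar,
              (x t₀ i * (Real.log (x t₀ i) - Real.log (lam i) - 1) + Cd * x t₀ i) ≤ 0 := by
            refine Finset.sum_nonpos (fun i hi => ?_)
            have hiW := Finset.mem_of_mem_erase hi
            have hp := hpos t₀ hat₀ i
            have h6 := gb_theta_le hp (hlam i) (le_trans (hat₀le i hiW) (hεexp i))
            linarith
          linarith
        have hlow : -((W.card : ℝ) * (d + 2 * Real.sqrt (d * L) + Cd * d)) ≤
            ∑ i ∈ W, x t₁ i * (Real.log (x t₁ i) - Real.log (lam i) - 1)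
              - Cd * ∑ i ∈ W, x t₁ i := by
          rw [Finset.mul_sum, ← Finset.sum_sub_distrib]
          have h1 : ∑ _i ∈ W, -(d + 2 * Real.sqrt (d * L) + Cd * d) ≤
              ∑ i ∈ W, (x t₁ i * (Real.log (x t₁ i) - Real.log (lam i) - 1)
                - Cd * x t₁ i) := by
            refine Finset.sum_le_sum (fun i hi => ?_)
            have h3 := gb_theta_ge (hpos t₁ ht₁ i) (hlam i) (hL i) (le_of_lt (hcon i hi))
            have h4 : Cd * x t₁ i ≤ Cd * d :=
              mul_le_mul_of_nonneg_left (le_of_lt (hcon i hi)) hCd0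
            linarith
          rw [Finset.sum_const, nsmul_eq_mul] at h1
          linarith
        have hWn : (W.card : ℝ) ≤ N := by
          have h7 : (W.card : ℝ) ≤ (Fintype.card ι : ℝ) := by
            exact_mod_cast Finset.card_le_univ W
          rw [hN]
          linarith
        have h8 : (W.card : ℝ) * (d + 2 * Real.sqrt (d * L) + Cd * d) ≤
            N * (d + 2 * Real.sqrt (d * L) + Cd * d) := mul_le_mul_of_nonneg_right hWn hBnn
        have h9 := (abs_le.mp habs0).2
        have h10 := (abs_le.mp habs1).1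
        linarith
  obtain ⟨d, hd0, _, hQ⟩ := key (Fintype.card ι) le_rfl
  refine ⟨d, hd0, ?_⟩
  intro x a hpos hcont hinit hpert t ht i
  have hcard1 : Fintype.card ι + 1 - Fintype.card ι ≤ ({i} : Finset ι).card := by
    rw [Finset.card_singleton]
    omega
  obtain ⟨i', hi', hdi⟩ := hQ x a hpos hcont hinit hpert t ht {i} hcard1
  rw [Finset.mem_singleton] at hi'
  rw [hi'] at hdi
  exact hdi

end Vale.Agent.Lib.P072
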