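import Vale.Agent.Lib.P072.ColDefs
import Vale.Agent.Lib.P072.FlatBounded

/-!
# Boundedness and a priori bounds from the dissipation alternative of a general function
with a gradient field
-/

namespace Vale.Agent.Lib.P072

open Set Filter Topology

set_option linter.unusedSectionVars false

variable {R ι : Type} [Fintype R] [Fintype ι]

/-- The function `V` along a positive solution has the pairing of its gradient field with the
vector field as its one-sided derivative. -/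
private lemma gen_hasDeriv (N : MAS R ι) (V : (ι → ℝ) → ℝ) (g : (ι → ℝ) → ι → ℝ)
    (hV : HasGradOn V g) {x : ℝ → ι → ℝ} (hx : N.IsSol x)
    (hpos : ∀ t, 0 ≤ t → ∀ i, 0 < x t i) {t : ℝ} (ht : 0 ≤ t) :
    HasDerivWithinAt (fun τ => V (x τ)) (∑ i, g (x t) i * N.field (x t) i) (Ici 0) t :=
  hV _ _ _ _ (hx t ht) (hpos t ht)

/-- Linear decay of `V` along a positive solution on an interval on which the derivative of
`V` along the vector field is at most `-η`. -/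
lemma gen_decay (N : MAS R ι) (V : (ι → ℝ) → ℝ) (g : (ι → ℝ) → ι → ℝ) (hV : HasGradOn V g)
    {x : ℝ → ι → ℝ} (hx : N.IsSol x) (hpos : ∀ t, 0 ≤ t → ∀ i, 0 < x t i) {a b : ℝ}
    (ha : 0 ≤ a) (hab : a ≤ b) (η : ℝ)
    (hneg : ∀ t ∈ Ico a b, ∑ i, g (x t) i * N.field (x t) i ≤ -η) :
    V (x b) ≤ V (x a) - η * (b - a) := by
  have hcont : ContinuousOn (fun τ => V (x τ)) (Icc a b) := by
    intro t ht
    have h0 : 0 ≤ t := le_trans ha ht.1
    exact ((gen_hasDeriv N V g hV hx hpos h0).continuousWithinAt).mono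
      (fun s hs => le_trans ha hs.1)
  have hB : ∀ t : ℝ,
      HasDerivAt (fun τ : ℝ => V (x a) - η * (τ - a)) (-η) t := by
    intro t
    have h1 : HasDerivAt (fun τ : ℝ => η * (τ - a)) (η * 1) t :=
      ((hasDerivAt_id t).sub_const a).const_mul η
    have h2 := (hasDerivAt_const t (V (x a))).sub h1
    have e : (0 : ℝ) - η * 1 = -η := by ring
    rw [e] at h2
    exact h2
  have key := image_le_of_deriv_right_le_deriv_boundary
    (f := fun τ => V (x τ))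
    (f' := fun t => ∑ i, g (x t) i * N.field (x t) i) (a := a) (b := b) hcont
    (fun t ht => (gen_hasDeriv N V g hV hx hpos (le_trans ha ht.1)).mono
      (Ici_subset_Ici.mpr (le_trans ha ht.1)))
    (B := fun t => V (x a) - η * (t - a)) (B' := fun _ => -η)
    (by simp) (fun t _ => (hB t).continuousAt.continuousWithinAt)
    (fun t _ => (hB t).hasDerivWithinAt) hneg
  exact key (right_mem_Icc.mpr hab)

/-- A priori bound from a time `a` on. -/
lemma gen_apriori_from (N : MAS R ι) (V : (ι → ℝ) → ℝ) (g : (ι → ℝ) → ι → ℝ)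
    (hV : HasGradOn V g) (c : ι → ℝ) (δ B G₀ : ℝ)
    (h : ∀ x ∈ N.posClass c, (∀ i, δ ≤ x i ∧ x i ≤ B) ∨ ∑ i, g x i * N.field x i < 0)
    (hG : ∀ x : ι → ℝ, (∀ i, δ ≤ x i ∧ x i ≤ B) → V x ≤ G₀)
    {x : ℝ → ι → ℝ} (hx : N.IsSol x) (hP : ∀ t, 0 ≤ t → x t ∈ N.posClass c) {a : ℝ}
    (ha : 0 ≤ a) :
    ∀ t, a ≤ t → V (x t) ≤ max (V (x a)) G₀ + 1 := by
  intro t ht
  have hpos : ∀ t, 0 ≤ t → ∀ i, 0 < x t i := fun t ht => (hP t ht).1
  have hcont : ContinuousOn (fun τ => V (x τ)) (Icc a t) := by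
    intro s hs
    have h0 : 0 ≤ s := le_trans ha hs.1
    exact ((gen_hasDeriv N V g hV hx hpos h0).continuousWithinAt).mono
      (fun u hu => le_trans ha hu.1)
  refine image_le_of_deriv_right_lt_deriv_boundary' (f := fun τ => V (x τ))
    (f' := fun s => ∑ i, g (x s) i * N.field (x s) i)
    (B := fun _ => max (V (x a)) G₀ + 1) (B' := fun _ => 0)
    hcont (fun s hs => (gen_hasDeriv N V g hV hx hpos (le_trans ha hs.1)).mono
      (Ici_subset_Ici.mpr (le_trans ha hs.1))) ?_ continuousOn_const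
    (fun _ _ => hasDerivWithinAt_const _ _ _) ?_ (right_mem_Icc.mpr ht)
  · have := le_max_left (V (x a)) G₀
    linarith
  · intro s hs heq
    rcases h (x s) (hP s (le_trans ha hs.1)) with hbox | hneg
    · exfalso
      have h1 := hG (x s) hbox
      have h2 := le_max_right (V (x a)) G₀
      linarith
    · exact hneg

/-- A priori bound on a finite time interval, for curves that are only known to solve the
system on that interval. -/
private lemma gen_apriori (N : MAS R ι) (V : (ι → ℝ) → ℝ) (g : (ι → ℝ) → ι → ℝ)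
    (hV : HasGradOn V g) (c : ι → ℝ) (δ B G₀ : ℝ)
    (h : ∀ x ∈ N.posClass c, (∀ i, δ ≤ x i ∧ x i ≤ B) ∨ ∑ i, g x i * N.field x i < 0)
    (hG : ∀ x : ι → ℝ, (∀ i, δ ≤ x i ∧ x i ≤ B) → V x ≤ G₀)
    {γ : ℝ → ι → ℝ} {T : ℝ}
    (hγ : ∀ t ∈ Icc 0 T, HasDerivWithinAt γ (N.field (γ t)) (Icc 0 T) t)
    (h0 : γ 0 ∈ N.posClass c) :
    ∀ t ∈ Icc 0 T, γ t ∈ N.posClass c ∧ V (γ t) ≤ max (V (γ 0)) G₀ + 1 := by
  have hmem : ∀ t ∈ Icc 0 T, γ t ∈ N.posClass c := fun t ht =>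
    ⟨sol_pos N hγ h0.1 t ht, class_mem_of_sub N (sub_mem_stoich_of_sol_Icc N hγ ht) h0.2⟩
  intro t ht
  refine ⟨hmem t ht, ?_⟩
  have hcont : ContinuousOn (fun τ => V (γ τ)) (Icc 0 T) := fun τ hτ =>
    (hV _ _ _ _ (hγ τ hτ) (hmem τ hτ).1).continuousWithinAt
  have hderiv : ∀ τ ∈ Ico 0 T,
      HasDerivWithinAt (fun τ => V (γ τ)) (∑ i, g (γ τ) i * N.field (γ τ) i)
        (Ici τ) τ := by
    intro τ hτ
    have hτ' : τ ∈ Icc 0 T := ⟨hτ.1, hτ.2.le⟩
    have hmemn : Icc (0:ℝ) T ∈ 𝓝[Ici τ] τ :=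
      mem_nhdsWithin.mpr ⟨Iio T, isOpen_Iio, hτ.2, fun u hu => ⟨le_trans hτ.1 hu.2, hu.1.le⟩⟩
    exact (hV _ _ _ _ (hγ τ hτ') (hmem τ hτ').1).mono_of_mem_nhdsWithin hmemn
  refine image_le_of_deriv_right_lt_deriv_boundary' (f := fun τ => V (γ τ))
    (f' := fun τ => ∑ i, g (γ τ) i * N.field (γ τ) i)
    (B := fun _ => max (V (γ 0)) G₀ + 1)
    (B' := fun _ => 0) hcont hderiv ?_ continuousOn_const
    (fun x _ => hasDerivWithinAt_const _ _ _) ?_ ht
  · have := le_max_left (V (γ 0)) G₀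
    linarith
  · intro τ hτ heq
    have hτ' : τ ∈ Icc 0 T := ⟨hτ.1, hτ.2.le⟩
    rcases h (γ τ) (hmem τ hτ') with hbox | hneg
    · exfalso
      have h1 := hG (γ τ) hbox
      have h2 := le_max_right (V (γ 0)) G₀
      linarith
    · exact hneg

/-- Boundedness from the dissipation alternative of `V`. -/
theorem boundedOn_of_gen (N : MAS R ι) (V : (ι → ℝ) → ℝ) (g : (ι → ℝ) → ι → ℝ)
    (hV : HasGradOn V g) (c : ι → ℝ) (δ B G₀ : ℝ) (hδ : 0 < δ)
    (h : ∀ x ∈ N.posClass c, (∀ i, δ ≤ x i ∧ x i ≤ B) ∨ ∑ i, g x i * N.field x i < 0)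
    (hG : ∀ x : ι → ℝ, (∀ i, δ ≤ x i ∧ x i ≤ B) → V x ≤ G₀)
    (hsub : ∀ L : ℝ, ∃ B' : ℝ, ∀ x : ι → ℝ, (∀ i, 0 < x i) → V x ≤ L → ∀ i, x i ≤ B') :
    N.BoundedOn (N.posClass c) := by
  have _ := hδ
  have hrestr : ∀ (x : ℝ → ι → ℝ), N.IsSol x → ∀ T : ℝ,
      ∀ t ∈ Icc 0 T, HasDerivWithinAt x (N.field (x t)) (Icc 0 T) t :=
    fun x hx T t ht => (hx t ht.1).mono Icc_subset_Ici_self
  refine ⟨?_, ?_, ?_⟩
  · intro x₀ hx₀
    obtain ⟨B', hB'⟩ := hsub (max (V x₀) G₀ + 1)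
    obtain ⟨K, L, hK, hL⟩ := exists_lipschitz_bound N
      (isCompact_Icc (a := (0 : ι → ℝ)) (b := fun _ => B'))
    refine exists_global_solution hK hL ?_
    intro T hT0 γ hγ0 hγ
    have hap := gen_apriori N V g hV c δ B G₀ h hG hγ (by rw [hγ0]; exact hx₀) T
      ⟨hT0, le_rfl⟩
    rw [hγ0] at hap
    exact ⟨fun i => (hap.1.1 i).le, fun i => hB' (γ T) hap.1.1 hap.2 i⟩
  · intro x hx0 hx t ht
    exact (gen_apriori N V g hV c δ B G₀ h hG (hrestr x hx t) hx0 t ⟨ht, le_rfl⟩).1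
  · intro x hx0 hx
    obtain ⟨B', hB'⟩ := hsub (max (V (x 0)) G₀ + 1)
    refine ⟨B', fun t ht i => ?_⟩
    have hap := gen_apriori N V g hV c δ B G₀ h hG (hrestr x hx t) hx0 t ⟨ht, le_rfl⟩
    exact hB' (x t) hap.1.1 hap.2 i

end Vale.Agent.Lib.P072
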