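import Vale.Agent.Lib.P072.ColField
import Vale.Agent.Lib.P072.ColStatic
import Vale.Agent.Lib.P072.ColProper
import Vale.Agent.Lib.P072.ColCorner
import Vale.Agent.Lib.P072.GenLyap
import Vale.Agent.Lib.P072.GenBarrier
import Vale.Agent.Lib.P072.FlatMain

/-!
# Permanence for a strongly connected system joined with a weakly reversible system with
parallel reaction vectors

If `N₁` is strongly connected, `N₂` is weakly reversible, all reaction vectors of `N₂` are
multiples of one vector, and they lie in the stoichiometric subspace of `N₁`, then the union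
is permanent on every positive stoichiometric class.
-/

namespace Vale.Agent.Lib.P072

open Set

set_option linter.unusedSectionVars false

variable {R R₁ R₂ ι : Type} [Fintype R] [Fintype R₁] [Fintype R₂] [Fintype ι]

/-- A lower bound for the corrected entropy-type function on bounded parts of the positive
orthant. -/
lemma colV_ge_of_le (v : ι → ℝ) (hv0 : ∃ i, v i ≠ 0) (M : ℝ) (hM : 0 < M) (Bx : ℝ) :
    ∃ m : ℝ, ∀ x : ι → ℝ, (∀ i, 0 < x i) → (∀ i, x i ≤ Bx) → m ≤ colV v M x := by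
  classical
  obtain ⟨i₀, hi₀⟩ := hv0
  have hne : (Finset.univ.filter (fun i => v i ≠ 0)).Nonempty :=
    ⟨i₀, Finset.mem_filter.mpr ⟨Finset.mem_univ _, hi₀⟩⟩
  obtain ⟨im, him, hmin⟩ := Finset.exists_min_image _ (fun i => |v i|) hne
  have himne : v im ≠ 0 := (Finset.mem_filter.mp him).2
  have humin : 0 < |v im| := abs_pos.mpr himne
  have hmin' : ∀ i, v i ≠ 0 → |v im| ≤ |v i| :=
    fun i hi => hmin i (Finset.mem_filter.mpr ⟨Finset.mem_univ _, hi⟩)
  refine ⟨-(Fintype.card ι : ℝ) -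
    Fintype.card ι * (M / |v im|) * (Fintype.card ι * (|Bx| + 1)), ?_⟩
  intro x hx hxB
  have h1 : -(Fintype.card ι : ℝ) ≤ hEnt x := by
    unfold hEnt
    have : ∑ _i : ι, (-1 : ℝ) ≤ ∑ i, (x i * Real.log (x i) - x i) := by
      refine Finset.sum_le_sum (fun i _ => ?_)
      have hxi := hx i
      have hl : Real.log (1 / x i) ≤ 1 / x i - 1 :=
        Real.log_le_sub_one_of_pos (one_div_pos.mpr hxi)
      rw [Real.log_div one_ne_zero hxi.ne', Real.log_one, zero_sub] at hl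
      have hm : x i * (-Real.log (x i)) ≤ x i * (1 / x i - 1) :=
        mul_le_mul_of_nonneg_left hl hxi.le
      have e : x i * (1 / x i - 1) = 1 - x i := by
        field_simp
      rw [e] at hm
      linarith
    simpa using this
  have h2 := slabCorr_abs_le v x ⟨i₀, hi₀⟩ hx M hM |v im| humin hmin'
  have h3 : ∑ i, |x i - 1| ≤ Fintype.card ι * (|Bx| + 1) := by
    have : ∑ i, |x i - 1| ≤ ∑ _i : ι, (|Bx| + 1) := by
      refine Finset.sum_le_sum (fun i _ => ?_)
      have hxi := hx i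
      have hb := hxB i
      have hB0 : Bx ≤ |Bx| := le_abs_self Bx
      rw [abs_le]
      constructor <;> linarith [abs_nonneg Bx]
    rw [Finset.sum_const, Finset.card_univ, nsmul_eq_mul] at this
    exact this
  have hK : 0 ≤ (Fintype.card ι : ℝ) * (M / |v im|) := by positivity
  have h4 : |slabCorr v M x| ≤
      Fintype.card ι * (M / |v im|) * (Fintype.card ι * (|Bx| + 1)) :=
    h2.trans (mul_le_mul_of_nonneg_left h3 hK)
  have h5 := neg_abs_le (slabCorr v M x)
  unfold colV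
  linarith

/-- Permanence: if `N₁` is strongly connected, `N₂` is weakly reversible with all reaction
vectors multiples of one vector `v`, and the reaction vectors of `N₂` lie in the
stoichiometric subspace of `N₁`, then the union system is permanent on every positive
stoichiometric class. -/
theorem union_permanentOn_of_collinear (N₁ : MAS R₁ ι) (N₂ : MAS R₂ ι)
    (h₁ : N₁.StronglyConnected) (hspan : N₂.stoich ≤ N₁.stoich) (hwr : N₂.WeaklyReversible)
    (v : ι → ℝ) (hv : ∀ r, ∃ a : ℝ, N₂.vec r = a • v) (c : ι → ℝ) :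
    (N₁.union N₂).PermanentOn ((N₁.union N₂).posClass c) := by
  classical
  rcases isEmpty_or_nonempty R₂ with hR₂ | hR₂
  · exact union_permanentOn_of_sourceDominated N₁ N₂ h₁ hspan (fun r => isEmptyElim r) c
  by_cases hne : ((N₁.union N₂).posClass c).Nonempty
  swap
  · rw [Set.not_nonempty_iff_eq_empty] at hne
    rw [hne]
    exact ⟨fun x hx => absurd hx (Set.notMem_empty x), fun x hx => absurd hx (Set.notMem_empty _),
      ∅, isCompact_empty, Set.empty_subset _, fun x hx => absurd hx (Set.notMem_empty _)⟩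
  obtain ⟨c', hc'⟩ := hne
  rw [posClass_eq_of_mem _ hc']
  obtain ⟨hv0, g, M, hM1, hf, hgpos, hgneg⟩ := collinear_field N₂ hwr v hv
  have hM : 0 < M := lt_of_lt_of_le one_pos hM1
  obtain ⟨δ, B, hδ, halt⟩ :=
    col_static_alternative N₁ N₂ h₁ hspan v hv0 g M hM hf hgpos hgneg c' hc'.1
  have hV : HasGradOn (colV v M) (colGrad v M) := colV_hasGradOn v hv0 M hM
  have hweak : ∀ x ∈ (N₁.union N₂).posClass c',
      (∀ i, δ ≤ x i ∧ x i ≤ B) ∨ ∑ i, colGrad v M x i * (N₁.union N₂).field x i < 0 := by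
    intro x hx
    rcases halt x hx with h | ⟨⟨r₀⟩, h⟩
    · exact Or.inl h
    · exact Or.inr (lt_of_le_of_lt (h r₀) (neg_lt_zero.mpr (Real.exp_pos _)))
  obtain ⟨G₀, hG₀⟩ := colV_le_of_box v hv0 M hM δ B hδ
  have hsub := colV_sublevel_bdd v hv0 M hM
  obtain ⟨hex, hstay, hbdd⟩ :=
    boundedOn_of_gen (N₁.union N₂) (colV v M) (colGrad v M) hV c' δ B G₀ hδ hweak hG₀ hsub
  refine ⟨hex, hstay, ?_⟩
  obtain ⟨B₁, hB₁⟩ := hsub (G₀ + 1)
  -- the corner constants, as functions of `η`, for a given upper bound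
  have hcor : ∀ B' : ℝ, ∃ E Cf : ℝ → ℝ, ∀ η, 0 < η → (0 < E η ∧ E η ≤ 1 ∧ 0 ≤ Cf η ∧
      ∀ W : Finset ι, W.Nonempty →
      ∃ (Ψ : (ι → ℝ) → ℝ) (p : (ι → ℝ) → ι → ℝ), HasGradOn Ψ p ∧
        ∀ x ∈ (N₁.union N₂).posClass c', (∀ i, x i ≤ B') → (∀ j, j ∉ W → η ≤ x j) →
          (∀ i ∈ W, x i ≤ E η) →
          (∑ i, p x i * (N₁.union N₂).field x i ≤ 0 ∧
           |Ψ x - ∑ i ∈ W, x i * (Real.log (x i) - Real.log 1 - 1)| ≤
             Cf η * ∑ i ∈ W, x i)) := by
    intro B'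
    have hcn := fun (η : ℝ) (hη : 0 < η) =>
      col_corner N₁ N₂ h₁ hspan v g M hM hf hgpos hgneg c' hc'.1 η B' hη
    choose! E Cf hE using hcn
    exact ⟨E, Cf, hE⟩
  -- the barrier step for solutions bounded by `B'` from time `a` on
  have hstep : ∀ (B' δ₀ : ℝ), 0 < δ₀ → ∃ δf : ℝ, 0 < δf ∧ ∀ x : ℝ → ι → ℝ,
      x 0 ∈ (N₁.union N₂).posClass c' → (N₁.union N₂).IsSol x → ∀ a, 0 ≤ a →
      (∀ i, δ₀ ≤ x a i) → (∀ t, a ≤ t → ∀ i, x t i ≤ B') → ∀ t, a ≤ t → ∀ i, δf ≤ x t i := by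
    intro B' δ₀ hδ₀
    obtain ⟨E, Cf, hE⟩ := hcor B'
    obtain ⟨δf, hδf, hbar⟩ := barrier_lower_bound_pert (fun _ : ι => (1 : ℝ))
      (fun _ => one_pos) E Cf
      (fun η hη => ⟨(hE η hη).1, fun _ => (hE η hη).2.1⟩)
      (fun η hη => (hE η hη).2.2.1) δ₀ hδ₀
    refine ⟨δf, hδf, fun x hx0 hx a ha hxa hxB => ?_⟩
    have hP : ∀ t, 0 ≤ t → x t ∈ (N₁.union N₂).posClass c' := hstay x hx0 hx
    have hcont : ContinuousOn x (Ici a) := by
      intro t ht
      exact ((hx t (le_trans ha ht)).continuousWithinAt).mono (Ici_subset_Ici.mpr ha)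
    refine hbar x a (fun t ht => (hP t (le_trans ha ht)).1) hcont hxa ?_
    intro W η hW hη
    obtain ⟨Ψ, p, hΨ, hΨp⟩ := (hE η hη).2.2.2 W hW
    refine ⟨Ψ, ?_, ?_⟩
    · intro τ hτ h1 h2
      exact (hΨp (x τ) (hP τ (le_trans ha hτ)) (hxB τ hτ) h1 h2).2
    · intro s t hs hst hτ
      have hdec := gen_decay (N₁.union N₂) Ψ p hΨ hx (fun t ht => (hP t ht).1)
        (le_trans ha hs) hst 0 (by
          intro τ hτ'
          have hτm : τ ∈ Icc s t := ⟨hτ'.1, hτ'.2.le⟩
          have h0 := (hΨp (x τ) (hP τ (le_trans (le_trans ha hs) hτ'.1))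
            (hxB τ (le_trans hs hτ'.1)) (hτ τ hτm).1 (hτ τ hτm).2).1
          rw [neg_zero]
          exact h0)
      rw [zero_mul, sub_zero] at hdec
      exact hdec
  obtain ⟨δf, hδf, hfin⟩ := hstep B₁ δ hδ
  refine ⟨{x | x - c' ∈ (N₁.union N₂).stoich} ∩ Icc (fun _ => δf) (fun _ => B₁),
    isCompact_Icc.inter_left (isClosed_class _ c'), ?_, ?_⟩
  · rintro x ⟨hxc, hxl, -⟩
    exact ⟨fun i => lt_of_lt_of_le hδf (hxl i), hxc⟩
  · intro x hx0 hx
    have hP : ∀ t, 0 ≤ t → x t ∈ (N₁.union N₂).posClass c' := hstay x hx0 hx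
    have hpos : ∀ t, 0 ≤ t → ∀ i, 0 < x t i := fun t ht => (hP t ht).1
    -- the solution enters the box at some time
    have hT₁ : ∃ T₁, 0 ≤ T₁ ∧ ∀ i, δ ≤ x T₁ i ∧ x T₁ i ≤ B := by
      by_contra hcon
      have hout : ∀ t, 0 ≤ t → ¬ (∀ i, δ ≤ x t i ∧ x t i ≤ B) :=
        fun t ht hbox => hcon ⟨t, ht, hbox⟩
      rcases isEmpty_or_nonempty ι with hι | hι
      · exact hout 0 le_rfl (fun i => isEmptyElim i)
      obtain ⟨Bx, hBx⟩ := hbdd x hx0 hx
      obtain ⟨i₀, -, hi₀⟩ := Finset.exists_min_image Finset.univ (fun i => x 0 i)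
        Finset.univ_nonempty
      obtain ⟨d, hd, hdx⟩ := hstep Bx (x 0 i₀) (hpos 0 le_rfl i₀)
      have hlow : ∀ t, 0 ≤ t → ∀ i, d ≤ x t i :=
        hdx x hx0 hx 0 le_rfl (fun i => hi₀ i (Finset.mem_univ i)) (fun t ht i => hBx t ht i)
      have hR : Nonempty R₁ := by
        rcases halt (x 0) (hP 0 le_rfl) with h | h
        · exact absurd h (hout 0 le_rfl)
        · exact h.1
      obtain ⟨r₀⟩ := hR
      set κ : ℝ := mono (N₁.src r₀) (fun _ => d) / mono (N₁.src r₀) (fun _ => (1 : ℝ)) with hκ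
      have hκpos : 0 < κ :=
        div_pos (mono_pos _ _ (fun _ => hd)) (mono_pos _ _ (fun _ => one_pos))
      have hdis : ∀ t, 0 ≤ t →
          ∑ i, colGrad v M (x t) i * (N₁.union N₂).field (x t) i ≤ -κ := by
        intro t ht
        rcases halt (x t) (hP t ht) with h | h
        · exact absurd h (hout t ht)
        · refine le_trans (h.2 r₀) ?_
          rw [exp_cw_eq_div (fun _ => (1 : ℝ)) (x t) (fun _ => one_pos) (hpos t ht),
            neg_le_neg_iff]
          exact div_le_div_of_nonneg_right (mono_const_le _ _ d hd (hlow t ht))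
            (mono_pos _ _ (fun _ => one_pos)).le
      obtain ⟨mV, hmV⟩ := colV_ge_of_le v hv0 M hM Bx
      set T : ℝ := (colV v M (x 0) - mV + 1) / κ with hT
      have hV0 : mV ≤ colV v M (x 0) := hmV (x 0) (hpos 0 le_rfl) (hBx 0 le_rfl)
      have hT0 : 0 ≤ T := div_nonneg (by linarith) hκpos.le
      have h1 := gen_decay (N₁.union N₂) (colV v M) (colGrad v M) hV hx hpos le_rfl hT0 κ
        (fun t ht => hdis t ht.1)
      have h2 : mV ≤ colV v M (x T) := hmV (x T) (hpos T hT0) (hBx T hT0)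
      have h3 : κ * (T - 0) = colV v M (x 0) - mV + 1 := by
        rw [hT]
        field_simp
        ring
      linarith
    obtain ⟨T₁, hT₁0, hT₁box⟩ := hT₁
    -- from then on the function stays below `G₀ + 1`
    have hVle : ∀ t, T₁ ≤ t → colV v M (x t) ≤ G₀ + 1 := by
      intro t ht
      have h1 := gen_apriori_from (N₁.union N₂) (colV v M) (colGrad v M) hV c' δ B G₀ hweak hG₀
        hx hP hT₁0 t ht
      have h2 := hG₀ (x T₁) hT₁box
      rw [max_eq_right h2] at h1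
      exact h1
    have hxB₁ : ∀ t, T₁ ≤ t → ∀ i, x t i ≤ B₁ :=
      fun t ht => hB₁ (x t) (hpos t (le_trans hT₁0 ht)) (hVle t ht)
    have hlow := hfin x hx0 hx T₁ hT₁0 (fun i => (hT₁box i).1) hxB₁
    exact ⟨T₁, fun t ht => ⟨(hP t (le_trans hT₁0 ht)).2, fun i => hlow t ht i,
      fun i => hxB₁ t ht i⟩⟩

end Vale.Agent.Lib.P072
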