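import Vale.Agent.Lib.P072.ColRatio
import Vale.Agent.Lib.P072.ColIneq

/-!
# The correction term is small where two coordinates of opposite direction signs are small
-/

namespace Vale.Agent.Lib.P072

open Set

set_option linter.unusedSectionVars false

variable {ι : Type} [Fintype ι]

theorem slabCorr_eq (u x : ι → ℝ) (hu : ∃ i, u i ≠ 0) (hx : ∀ i, 0 < x i) (M : ℝ) :
    slabCorr u M x = ∑ i, x i * slabGrad u M x i
      + (lineMu u x 0 - lineMu u x (clampR M (logCoord u x))) * ∑ i, u i := by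
  unfold slabCorr
  rw [lineF_eq u x hu hx 0, lineF_eq u x hu hx (clampR M (logCoord u x))]
  unfold slabGrad
  simp only [mul_sub, Finset.sum_sub_distrib]
  ring

theorem lineMu_abs_le (u x : ι → ℝ) (hu : ∃ i, u i ≠ 0) (hx : ∀ i, 0 < x i) (γ : ℝ)
    (ip im : ι) (hp : 0 < u ip) (hm : u im < 0) (m : ℝ) (h1 : x ip ≤ m) (h2 : x im ≤ m)
    (umin : ℝ) (humin : 0 < umin) (hmin : ∀ i, u i ≠ 0 → umin ≤ |u i|) :
    |lineMu u x γ| ≤ m / umin := by
  have hpp : 0 < x ip - lineMu u x γ * u ip := lineProj_pos u x hu hx γ ip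
  have hpm : 0 < x im - lineMu u x γ * u im := lineProj_pos u x hu hx γ im
  have hup : umin ≤ u ip := by
    have h := hmin ip hp.ne'
    rwa [abs_of_pos hp] at h
  have hum : umin ≤ -u im := by
    have h := hmin im hm.ne
    rwa [abs_of_neg hm] at h
  have hm0 : 0 ≤ m := le_trans (hx ip).le h1
  generalize lineMu u x γ = μ at hpp hpm ⊢
  rw [abs_le]
  constructor
  · rw [← neg_div, div_le_iff₀ humin]
    by_cases hμ0 : 0 ≤ μ
    · have h3 := mul_nonneg hμ0 humin.le
      linarith
    · push Not at hμ0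
      have h3 : μ * (-u im) ≤ μ * umin := mul_le_mul_of_nonpos_left hum hμ0.le
      have h4 : μ * (-u im) = -(μ * u im) := by ring
      linarith
  · rw [le_div_iff₀ humin]
    by_cases hμ0 : 0 ≤ μ
    · have h3 : μ * umin ≤ μ * u ip := mul_le_mul_of_nonneg_left hup hμ0
      linarith
    · push Not at hμ0
      have h3 := mul_neg_of_neg_of_pos hμ0 humin
      linarith

theorem slabCorr_abs_le_small (u x : ι → ℝ) (hu : ∃ i, u i ≠ 0) (hx : ∀ i, 0 < x i) (M : ℝ)
    (hM : 0 ≤ M) (ip im : ι) (hp : 0 < u ip) (hm : u im < 0) (m : ℝ) (h1 : x ip ≤ m)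
    (h2 : x im ≤ m) (umin : ℝ) (humin : 0 < umin) (hmin : ∀ i, u i ≠ 0 → umin ≤ |u i|)
    (W : Finset ι) (hW : ∀ i, u i ≠ 0 → i ∈ W) :
    |slabCorr u M x| ≤ M / umin * ∑ i ∈ W, x i + 2 * (m / umin) * ∑ i, |u i| := by
  rw [slabCorr_eq u x hu hx M]
  have hm0 : 0 ≤ m := le_trans (hx ip).le h1
  have hA : |∑ i, x i * slabGrad u M x i| ≤ M / umin * ∑ i ∈ W, x i := by
    calc |∑ i, x i * slabGrad u M x i| ≤ ∑ i, |x i * slabGrad u M x i| :=
          Finset.abs_sum_le_sum_abs _ _
      _ = ∑ i ∈ W, |x i * slabGrad u M x i| := by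
          symm
          apply Finset.sum_subset (Finset.subset_univ W)
          intro i _ hiW
          have hui : u i = 0 := by
            by_contra h
            exact hiW (hW i h)
          rw [slabGrad_of_zero u M x i hui, mul_zero, abs_zero]
      _ ≤ ∑ i ∈ W, x i * (M / umin) := by
          apply Finset.sum_le_sum
          intro i _
          rw [abs_mul, abs_of_pos (hx i)]
          exact mul_le_mul_of_nonneg_left
            (slabGrad_abs_le u x hu hx M hM umin humin hmin i) (hx i).le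
      _ = M / umin * ∑ i ∈ W, x i := by
          rw [← Finset.sum_mul, mul_comm]
  have hB : |(lineMu u x 0 - lineMu u x (clampR M (logCoord u x))) * ∑ i, u i|
      ≤ 2 * (m / umin) * ∑ i, |u i| := by
    rw [abs_mul]
    have h0 := lineMu_abs_le u x hu hx 0 ip im hp hm m h1 h2 umin humin hmin
    have hc := lineMu_abs_le u x hu hx (clampR M (logCoord u x)) ip im hp hm m h1 h2 umin
      humin hmin
    have hd : |lineMu u x 0 - lineMu u x (clampR M (logCoord u x))| ≤ 2 * (m / umin) := by
      have h3 := abs_sub (lineMu u x 0) (lineMu u x (clampR M (logCoord u x)))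
      linarith
    have hs : |∑ i, u i| ≤ ∑ i, |u i| := Finset.abs_sum_le_sum_abs _ _
    have hpos : 0 ≤ 2 * (m / umin) := by
      have h3 : 0 ≤ m / umin := div_nonneg hm0 humin.le
      linarith
    exact mul_le_mul hd hs (abs_nonneg _) hpos
  exact (abs_add_le _ _).trans (add_le_add hA hB)

end Vale.Agent.Lib.P072
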