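import Mathlib

/-!
# A continuation principle for curves
-/

namespace Vale.Agent.Lib.P072

open Set

/-- Continuation principle: let `x` be continuous on `[0, ∞)`, `F` closed, `U` open with
`F ⊆ U`, and `x 0 ∈ F`. If, whenever `x` stays in `U` on `[0, T]`, it stays in `F` on
`[0, T]`, then `x` stays in `F` for all times. -/
theorem continuation_closed {E : Type} [TopologicalSpace E] {x : ℝ → E}
    (hx : ContinuousOn x (Ici 0)) {U F : Set E} (hU : IsOpen U) (hF : IsClosed F)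
    (hFU : F ⊆ U) (h0 : x 0 ∈ F)
    (h : ∀ T, 0 ≤ T → (∀ t ∈ Icc 0 T, x t ∈ U) → ∀ t ∈ Icc 0 T, x t ∈ F) :
    ∀ t, 0 ≤ t → x t ∈ F := by
  have key : ∀ t, 0 ≤ t → x t ∈ U := by
    by_contra hcon
    push Not at hcon
    obtain ⟨t₁, ht₁, hxt₁⟩ := hcon
    have hBne : ({t | 0 ≤ t ∧ x t ∉ U} : Set ℝ).Nonempty := ⟨t₁, ht₁, hxt₁⟩
    have hBbdd : BddBelow ({t | 0 ≤ t ∧ x t ∉ U} : Set ℝ) := ⟨0, fun t ht => ht.1⟩
    have hs0 : 0 ≤ sInf ({t | 0 ≤ t ∧ x t ∉ U} : Set ℝ) := le_csInf hBne (fun t ht => ht.1)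
    generalize hs : sInf ({t | 0 ≤ t ∧ x t ∉ U} : Set ℝ) = s at hs0
    have hlt : ∀ t, 0 ≤ t → t < s → x t ∈ U := by
      intro t ht hts
      by_contra hnot
      have hle : sInf ({t | 0 ≤ t ∧ x t ∉ U} : Set ℝ) ≤ t := csInf_le hBbdd ⟨ht, hnot⟩
      rw [hs] at hle
      exact absurd hle (not_le.mpr hts)
    have hF' : ∀ T, 0 ≤ T → T < s → x T ∈ F := by
      intro T hT hTs
      exact h T hT (fun t ht => hlt t ht.1 (lt_of_le_of_lt ht.2 hTs)) T ⟨hT, le_rfl⟩
    have hxs : x s ∈ F := by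
      rcases eq_or_lt_of_le hs0 with h00 | hpos
      · rw [← h00]
        exact h0
      · have hcl : s ∈ closure (Ico 0 s) := by
          rw [closure_Ico (ne_of_lt hpos)]
          exact ⟨hs0, le_rfl⟩
        have hcw : ContinuousWithinAt x (Ico 0 s) s :=
          (hx s hs0).mono (fun t ht => ht.1)
        have hmem : x s ∈ closure (x '' Ico 0 s) := hcw.mem_closure_image hcl
        have hsub : x '' Ico 0 s ⊆ F := by
          rintro _ ⟨t, ht, rfl⟩
          exact hF' t ht.1 ht.2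
        exact closure_minimal hsub hF hmem
    have hxsU : x s ∈ U := hFU hxs
    have hnhds : x ⁻¹' U ∈ nhdsWithin s (Ici 0) := (hx s hs0) (hU.mem_nhds hxsU)
    rw [Metric.mem_nhdsWithin_iff] at hnhds
    obtain ⟨η, hη, hball⟩ := hnhds
    have hlt' : sInf ({t | 0 ≤ t ∧ x t ∉ U} : Set ℝ) < s + η := by
      rw [hs]
      linarith
    obtain ⟨b, hbB, hbs⟩ := exists_lt_of_csInf_lt hBne hlt'
    have hsb : s ≤ b := by
      rw [← hs]
      exact csInf_le hBbdd hbB
    have hmem : b ∈ Metric.ball s η ∩ Ici 0 := by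
      refine ⟨?_, hbB.1⟩
      rw [Metric.mem_ball, Real.dist_eq, abs_lt]
      constructor <;> linarith
    exact hbB.2 (hball hmem)
  intro t ht
  exact h t ht (fun t' ht' => key t' ht'.1) t ⟨ht, le_rfl⟩

end Vale.Agent.Lib.P072
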