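import Vale.Agent.Lib.P072.FlatBarrier

/-!
# The barrier induction on a finite time interval
-/

namespace Vale.Agent.Lib.P072

open Set

/-- The lower bound of `barrier_lower_bound` for curves that are only known on a finite time
interval `[a, T]`. -/
theorem barrier_lower_bound_Icc {ι : Type} [Fintype ι] (lam : ι → ℝ) (hlam : ∀ i, 0 < lam i)
    (E : ℝ → ℝ) (hE : ∀ η, 0 < η → 0 < E η ∧ ∀ i, E η ≤ lam i) (δ₀ : ℝ) (hδ₀ : 0 < δ₀) :
    ∃ δf : ℝ, 0 < δf ∧ ∀ (x : ℝ → ι → ℝ) (a T : ℝ), a ≤ T →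
      (∀ t ∈ Icc a T, ∀ i, 0 < x t i) →
      ContinuousOn x (Icc a T) →
      (∀ i, δ₀ ≤ x a i) →
      (∀ (W : Finset ι) (η : ℝ), W.Nonempty → 0 < η → ∀ s t, a ≤ s → s ≤ t → t ≤ T →
        (∀ τ ∈ Icc s t, (∀ j, j ∉ W → η ≤ x τ j) ∧ ∀ i ∈ W, x τ i ≤ E η) →
        ∑ i ∈ W, x t i * (Real.log (x t i) - Real.log (lam i) - 1) ≤
          ∑ i ∈ W, x s i * (Real.log (x s i) - Real.log (lam i) - 1)) →
      ∀ t ∈ Icc a T, ∀ i, δf ≤ x t i := by
  obtain ⟨δf, hδf, H⟩ := barrier_lower_bound lam hlam E hE δ₀ hδ₀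
  refine ⟨δf, hδf, fun x a T haT hpos hcont hinit hmono => ?_⟩
  -- the stopped curve `t ↦ x (min t T)`
  have h1 : ∀ t, a ≤ t → ∀ i, 0 < x (min t T) i := fun t hat i =>
    hpos (min t T) ⟨le_min hat haT, min_le_right t T⟩ i
  have h2 : ContinuousOn (fun t => x (min t T)) (Ici a) := by
    have hin : ContinuousOn (fun t : ℝ => min t T) (Ici a) :=
      (continuous_id.min continuous_const).continuousOn
    have hmaps : MapsTo (fun t : ℝ => min t T) (Ici a) (Icc a T) :=
      fun t ht => ⟨le_min ht haT, min_le_right t T⟩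
    exact hcont.comp hin hmaps
  have h3 : ∀ i, δ₀ ≤ x (min a T) i := by
    intro i
    rw [min_eq_left haT]
    exact hinit i
  have h4 : ∀ (W : Finset ι) (η : ℝ), W.Nonempty → 0 < η → ∀ s t, a ≤ s → s ≤ t →
      (∀ τ ∈ Icc s t, (∀ j, j ∉ W → η ≤ x (min τ T) j) ∧ ∀ i ∈ W, x (min τ T) i ≤ E η) →
      ∑ i ∈ W, x (min t T) i * (Real.log (x (min t T) i) - Real.log (lam i) - 1) ≤
        ∑ i ∈ W, x (min s T) i * (Real.log (x (min s T) i) - Real.log (lam i) - 1) := by
    intro W η hW hη s t has hst Hτ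
    have hs' : a ≤ min s T := le_min has haT
    have hst' : min s T ≤ min t T := min_le_min hst le_rfl
    have ht' : min t T ≤ T := min_le_right t T
    refine hmono W η hW hη (min s T) (min t T) hs' hst' ht' ?_
    intro τ hτ
    have hτT : τ ≤ T := hτ.2.trans ht'
    have hτt : τ ≤ t := hτ.2.trans (min_le_left t T)
    have key : x (min (max τ s) T) = x τ := by
      rcases le_or_gt s τ with h | h
      · rw [max_eq_left h, min_eq_left hτT]
      · have hTτ : T ≤ τ := by
          rcases le_total s T with h1' | h1'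
          · have h5 := hτ.1
            rw [min_eq_left h1'] at h5
            exact absurd h5 (not_le.mpr h)
          · have h5 := hτ.1
            rw [min_eq_right h1'] at h5
            exact h5
        have hτeq : τ = T := le_antisymm hτT hTτ
        have hTs : T ≤ s := hTτ.trans h.le
        rw [max_eq_right h.le, min_eq_right hTs, hτeq]
    have hmem : max τ s ∈ Icc s t := ⟨le_max_right τ s, max_le hτt hst⟩
    have h6 : (∀ j, j ∉ W → η ≤ x (min (max τ s) T) j) ∧
        ∀ i ∈ W, x (min (max τ s) T) i ≤ E η := Hτ (max τ s) hmem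
    rw [key] at h6
    exact h6
  intro t ht i
  have h7 : δf ≤ x (min t T) i := H (fun t => x (min t T)) a h1 h2 h3 h4 t ht.1 i
  rwa [min_eq_left ht.2] at h7

end Vale.Agent.Lib.P072
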