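import Vale.Agent.Lib.P072.FlatKDefs
import Vale.Agent.Lib.P072.FlatCorner

/-!
# The face functions do not increase near the faces of the orthant, uniformly in the rates
-/

namespace Vale.Agent.Lib.P072

open Set

set_option linter.unusedSectionVars false

variable {R₁ R₂ ι : Type} [Fintype R₁] [Fintype R₂] [Fintype ι]

/-- Corner estimate, uniform in the rate vectors with entries in `[ε, ε⁻¹]`: for every
`η > 0` and `B` there is `ε' > 0` such that at every point of the class with all coordinates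
at most `B`, the coordinates outside `W` at least `η` and the coordinates in `W` at most `ε'`,
the derivative of the face function of `W` along the vector field of the union is nonpositive
for every such rate vector. -/
theorem corner_nonposK (N₁ : MAS R₁ ι) (N₂ : MAS R₂ ι) (lam : ι → ℝ) (hlam : ∀ i, 0 < lam i)
    (h₁ : N₁.StronglyConnected) (hspan : N₂.stoich ≤ N₁.stoich) (ε : ℝ)
    (hsh : ∀ Cb : ℝ, ∃ Θ : ℝ, 0 ≤ Θ ∧ ∀ k : R₁ → ℝ, (∀ r, ε ≤ k r ∧ k r ≤ ε⁻¹) →
      ∀ x : ι → ℝ, (∀ i, 0 < x i) → ∀ b : ι → ℝ, (∀ i, |b i| ≤ Cb) →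
      ∀ r₁ r₂, Θ ≤ cw lam x (N₁.src r₁) - cw lam x (N₁.src r₂) →
      ∀ r₀, ∑ i, (Real.log (x i) - Real.log (lam i)) * N₁.fieldK k x i
          + ∑ i, b i * N₁.fieldK k x i ≤ - Real.exp (cw lam x (N₁.src r₀)))
    (hth : ∀ k : R₂ → ℝ, (∀ r, ε ≤ k r ∧ k r ≤ ε⁻¹) → ∀ x : ι → ℝ, (∀ j, 0 < x j) →
      ∀ i, x i ≤ lam i → 0 ≤ N₂.fieldK k x i)
    (c : ι → ℝ) (hc : ∀ i, 0 < c i) (η B : ℝ) (hη : 0 < η) :
    ∃ ε' : ℝ, 0 < ε' ∧ (∀ i, ε' ≤ lam i) ∧ ∀ W : Finset ι, W.Nonempty →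
      ∀ x ∈ (N₁.union N₂).posClass c, (∀ i, x i ≤ B) → (∀ j, j ∉ W → η ≤ x j) →
      (∀ i ∈ W, x i ≤ ε') → ∀ k : R₁ ⊕ R₂ → ℝ, (∀ r, ε ≤ k r ∧ k r ≤ ε⁻¹) →
      ∑ i ∈ W, (Real.log (x i) - Real.log (lam i)) * (N₁.union N₂).fieldK k x i ≤ 0 := by
  classical
  rcases isEmpty_or_nonempty ι with hι | hι
  · refine ⟨1, one_pos, fun i => isEmptyElim i, fun W hW => ?_⟩
    obtain ⟨i, -⟩ := hW
    exact isEmptyElim i
  obtain ⟨imin, -, hmin⟩ := Finset.exists_min_image Finset.univ lam Finset.univ_nonempty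
  obtain ⟨Cb, hCb⟩ : ∃ Cb : ℝ,
      Cb = |Real.log η| + |Real.log B| + ∑ i, |Real.log (lam i)| := ⟨_, rfl⟩
  obtain ⟨Θ, -, hΘ⟩ := hsh Cb
  obtain ⟨δc, Bc, hδc, hcore⟩ := core_bounds N₁ h₁ lam c hc Θ
  have hεle : ∀ i, min (δc / 2) (lam imin) ≤ lam i :=
    fun i => (min_le_right _ _).trans (hmin i (Finset.mem_univ i))
  refine ⟨min (δc / 2) (lam imin), lt_min (by linarith) (hlam imin), hεle, ?_⟩
  intro W hW x hxP hxB hxη hxε k hk
  obtain ⟨hx, hxc⟩ := hxP
  rw [union_stoich_of_le N₁ N₂ hspan] at hxc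
  obtain ⟨i₀, hi₀⟩ := hW
  -- the two restrictions of the rate vector
  obtain ⟨k₁, hk₁def⟩ : ∃ k₁ : R₁ → ℝ, k₁ = fun r => k (Sum.inl r) := ⟨_, rfl⟩
  obtain ⟨k₂, hk₂def⟩ : ∃ k₂ : R₂ → ℝ, k₂ = fun r => k (Sum.inr r) := ⟨_, rfl⟩
  have hk₁ : ∀ r, ε ≤ k₁ r ∧ k₁ r ≤ ε⁻¹ := fun r => by
    rw [hk₁def]
    exact hk (Sum.inl r)
  have hk₂ : ∀ r, ε ≤ k₂ r ∧ k₂ r ≤ ε⁻¹ := fun r => by
    rw [hk₂def]
    exact hk (Sum.inr r)
  -- the sum splits into the parts of the two systems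
  have hsplit : ∑ i ∈ W, (Real.log (x i) - Real.log (lam i)) * (N₁.union N₂).fieldK k x i
      = ∑ i ∈ W, (Real.log (x i) - Real.log (lam i)) * N₁.fieldK k₁ x i
        + ∑ i ∈ W, (Real.log (x i) - Real.log (lam i)) * N₂.fieldK k₂ x i := by
    rw [union_fieldK, ← Finset.sum_add_distrib, hk₁def, hk₂def]
    refine Finset.sum_congr rfl (fun i _ => ?_)
    rw [Pi.add_apply, mul_add]
  -- the part of the second system
  have hN2 : ∑ i ∈ W, (Real.log (x i) - Real.log (lam i)) * N₂.fieldK k₂ x i ≤ 0 := by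
    refine Finset.sum_nonpos (fun i hi => ?_)
    have hxi : x i ≤ lam i := (hxε i hi).trans (hεle i)
    have hlog : Real.log (x i) ≤ Real.log (lam i) := Real.log_le_log (hx i) hxi
    exact mul_nonpos_of_nonpos_of_nonneg (by linarith) (hth k₂ hk₂ x hx i hxi)
  -- the part of the first system, as a shifted dissipation
  obtain ⟨b, hb⟩ : ∃ b : ι → ℝ, ∀ i,
      b i = if i ∈ W then 0 else -(Real.log (x i) - Real.log (lam i)) := ⟨_, fun _ => rfl⟩
  have hbW : ∀ i, i ∈ W → b i = 0 := fun i hi => by rw [hb i, if_pos hi]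
  have hbn : ∀ i, i ∉ W → b i = -(Real.log (x i) - Real.log (lam i)) :=
    fun i hi => by rw [hb i, if_neg hi]
  have hbb : ∀ i, |b i| ≤ Cb := by
    intro i
    have hsum : |Real.log (lam i)| ≤ ∑ j, |Real.log (lam j)| :=
      Finset.single_le_sum (f := fun j => |Real.log (lam j)|) (fun j _ => abs_nonneg _)
        (Finset.mem_univ i)
    have hη0 := abs_nonneg (Real.log η)
    have hB0 := abs_nonneg (Real.log B)
    by_cases hi : i ∈ W
    · rw [hbW i hi, abs_zero, hCb]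
      have hs0 : 0 ≤ ∑ j, |Real.log (lam j)| := Finset.sum_nonneg (fun j _ => abs_nonneg _)
      linarith
    · rw [hbn i hi, abs_neg, hCb]
      have h1 : Real.log η ≤ Real.log (x i) := Real.log_le_log hη (hxη i hi)
      have h2 : Real.log (x i) ≤ Real.log B := Real.log_le_log (hx i) (hxB i)
      have h3 : |Real.log (x i)| ≤ |Real.log η| + |Real.log B| := by
        rw [abs_le]
        constructor
        · have h5 := neg_abs_le (Real.log η)
          linarith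
        · have h5 := le_abs_self (Real.log B)
          linarith
      have h4 : |Real.log (x i) - Real.log (lam i)| ≤ |Real.log (x i)| + |Real.log (lam i)| :=
        abs_sub _ _
      linarith
  have hid : ∑ i ∈ W, (Real.log (x i) - Real.log (lam i)) * N₁.fieldK k₁ x i
      = ∑ i, (Real.log (x i) - Real.log (lam i)) * N₁.fieldK k₁ x i
        + ∑ i, b i * N₁.fieldK k₁ x i := by
    have h1 : ∑ i ∈ W, (Real.log (x i) - Real.log (lam i)) * N₁.fieldK k₁ x i
        = ∑ i, if i ∈ W then (Real.log (x i) - Real.log (lam i)) * N₁.fieldK k₁ x i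
            else 0 := by
      rw [Finset.sum_ite_mem, Finset.univ_inter]
    rw [h1, ← Finset.sum_add_distrib]
    refine Finset.sum_congr rfl (fun i _ => ?_)
    by_cases hi : i ∈ W
    · rw [if_pos hi, hbW i hi]
      ring
    · rw [if_neg hi, hbn i hi]
      ring
  -- the spread is large, since a coordinate of `x` is small
  have hspread : ¬ ∀ r₁ r₂, cw lam x (N₁.src r₁) - cw lam x (N₁.src r₂) ≤ Θ := by
    intro hall
    have h := (hcore x hx hxc hall i₀).1
    have h2 : x i₀ ≤ min (δc / 2) (lam imin) := hxε i₀ hi₀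
    have h3 := min_le_left (δc / 2) (lam imin)
    linarith
  push Not at hspread
  obtain ⟨r₁, r₂, hr⟩ := hspread
  have hD := hΘ k₁ hk₁ x hx b hbb r₁ r₂ hr.le r₁
  have hpos := Real.exp_pos (cw lam x (N₁.src r₁))
  rw [hsplit, hid]
  linarith

end Vale.Agent.Lib.P072
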