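import Vale.Agent.Lib.P072.FlatDefs
import Vale.Agent.Lib.P072.BalEntropy

/-!
# Elementary properties of the flattened entropy-type function
-/

namespace Vale.Agent.Lib.P072

open Set

set_option linter.unusedSectionVars false

variable {ι : Type} [Fintype ι]

/-- The scalar entropy-type function relative to a constant reference value `c`. -/
private lemma flatAux_hasDerivAt (c s : ℝ) (hs : 0 < s) :
    HasDerivAt (fun u : ℝ => u * (Real.log u - Real.log c - 1) + c)
      (Real.log s - Real.log c) s := by
  have hne : s ≠ 0 := hs.ne'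
  have hid : HasDerivAt (fun u : ℝ => u) 1 s := hasDerivAt_id' s
  have hlog : HasDerivAt (fun u : ℝ => Real.log u) (1 / s) s := by
    rw [one_div]
    exact Real.hasDerivAt_log hne
  have hprod := (hid.mul ((hlog.sub_const (Real.log c)).sub_const 1)).add_const c
  have e : 1 * (Real.log s - Real.log c - 1) + s * (1 / s) = Real.log s - Real.log c := by
    rw [mul_one_div_cancel hne]
    ring
  rw [e] at hprod
  exact hprod

/-- One-sided derivative of the scalar flattened function where the clamp is locally a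
constant `c`. -/
private lemma flatAux_within_const (lo hi c s : ℝ) (hs : 0 < s) (S U : Set ℝ)
    (hU : U ∈ nhdsWithin s S) (hsU : s ∈ U) (hc : ∀ u ∈ U, max lo (min hi u) = c) :
    HasDerivWithinAt
      (fun u : ℝ => u * (Real.log u - Real.log (max lo (min hi u)) - 1) + max lo (min hi u))
      (Real.log s - Real.log (max lo (min hi s))) S s := by
  rw [hc s hsU]
  refine (flatAux_hasDerivAt c s hs).hasDerivWithinAt.congr_of_eventuallyEq ?_ ?_
  · filter_upwards [hU] with u hu
    rw [hc u hu]
  · show s * (Real.log s - Real.log (max lo (min hi s)) - 1) + max lo (min hi s)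
      = s * (Real.log s - Real.log c - 1) + c
    rw [hc s hsU]

/-- One-sided derivative of the scalar flattened function where the clamp is locally the
identity: there the function vanishes. -/
private lemma flatAux_within_id (lo hi s : ℝ) (S U : Set ℝ)
    (hU : U ∈ nhdsWithin s S) (hsU : s ∈ U) (hc : ∀ u ∈ U, max lo (min hi u) = u) :
    HasDerivWithinAt
      (fun u : ℝ => u * (Real.log u - Real.log (max lo (min hi u)) - 1) + max lo (min hi u))
      (Real.log s - Real.log (max lo (min hi s))) S s := by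
  rw [hc s hsU, sub_self]
  refine (hasDerivWithinAt_const s S (0 : ℝ)).congr_of_eventuallyEq ?_ ?_
  · filter_upwards [hU] with u hu
    rw [hc u hu]
    ring
  · show s * (Real.log s - Real.log (max lo (min hi s)) - 1) + max lo (min hi s) = 0
    rw [hc s hsU]
    ring

/-- The scalar flattened function `u * (log u - log c - 1) + c`, `c = max lo (min hi u)`, is
differentiable at every `s > 0` with derivative `log s - log (max lo (min hi s))`. -/
lemma flat_scalar_hasDerivAt (lo hi s : ℝ) (hlo : 0 < lo) (hle : lo ≤ hi) (hs : 0 < s) :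
    HasDerivAt
      (fun u : ℝ => u * (Real.log u - Real.log (max lo (min hi u)) - 1) + max lo (min hi u))
      (Real.log s - Real.log (max lo (min hi s))) s := by
  have _hlo : 0 < lo := hlo
  rw [← hasDerivWithinAt_univ, ← Set.Iic_union_Ici (a := s)]
  refine HasDerivWithinAt.union ?_ ?_
  · -- the derivative from the left
    rcases le_or_gt s lo with h1 | h1
    · refine flatAux_within_const lo hi lo s hs (Iic s) (Iic s) self_mem_nhdsWithin
        self_mem_Iic (fun u hu => ?_)
      have hu' : u ≤ s := hu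
      rw [min_eq_right ((hu'.trans h1).trans hle), max_eq_left (hu'.trans h1)]
    · rcases le_or_gt s hi with h2 | h2
      · refine flatAux_within_id lo hi s (Iic s) (Ioc lo s) (Ioc_mem_nhdsLE h1)
          (right_mem_Ioc.mpr h1) (fun u hu => ?_)
        rw [min_eq_right (hu.2.trans h2), max_eq_right hu.1.le]
      · refine flatAux_within_const lo hi hi s hs (Iic s) (Ioc hi s) (Ioc_mem_nhdsLE h2)
          (right_mem_Ioc.mpr h2) (fun u hu => ?_)
        rw [min_eq_left hu.1.le, max_eq_right hle]
  · -- the derivative from the right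
    rcases lt_or_ge s lo with h1 | h1
    · refine flatAux_within_const lo hi lo s hs (Ici s) (Ico s lo) (Ico_mem_nhdsGE h1)
        (left_mem_Ico.mpr h1) (fun u hu => ?_)
      rw [min_eq_right (hu.2.le.trans hle), max_eq_left hu.2.le]
    · rcases lt_or_ge s hi with h2 | h2
      · refine flatAux_within_id lo hi s (Ici s) (Ico s hi) (Ico_mem_nhdsGE h2)
          (left_mem_Ico.mpr h2) (fun u hu => ?_)
        rw [min_eq_right hu.2.le, max_eq_right (h1.trans hu.1)]
      · refine flatAux_within_const lo hi hi s hs (Ici s) (Ici s) self_mem_nhdsWithin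
          self_mem_Ici (fun u hu => ?_)
        have hu' : s ≤ u := hu
        rw [min_eq_left (h2.trans hu'), max_eq_right hle]

/-- The scalar flattened function is nonnegative on `[0, ∞)`. -/
lemma flat_scalar_nonneg (lo hi s : ℝ) (hlo : 0 < lo) (hs : 0 ≤ s) :
    0 ≤ s * (Real.log s - Real.log (max lo (min hi s)) - 1) + max lo (min hi s) := by
  have hc : 0 < max lo (min hi s) := lt_of_lt_of_le hlo (le_max_left _ _)
  rcases hs.eq_or_lt with h0 | h0
  · rw [← h0, zero_mul, zero_add]
    rw [← h0] at hc
    exact hc.le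
  · obtain ⟨c, hcdef⟩ : ∃ c : ℝ, c = max lo (min hi s) := ⟨_, rfl⟩
    rw [← hcdef] at hc ⊢
    have h := Real.log_le_sub_one_of_pos (div_pos hc h0)
    rw [Real.log_div hc.ne' h0.ne'] at h
    have h2 : s * (Real.log c - Real.log s) ≤ s * (c / s - 1) :=
      mul_le_mul_of_nonneg_left h h0.le
    have e : s * (c / s - 1) = c - s := by
      field_simp
    rw [e] at h2
    have e2 : s * (Real.log s - Real.log c - 1) + c
        = c - s - s * (Real.log c - Real.log s) := by ring
    rw [e2]
    linarith

/-- Chain rule for the flattened entropy-type function along a positive curve. -/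
lemma hasDerivWithinAt_flatEntropy (lo hi : ι → ℝ) (hlo : ∀ i, 0 < lo i)
    (hle : ∀ i, lo i ≤ hi i) {γ : ℝ → ι → ℝ} {γ' : ι → ℝ} {s : Set ℝ} {t : ℝ}
    (hγ : HasDerivWithinAt γ γ' s t) (hpos : ∀ i, 0 < γ t i) :
    HasDerivWithinAt (fun τ => flatEntropy lo hi (γ τ))
      (∑ i, (Real.log (γ t i) - Real.log (clampv lo hi (γ t) i)) * γ' i) s t := by
  unfold flatEntropy clampv
  apply HasDerivWithinAt.fun_sum
  intro i _
  have hi' : HasDerivWithinAt (fun τ => γ τ i) (γ' i) s t := hasDerivWithinAt_pi.mp hγ i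
  have hcomp := (flat_scalar_hasDerivAt (lo i) (hi i) (γ t i) (hlo i) (hle i)
    (hpos i)).comp_hasDerivWithinAt t hi'
  exact hcomp

/-- The flattened entropy-type function is nonnegative on the nonnegative orthant. -/
lemma flatEntropy_nonneg (lo hi x : ι → ℝ) (hlo : ∀ i, 0 < lo i) (hx : ∀ i, 0 ≤ x i) :
    0 ≤ flatEntropy lo hi x := by
  unfold flatEntropy clampv
  exact Finset.sum_nonneg (fun i _ => flat_scalar_nonneg (lo i) (hi i) (x i) (hlo i) (hx i))

/-- Sublevel sets of the flattened entropy-type function are bounded. -/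
lemma flatEntropy_sublevel_bdd (lo hi : ι → ℝ) (hlo : ∀ i, 0 < lo i) (hle : ∀ i, lo i ≤ hi i)
    (L : ℝ) :
    ∃ B : ℝ, ∀ x : ι → ℝ, (∀ i, 0 < x i) → flatEntropy lo hi x ≤ L → ∀ i, x i ≤ B := by
  classical
  refine ⟨|L| + ∑ j, Real.exp 2 * hi j, ?_⟩
  intro x hx hL i
  by_contra hcon
  push Not at hcon
  have hhi : ∀ j, 0 < hi j := fun j => lt_of_lt_of_le (hlo j) (hle j)
  have hi1 : Real.exp 2 * hi i ≤ ∑ j, Real.exp 2 * hi j :=
    Finset.single_le_sum (f := fun j => Real.exp 2 * hi j)
      (fun j _ => mul_nonneg (Real.exp_pos 2).le (hhi j).le) (Finset.mem_univ i)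
  have hbig : Real.exp 2 * hi i < x i := by linarith [abs_nonneg L]
  have hexp : (1 : ℝ) ≤ Real.exp 2 := by
    have h := Real.add_one_le_exp (2 : ℝ)
    linarith
  have hxhi : hi i ≤ x i := by
    have h : 1 * hi i ≤ Real.exp 2 * hi i := mul_le_mul_of_nonneg_right hexp (hhi i).le
    linarith
  have hclamp : max (lo i) (min (hi i) (x i)) = hi i := by
    rw [min_eq_left hxhi, max_eq_right (hle i)]
  have hpos2 : 0 < Real.exp 2 * hi i := mul_pos (Real.exp_pos 2) (hhi i)
  have hlog : Real.log (Real.exp 2 * hi i) ≤ Real.log (x i) := Real.log_le_log hpos2 hbig.le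
  rw [Real.log_mul (Real.exp_ne_zero 2) (hhi i).ne', Real.log_exp] at hlog
  have hterm : x i ≤ x i * (Real.log (x i) - Real.log (max (lo i) (min (hi i) (x i))) - 1)
      + max (lo i) (min (hi i) (x i)) := by
    rw [hclamp]
    have h2 : 1 ≤ Real.log (x i) - Real.log (hi i) - 1 := by linarith
    have h3 : x i * 1 ≤ x i * (Real.log (x i) - Real.log (hi i) - 1) :=
      mul_le_mul_of_nonneg_left h2 (hx i).le
    linarith [hhi i]
  have hsingle : x i * (Real.log (x i) - Real.log (max (lo i) (min (hi i) (x i))) - 1)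
      + max (lo i) (min (hi i) (x i)) ≤ flatEntropy lo hi x := by
    unfold flatEntropy clampv
    exact Finset.single_le_sum
      (f := fun j => x j * (Real.log (x j) - Real.log (max (lo j) (min (hi j) (x j))) - 1)
        + max (lo j) (min (hi j) (x j)))
      (fun j _ => flat_scalar_nonneg (lo j) (hi j) (x j) (hlo j) (hx j).le) (Finset.mem_univ i)
  have hS0 : 0 ≤ ∑ j, Real.exp 2 * hi j :=
    Finset.sum_nonneg (fun j _ => mul_nonneg (Real.exp_pos 2).le (hhi j).le)
  linarith [le_abs_self L]

/-- The flattened entropy-type function is bounded above on boxes inside the positive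
orthant. -/
lemma flatEntropy_le_of_box (lo hi : ι → ℝ) (hlo : ∀ i, 0 < lo i) (hle : ∀ i, lo i ≤ hi i)
    (δ B : ℝ) (hδ : 0 < δ) :
    ∃ G₀ : ℝ, ∀ x : ι → ℝ, (∀ i, δ ≤ x i ∧ x i ≤ B) → flatEntropy lo hi x ≤ G₀ := by
  refine ⟨∑ i, (|B| * (|Real.log δ| + |Real.log B| + (|Real.log (lo i)| + |Real.log (hi i)|)
    + 1) + hi i), ?_⟩
  intro x hx
  unfold flatEntropy clampv
  apply Finset.sum_le_sum
  intro i _
  obtain ⟨h1, h2⟩ := hx i
  have hxi : 0 < x i := lt_of_lt_of_le hδ h1
  obtain ⟨c, hcdef⟩ : ∃ c : ℝ, c = max (lo i) (min (hi i) (x i)) := ⟨_, rfl⟩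
  rw [← hcdef]
  have hc1 : lo i ≤ c := by rw [hcdef]; exact le_max_left _ _
  have hc2 : c ≤ hi i := by rw [hcdef]; exact max_le (hle i) (min_le_left _ _)
  have hc0 : 0 < c := lt_of_lt_of_le (hlo i) hc1
  have hl1 : Real.log δ ≤ Real.log (x i) := Real.log_le_log hδ h1
  have hl2 : Real.log (x i) ≤ Real.log B := Real.log_le_log hxi h2
  have hl3 : Real.log (lo i) ≤ Real.log c := Real.log_le_log (hlo i) hc1
  have hl4 : Real.log c ≤ Real.log (hi i) := Real.log_le_log hc0 hc2
  have hlog : |Real.log (x i)| ≤ |Real.log δ| + |Real.log B| := by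
    rw [abs_le]
    constructor
    · linarith [neg_abs_le (Real.log δ), abs_nonneg (Real.log B)]
    · linarith [le_abs_self (Real.log B), abs_nonneg (Real.log δ)]
  have hlogc : |Real.log c| ≤ |Real.log (lo i)| + |Real.log (hi i)| := by
    rw [abs_le]
    constructor
    · linarith [neg_abs_le (Real.log (lo i)), abs_nonneg (Real.log (hi i))]
    · linarith [le_abs_self (Real.log (hi i)), abs_nonneg (Real.log (lo i))]
  have habs : |Real.log (x i) - Real.log c - 1|
      ≤ |Real.log δ| + |Real.log B| + (|Real.log (lo i)| + |Real.log (hi i)|) + 1 := by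
    have e1 := abs_sub (Real.log (x i) - Real.log c) 1
    have e2 := abs_sub (Real.log (x i)) (Real.log c)
    rw [abs_one] at e1
    linarith
  have hxB : |x i| ≤ |B| := abs_le_abs h2 (by linarith)
  have hmain : x i * (Real.log (x i) - Real.log c - 1)
      ≤ |B| * (|Real.log δ| + |Real.log B| + (|Real.log (lo i)| + |Real.log (hi i)|) + 1) := by
    calc x i * (Real.log (x i) - Real.log c - 1)
        ≤ |x i * (Real.log (x i) - Real.log c - 1)| := le_abs_self _
      _ = |x i| * |Real.log (x i) - Real.log c - 1| := abs_mul _ _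
      _ ≤ |B| * (|Real.log δ| + |Real.log B| + (|Real.log (lo i)| + |Real.log (hi i)|) + 1) :=
          mul_le_mul hxB habs (abs_nonneg _) (abs_nonneg _)
  linarith

end Vale.Agent.Lib.P072
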