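import Vale.Agent.Lib.P072.FlatTChain
import Vale.Agent.Lib.P072.FlatEntropy

/-!
# The flattened entropy-type function and the face functions along curves in integral form
-/

namespace Vale.Agent.Lib.P072

open Set MeasureTheory

set_option linter.unusedSectionVars false

variable {R ι : Type} [Fintype R] [Fintype ι]

/-- Linear decay of the flattened entropy-type function along a positive curve in integral
form on an interval on which the flattened dissipation is at most `-η`. -/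
lemma tv_flat_decay (N : MAS R ι) {ε : ℝ} (hε : 0 < ε) {κ : R → ℝ → ℝ}
    (hκ : ∀ r, Measurable (κ r) ∧ ∀ t, ε ≤ κ r t ∧ κ r t ≤ ε⁻¹) (lo hi : ι → ℝ)
    (hlo : ∀ i, 0 < lo i) (hle : ∀ i, lo i ≤ hi i) {x z : ℝ → ι → ℝ}
    (hxc : ContinuousOn x (Ici 0)) (hzc : ContinuousOn z (Ici 0)) (hsol : IntForm N κ x z)
    {a b : ℝ} (ha : 0 ≤ a) (hab : a ≤ b) (hzx : ∀ s ∈ Icc a b, z s = x s)
    (hpos : ∀ t ∈ Icc a b, ∀ i, 0 < x t i) (η : ℝ)
    (hneg : ∀ s ∈ Ioo a b,
      ∑ i, (Real.log (x s i) - Real.log (clampv lo hi (x s) i)) * N.fieldAt κ s (x s) i ≤ -η) :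
    flatEntropy lo hi (x b) ≤ flatEntropy lo hi (x a) - η * (b - a) := by
  have hc : ∀ i ∈ (Finset.univ : Finset ι), ContinuousOn
      (fun u : ℝ => Real.log u - Real.log (max (lo i) (min (hi i) u))) (Ioi 0) := by
    intro i _
    have h1 : ContinuousOn Real.log (Ioi (0:ℝ)) :=
      Real.continuousOn_log.mono (fun u (hu : 0 < u) => hu.ne')
    have h2 : Continuous (fun u : ℝ => Real.log (max (lo i) (min (hi i) u))) :=
      Continuous.log (continuous_const.max (continuous_const.min continuous_id))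
        (fun u => (lt_of_lt_of_le (hlo i) (le_max_left _ _)).ne')
    exact h1.sub h2.continuousOn
  have h := intForm_chain_le N hε hκ hxc hzc hsol ha hab hzx Finset.univ
    (fun t ht i _ => hpos t ht i)
    (fun i u => u * (Real.log u - Real.log (max (lo i) (min (hi i) u)) - 1)
      + max (lo i) (min (hi i) u))
    (fun i u => Real.log u - Real.log (max (lo i) (min (hi i) u)))
    (fun i _ u hu => flat_scalar_hasDerivAt (lo i) (hi i) u (hlo i) (hle i) hu)
    hc η (fun s hs => hneg s hs)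
  exact h

/-- Along a positive curve in integral form the face function of `W` does not increase on an
interval on which its derivative along the vector field is nonpositive. -/
lemma tv_face_antitone (N : MAS R ι) {ε : ℝ} (hε : 0 < ε) {κ : R → ℝ → ℝ}
    (hκ : ∀ r, Measurable (κ r) ∧ ∀ t, ε ≤ κ r t ∧ κ r t ≤ ε⁻¹) (lam : ι → ℝ) (W : Finset ι)
    {x z : ℝ → ι → ℝ}
    (hxc : ContinuousOn x (Ici 0)) (hzc : ContinuousOn z (Ici 0)) (hsol : IntForm N κ x z)
    {a b : ℝ} (ha : 0 ≤ a) (hab : a ≤ b) (hzx : ∀ s ∈ Icc a b, z s = x s)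
    (hpos : ∀ t ∈ Icc a b, ∀ i, 0 < x t i)
    (hneg : ∀ s ∈ Ioo a b,
      ∑ i ∈ W, (Real.log (x s i) - Real.log (lam i)) * N.fieldAt κ s (x s) i ≤ 0) :
    ∑ i ∈ W, x b i * (Real.log (x b i) - Real.log (lam i) - 1) ≤
      ∑ i ∈ W, x a i * (Real.log (x a i) - Real.log (lam i) - 1) := by
  have hd : ∀ i ∈ W, ∀ u : ℝ, 0 < u →
      HasDerivAt (fun v : ℝ => v * (Real.log v - Real.log (lam i) - 1))
        (Real.log u - Real.log (lam i)) u := by
    intro i _ u hu
    have h1 := (hasDerivAt_id' u).mul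
      (((Real.hasDerivAt_log hu.ne').sub_const (Real.log (lam i))).sub_const 1)
    refine h1.congr_deriv ?_
    rw [mul_inv_cancel₀ hu.ne']
    ring
  have hc : ∀ i ∈ W, ContinuousOn (fun u : ℝ => Real.log u - Real.log (lam i)) (Ioi 0) := by
    intro i _
    have h1 : ContinuousOn Real.log (Ioi (0:ℝ)) :=
      Real.continuousOn_log.mono (fun u (hu : 0 < u) => hu.ne')
    exact h1.sub continuousOn_const
  have h := intForm_chain_le N hε hκ hxc hzc hsol ha hab hzx W
    (fun t ht i _ => hpos t ht i)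
    (fun i u => u * (Real.log u - Real.log (lam i) - 1))
    (fun i u => Real.log u - Real.log (lam i)) hd hc 0
    (fun s hs => by rw [neg_zero]; exact hneg s hs)
  rw [zero_mul, sub_zero] at h
  exact h

/-- Continuity of the flattened entropy-type function along a positive continuous curve. -/
private lemma flatT_continuousOn (lo hi : ι → ℝ) (hlo : ∀ i, 0 < lo i)
    (hle : ∀ i, lo i ≤ hi i) {x : ℝ → ι → ℝ} {a b : ℝ}
    (hxc : ContinuousOn x (Icc a b)) (hpos : ∀ t ∈ Icc a b, ∀ i, 0 < x t i) :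
    ContinuousOn (fun t => flatEntropy lo hi (x t)) (Icc a b) := by
  unfold flatEntropy
  apply continuousOn_finsetSum
  intro i _ t ht
  have h1 : ContinuousWithinAt (fun τ => x τ i) (Icc a b) t :=
    ((continuous_apply i).comp_continuousOn hxc) t ht
  have h2 := (flat_scalar_hasDerivAt (lo i) (hi i) (x t i) (hlo i) (hle i)
    (hpos t ht i)).continuousAt
  exact ContinuousAt.comp_continuousWithinAt (f := fun τ => x τ i) h2 h1

/-- A priori bound: if the flattened dissipation is nonpositive wherever the flattened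
entropy-type function exceeds `G₀`, then along a positive curve in integral form this function
never exceeds the maximum of its initial value and `G₀`. -/
lemma tv_flat_apriori (N : MAS R ι) {ε : ℝ} (hε : 0 < ε) {κ : R → ℝ → ℝ}
    (hκ : ∀ r, Measurable (κ r) ∧ ∀ t, ε ≤ κ r t ∧ κ r t ≤ ε⁻¹) (lo hi : ι → ℝ)
    (hlo : ∀ i, 0 < lo i) (hle : ∀ i, lo i ≤ hi i) {x z : ℝ → ι → ℝ}
    (hxc : ContinuousOn x (Ici 0)) (hzc : ContinuousOn z (Ici 0)) (hsol : IntForm N κ x z)
    {a b : ℝ} (ha : 0 ≤ a) (hab : a ≤ b) (hzx : ∀ s ∈ Icc a b, z s = x s)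
    (hpos : ∀ t ∈ Icc a b, ∀ i, 0 < x t i) (G₀ : ℝ)
    (hout : ∀ s ∈ Ioo a b, G₀ < flatEntropy lo hi (x s) →
      ∑ i, (Real.log (x s i) - Real.log (clampv lo hi (x s) i)) * N.fieldAt κ s (x s) i ≤ 0) :
    flatEntropy lo hi (x b) ≤ max (flatEntropy lo hi (x a)) G₀ := by
  by_contra hcon
  have hlt : max (flatEntropy lo hi (x a)) G₀ < flatEntropy lo hi (x b) := not_le.mp hcon
  have hsub : Icc a b ⊆ Ici (0:ℝ) := fun τ hτ => le_trans ha hτ.1
  have hφ : ContinuousOn (fun t => flatEntropy lo hi (x t)) (Icc a b) :=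
    flatT_continuousOn lo hi hlo hle (hxc.mono hsub) hpos
  obtain ⟨S, hS⟩ : ∃ S : Set ℝ, S = Icc a b ∩
      (fun t => flatEntropy lo hi (x t)) ⁻¹' Iic (max (flatEntropy lo hi (x a)) G₀) := ⟨_, rfl⟩
  have hmem : ∀ τ, τ ∈ S ↔ τ ∈ Icc a b ∧
      flatEntropy lo hi (x τ) ≤ max (flatEntropy lo hi (x a)) G₀ := by
    intro τ
    rw [hS]
    exact Iff.rfl
  have hclosed : IsClosed S := by
    rw [hS]
    exact hφ.preimage_isClosed_of_isClosed isClosed_Icc isClosed_Iic
  have hcomp : IsCompact S :=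
    isCompact_Icc.of_isClosed_subset hclosed (fun τ hτ => ((hmem τ).mp hτ).1)
  have haS : a ∈ S := (hmem a).mpr ⟨⟨le_rfl, hab⟩, le_max_left _ _⟩
  have hs₀ : sSup S ∈ S := hcomp.sSup_mem ⟨a, haS⟩
  obtain ⟨hs₀I, hs₀le⟩ := (hmem _).mp hs₀
  have hbdd : BddAbove S := ⟨b, fun τ hτ => ((hmem τ).mp hτ).1.2⟩
  have hs₀b : sSup S < b := by
    rcases lt_or_eq_of_le hs₀I.2 with h | h
    · exact h
    · exfalso
      rw [h] at hs₀le
      exact absurd hs₀le (not_le.mpr hlt)
  have hs₀0 : 0 ≤ sSup S := le_trans ha hs₀I.1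
  have hsub2 : Icc (sSup S) b ⊆ Icc a b := fun τ hτ => ⟨le_trans hs₀I.1 hτ.1, hτ.2⟩
  have hneg : ∀ s ∈ Ioo (sSup S) b,
      ∑ i, (Real.log (x s i) - Real.log (clampv lo hi (x s) i)) * N.fieldAt κ s (x s) i
        ≤ -(0:ℝ) := by
    intro s hs
    rw [neg_zero]
    have hsI : s ∈ Icc a b := ⟨le_trans hs₀I.1 hs.1.le, hs.2.le⟩
    have hnot : s ∉ S := fun hsS => absurd (le_csSup hbdd hsS) (not_le.mpr hs.1)
    have hgt : max (flatEntropy lo hi (x a)) G₀ < flatEntropy lo hi (x s) := by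
      by_contra hh
      exact hnot ((hmem s).mpr ⟨hsI, not_lt.mp hh⟩)
    exact hout s ⟨lt_of_le_of_lt hs₀I.1 hs.1, hs.2⟩ (lt_of_le_of_lt (le_max_right _ _) hgt)
  have hdec := tv_flat_decay N hε hκ lo hi hlo hle hxc hzc hsol hs₀0 hs₀b.le
    (fun s hs => hzx s (hsub2 hs)) (fun t ht => hpos t (hsub2 ht)) 0 hneg
  rw [zero_mul, sub_zero] at hdec
  exact absurd (le_trans hdec hs₀le) (not_le.mpr hlt)

end Vale.Agent.Lib.P072
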