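import Vale.Agent.Lib.P072.GenBarrier

/-!
# The barrier argument with perturbed face functions on a finite time interval
-/

namespace Vale.Agent.Lib.P072

open Set

/-- The lower bound of `barrier_lower_bound_pert` for curves that are only known on a finite
time interval `[a, T]`. -/
theorem barrier_lower_bound_pert_Icc {ι : Type} [Fintype ι] (lam : ι → ℝ)
    (hlam : ∀ i, 0 < lam i) (E C : ℝ → ℝ) (hE : ∀ η, 0 < η → 0 < E η ∧ ∀ i, E η ≤ lam i)
    (hC : ∀ η, 0 < η → 0 ≤ C η) (δ₀ : ℝ) (hδ₀ : 0 < δ₀) :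
    ∃ δf : ℝ, 0 < δf ∧ ∀ (x : ℝ → ι → ℝ) (a T : ℝ), a ≤ T →
      (∀ t ∈ Icc a T, ∀ i, 0 < x t i) →
      ContinuousOn x (Icc a T) →
      (∀ i, δ₀ ≤ x a i) →
      (∀ (W : Finset ι) (η : ℝ), W.Nonempty → 0 < η → ∃ Ψ : (ι → ℝ) → ℝ,
        (∀ τ ∈ Icc a T, (∀ j, j ∉ W → η ≤ x τ j) → (∀ i ∈ W, x τ i ≤ E η) →
          |Ψ (x τ) - ∑ i ∈ W, x τ i * (Real.log (x τ i) - Real.log (lam i) - 1)|
            ≤ C η * ∑ i ∈ W, x τ i) ∧
        ∀ s t, a ≤ s → s ≤ t → t ≤ T →
          (∀ τ ∈ Icc s t, (∀ j, j ∉ W → η ≤ x τ j) ∧ ∀ i ∈ W, x τ i ≤ E η) →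
          Ψ (x t) ≤ Ψ (x s)) →
      ∀ t ∈ Icc a T, ∀ i, δf ≤ x t i := by
  obtain ⟨δf, hδf, H⟩ := barrier_lower_bound_pert lam hlam E C hE hC δ₀ hδ₀
  refine ⟨δf, hδf, fun x a T haT hpos hcont hinit hpert => ?_⟩
  -- the stopped curve `t ↦ x (min t T)`
  have h1 : ∀ t, a ≤ t → ∀ i, 0 < x (min t T) i := fun t hat i =>
    hpos (min t T) ⟨le_min hat haT, min_le_right t T⟩ i
  have h2 : ContinuousOn (fun t => x (min t T)) (Ici a) := by
    have hin : ContinuousOn (fun t : ℝ => min t T) (Ici a) :=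
      (continuous_id.min continuous_const).continuousOn
    have hmaps : MapsTo (fun t : ℝ => min t T) (Ici a) (Icc a T) :=
      fun t ht => ⟨le_min ht haT, min_le_right t T⟩
    exact hcont.comp hin hmaps
  have h3 : ∀ i, δ₀ ≤ x (min a T) i := by
    intro i
    rw [min_eq_left haT]
    exact hinit i
  have h4 : ∀ (W : Finset ι) (η : ℝ), W.Nonempty → 0 < η → ∃ Ψ : (ι → ℝ) → ℝ,
      (∀ τ, a ≤ τ → (∀ j, j ∉ W → η ≤ x (min τ T) j) → (∀ i ∈ W, x (min τ T) i ≤ E η) →
        |Ψ (x (min τ T)) - ∑ i ∈ W, x (min τ T) i *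
            (Real.log (x (min τ T) i) - Real.log (lam i) - 1)|
          ≤ C η * ∑ i ∈ W, x (min τ T) i) ∧
      ∀ s t, a ≤ s → s ≤ t →
        (∀ τ ∈ Icc s t, (∀ j, j ∉ W → η ≤ x (min τ T) j) ∧ ∀ i ∈ W, x (min τ T) i ≤ E η) →
        Ψ (x (min t T)) ≤ Ψ (x (min s T)) := by
    intro W η hW hη
    obtain ⟨Ψ, hclose, hmono⟩ := hpert W η hW hη
    refine ⟨Ψ, ?_, ?_⟩
    · intro τ haτ hout hin
      exact hclose (min τ T) ⟨le_min haτ haT, min_le_right τ T⟩ hout hin
    · intro s t has hst Hτ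
      have hs' : a ≤ min s T := le_min has haT
      have hst' : min s T ≤ min t T := min_le_min hst le_rfl
      have ht' : min t T ≤ T := min_le_right t T
      refine hmono (min s T) (min t T) hs' hst' ht' ?_
      intro τ hτ
      have hτT : τ ≤ T := hτ.2.trans ht'
      have hτt : τ ≤ t := hτ.2.trans (min_le_left t T)
      have key : x (min (max τ s) T) = x τ := by
        rcases le_or_gt s τ with h | h
        · rw [max_eq_left h, min_eq_left hτT]
        · have hTτ : T ≤ τ := by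
            rcases le_total s T with h1' | h1'
            · have h5 := hτ.1
              rw [min_eq_left h1'] at h5
              exact absurd h5 (not_le.mpr h)
            · have h5 := hτ.1
              rw [min_eq_right h1'] at h5
              exact h5
          have hτeq : τ = T := le_antisymm hτT hTτ
          have hTs : T ≤ s := hTτ.trans h.le
          rw [max_eq_right h.le, min_eq_right hTs, hτeq]
      have hmem : max τ s ∈ Icc s t := ⟨le_max_right τ s, max_le hτt hst⟩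
      have h6 : (∀ j, j ∉ W → η ≤ x (min (max τ s) T) j) ∧
          ∀ i ∈ W, x (min (max τ s) T) i ≤ E η := Hτ (max τ s) hmem
      rw [key] at h6
      exact h6
  intro t ht i
  have h7 : δf ≤ x (min t T) i := H (fun t => x (min t T)) a h1 h2 h3 h4 t ht.1 i
  rwa [min_eq_left ht.2] at h7

end Vale.Agent.Lib.P072
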