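import Vale.Agent.Lib.P072.GenChain
import Vale.Agent.Lib.P072.TVExist

/-!
# Functions with a gradient field along curves in integral form of a mass-action system with
time-dependent rates
-/

namespace Vale.Agent.Lib.P072

open Set MeasureTheory

set_option linter.unusedSectionVars false

variable {R ι : Type} [Fintype R] [Fintype ι]

/-- Linear decay of a function `V` with gradient field `p` along a positive curve in integral
form on an interval on which the derivative of `V` along the vector field is at most `-η`. -/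
lemma tv_gen_decay (N : MAS R ι) {ε : ℝ} (hε : 0 < ε) {κ : R → ℝ → ℝ}
    (hκ : ∀ r, Measurable (κ r) ∧ ∀ t, ε ≤ κ r t ∧ κ r t ≤ ε⁻¹)
    (V : (ι → ℝ) → ℝ) (p : (ι → ℝ) → ι → ℝ) (hV : HasGradOn V p)
    (hp : ∀ δ B : ℝ, 0 < δ → ∃ L : ℝ, ∀ y : ι → ℝ, (∀ i, δ ≤ y i ∧ y i ≤ B) →
      ∀ i, |p y i| ≤ L)
    {x z : ℝ → ι → ℝ}
    (hxc : ContinuousOn x (Ici 0)) (hzc : ContinuousOn z (Ici 0)) (hsol : IntForm N κ x z)
    {a b : ℝ} (ha : 0 ≤ a) (hab : a ≤ b) (hzx : ∀ s ∈ Icc a b, z s = x s)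
    (hpos : ∀ t ∈ Icc a b, ∀ i, 0 < x t i) (η : ℝ)
    (hneg : ∀ s ∈ Ioo a b, ∑ i, p (x s) i * N.fieldAt κ s (x s) i ≤ -η) :
    V (x b) ≤ V (x a) - η * (b - a) := by
  have hsub : Icc a b ⊆ Ici (0:ℝ) := fun s hs => le_trans ha hs.1
  have hxc' : ContinuousOn x (Icc a b) := hxc.mono hsub
  have hcomp : IsCompact (x '' Icc a b) := isCompact_Icc.image_of_continuousOn hxc'
  obtain ⟨C, hC⟩ := hcomp.isBounded.exists_norm_le
  have hbox : ∀ s ∈ Icc a b, x s ∈ Icc (fun _ : ι => -C) (fun _ : ι => C) := by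
    intro s hs
    have h1 : ‖x s‖ ≤ C := hC _ (mem_image_of_mem x hs)
    have h2 : ∀ i, |x s i| ≤ C := fun i => by
      have h3 := norm_le_pi_norm (x s) i
      rw [Real.norm_eq_abs] at h3
      exact h3.trans h1
    exact ⟨fun i => (abs_le.mp (h2 i)).1, fun i => (abs_le.mp (h2 i)).2⟩
  obtain ⟨Bd, L, -, hBd⟩ := exists_fieldK_bounds N hε (fun _ : ι => -C) (fun _ : ι => C)
  refine gen_chain_le V p hV hp (g := fun s => N.fieldAt κ s (z s)) hab hxc' ?_ ?_ ?_ hpos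
    η ?_
  · intro i
    have h := intervalIntegrable_fieldAt N hκ hzc ha (ha.trans hab)
    exact ⟨(ContinuousLinearMap.proj (R := ℝ) (φ := fun _ : ι => ℝ) i).integrable_comp h.1,
      (ContinuousLinearMap.proj (R := ℝ) (φ := fun _ : ι => ℝ) i).integrable_comp h.2⟩
  · refine ⟨Bd, fun s hs i => ?_⟩
    rw [hzx s hs]
    have h1 := (hBd (fun r => κ r s) (fun r => (hκ r).2 s)).1 (x s) (hbox s hs)
    have h2 := norm_le_pi_norm (N.fieldK (fun r => κ r s) (x s)) i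
    rw [Real.norm_eq_abs] at h2
    exact h2.trans h1
  · intro i t ht
    exact intForm_sub_apply N hκ hzc hsol i ha ht.1
  · intro s hs
    have h := hneg s hs
    simp only [hzx s ⟨hs.1.le, hs.2.le⟩]
    exact h

/-- A priori bound: if the derivative of `V` along the vector field is nonpositive wherever
`V` exceeds `G₀`, then along a positive curve in integral form `V` never exceeds the maximum
of its initial value and `G₀`. -/
lemma tv_gen_apriori (N : MAS R ι) {ε : ℝ} (hε : 0 < ε) {κ : R → ℝ → ℝ}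
    (hκ : ∀ r, Measurable (κ r) ∧ ∀ t, ε ≤ κ r t ∧ κ r t ≤ ε⁻¹)
    (V : (ι → ℝ) → ℝ) (p : (ι → ℝ) → ι → ℝ) (hV : HasGradOn V p)
    (hp : ∀ δ B : ℝ, 0 < δ → ∃ L : ℝ, ∀ y : ι → ℝ, (∀ i, δ ≤ y i ∧ y i ≤ B) →
      ∀ i, |p y i| ≤ L)
    {x z : ℝ → ι → ℝ}
    (hxc : ContinuousOn x (Ici 0)) (hzc : ContinuousOn z (Ici 0)) (hsol : IntForm N κ x z)
    {a b : ℝ} (ha : 0 ≤ a) (hab : a ≤ b) (hzx : ∀ s ∈ Icc a b, z s = x s)
    (hpos : ∀ t ∈ Icc a b, ∀ i, 0 < x t i) (G₀ : ℝ)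
    (hout : ∀ s ∈ Ioo a b, G₀ < V (x s) → ∑ i, p (x s) i * N.fieldAt κ s (x s) i ≤ 0) :
    V (x b) ≤ max (V (x a)) G₀ := by
  by_contra hcon
  have hlt : max (V (x a)) G₀ < V (x b) := not_le.mp hcon
  have hsub : Icc a b ⊆ Ici (0:ℝ) := fun τ hτ => le_trans ha hτ.1
  have hφ : ContinuousOn (fun t => V (x t)) (Icc a b) :=
    hasGradOn_continuousOn V p hV hp (hxc.mono hsub) hpos
  obtain ⟨S, hS⟩ : ∃ S : Set ℝ, S = Icc a b ∩
      (fun t => V (x t)) ⁻¹' Iic (max (V (x a)) G₀) := ⟨_, rfl⟩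
  have hmem : ∀ τ, τ ∈ S ↔ τ ∈ Icc a b ∧ V (x τ) ≤ max (V (x a)) G₀ := by
    intro τ
    rw [hS]
    exact Iff.rfl
  have hclosed : IsClosed S := by
    rw [hS]
    exact hφ.preimage_isClosed_of_isClosed isClosed_Icc isClosed_Iic
  have hcomp : IsCompact S :=
    isCompact_Icc.of_isClosed_subset hclosed (fun τ hτ => ((hmem τ).mp hτ).1)
  have haS : a ∈ S := (hmem a).mpr ⟨⟨le_rfl, hab⟩, le_max_left _ _⟩
  have hs₀ : sSup S ∈ S := hcomp.sSup_mem ⟨a, haS⟩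
  obtain ⟨hs₀I, hs₀le⟩ := (hmem _).mp hs₀
  have hbdd : BddAbove S := ⟨b, fun τ hτ => ((hmem τ).mp hτ).1.2⟩
  have hs₀b : sSup S < b := by
    rcases lt_or_eq_of_le hs₀I.2 with h | h
    · exact h
    · exfalso
      rw [h] at hs₀le
      exact absurd hs₀le (not_le.mpr hlt)
  have hs₀0 : 0 ≤ sSup S := le_trans ha hs₀I.1
  have hsub2 : Icc (sSup S) b ⊆ Icc a b := fun τ hτ => ⟨le_trans hs₀I.1 hτ.1, hτ.2⟩
  have hneg : ∀ s ∈ Ioo (sSup S) b,
      ∑ i, p (x s) i * N.fieldAt κ s (x s) i ≤ -(0:ℝ) := by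
    intro s hs
    rw [neg_zero]
    have hsI : s ∈ Icc a b := ⟨le_trans hs₀I.1 hs.1.le, hs.2.le⟩
    have hnot : s ∉ S := fun hsS => absurd (le_csSup hbdd hsS) (not_le.mpr hs.1)
    have hgt : max (V (x a)) G₀ < V (x s) := by
      by_contra hh
      exact hnot ((hmem s).mpr ⟨hsI, not_lt.mp hh⟩)
    exact hout s ⟨lt_of_le_of_lt hs₀I.1 hs.1, hs.2⟩ (lt_of_le_of_lt (le_max_right _ _) hgt)
  have hdec := tv_gen_decay N hε hκ V p hV hp hxc hzc hsol hs₀0 hs₀b.le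
    (fun s hs => hzx s (hsub2 hs)) (fun t ht => hpos t (hsub2 ht)) 0 hneg
  rw [zero_mul, sub_zero] at hdec
  exact absurd (le_trans hdec hs₀le) (not_le.mpr hlt)

end Vale.Agent.Lib.P072
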