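import Vale.Agent.Lib.P072.ColMain
import Vale.Agent.Lib.P072.ColKField
import Vale.Agent.Lib.P072.ColKStatic
import Vale.Agent.Lib.P072.ColKCorner
import Vale.Agent.Lib.P072.GenTDecay
import Vale.Agent.Lib.P072.GenBarrierIcc
import Vale.Agent.Lib.P072.FlatTMain

/-!
# Permanence for time-dependent rates: a strongly connected system joined with a weakly
reversible system with parallel reaction vectors

If `N₁` is strongly connected, `N₂` is weakly reversible, all reaction vectors of `N₂` are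
multiples of one vector, and they lie in the stoichiometric subspace of `N₁`, then the union
is permanent on every positive stoichiometric class for all measurable rate functions with
values in `[ε, ε⁻¹]`, with a compact set that does not depend on the rate functions.
-/

namespace Vale.Agent.Lib.P072

open Set MeasureTheory

set_option linter.unusedSectionVars false

variable {R₁ R₂ ι : Type} [Fintype R₁] [Fintype R₂] [Fintype ι]

/-- The gradient of the corrected entropy-type function is bounded on boxes inside the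
positive orthant. -/
lemma colGrad_bdd_box (v : ι → ℝ) (hv0 : ∃ i, v i ≠ 0) (M : ℝ) (hM : 0 < M) (δ B : ℝ)
    (hδ : 0 < δ) :
    ∃ L : ℝ, ∀ y : ι → ℝ, (∀ i, δ ≤ y i ∧ y i ≤ B) → ∀ i, |colGrad v M y i| ≤ L := by
  classical
  obtain ⟨i₀, hi₀⟩ := hv0
  have hne : (Finset.univ.filter (fun i => v i ≠ 0)).Nonempty :=
    ⟨i₀, Finset.mem_filter.mpr ⟨Finset.mem_univ _, hi₀⟩⟩
  obtain ⟨im, him, hmin⟩ := Finset.exists_min_image _ (fun i => |v i|) hne
  have himne : v im ≠ 0 := (Finset.mem_filter.mp him).2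
  have humin : 0 < |v im| := abs_pos.mpr himne
  have hmin' : ∀ i, v i ≠ 0 → |v im| ≤ |v i| :=
    fun i hi => hmin i (Finset.mem_filter.mpr ⟨Finset.mem_univ _, hi⟩)
  refine ⟨|Real.log δ| + |Real.log B| + M / |v im|, fun y hy i => ?_⟩
  have hypos : ∀ j, 0 < y j := fun j => lt_of_lt_of_le hδ (hy j).1
  have h1 : |Real.log (y i)| ≤ |Real.log δ| + |Real.log B| := by
    have e1 : Real.log δ ≤ Real.log (y i) := Real.log_le_log hδ (hy i).1
    have e2 : Real.log (y i) ≤ Real.log B := Real.log_le_log (hypos i) (hy i).2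
    have e3 := neg_abs_le (Real.log δ)
    have e4 := le_abs_self (Real.log B)
    have e5 := abs_nonneg (Real.log δ)
    have e6 := abs_nonneg (Real.log B)
    rw [abs_le]
    constructor <;> linarith
  have h2 := slabGrad_abs_le v y ⟨i₀, hi₀⟩ hypos M hM.le |v im| humin hmin' i
  unfold colGrad
  exact (abs_add_le _ _).trans (add_le_add h1 h2)

/-- The derivative of the corrected entropy-type function along a field `g x • v` is
nonpositive, if `g` is positive where the logarithmic coordinate along `v` is at most `-M` and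
negative where it is at least `M`. -/
lemma colGrad_smul_nonpos (v : ι → ℝ) (hv0 : ∃ i, v i ≠ 0) (M : ℝ) (hM : 0 < M)
    (g : (ι → ℝ) → ℝ)
    (hpos : ∀ x : ι → ℝ, (∀ i, 0 < x i) → logCoord v x ≤ -M → 0 < g x)
    (hneg : ∀ x : ι → ℝ, (∀ i, 0 < x i) → M ≤ logCoord v x → g x < 0)
    (x : ι → ℝ) (hx : ∀ i, 0 < x i) :
    ∑ i, colGrad v M x i * (g x • v) i ≤ 0 := by
  have hpair : ∑ i, v i * colGrad v M x i = logCoord v x - clampR M (logCoord v x) := by
    have h := slabGrad_pair v x hv0 hx M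
    have e : ∑ i, v i * colGrad v M x i = logCoord v x + ∑ i, v i * slabGrad v M x i := by
      unfold logCoord
      rw [← Finset.sum_add_distrib]
      refine Finset.sum_congr rfl (fun i _ => ?_)
      simp only [colGrad]
      ring
    rw [e, h]
    ring
  have e : ∑ i, colGrad v M x i * (g x • v) i = g x * ∑ i, v i * colGrad v M x i := by
    rw [Finset.mul_sum]
    refine Finset.sum_congr rfl (fun i _ => ?_)
    rw [Pi.smul_apply, smul_eq_mul]
    ring
  rw [e, hpair]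
  rcases le_or_gt (logCoord v x) (-M) with h1 | h1
  · have hc : clampR M (logCoord v x) = -M := by
      unfold clampR
      rw [min_eq_right (by linarith), max_eq_left h1]
    rw [hc]
    exact mul_nonpos_of_nonneg_of_nonpos (hpos x hx h1).le (by linarith)
  · rcases le_or_gt M (logCoord v x) with h2 | h2
    · have hc : clampR M (logCoord v x) = M := by
        unfold clampR
        rw [min_eq_left h2, max_eq_right (by linarith)]
      rw [hc]
      exact mul_nonpos_of_nonpos_of_nonneg (hneg x hx h2).le (by linarith)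
    · have hc : clampR M (logCoord v x) = logCoord v x := by
        unfold clampR
        rw [min_eq_right h2.le, max_eq_right h1.le]
      rw [hc, sub_self, mul_zero]

/-- **A strongly connected system joined with a weakly reversible system with parallel
reaction vectors is permanent for all measurable rate functions with values in `[ε, ε⁻¹]`**,
with a compact set that does not depend on the rate functions. -/
theorem union_stronglyPermanentOn_of_collinear (N₁ : MAS R₁ ι) (N₂ : MAS R₂ ι)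
    (h₁ : N₁.StronglyConnected) (hspan : N₂.stoich ≤ N₁.stoich) (hwr : N₂.WeaklyReversible)
    (v : ι → ℝ) (hv : ∀ r, ∃ a : ℝ, N₂.vec r = a • v) {ε : ℝ} (hε : 0 < ε) (c : ι → ℝ) :
    (N₁.union N₂).StronglyPermanentOn ε ((N₁.union N₂).posClass c) := by
  classical
  rcases isEmpty_or_nonempty R₂ with hR₂ | hR₂
  · exact union_stronglyPermanentOn_of_sourceDominated N₁ N₂ h₁ hspan
      (fun r => isEmptyElim r) hε c
  by_cases hne : ((N₁.union N₂).posClass c).Nonempty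
  swap
  · rw [Set.not_nonempty_iff_eq_empty] at hne
    rw [hne]
    exact ⟨∅, isCompact_empty, Set.empty_subset _, fun κ hκ =>
      ⟨fun x hx => absurd hx (Set.notMem_empty x), fun x hx => absurd hx (Set.notMem_empty _),
        fun x hx => absurd hx (Set.notMem_empty _)⟩⟩
  obtain ⟨c', hc'⟩ := hne
  rw [posClass_eq_of_mem _ hc']
  have hv0 : ∃ i, v i ≠ 0 := (collinear_field N₂ hwr v hv).1
  obtain ⟨M, hM1, hfK⟩ := collinear_fieldK N₂ hwr v hv hε
  have hM : 0 < M := lt_of_lt_of_le one_pos hM1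
  have h₂ : ∀ k : R₂ → ℝ, (∀ r, ε ≤ k r ∧ k r ≤ ε⁻¹) → ∀ x : ι → ℝ, (∀ i, 0 < x i) →
      ∑ i, colGrad v M x i * N₂.fieldK k x i ≤ 0 := by
    intro k hk x hx
    obtain ⟨g, hg, hgpos, hgneg⟩ := hfK k hk
    rw [hg x]
    exact colGrad_smul_nonpos v hv0 M hM g hgpos hgneg x hx
  obtain ⟨δ, B, hδ, halt⟩ :=
    col_static_alternativeK N₁ N₂ h₁ hspan v hv0 M hM hε h₂ c' hc'.1
  have hV : HasGradOn (colV v M) (colGrad v M) := colV_hasGradOn v hv0 M hM
  have hVp : ∀ δ' B' : ℝ, 0 < δ' → ∃ L : ℝ, ∀ y : ι → ℝ, (∀ i, δ' ≤ y i ∧ y i ≤ B') →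
      ∀ i, |colGrad v M y i| ≤ L := fun δ' B' hδ' => colGrad_bdd_box v hv0 M hM δ' B' hδ'
  obtain ⟨G₀, hG₀⟩ := colV_le_of_box v hv0 M hM δ B hδ
  have hsub := colV_sublevel_bdd v hv0 M hM
  -- the corner constants, as functions of `η`, for a given upper bound
  have hcor : ∀ B' : ℝ, ∃ E Cf : ℝ → ℝ, ∀ η, 0 < η → (0 < E η ∧ E η ≤ 1 ∧ 0 ≤ Cf η ∧
      ∀ W : Finset ι, W.Nonempty →
      ∃ (Ψ : (ι → ℝ) → ℝ) (p : (ι → ℝ) → ι → ℝ), HasGradOn Ψ p ∧
        (∀ δ' B'' : ℝ, 0 < δ' → ∃ L : ℝ, ∀ y : ι → ℝ, (∀ i, δ' ≤ y i ∧ y i ≤ B'') →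
          ∀ i, |p y i| ≤ L) ∧
        ∀ x ∈ (N₁.union N₂).posClass c', (∀ i, x i ≤ B') → (∀ j, j ∉ W → η ≤ x j) →
          (∀ i ∈ W, x i ≤ E η) →
          ((∀ k : R₁ ⊕ R₂ → ℝ, (∀ r, ε ≤ k r ∧ k r ≤ ε⁻¹) →
              ∑ i, p x i * (N₁.union N₂).fieldK k x i ≤ 0) ∧
           |Ψ x - ∑ i ∈ W, x i * (Real.log (x i) - Real.log 1 - 1)| ≤
             Cf η * ∑ i ∈ W, x i)) := by
    intro B'
    have hcn := fun (η : ℝ) (hη : 0 < η) =>
      col_cornerK N₁ N₂ h₁ hspan v M hM hε hfK c' hc'.1 η B' hη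
    choose! E Cf hE using hcn
    exact ⟨E, Cf, hE⟩
  -- a priori bounds on a time interval on which the curve is a positive solution
  have hAP : ∀ δ₀ V₀ : ℝ, 0 < δ₀ → ∃ δ' B' : ℝ, 0 < δ' ∧ δ' ≤ δ₀ ∧
      (∀ y : ι → ℝ, (∀ i, 0 < y i) → colV v M y ≤ V₀ → ∀ i, y i ≤ B') ∧
      ∀ κ : R₁ ⊕ R₂ → ℝ → ℝ, (∀ r, Measurable (κ r) ∧ ∀ t, ε ≤ κ r t ∧ κ r t ≤ ε⁻¹) →
      ∀ x z : ℝ → ι → ℝ, ContinuousOn x (Ici 0) → ContinuousOn z (Ici 0) →
      IntForm (N₁.union N₂) κ x z → x 0 ∈ (N₁.union N₂).posClass c' → (∀ i, δ₀ ≤ x 0 i) →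
      colV v M (x 0) ≤ V₀ → ∀ T, 0 ≤ T → (∀ s ∈ Icc 0 T, z s = x s) →
      (∀ s ∈ Icc 0 T, ∀ i, 0 < x s i) → ∀ t ∈ Icc 0 T, ∀ i, δ' ≤ x t i ∧ x t i ≤ B' := by
    intro δ₀ V₀ hδ₀
    obtain ⟨B', hB'⟩ := hsub (max V₀ G₀)
    obtain ⟨E, Cf, hE⟩ := hcor B'
    obtain ⟨δf, hδf, hbar⟩ := barrier_lower_bound_pert_Icc (fun _ : ι => (1 : ℝ))
      (fun _ => one_pos) E Cf
      (fun η hη => ⟨(hE η hη).1, fun _ => (hE η hη).2.1⟩)
      (fun η hη => (hE η hη).2.2.1) δ₀ hδ₀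
    refine ⟨min δf δ₀, B', lt_min hδf hδ₀, min_le_right _ _,
      fun y hy hVy => hB' y hy (le_trans hVy (le_max_left _ _)), ?_⟩
    intro κ hκ x z hxc hzc hsol hx0 hx0δ hV0 T hT hzx hpos
    have hcls : ∀ s ∈ Icc 0 T, x s ∈ (N₁.union N₂).posClass c' := by
      intro s hs
      refine ⟨hpos s hs, ?_⟩
      have h1 := intForm_mem_stoich (N₁.union N₂) hκ hzc hsol hs.1
      have : x s - c' = (x s - x 0) + (x 0 - c') := by abel
      rw [this]
      exact Submodule.add_mem _ h1 hx0.2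
    have hVle : ∀ t ∈ Icc 0 T, colV v M (x t) ≤ max V₀ G₀ := by
      intro t ht
      have h1 := tv_gen_apriori (N₁.union N₂) hε hκ (colV v M) (colGrad v M) hV hVp hxc hzc
        hsol le_rfl ht.1
        (fun s hs => hzx s ⟨hs.1, le_trans hs.2 ht.2⟩)
        (fun s hs => hpos s ⟨hs.1, le_trans hs.2 ht.2⟩) G₀ ?_
      · exact le_trans h1 (max_le_max hV0 le_rfl)
      · intro s hs hGs
        have hsT : s ∈ Icc 0 T := ⟨hs.1.le, le_trans hs.2.le ht.2⟩
        rcases halt (x s) (hcls s hsT) with hbox | ⟨⟨r₀⟩, hneg⟩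
        · exact absurd (hG₀ (x s) hbox) (not_le.mpr hGs)
        · exact le_trans (hneg (fun r => κ r s) (fun r => (hκ r).2 s) r₀)
            (neg_nonpos.mpr (Real.exp_pos _).le)
    have hxB : ∀ t ∈ Icc 0 T, ∀ i, x t i ≤ B' :=
      fun t ht => hB' (x t) (hpos t ht) (hVle t ht)
    have hlow := hbar x 0 T hT hpos (hxc.mono Icc_subset_Ici_self) hx0δ ?_
    · intro t ht i
      exact ⟨le_trans (min_le_left _ _) (hlow t ht i), hxB t ht i⟩
    · intro W η hW hη
      obtain ⟨Ψ, p, hΨ, hΨb, hΨp⟩ := (hE η hη).2.2.2 W hW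
      refine ⟨Ψ, ?_, ?_⟩
      · intro τ hτ h1 h2
        exact (hΨp (x τ) (hcls τ hτ) (hxB τ hτ) h1 h2).2
      · intro s t hs hst htT hτ
        have hdec := tv_gen_decay (N₁.union N₂) hε hκ Ψ p hΨ hΨb hxc hzc hsol hs hst
          (fun τ hτ' => hzx τ ⟨le_trans hs hτ'.1, le_trans hτ'.2 htT⟩)
          (fun τ hτ' => hpos τ ⟨le_trans hs hτ'.1, le_trans hτ'.2 htT⟩) 0 ?_
        · rw [zero_mul, sub_zero] at hdec
          exact hdec
        · intro τ hτ'
          have hτT : τ ∈ Icc 0 T := ⟨le_trans hs hτ'.1.le, le_trans hτ'.2.le htT⟩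
          have hτm : τ ∈ Icc s t := ⟨hτ'.1.le, hτ'.2.le⟩
          rw [neg_zero]
          exact (hΨp (x τ) (hcls τ hτT) (hxB τ hτT) (hτ τ hτm).1 (hτ τ hτm).2).1
            (fun r => κ r τ) (fun r => (hκ r).2 τ)
  -- global two-sided bounds for solutions
  have hglob : ∀ κ : R₁ ⊕ R₂ → ℝ → ℝ,
      (∀ r, Measurable (κ r) ∧ ∀ t, ε ≤ κ r t ∧ κ r t ≤ ε⁻¹) →
      ∀ x : ℝ → ι → ℝ, x 0 ∈ (N₁.union N₂).posClass c' → (N₁.union N₂).IsSolAt κ x →
      ∃ δ' B' : ℝ, 0 < δ' ∧ ∀ t, 0 ≤ t → ∀ i, δ' ≤ x t i ∧ x t i ≤ B' := by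
    intro κ hκ x hx0 hx
    obtain ⟨δ₀, hδ₀, hδ₀x⟩ := exists_pos_le (x 0) hx0.1
    obtain ⟨δ', B', hδ', hδ'δ₀, hBV, hap⟩ := hAP δ₀ (colV v M (x 0)) hδ₀
    refine ⟨δ', B', hδ', ?_⟩
    have hsol : IntForm (N₁.union N₂) κ x x := hx.2
    have hF := continuation_closed (x := x) hx.1 (U := {y | ∀ i, 0 < y i})
      (F := Icc (fun _ => δ') (fun _ => B')) ?_ isClosed_Icc ?_ ?_ ?_
    · intro t ht i
      exact ⟨(hF t ht).1 i, (hF t ht).2 i⟩
    · have : {y : ι → ℝ | ∀ i, 0 < y i} = ⋂ i, {y : ι → ℝ | 0 < y i} := by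
        ext y
        simp
      rw [this]
      exact isOpen_iInter_of_finite (fun i => isOpen_lt continuous_const (continuous_apply i))
    · intro y hy i
      exact lt_of_lt_of_le hδ' (hy.1 i)
    · exact ⟨fun i => le_trans hδ'δ₀ (hδ₀x i), fun i => hBV (x 0) hx0.1 le_rfl i⟩
    · intro T hT hU t ht
      have := hap κ hκ x x hx.1 hx.1 hsol hx0 hδ₀x le_rfl T hT (fun s _ => rfl) hU t ht
      exact ⟨fun i => (this i).1, fun i => (this i).2⟩
  -- existence of solutions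
  have hexist : ∀ κ : R₁ ⊕ R₂ → ℝ → ℝ,
      (∀ r, Measurable (κ r) ∧ ∀ t, ε ≤ κ r t ∧ κ r t ≤ ε⁻¹) →
      ∀ x₀ ∈ (N₁.union N₂).posClass c', ∃ x : ℝ → ι → ℝ, x 0 = x₀ ∧
        (N₁.union N₂).IsSolAt κ x := by
    intro κ hκ x₀ hx₀
    obtain ⟨δ₀, hδ₀, hδ₀x⟩ := exists_pos_le x₀ hx₀.1
    obtain ⟨δ', B', hδ', hδ'δ₀, hBV, hap⟩ := hAP δ₀ (colV v M x₀) hδ₀
    have hx₀B : ∀ i, x₀ i ≤ B' := hBV x₀ hx₀.1 le_rfl
    have hmM' : ∀ i : ι, (fun _ : ι => δ' / 2) i ≤ (fun _ : ι => B' + 1) i := fun i => by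
      have h1 := hδ₀x i
      have h2 := hx₀B i
      show δ' / 2 ≤ B' + 1
      linarith
    obtain ⟨x, hxc, hx⟩ := exists_clamped_sol (N₁.union N₂) hε hκ hmM' x₀
    have hx0 : x 0 = x₀ := by
      have := hx 0 le_rfl
      simpa using this
    have hzc : Continuous (fun s => clampBox (fun _ : ι => δ' / 2) (fun _ : ι => B' + 1) (x s)) :=
      (continuous_clampBox _ _).comp hxc
    have hsol : IntForm (N₁.union N₂) κ x
        (fun s => clampBox (fun _ : ι => δ' / 2) (fun _ : ι => B' + 1) (x s)) := fun t ht => by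
      rw [hx0]
      exact hx t ht
    have hF := continuation_closed (x := x) hxc.continuousOn
      (U := {y | ∀ i, δ' / 2 < y i ∧ y i < B' + 1})
      (F := Icc (fun _ => δ') (fun _ => B')) ?_ isClosed_Icc ?_ ?_ ?_
    · refine ⟨x, hx0, hxc.continuousOn, fun t ht => ?_⟩
      rw [hsol t ht]
      congr 1
      apply intervalIntegral.integral_congr
      intro s hs
      rw [uIcc_of_le ht] at hs
      have hzs : clampBox (fun _ : ι => δ' / 2) (fun _ : ι => B' + 1) (x s) = x s :=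
        clampBox_eq ⟨fun i => by
            have := (hF s hs.1).1 i
            show δ' / 2 ≤ x s i
            linarith,
          fun i => by
            have := (hF s hs.1).2 i
            show x s i ≤ B' + 1
            linarith⟩
      simp only [hzs]
    · have : {y : ι → ℝ | ∀ i, δ' / 2 < y i ∧ y i < B' + 1} =
          ⋂ i, ({y : ι → ℝ | δ' / 2 < y i} ∩ {y : ι → ℝ | y i < B' + 1}) := by
        ext y
        simp
      rw [this]
      exact isOpen_iInter_of_finite (fun i =>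
        (isOpen_lt continuous_const (continuous_apply i)).inter
          (isOpen_lt (continuous_apply i) continuous_const))
    · intro y hy i
      have h1 : δ' ≤ y i := hy.1 i
      have h2 : y i ≤ B' := hy.2 i
      exact ⟨by linarith, by linarith⟩
    · rw [hx0]
      exact ⟨fun i => le_trans hδ'δ₀ (hδ₀x i), hx₀B⟩
    · intro T hT hU t ht
      have hzx : ∀ s ∈ Icc 0 T,
          clampBox (fun _ : ι => δ' / 2) (fun _ : ι => B' + 1) (x s) = x s := fun s hs =>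
        clampBox_eq ⟨fun i => (hU s hs i).1.le, fun i => (hU s hs i).2.le⟩
      have := hap κ hκ x _ hxc.continuousOn hzc.continuousOn hsol (by rw [hx0]; exact hx₀)
        (by rw [hx0]; exact hδ₀x) (by rw [hx0]) T hT hzx
        (fun s hs i => lt_trans (half_pos hδ') (hU s hs i).1) t ht
      exact ⟨fun i => (this i).1, fun i => (this i).2⟩
  obtain ⟨B₁, hB₁⟩ := hsub G₀
  obtain ⟨E₁, Cf₁, hE₁⟩ := hcor B₁
  obtain ⟨δf, hδf, hbar⟩ := barrier_lower_bound_pert (fun _ : ι => (1 : ℝ))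
    (fun _ => one_pos) E₁ Cf₁
    (fun η hη => ⟨(hE₁ η hη).1, fun _ => (hE₁ η hη).2.1⟩)
    (fun η hη => (hE₁ η hη).2.2.1) δ hδ
  refine ⟨{x | x - c' ∈ (N₁.union N₂).stoich} ∩ Icc (fun _ => δf) (fun _ => B₁),
    isCompact_Icc.inter_left (isClosed_class _ c'), ?_, ?_⟩
  · rintro x ⟨hxc, hxl, -⟩
    exact ⟨fun i => lt_of_lt_of_le hδf (hxl i), hxc⟩
  intro κ hκ
  have hstay : ∀ x : ℝ → ι → ℝ, x 0 ∈ (N₁.union N₂).posClass c' →
      (N₁.union N₂).IsSolAt κ x → ∀ t, 0 ≤ t → x t ∈ (N₁.union N₂).posClass c' := by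
    intro x hx0 hx t ht
    obtain ⟨δ', B', hδ', hb⟩ := hglob κ hκ x hx0 hx
    refine ⟨fun i => lt_of_lt_of_le hδ' (hb t ht i).1, ?_⟩
    have h1 := intForm_mem_stoich (N₁.union N₂) hκ hx.1 hx.2 ht
    have : x t - c' = (x t - x 0) + (x 0 - c') := by abel
    rw [this]
    exact Submodule.add_mem _ h1 hx0.2
  refine ⟨hexist κ hκ, hstay, ?_⟩
  intro x hx0 hx
  have hP := hstay x hx0 hx
  have hpos : ∀ t, 0 ≤ t → ∀ i, 0 < x t i := fun t ht => (hP t ht).1
  obtain ⟨δ', B', hδ', hb⟩ := hglob κ hκ x hx0 hx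
  have hsol : IntForm (N₁.union N₂) κ x x := hx.2
  -- the solution enters the box at some time
  have hT₁ : ∃ T₁, 0 ≤ T₁ ∧ ∀ i, δ ≤ x T₁ i ∧ x T₁ i ≤ B := by
    by_contra hcon
    have hout : ∀ t, 0 ≤ t → ¬ (∀ i, δ ≤ x t i ∧ x t i ≤ B) :=
      fun t ht hbox => hcon ⟨t, ht, hbox⟩
    have hR : Nonempty R₁ := by
      rcases halt (x 0) (hP 0 le_rfl) with h | h
      · exact absurd h (hout 0 le_rfl)
      · exact h.1
    obtain ⟨r₀⟩ := hR
    set κ₀ : ℝ := mono (N₁.src r₀) (fun _ => δ') / mono (N₁.src r₀) (fun _ => (1 : ℝ))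
      with hκ₀
    have hκ₀pos : 0 < κ₀ :=
      div_pos (mono_pos _ _ (fun _ => hδ')) (mono_pos _ _ (fun _ => one_pos))
    obtain ⟨mV, hmV⟩ := colV_ge_of_le v hv0 M hM B'
    set T : ℝ := (colV v M (x 0) - mV + 1) / κ₀ with hT
    have hV0 : mV ≤ colV v M (x 0) :=
      hmV (x 0) (hpos 0 le_rfl) (fun i => (hb 0 le_rfl i).2)
    have hT0 : 0 ≤ T := div_nonneg (by linarith) hκ₀pos.le
    have h1 := tv_gen_decay (N₁.union N₂) hε hκ (colV v M) (colGrad v M) hV hVp hx.1 hx.1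
      hsol le_rfl hT0 (fun s _ => rfl) (fun s hs => hpos s hs.1) κ₀ ?_
    · have h2 : mV ≤ colV v M (x T) := hmV (x T) (hpos T hT0) (fun i => (hb T hT0 i).2)
      have h3 : κ₀ * (T - 0) = colV v M (x 0) - mV + 1 := by
        rw [hT]
        field_simp
        ring
      linarith
    · intro s hs
      have hs0 : 0 ≤ s := hs.1.le
      rcases halt (x s) (hP s hs0) with h | h
      · exact absurd h (hout s hs0)
      · refine le_trans (h.2 (fun r => κ r s) (fun r => (hκ r).2 s) r₀) ?_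
        rw [exp_cw_eq_div (fun _ => (1 : ℝ)) (x s) (fun _ => one_pos) (hpos s hs0),
          neg_le_neg_iff]
        exact div_le_div_of_nonneg_right
          (mono_const_le _ _ δ' hδ' (fun i => (hb s hs0 i).1))
          (mono_pos _ _ (fun _ => one_pos)).le
  obtain ⟨T₁, hT₁0, hT₁box⟩ := hT₁
  -- from then on the function stays below `G₀`
  have hVle : ∀ t, T₁ ≤ t → colV v M (x t) ≤ G₀ := by
    intro t ht
    have h1 := tv_gen_apriori (N₁.union N₂) hε hκ (colV v M) (colGrad v M) hV hVp hx.1 hx.1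
      hsol hT₁0 ht (fun s _ => rfl) (fun s hs => hpos s (le_trans hT₁0 hs.1)) G₀ ?_
    · have h2 := hG₀ (x T₁) hT₁box
      rw [max_eq_right h2] at h1
      exact h1
    · intro s hs hGs
      have hs0 : 0 ≤ s := le_trans hT₁0 hs.1.le
      rcases halt (x s) (hP s hs0) with hbox | ⟨⟨r₀⟩, hneg⟩
      · exact absurd (hG₀ (x s) hbox) (not_le.mpr hGs)
      · exact le_trans (hneg (fun r => κ r s) (fun r => (hκ r).2 s) r₀)
          (neg_nonpos.mpr (Real.exp_pos _).le)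
  have hxB₁ : ∀ t, T₁ ≤ t → ∀ i, x t i ≤ B₁ :=
    fun t ht => hB₁ (x t) (hpos t (le_trans hT₁0 ht)) (hVle t ht)
  have hlow := hbar x T₁ (fun t ht => hpos t (le_trans hT₁0 ht))
    (hx.1.mono (Ici_subset_Ici.mpr hT₁0)) (fun i => (hT₁box i).1) ?_
  · exact ⟨T₁, fun t ht => ⟨(hP t (le_trans hT₁0 ht)).2, fun i => hlow t ht i,
      fun i => hxB₁ t ht i⟩⟩
  · intro W η hW hη
    obtain ⟨Ψ, p, hΨ, hΨb, hΨp⟩ := (hE₁ η hη).2.2.2 W hW
    refine ⟨Ψ, ?_, ?_⟩
    · intro τ hτ h1 h2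
      exact (hΨp (x τ) (hP τ (le_trans hT₁0 hτ)) (hxB₁ τ hτ) h1 h2).2
    · intro s t hs hst hτ
      have hs0 : 0 ≤ s := le_trans hT₁0 hs
      have hdec := tv_gen_decay (N₁.union N₂) hε hκ Ψ p hΨ hΨb hx.1 hx.1 hsol hs0 hst
        (fun τ _ => rfl) (fun τ hτ' => hpos τ (le_trans hs0 hτ'.1)) 0 ?_
      · rw [zero_mul, sub_zero] at hdec
        exact hdec
      · intro τ hτ'
        have hτm : τ ∈ Icc s t := ⟨hτ'.1.le, hτ'.2.le⟩
        rw [neg_zero]
        exact (hΨp (x τ) (hP τ (le_trans hs0 hτ'.1.le)) (hxB₁ τ (le_trans hs hτ'.1.le))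
          (hτ τ hτm).1 (hτ τ hτm).2).1 (fun r => κ r τ) (fun r => (hκ r).2 τ)

end Vale.Agent.Lib.P072
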