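import Vale.Agent.Lib.P072.ConvSpeed
import Vale.Agent.Lib.P072.DefsConv

/-!
# The field summed over a set of species, for conversion directions

For a network whose reaction vectors are multiples of conversion directions `e_b - e_a`, the
sum of the field over a set `A` of species is a signed sum of line speeds; `poolLower` is a
lower bound for it that does not depend on the rate vector, and it is nonnegative (positive)
when the species outside `A` are much larger than those inside.
-/

namespace Vale.Agent.Lib.P072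

open Set

variable {R ι : Type} [Fintype R] [Fintype ι]

omit [Fintype R] in
/-- A weight vector orthogonal to all reaction vectors is orthogonal to the stoichiometric
subspace. -/
lemma stoich_weighted_sum_eq_zero (N : MAS R ι) (w : ι → ℝ)
    (h : ∀ q, ∑ i, w i * N.vec q i = 0) {v : ι → ℝ} (hv : v ∈ N.stoich) :
    ∑ i, w i * v i = 0 := by
  unfold MAS.stoich at hv
  induction hv using Submodule.span_induction with
  | mem x hx =>
    obtain ⟨r, rfl⟩ := hx
    exact h r
  | zero => simp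
  | add x y _ _ hx hy =>
    simp only [Pi.add_apply, mul_add, Finset.sum_add_distrib, hx, hy, add_zero]
  | smul c x _ hx =>
    have hc : ∀ i, w i * (c • x) i = c * (w i * x i) := by
      intro i
      simp only [Pi.smul_apply, smul_eq_mul]
      ring
    simp only [hc, ← Finset.mul_sum, hx, mul_zero]

/-- The shape of a conversion direction, with its sum over a set of species. -/
lemma isConv_cases {v : ι → ℝ} (hv : IsConv v) (A : Finset ι) :
    ∃ a b : ι, a ≠ b ∧ (∀ x : ι → ℝ, logCoord v x = Real.log (x b) - Real.log (x a)) ∧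
      ((b ∈ A ∧ a ∉ A ∧ ∑ i ∈ A, v i = 1) ∨ (a ∈ A ∧ b ∉ A ∧ ∑ i ∈ A, v i = -1) ∨
        ∑ i ∈ A, v i = 0) := by
  classical
  obtain ⟨a, b, hab, ha, hb, h0⟩ := hv
  have hpt : ∀ i, v i = (if i = b then (1 : ℝ) else 0) - (if i = a then (1 : ℝ) else 0) := by
    intro i
    by_cases hia : i = a
    · subst hia
      rw [if_neg hab, if_pos rfl, ha]
      norm_num
    · by_cases hib : i = b
      · subst hib
        rw [if_pos rfl, if_neg hia, hb]
        norm_num
      · rw [if_neg hib, if_neg hia, h0 i hia hib]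
        norm_num
  have hsum : ∀ B : Finset ι,
      ∑ i ∈ B, v i = (if b ∈ B then (1 : ℝ) else 0) - (if a ∈ B then (1 : ℝ) else 0) := by
    intro B
    simp only [hpt, Finset.sum_sub_distrib, Finset.sum_ite_eq']
  refine ⟨a, b, hab, ?_, ?_⟩
  · intro x
    unfold logCoord
    simp only [hpt, sub_mul, ite_mul, one_mul, zero_mul, Finset.sum_sub_distrib,
      Finset.sum_ite_eq', Finset.mem_univ, if_true]
  · rw [hsum A]
    by_cases hbA : b ∈ A <;> by_cases haA : a ∈ A
    · right; right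
      simp [hbA, haA]
    · left
      exact ⟨hbA, haA, by simp [hbA, haA]⟩
    · right; left
      exact ⟨haA, hbA, by simp [hbA, haA]⟩
    · right; right
      simp [hbA, haA]

/-- The entries of a conversion direction sum to zero. -/
lemma isConv_sum_univ {v : ι → ℝ} (hv : IsConv v) : ∑ i, v i = 0 := by
  obtain ⟨a, b, _, _, h⟩ := isConv_cases hv Finset.univ
  rcases h with ⟨_, h2, _⟩ | ⟨_, h2, _⟩ | h
  · exact absurd (Finset.mem_univ _) h2
  · exact absurd (Finset.mem_univ _) h2
  · exact h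

/-- The field summed over a set of species, reaction by reaction. -/
lemma sum_fieldK_eq (N : MAS R ι) (dir : (ι → ℕ) → (ι → ℝ)) (lam : R → ℝ)
    (hlam : ∀ q, N.vec q = lam q • dir (N.src q)) (k : R → ℝ) (x : ι → ℝ) (A : Finset ι) :
    ∑ i ∈ A, N.fieldK k x i =
      ∑ q, k q * lam q * mono (N.src q) x * ∑ i ∈ A, dir (N.src q) i := by
  simp only [fieldK_apply]
  rw [Finset.sum_comm]
  apply Finset.sum_congr rfl
  intro q _
  rw [Finset.mul_sum]
  apply Finset.sum_congr rfl
  intro i _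
  rw [hlam q]
  simp only [Pi.smul_apply, smul_eq_mul]
  ring

/-- Grouping the reactions by their direction. -/
lemma sum_group_dir (N : MAS R ι) (dir : (ι → ℕ) → (ι → ℝ)) (lam : R → ℝ) (k : R → ℝ)
    (x : ι → ℝ) (S : (ι → ℝ) → ℝ) (D : Finset (ι → ℝ)) (hD : ∀ q, dir (N.src q) ∈ D) :
    ∑ q, k q * lam q * mono (N.src q) x * S (dir (N.src q)) =
      ∑ v ∈ D, S v * lineSpeedK N dir lam k v x := by
  unfold lineSpeedK
  simp only [Finset.mul_sum]
  rw [Finset.sum_comm]
  apply Finset.sum_congr rfl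
  intro q _
  rw [Finset.sum_eq_single (dir (N.src q))]
  · rw [if_pos rfl]
    ring
  · intro b _ hb
    rw [if_neg (Ne.symm hb), mul_zero]
  · intro hq
    exact absurd (hD q) hq

open Classical in
/-- A lower bound, independent of the rate vector, for the field summed over the set `A` of
species: directions entering `A` are counted with the smallest rates, directions leaving `A`
with the largest rates. -/
noncomputable def poolLower (N : MAS R ι) (dir : (ι → ℕ) → (ι → ℝ)) (lam : R → ℝ) (ε : ℝ)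
    (A : Finset ι) (x : ι → ℝ) : ℝ :=
  ∑ v ∈ Finset.univ.image (fun q => dir (N.src q)),
    (if ∑ i ∈ A, v i = 1 then lineSpeedK N dir lam (loK lam ε) v x
     else if ∑ i ∈ A, v i = -1 then -lineSpeedK N dir lam (hiK lam ε) v x else 0)

lemma continuous_poolLower (N : MAS R ι) (dir : (ι → ℕ) → (ι → ℝ)) (lam : R → ℝ) (ε : ℝ)
    (A : Finset ι) : Continuous (poolLower N dir lam ε A) := by
  unfold poolLower
  apply continuous_finsetSum
  intro v _
  split_ifs
  · exact continuous_lineSpeedK N dir lam _ v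
  · exact (continuous_lineSpeedK N dir lam _ v).neg
  · exact continuous_const

open Classical in
lemma poolLower_le (N : MAS R ι) (dir : (ι → ℕ) → (ι → ℝ)) (lam : R → ℝ)
    (hlam : ∀ q, N.vec q = lam q • dir (N.src q)) (hconv : ∀ q, IsConv (dir (N.src q)))
    {ε : ℝ} {k : R → ℝ} (hk : ∀ r, ε ≤ k r ∧ k r ≤ ε⁻¹) (A : Finset ι) (x : ι → ℝ)
    (hx : ∀ i, 0 ≤ x i) : poolLower N dir lam ε A x ≤ ∑ i ∈ A, N.fieldK k x i := by
  rw [sum_fieldK_eq N dir lam hlam k x A,
    sum_group_dir N dir lam k x (fun v => ∑ i ∈ A, v i)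
      (Finset.univ.image (fun q => dir (N.src q)))
      (fun q => Finset.mem_image_of_mem _ (Finset.mem_univ q))]
  unfold poolLower
  apply Finset.sum_le_sum
  intro v hv
  obtain ⟨q, _, rfl⟩ := Finset.mem_image.mp hv
  obtain ⟨a, b, hab, hlog, hcase⟩ := isConv_cases (hconv q) A
  rcases hcase with ⟨_, _, h1⟩ | ⟨_, _, h1⟩ | h1
  · rw [if_pos h1]
    simp only [h1, one_mul]
    exact lineSpeedK_lo_le N dir lam hk _ x hx
  · have hne : ¬ (∑ i ∈ A, dir (N.src q) i = 1) := by
      rw [h1]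
      norm_num
    rw [if_neg hne, if_pos h1]
    simp only [h1]
    have h2 := lineSpeedK_le_hi N dir lam hk (dir (N.src q)) x hx
    linarith
  · have hne1 : ¬ (∑ i ∈ A, dir (N.src q) i = 1) := by
      rw [h1]
      norm_num
    have hne2 : ¬ (∑ i ∈ A, dir (N.src q) i = -1) := by
      rw [h1]
      norm_num
    rw [if_neg hne1, if_neg hne2]
    simp only [h1, zero_mul, le_refl]

/-- For every reaction, the sum of its direction over `A` is `1` with positive lower speed,
or `-1` with negative upper speed, or `0`. -/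
lemma conv_trichotomy (N : MAS R ι) (dir : (ι → ℕ) → (ι → ℝ)) (lam : R → ℝ)
    (hconv : ∀ q, IsConv (dir (N.src q))) {ε M : ℝ}
    (hM : ∀ (q : R) (x : ι → ℝ), (∀ i, 0 < x i) →
      (logCoord (dir (N.src q)) x ≤ -M →
        0 < lineSpeedK N dir lam (loK lam ε) (dir (N.src q)) x) ∧
      (M ≤ logCoord (dir (N.src q)) x →
        lineSpeedK N dir lam (hiK lam ε) (dir (N.src q)) x < 0))
    (A : Finset ι) (x : ι → ℝ) (hx : ∀ i, 0 < x i) {ξ : ℝ} (hin : ∀ i ∈ A, x i ≤ ξ)
    (hout : ∀ j, j ∉ A → Real.exp M * ξ ≤ x j) (q : R) :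
    (∑ i ∈ A, dir (N.src q) i = 1 ∧
        0 < lineSpeedK N dir lam (loK lam ε) (dir (N.src q)) x) ∨
      (∑ i ∈ A, dir (N.src q) i = -1 ∧
        lineSpeedK N dir lam (hiK lam ε) (dir (N.src q)) x < 0) ∨
      ∑ i ∈ A, dir (N.src q) i = 0 := by
  obtain ⟨a, b, hab, hlog, hcase⟩ := isConv_cases (hconv q) A
  rcases hcase with ⟨hb, ha, h1⟩ | ⟨ha, hb, h1⟩ | h1
  · left
    refine ⟨h1, (hM q x hx).1 ?_⟩
    rw [hlog x]
    have hξ : 0 < ξ := lt_of_lt_of_le (hx b) (hin b hb)
    have h2 : Real.log (x b) ≤ Real.log ξ := Real.log_le_log (hx b) (hin b hb)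
    have h3 : Real.log (Real.exp M * ξ) ≤ Real.log (x a) :=
      Real.log_le_log (mul_pos (Real.exp_pos M) hξ) (hout a ha)
    rw [Real.log_mul (Real.exp_ne_zero M) hξ.ne', Real.log_exp] at h3
    linarith
  · right; left
    refine ⟨h1, (hM q x hx).2 ?_⟩
    rw [hlog x]
    have hξ : 0 < ξ := lt_of_lt_of_le (hx a) (hin a ha)
    have h2 : Real.log (x a) ≤ Real.log ξ := Real.log_le_log (hx a) (hin a ha)
    have h3 : Real.log (Real.exp M * ξ) ≤ Real.log (x b) :=
      Real.log_le_log (mul_pos (Real.exp_pos M) hξ) (hout b hb)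
    rw [Real.log_mul (Real.exp_ne_zero M) hξ.ne', Real.log_exp] at h3
    linarith
  · right; right
    exact h1

open Classical in
lemma poolLower_nonneg (N : MAS R ι) (dir : (ι → ℕ) → (ι → ℝ)) (lam : R → ℝ)
    (hconv : ∀ q, IsConv (dir (N.src q))) {ε M : ℝ}
    (hM : ∀ (q : R) (x : ι → ℝ), (∀ i, 0 < x i) →
      (logCoord (dir (N.src q)) x ≤ -M →
        0 < lineSpeedK N dir lam (loK lam ε) (dir (N.src q)) x) ∧
      (M ≤ logCoord (dir (N.src q)) x →
        lineSpeedK N dir lam (hiK lam ε) (dir (N.src q)) x < 0))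
    (A : Finset ι) (x : ι → ℝ) (hx : ∀ i, 0 < x i) {ξ : ℝ} (hin : ∀ i ∈ A, x i ≤ ξ)
    (hout : ∀ j, j ∉ A → Real.exp M * ξ ≤ x j) : 0 ≤ poolLower N dir lam ε A x := by
  unfold poolLower
  apply Finset.sum_nonneg
  intro v hv
  obtain ⟨q, _, rfl⟩ := Finset.mem_image.mp hv
  rcases conv_trichotomy N dir lam hconv hM A x hx hin hout q with ⟨h1, h2⟩ | ⟨h1, h2⟩ | h1
  · rw [if_pos h1]
    exact h2.le
  · have hne : ¬ (∑ i ∈ A, dir (N.src q) i = 1) := by
      rw [h1]
      norm_num
    rw [if_neg hne, if_pos h1]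
    linarith
  · have hne1 : ¬ (∑ i ∈ A, dir (N.src q) i = 1) := by
      rw [h1]
      norm_num
    have hne2 : ¬ (∑ i ∈ A, dir (N.src q) i = -1) := by
      rw [h1]
      norm_num
    rw [if_neg hne1, if_neg hne2]

open Classical in
lemma poolLower_pos (N : MAS R ι) (dir : (ι → ℕ) → (ι → ℝ)) (lam : R → ℝ)
    (hconv : ∀ q, IsConv (dir (N.src q))) {ε M : ℝ}
    (hM : ∀ (q : R) (x : ι → ℝ), (∀ i, 0 < x i) →
      (logCoord (dir (N.src q)) x ≤ -M →
        0 < lineSpeedK N dir lam (loK lam ε) (dir (N.src q)) x) ∧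
      (M ≤ logCoord (dir (N.src q)) x →
        lineSpeedK N dir lam (hiK lam ε) (dir (N.src q)) x < 0))
    (A : Finset ι) (x : ι → ℝ) (hx : ∀ i, 0 < x i) {ξ : ℝ} (hin : ∀ i ∈ A, x i ≤ ξ)
    (hout : ∀ j, j ∉ A → Real.exp M * ξ ≤ x j) (q₀ : R)
    (hq₀ : ∑ i ∈ A, dir (N.src q₀) i ≠ 0) : 0 < poolLower N dir lam ε A x := by
  unfold poolLower
  apply Finset.sum_pos'
  · intro v hv
    obtain ⟨q, _, rfl⟩ := Finset.mem_image.mp hv
    rcases conv_trichotomy N dir lam hconv hM A x hx hin hout q with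
      ⟨h1, h2⟩ | ⟨h1, h2⟩ | h1
    · rw [if_pos h1]
      exact h2.le
    · have hne : ¬ (∑ i ∈ A, dir (N.src q) i = 1) := by
        rw [h1]
        norm_num
      rw [if_neg hne, if_pos h1]
      linarith
    · have hne1 : ¬ (∑ i ∈ A, dir (N.src q) i = 1) := by
        rw [h1]
        norm_num
      have hne2 : ¬ (∑ i ∈ A, dir (N.src q) i = -1) := by
        rw [h1]
        norm_num
      rw [if_neg hne1, if_neg hne2]
  · refine ⟨dir (N.src q₀), Finset.mem_image_of_mem _ (Finset.mem_univ q₀), ?_⟩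
    rcases conv_trichotomy N dir lam hconv hM A x hx hin hout q₀ with
      ⟨h1, h2⟩ | ⟨h1, h2⟩ | h1
    · rw [if_pos h1]
      exact h2
    · have hne : ¬ (∑ i ∈ A, dir (N.src q₀) i = 1) := by
        rw [h1]
        norm_num
      rw [if_neg hne, if_pos h1]
      linarith
    · exact absurd h1 hq₀

end Vale.Agent.Lib.P072
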