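import Vale.Agent.Lib.P072.LineSign
import Vale.Agent.Lib.P072.TVField

/-!
# Line speeds with a vector of rates, comparison rate vectors and uniform sign thresholds
-/

namespace Vale.Agent.Lib.P072

open Set

set_option linter.unusedSectionVars false

variable {R ι : Type} [Fintype R] [Fintype ι]

open Classical in
/-- The speed along the direction `v` with the rate vector `k`: the sum over the reactions `q`
with direction `v` of `k q * lam q * x ^ (src q)`. -/
noncomputable def lineSpeedK (N : MAS R ι) (dir : (ι → ℕ) → (ι → ℝ)) (lam : R → ℝ)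
    (k : R → ℝ) (v : ι → ℝ) (x : ι → ℝ) : ℝ :=
  ∑ q, if dir (N.src q) = v then k q * lam q * mono (N.src q) x else 0

open Classical in
/-- The rate vector that is smallest for the reactions along their direction and largest for
the reactions against it. -/
noncomputable def loK (lam : R → ℝ) (ε : ℝ) (q : R) : ℝ := if 0 < lam q then ε else ε⁻¹

open Classical in
/-- The rate vector that is largest for the reactions along their direction and smallest for
the reactions against it. -/
noncomputable def hiK (lam : R → ℝ) (ε : ℝ) (q : R) : ℝ := if 0 < lam q then ε⁻¹ else ε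

lemma loK_pos (lam : R → ℝ) {ε : ℝ} (hε : 0 < ε) (q : R) : 0 < loK lam ε q := by
  unfold loK
  split_ifs
  · exact hε
  · exact inv_pos.mpr hε

lemma hiK_pos (lam : R → ℝ) {ε : ℝ} (hε : 0 < ε) (q : R) : 0 < hiK lam ε q := by
  unfold hiK
  split_ifs
  · exact inv_pos.mpr hε
  · exact hε

lemma lineSpeed_withRate (N : MAS R ι) (dir : (ι → ℕ) → (ι → ℝ)) (lam : R → ℝ)
    (ρ : R → ℝ) (hρ : ∀ r, 0 < ρ r) (v x : ι → ℝ) :
    lineSpeed (N.withRate ρ hρ) dir lam v x = lineSpeedK N dir lam ρ v x := by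
  unfold lineSpeed lineSpeedK
  apply Finset.sum_congr rfl
  intro q _
  rfl

lemma continuous_lineSpeedK (N : MAS R ι) (dir : (ι → ℕ) → (ι → ℝ)) (lam : R → ℝ)
    (k : R → ℝ) (v : ι → ℝ) : Continuous (lineSpeedK N dir lam k v) := by
  unfold lineSpeedK
  apply continuous_finsetSum
  intro q _
  split_ifs
  · exact continuous_const.mul (continuous_mono _)
  · exact continuous_const

/-- Comparison from below with the rate vector `loK`. -/
lemma lineSpeedK_lo_le (N : MAS R ι) (dir : (ι → ℕ) → (ι → ℝ)) (lam : R → ℝ) {ε : ℝ}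
    {k : R → ℝ} (hk : ∀ r, ε ≤ k r ∧ k r ≤ ε⁻¹) (v x : ι → ℝ) (hx : ∀ i, 0 ≤ x i) :
    lineSpeedK N dir lam (loK lam ε) v x ≤ lineSpeedK N dir lam k v x := by
  unfold lineSpeedK
  apply Finset.sum_le_sum
  intro q _
  split_ifs with h
  · have hm := mono_nonneg (N.src q) x hx
    unfold loK
    split_ifs with hl
    · exact mul_le_mul_of_nonneg_right (mul_le_mul_of_nonneg_right (hk q).1 hl.le) hm
    · push Not at hl
      have h1 : lam q * mono (N.src q) x ≤ 0 := mul_nonpos_of_nonpos_of_nonneg hl hm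
      have h2 := mul_le_mul_of_nonpos_right (hk q).2 h1
      nlinarith [h2]
  · exact le_rfl

/-- Comparison from above with the rate vector `hiK`. -/
lemma lineSpeedK_le_hi (N : MAS R ι) (dir : (ι → ℕ) → (ι → ℝ)) (lam : R → ℝ) {ε : ℝ}
    {k : R → ℝ} (hk : ∀ r, ε ≤ k r ∧ k r ≤ ε⁻¹) (v x : ι → ℝ) (hx : ∀ i, 0 ≤ x i) :
    lineSpeedK N dir lam k v x ≤ lineSpeedK N dir lam (hiK lam ε) v x := by
  unfold lineSpeedK
  apply Finset.sum_le_sum
  intro q _
  split_ifs with h
  · have hm := mono_nonneg (N.src q) x hx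
    unfold hiK
    split_ifs with hl
    · exact mul_le_mul_of_nonneg_right (mul_le_mul_of_nonneg_right (hk q).2 hl.le) hm
    · push Not at hl
      have h1 : lam q * mono (N.src q) x ≤ 0 := mul_nonpos_of_nonpos_of_nonneg hl hm
      have h2 := mul_le_mul_of_nonpos_right (hk q).1 h1
      nlinarith [h2]
  · exact le_rfl

/-- One threshold `M` for all directions: below `-M` in the logarithmic coordinate the speed
with the smallest rates is positive, above `M` the speed with the largest rates is negative. -/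
lemma lineSpeedK_sign (N : MAS R ι) (hwr : N.WeaklyReversible)
    (dir : (ι → ℕ) → (ι → ℝ)) (lam : R → ℝ)
    (hdir : ∀ q, dir (N.src q) = dir (N.tgt q))
    (hlam : ∀ q, N.vec q = lam q • dir (N.src q)) {ε : ℝ} (hε : 0 < ε) :
    ∃ M : ℝ, 0 ≤ M ∧ ∀ (q : R) (x : ι → ℝ), (∀ i, 0 < x i) →
      (logCoord (dir (N.src q)) x ≤ -M →
        0 < lineSpeedK N dir lam (loK lam ε) (dir (N.src q)) x) ∧
      (M ≤ logCoord (dir (N.src q)) x →
        lineSpeedK N dir lam (hiK lam ε) (dir (N.src q)) x < 0) := by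
  have hpos : ∀ q : R, ∃ M : ℝ, ∀ x : ι → ℝ, (∀ i, 0 < x i) →
      logCoord (dir (N.src q)) x ≤ -M →
        0 < lineSpeedK N dir lam (loK lam ε) (dir (N.src q)) x := by
    intro q
    obtain ⟨M, hM⟩ := lineSpeed_pos (N.withRate (loK lam ε) (loK_pos lam hε)) hwr dir lam hdir
      hlam (dir (N.src q)) ⟨q, rfl⟩
    exact ⟨M, fun x hx hle => by
      have := hM x hx hle
      rwa [lineSpeed_withRate] at this⟩
  have hneg : ∀ q : R, ∃ M : ℝ, ∀ x : ι → ℝ, (∀ i, 0 < x i) →
      M ≤ logCoord (dir (N.src q)) x →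
        lineSpeedK N dir lam (hiK lam ε) (dir (N.src q)) x < 0 := by
    intro q
    obtain ⟨M, hM⟩ := lineSpeed_neg (N.withRate (hiK lam ε) (hiK_pos lam hε)) hwr dir lam hdir
      hlam (dir (N.src q)) ⟨q, rfl⟩
    exact ⟨M, fun x hx hle => by
      have := hM x hx hle
      rwa [lineSpeed_withRate] at this⟩
  choose Mp hMp using hpos
  choose Mn hMn using hneg
  have hle1 : ∀ q, Mp q ≤ ∑ r, (|Mp r| + |Mn r|) := by
    intro q
    have h1 : |Mp q| + |Mn q| ≤ ∑ r, (|Mp r| + |Mn r|) :=
      Finset.single_le_sum (f := fun r => |Mp r| + |Mn r|)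
        (fun r _ => add_nonneg (abs_nonneg _) (abs_nonneg _)) (Finset.mem_univ q)
    have h2 := le_abs_self (Mp q)
    have h3 := abs_nonneg (Mn q)
    linarith
  have hle2 : ∀ q, Mn q ≤ ∑ r, (|Mp r| + |Mn r|) := by
    intro q
    have h1 : |Mp q| + |Mn q| ≤ ∑ r, (|Mp r| + |Mn r|) :=
      Finset.single_le_sum (f := fun r => |Mp r| + |Mn r|)
        (fun r _ => add_nonneg (abs_nonneg _) (abs_nonneg _)) (Finset.mem_univ q)
    have h2 := le_abs_self (Mn q)
    have h3 := abs_nonneg (Mp q)
    linarith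
  refine ⟨∑ r, (|Mp r| + |Mn r|),
    Finset.sum_nonneg (fun r _ => add_nonneg (abs_nonneg _) (abs_nonneg _)),
    fun q x hx => ⟨fun h => hMp q x hx (by linarith [hle1 q]),
      fun h => hMn q x hx (by linarith [hle2 q])⟩⟩

end Vale.Agent.Lib.P072
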