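import Mathlib

/-!
# Mass-action systems and permanence (definitions)

A reaction network on a finite species type `ι` is given as a finite family of reactions
indexed by `R`: reaction `r` is `src r → tgt r` (two complexes, i.e. vectors of natural numbers)
with a positive rate constant `rate r`.
-/

namespace Vale.Agent.Lib.P072

/-- A mass-action system: a family of reactions `src r → tgt r` (with `src r ≠ tgt r`) indexed by
`R`, on species `ι`, with positive rate constants. -/
structure MAS (R ι : Type) where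
  src : R → ι → ℕ
  tgt : R → ι → ℕ
  rate : R → ℝ
  rate_pos : ∀ r, 0 < rate r
  src_ne_tgt : ∀ r, src r ≠ tgt r

variable {R ι : Type} [Fintype R] [Fintype ι]

/-- The monomial `x ^ y = ∏ i, x i ^ y i`. -/
def mono (y : ι → ℕ) (x : ι → ℝ) : ℝ := ∏ i, x i ^ y i

/-- The reaction vector `tgt r - src r` of reaction `r`. -/
def MAS.vec (N : MAS R ι) (r : R) : ι → ℝ := fun i => (N.tgt r i : ℝ) - (N.src r i : ℝ)

/-- The mass-action vector field `f x = ∑ r, rate r * x ^ (src r) • (tgt r - src r)`. -/
def MAS.field (N : MAS R ι) (x : ι → ℝ) : ι → ℝ :=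
  ∑ r, (N.rate r * mono (N.src r) x) • N.vec r

/-- The stoichiometric subspace: the real span of the reaction vectors. -/
def MAS.stoich (N : MAS R ι) : Submodule ℝ (ι → ℝ) := Submodule.span ℝ (Set.range N.vec)

/-- The positive stoichiometric class of `c`: the positive points of `c + stoich`. -/
def MAS.posClass (N : MAS R ι) (c : ι → ℝ) : Set (ι → ℝ) :=
  {x | (∀ i, 0 < x i) ∧ x - c ∈ N.stoich}

/-- `x` solves the mass-action system on `[0, ∞)` (one-sided derivative at `0`). -/
def MAS.IsSol (N : MAS R ι) (x : ℝ → ι → ℝ) : Prop :=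
  ∀ t, 0 ≤ t → HasDerivWithinAt x (N.field (x t)) (Set.Ici 0) t

/-- Permanence on a set `P` (used with `P` a positive stoichiometric class): from every point
of `P` there is a solution on `[0, ∞)`; every solution on `[0, ∞)` starting in `P` stays in `P`;
and there is a compact `K ⊆ P` which every such solution enters and never leaves after some
time. -/
def MAS.PermanentOn (N : MAS R ι) (P : Set (ι → ℝ)) : Prop :=
  (∀ x₀ ∈ P, ∃ x : ℝ → ι → ℝ, x 0 = x₀ ∧ N.IsSol x) ∧
  (∀ x : ℝ → ι → ℝ, x 0 ∈ P → N.IsSol x → ∀ t, 0 ≤ t → x t ∈ P) ∧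
  ∃ K : Set (ι → ℝ), IsCompact K ∧ K ⊆ P ∧
    ∀ x : ℝ → ι → ℝ, x 0 ∈ P → N.IsSol x → ∃ T, ∀ t, T ≤ t → x t ∈ K

/-- Weak reversibility: for every reaction `y → y'` there is a directed path of reactions from
`y'` back to `y`. -/
def MAS.WeaklyReversible (N : MAS R ι) : Prop :=
  ∀ r, Relation.TransGen (fun a b => ∃ q, N.src q = a ∧ N.tgt q = b) (N.tgt r) (N.src r)

end Vale.Agent.Lib.P072
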