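import Vale.Agent.Lib.P072.Defs

/-!
# Unions of mass-action systems, strong connectivity, complex balance (definitions)
-/

namespace Vale.Agent.Lib.P072

/-- The union of two mass-action systems on the same species: the reactions of `N₁` together
with the reactions of `N₂`, each with its own rate constant. -/
def MAS.union {R₁ R₂ ι : Type} (N₁ : MAS R₁ ι) (N₂ : MAS R₂ ι) : MAS (R₁ ⊕ R₂) ι where
  src := Sum.elim N₁.src N₂.src
  tgt := Sum.elim N₁.tgt N₂.tgt
  rate := Sum.elim N₁.rate N₂.rate
  rate_pos := by
    rintro (r | r)
    · exact N₁.rate_pos r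
    · exact N₂.rate_pos r
  src_ne_tgt := by
    rintro (r | r)
    · exact N₁.src_ne_tgt r
    · exact N₂.src_ne_tgt r

/-- Strong connectivity of the reaction graph: from the target of every reaction there is a
directed path of reactions to the source of every reaction. Equivalently, the system is weakly
reversible and has exactly one linkage class (or no reaction at all). -/
def MAS.StronglyConnected {R ι : Type} (N : MAS R ι) : Prop :=
  ∀ r q, Relation.ReflTransGen (fun a b => ∃ s, N.src s = a ∧ N.tgt s = b) (N.tgt r) (N.src q)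

variable {R ι : Type} [Fintype R] [Fintype ι]

open Classical in
/-- Complex balance at the point `x`: at every complex `y` the total rate of the reactions
leaving `y` equals the total rate of the reactions entering `y`. -/
def MAS.ComplexBalancedAt (N : MAS R ι) (x : ι → ℝ) : Prop :=
  ∀ y : ι → ℕ, ∑ r with N.src r = y, N.rate r * mono (N.src r) x =
    ∑ r with N.tgt r = y, N.rate r * mono (N.src r) x

/-- Boundedness on a set `P` (used with `P` a positive stoichiometric class): from every point
of `P` there is a solution on `[0, ∞)`; every solution on `[0, ∞)` starting in `P` stays in `P`;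
and every such solution is bounded. -/
def MAS.BoundedOn (N : MAS R ι) (P : Set (ι → ℝ)) : Prop :=
  (∀ x₀ ∈ P, ∃ x : ℝ → ι → ℝ, x 0 = x₀ ∧ N.IsSol x) ∧
  (∀ x : ℝ → ι → ℝ, x 0 ∈ P → N.IsSol x → ∀ t, 0 ≤ t → x t ∈ P) ∧
  ∀ x : ℝ → ι → ℝ, x 0 ∈ P → N.IsSol x → ∃ B : ℝ, ∀ t, 0 ≤ t → ∀ i, x t i ≤ B

end Vale.Agent.Lib.P072
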