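import Vale.Agent.Lib.P072.Defs

/-!
# The cascade of two mass-action systems (definition)
-/

namespace Vale.Agent.Lib.P072

/-- The cascade of `N₁` (species `ι`) and `N₂` (species `κ`) with catalyst monomial `x ^ α`:
the reactions of `N₁` (not involving the species `κ`) together with the reactions
`α + y → α + y'` for each reaction `y → y'` of `N₂`, with the same rate constants. -/
def cascade {R₁ R₂ ι κ : Type} (N₁ : MAS R₁ ι) (N₂ : MAS R₂ κ) (α : ι → ℕ) :
    MAS (R₁ ⊕ R₂) (ι ⊕ κ) where
  src := Sum.elim (fun r => Sum.elim (N₁.src r) 0) (fun r => Sum.elim α (N₂.src r))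
  tgt := Sum.elim (fun r => Sum.elim (N₁.tgt r) 0) (fun r => Sum.elim α (N₂.tgt r))
  rate := Sum.elim N₁.rate N₂.rate
  rate_pos := by
    rintro (r | r)
    · exact N₁.rate_pos r
    · exact N₂.rate_pos r
  src_ne_tgt := by
    rintro (r | r)
    · intro h
      apply N₁.src_ne_tgt r
      funext i
      have := congrFun h (Sum.inl i)
      simpa using this
    · intro h
      apply N₂.src_ne_tgt r
      funext j
      have := congrFun h (Sum.inr j)
      simpa using this

end Vale.Agent.Lib.P072
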