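import Vale.Agent.Lib.P072.Defs

/-!
# Source-dominated mass-action systems (definition)
-/

namespace Vale.Agent.Lib.P072

variable {R ι : Type}

/-- Source domination: whenever a reaction `r` decreases a species `i`, some reaction `u`
increasing `i` has a source complex with strictly fewer molecules of `i` than the source of `r`
and the same number of molecules of every other species; whenever a reaction `r` increases `i`,
some reaction `d` decreasing `i` has a source complex with strictly more molecules of `i` than the
source of `r` and the same number of molecules of every other species. -/
def MAS.SourceDominated (N : MAS R ι) : Prop :=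
  ∀ (r : R) (i : ι),
    (N.tgt r i < N.src r i → ∃ u, N.src u i < N.tgt u i ∧ N.src u i < N.src r i ∧
        ∀ j, j ≠ i → N.src u j = N.src r j) ∧
    (N.src r i < N.tgt r i → ∃ d, N.tgt d i < N.src d i ∧ N.src r i < N.src d i ∧
        ∀ j, j ≠ i → N.src d j = N.src r j)

end Vale.Agent.Lib.P072
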