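import Vale.Agent.Lib.P072.Defs

/-!
# Mass-action systems whose linkage classes are catalysed first-order networks (definition)
-/

namespace Vale.Agent.Lib.P072

variable {R ι : Type}

/-- Catalysed first-order linkage classes: to every complex `y` one can assign a catalyst
complex `m y` such that the two complexes of every reaction are assigned the same catalyst (so
the assignment is constant on linkage classes) and every reaction has the form
`m + X_a → m + X_b`, where `m` is the catalyst assigned to its complexes and `X_a`, `X_b` are
single species. So every linkage class consists of complexes `m + X_i` with one complex `m`. -/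
def MAS.FirstOrderClasses (N : MAS R ι) : Prop :=
  ∃ m : (ι → ℕ) → (ι → ℕ), ∀ r, m (N.src r) = m (N.tgt r) ∧
    (∃ a, N.src r a = m (N.src r) a + 1 ∧ ∀ i, i ≠ a → N.src r i = m (N.src r) i) ∧
    (∃ b, N.tgt r b = m (N.src r) b + 1 ∧ ∀ i, i ≠ b → N.tgt r i = m (N.src r) i)

end Vale.Agent.Lib.P072
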