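import Vale.Agent.Lib.P072.Defs

/-!
# Mass-action systems whose linkage classes lie on lines (definition)
-/

namespace Vale.Agent.Lib.P072

variable {R ι : Type}

/-- Linkage classes on lines with parallel or disjointly supported directions: to every complex
`y` one can assign a direction vector `dir y` such that (1) the two complexes of every reaction
are assigned the same direction (so the assignment is constant on linkage classes), (2) every
reaction vector is a real multiple of the direction assigned to its complexes (so every linkage
class lies on a line), and (3) the directions assigned to the complexes of any two reactions
are equal or have disjoint supports. -/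
def MAS.LineClasses (N : MAS R ι) : Prop :=
  ∃ dir : (ι → ℕ) → (ι → ℝ),
    (∀ r, dir (N.src r) = dir (N.tgt r) ∧ ∃ a : ℝ, N.vec r = a • dir (N.src r)) ∧
    ∀ r q, dir (N.src r) = dir (N.src q) ∨ ∀ i, dir (N.src r) i = 0 ∨ dir (N.src q) i = 0

end Vale.Agent.Lib.P072
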