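import Vale.Agent.Lib.P072.Defs

/-!
# Conservative mass-action systems with dominated outflow (definitions)
-/

namespace Vale.Agent.Lib.P072

variable {R ι : Type} [Fintype ι]

/-- Conservative: some linear combination of the species with positive coefficients is left
unchanged by every reaction. -/
def MAS.Conservative (N : MAS R ι) : Prop :=
  ∃ θ : ι → ℝ, (∀ i, 0 < θ i) ∧ ∀ r, ∑ i, θ i * N.vec r i = 0

/-- Dominated outflow: for every set `A` of species there are positive weights `w` on `A` such
that whenever a reaction `r` decreases the weighted amount `∑ i ∈ A, w i * x i` of `A`, some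
reaction `u` increases it and has a source complex with at most as many molecules of every
species of `A` as the source of `r`, and strictly fewer molecules of some species of `A`. -/
def MAS.DominatedOutflow (N : MAS R ι) : Prop :=
  ∀ A : Finset ι, ∃ w : ι → ℝ, (∀ i ∈ A, 0 < w i) ∧
    ∀ r, ∑ i ∈ A, w i * N.vec r i < 0 →
      ∃ u, 0 < ∑ i ∈ A, w i * N.vec u i ∧ (∀ i ∈ A, N.src u i ≤ N.src r i) ∧
        ∃ i ∈ A, N.src u i < N.src r i

end Vale.Agent.Lib.P072
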