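import Vale.Agent.Lib.P072.Defs

/-!
# Mass-action systems with time-dependent rates (definitions)

The reactions of a system `N : MAS R ι` are kept, but the rate constants are replaced by
measurable rate functions `κ r : ℝ → ℝ` with values in `[ε, ε⁻¹]`.
-/

namespace Vale.Agent.Lib.P072

variable {R ι : Type} [Fintype R] [Fintype ι]

/-- The mass-action vector field of the reactions of `N` with the rate functions `κ`, at time
`t`: `∑ r, κ r t * x ^ (src r) • (tgt r - src r)`. -/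
def MAS.fieldAt (N : MAS R ι) (κ : R → ℝ → ℝ) (t : ℝ) (x : ι → ℝ) : ι → ℝ :=
  ∑ r, (κ r t * mono (N.src r) x) • N.vec r

/-- `x` is a solution on `[0, ∞)` for the rate functions `κ`, in the integral (Caratheodory)
sense: `x` is continuous on `[0, ∞)` and `x t = x 0 + ∫ s in 0..t, fieldAt κ s (x s)` for all
`t ≥ 0`. -/
def MAS.IsSolAt (N : MAS R ι) (κ : R → ℝ → ℝ) (x : ℝ → ι → ℝ) : Prop :=
  ContinuousOn x (Set.Ici 0) ∧
    ∀ t, 0 ≤ t → x t = x 0 + ∫ s in (0:ℝ)..t, N.fieldAt κ s (x s)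

/-- Permanence on `P` for all measurable time-dependent rates with values in `[ε, ε⁻¹]`, with
a compact set `K ⊆ P` that does not depend on the rate functions: for all such rates, from every
point of `P` there is a solution on `[0, ∞)`, every solution on `[0, ∞)` starting in `P` stays in
`P`, and every such solution is in `K` for all large times. -/
def MAS.StronglyPermanentOn (N : MAS R ι) (ε : ℝ) (P : Set (ι → ℝ)) : Prop :=
  ∃ K : Set (ι → ℝ), IsCompact K ∧ K ⊆ P ∧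
    ∀ κ : R → ℝ → ℝ, (∀ r, Measurable (κ r) ∧ ∀ t, ε ≤ κ r t ∧ κ r t ≤ ε⁻¹) →
      (∀ x₀ ∈ P, ∃ x : ℝ → ι → ℝ, x 0 = x₀ ∧ N.IsSolAt κ x) ∧
      (∀ x : ℝ → ι → ℝ, x 0 ∈ P → N.IsSolAt κ x → ∀ t, 0 ≤ t → x t ∈ P) ∧
      (∀ x : ℝ → ι → ℝ, x 0 ∈ P → N.IsSolAt κ x → ∃ T, ∀ t, T ≤ t → x t ∈ K)

end Vale.Agent.Lib.P072
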