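import Vale.Agent.Lib.P072.DefsPool
import Vale.Agent.Lib.P072.DefsFirstOrder

/-!
# Catalysed first-order linkage classes have dominated outflow
-/

namespace Vale.Agent.Lib.P072

set_option linter.unusedSectionVars false

variable {R ι : Type} [Fintype R] [Fintype ι]

/-- The number of molecules of a set `A` of species in a complex of the form `m₀ + X_a`. -/
private lemma form_sum [DecidableEq ι] {y m₀ : ι → ℕ} {a : ι} (h1 : y a = m₀ a + 1)
    (h2 : ∀ i, i ≠ a → y i = m₀ i) (A : Finset ι) :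
    ∑ i ∈ A, (y i : ℝ) = ∑ i ∈ A, (m₀ i : ℝ) + (if a ∈ A then 1 else 0) := by
  have hy : ∀ i, (y i : ℝ) = (m₀ i : ℝ) + (if i = a then 1 else 0) := by
    intro i
    by_cases hi : i = a
    · subst hi
      rw [h1]
      simp
    · rw [h2 i hi]
      simp [hi]
  simp_rw [hy]
  rw [Finset.sum_add_distrib, Finset.sum_ite_eq']

/-- The change of the number of molecules of `A` in a reaction `m₀ + X_a → m₀ + X_b`. -/
private lemma vec_sum [DecidableEq ι] (N : MAS R ι) (m₀ : ι → ℕ) (r : R) {a b : ι}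
    (ha1 : N.src r a = m₀ a + 1) (ha2 : ∀ i, i ≠ a → N.src r i = m₀ i)
    (hb1 : N.tgt r b = m₀ b + 1) (hb2 : ∀ i, i ≠ b → N.tgt r i = m₀ i) (A : Finset ι) :
    ∑ i ∈ A, (1 : ℝ) * N.vec r i = (if b ∈ A then 1 else 0) - (if a ∈ A then 1 else 0) := by
  have h1 := form_sum ha1 ha2 A
  have h2 := form_sum hb1 hb2 A
  simp only [MAS.vec, one_mul, Finset.sum_sub_distrib]
  rw [h1, h2]
  ring

/-- A system whose reactions all have the form `m + X_a → m + X_b` conserves the total number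
of molecules. -/
lemma firstOrderClasses_conservative (N : MAS R ι)
    (hF : N.FirstOrderClasses) : N.Conservative := by
  classical
  obtain ⟨m, hm⟩ := hF
  refine ⟨fun _ => 1, fun _ => one_pos, fun r => ?_⟩
  obtain ⟨-, ⟨a, ha1, ha2⟩, ⟨b, hb1, hb2⟩⟩ := hm r
  have h := vec_sum N (m (N.src r)) r ha1 ha2 hb1 hb2 Finset.univ
  simp only [Finset.mem_univ, if_true, sub_self] at h
  exact h

/-- On a path of reactions inside a linkage class from a complex `m₀ + X_j` with `j ∉ A` to a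
complex `m₀ + X_i` with `i ∈ A`, some reaction leads from outside `A` into `A`. -/
private lemma path_cross (N : MAS R ι) (m : (ι → ℕ) → (ι → ℕ))
    (hm : ∀ r, m (N.src r) = m (N.tgt r) ∧
      (∃ a, N.src r a = m (N.src r) a + 1 ∧ ∀ i, i ≠ a → N.src r i = m (N.src r) i) ∧
      (∃ b, N.tgt r b = m (N.src r) b + 1 ∧ ∀ i, i ≠ b → N.tgt r i = m (N.src r) i))
    (A : Finset ι) (m₀ : ι → ℕ) {y y' : ι → ℕ}
    (hpath : Relation.TransGen (fun a b => ∃ q, N.src q = a ∧ N.tgt q = b) y y')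
    {i₀ : ι} (hi₀ : i₀ ∈ A) (hy'1 : y' i₀ = m₀ i₀ + 1) (hy'2 : ∀ i, i ≠ i₀ → y' i = m₀ i) :
    m y = m₀ → ∀ j, j ∉ A → y j = m₀ j + 1 → (∀ i, i ≠ j → y i = m₀ i) →
      ∃ q, (∃ j', j' ∉ A ∧ N.src q j' = m₀ j' + 1 ∧ ∀ i, i ≠ j' → N.src q i = m₀ i) ∧
        (∃ i', i' ∈ A ∧ N.tgt q i' = m₀ i' + 1 ∧ ∀ i, i ≠ i' → N.tgt q i = m₀ i) := by
  induction hpath using Relation.TransGen.head_induction_on with
  | single h =>
    obtain ⟨q, hq1, hq2⟩ := h
    intro _ j hj hj1 hj2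
    refine ⟨q, ⟨j, hj, ?_, ?_⟩, ⟨i₀, hi₀, ?_, ?_⟩⟩
    · rw [hq1]
      exact hj1
    · rw [hq1]
      exact hj2
    · rw [hq2]
      exact hy'1
    · rw [hq2]
      exact hy'2
  | head h' _ ih =>
    obtain ⟨q, hq1, hq2⟩ := h'
    intro hmy j hj hj1 hj2
    obtain ⟨hmq, -, ⟨b, hb1, hb2⟩⟩ := hm q
    rw [hq1, hmy] at hb1 hb2
    rw [hq1, hq2, hmy] at hmq
    by_cases hb : b ∈ A
    · refine ⟨q, ⟨j, hj, ?_, ?_⟩, ⟨b, hb, hb1, hb2⟩⟩
      · rw [hq1]
        exact hj1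
      · rw [hq1]
        exact hj2
    · rw [hq2] at hb1 hb2
      exact ih hmq.symm b hb hb1 hb2

/-- A weakly reversible system with catalysed first-order linkage classes has dominated
outflow (with all weights equal to `1`). -/
lemma firstOrderClasses_dominatedOutflow (N : MAS R ι)
    (hwr : N.WeaklyReversible) (hF : N.FirstOrderClasses) : N.DominatedOutflow := by
  classical
  obtain ⟨m, hm⟩ := hF
  intro A
  refine ⟨fun _ => 1, fun _ _ => one_pos, fun r hr => ?_⟩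
  obtain ⟨hmr, ⟨a, ha1, ha2⟩, ⟨b, hb1, hb2⟩⟩ := hm r
  have hsum := vec_sum N (m (N.src r)) r ha1 ha2 hb1 hb2 A
  have hr' : ∑ i ∈ A, (1 : ℝ) * N.vec r i < 0 := hr
  rw [hsum] at hr'
  have haA : a ∈ A := by
    by_contra hno
    rw [if_neg hno] at hr'
    by_cases hbA : b ∈ A
    · rw [if_pos hbA] at hr'
      linarith
    · rw [if_neg hbA] at hr'
      linarith
  have hbA : b ∉ A := by
    intro hbA
    rw [if_pos hbA, if_pos haA] at hr'
    linarith
  obtain ⟨u, ⟨j', hj', hu1, hu2⟩, ⟨i', hi', hv1, hv2⟩⟩ :=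
    path_cross N m hm A (m (N.src r)) (hwr r) haA ha1 ha2 hmr.symm b hbA hb1 hb2
  refine ⟨u, ?_, ?_, ?_⟩
  · have hsumu := vec_sum N (m (N.src r)) u hu1 hu2 hv1 hv2 A
    have hgoal : ∑ i ∈ A, (fun _ : ι => (1 : ℝ)) i * N.vec u i
        = ∑ i ∈ A, (1 : ℝ) * N.vec u i := rfl
    rw [hgoal, hsumu, if_pos hi', if_neg hj']
    norm_num
  · intro i hi
    have hij : i ≠ j' := fun h => hj' (h ▸ hi)
    rw [hu2 i hij]
    by_cases hia : i = a
    · rw [hia, ha1]
      exact Nat.le_succ _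
    · rw [ha2 i hia]
  · refine ⟨a, haA, ?_⟩
    have haj : a ≠ j' := fun h => hj' (h ▸ haA)
    rw [hu2 a haj, ha1]
    exact Nat.lt_succ_self _

end Vale.Agent.Lib.P072
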