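import Vale.Agent.Lib.P072.BalBasic

/-!
# The flattened entropy-type function (definitions)

For thresholds `lo i ≤ hi i` the entropy-type function of a point `x` is taken relative to the
reference point `clampv lo hi x`, the coordinatewise projection of `x` onto the box
`[lo, hi]`. Coordinatewise this is the function `s * (log s - log c - 1) + c` with
`c = max lo (min hi s)`: it vanishes on `[lo, hi]` and is the usual entropy-type function
relative to `lo` below `lo` and relative to `hi` above `hi`.
-/

namespace Vale.Agent.Lib.P072

set_option linter.unusedSectionVars false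

variable {R ι : Type} [Fintype R] [Fintype ι]

/-- The coordinatewise projection of `x` onto the box `[lo, hi]`. -/
noncomputable def clampv (lo hi x : ι → ℝ) : ι → ℝ :=
  fun i => max (lo i) (min (hi i) (x i))

/-- The flattened entropy-type function
`∑ i, (x i * (log (x i) - log (c i) - 1) + c i)` with `c = clampv lo hi x`. -/
noncomputable def flatEntropy (lo hi x : ι → ℝ) : ℝ :=
  ∑ i, (x i * (Real.log (x i) - Real.log (clampv lo hi x i) - 1) + clampv lo hi x i)

/-- The derivative of the flattened entropy-type function along the mass-action vector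
field. -/
noncomputable def MAS.flatDissip (N : MAS R ι) (lo hi x : ι → ℝ) : ℝ :=
  ∑ i, (Real.log (x i) - Real.log (clampv lo hi x i)) * N.field x i

lemma flatDissip_eq_dissip (N : MAS R ι) (lo hi x : ι → ℝ) :
    N.flatDissip lo hi x = N.dissip (clampv lo hi x) x := rfl

lemma clampv_pos (lo hi x : ι → ℝ) (hlo : ∀ i, 0 < lo i) (i : ι) : 0 < clampv lo hi x i :=
  lt_of_lt_of_le (hlo i) (le_max_left _ _)

lemma clampv_ge (lo hi x : ι → ℝ) (i : ι) : lo i ≤ clampv lo hi x i := le_max_left _ _

lemma clampv_le (lo hi x : ι → ℝ) (hle : ∀ i, lo i ≤ hi i) (i : ι) :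
    clampv lo hi x i ≤ hi i :=
  max_le (hle i) (min_le_left _ _)

end Vale.Agent.Lib.P072
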