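import Vale.Agent.Lib.P072.FlatDefs
import Vale.Agent.Lib.P072.Sign

/-!
# Coordinate thresholds of a source-dominated system and the sign of its flattened dissipation
-/

namespace Vale.Agent.Lib.P072

open Set

set_option linter.unusedSectionVars false

variable {R ι : Type} [Fintype R] [Fintype ι]

/-- A source-dominated system has coordinate thresholds: below `lo i` the `i`-th component of
the vector field is nonnegative, above `hi i` it is nonpositive. -/
theorem exists_flat_thresholds (N : MAS R ι) (hN : N.SourceDominated) :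
    ∃ lo hi : ι → ℝ, (∀ i, 0 < lo i) ∧ (∀ i, lo i ≤ hi i) ∧
      ∀ x : ι → ℝ, (∀ j, 0 < x j) → ∀ i,
        (x i ≤ lo i → 0 ≤ N.field x i) ∧ (hi i ≤ x i → N.field x i ≤ 0) := by
  have key : ∀ i : ι, ∃ lo hi' : ℝ, 0 < lo ∧ lo ≤ hi' ∧ ∀ x : ι → ℝ, (∀ j, 0 < x j) →
      (x i ≤ lo → 0 ≤ N.field x i) ∧ (hi' ≤ x i → N.field x i ≤ 0) := by
    intro i
    by_cases hi : ∃ r, N.tgt r i ≠ N.src r i
    · obtain ⟨lo, hi', h1, h2, h3⟩ := exists_thresholds N hN i hi
      exact ⟨lo, hi', h1, h2, fun x hx =>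
        ⟨fun h => ((h3 x hx).1 h).le, fun h => ((h3 x hx).2 h).le⟩⟩
    · push Not at hi
      refine ⟨1, 1, one_pos, le_rfl, fun x _ => ?_⟩
      have h0 := field_eq_zero_of_inert N i hi x
      exact ⟨fun _ => h0.ge, fun _ => h0.le⟩
  choose lo hi h1 h2 h3 using key
  exact ⟨lo, hi, h1, h2, fun x hx i => h3 i x hx⟩

/-- With coordinate thresholds `lo`, `hi`, the flattened dissipation is nonpositive. -/
lemma flatDissip_nonpos_of_thresholds (N : MAS R ι) (lo hi : ι → ℝ) (hlo : ∀ i, 0 < lo i)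
    (hle : ∀ i, lo i ≤ hi i)
    (hth : ∀ x : ι → ℝ, (∀ j, 0 < x j) → ∀ i,
      (x i ≤ lo i → 0 ≤ N.field x i) ∧ (hi i ≤ x i → N.field x i ≤ 0))
    (x : ι → ℝ) (hx : ∀ i, 0 < x i) : N.flatDissip lo hi x ≤ 0 := by
  unfold MAS.flatDissip
  refine Finset.sum_nonpos fun i _ => ?_
  unfold clampv
  rcases lt_or_ge (x i) (lo i) with h1 | h1
  · have e : max (lo i) (min (hi i) (x i)) = lo i :=
      max_eq_left (le_trans (min_le_right _ _) h1.le)
    rw [e]
    have hlog : Real.log (x i) - Real.log (lo i) ≤ 0 :=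
      sub_nonpos.mpr (Real.log_le_log (hx i) h1.le)
    exact mul_nonpos_of_nonpos_of_nonneg hlog ((hth x hx i).1 h1.le)
  · rcases le_or_gt (x i) (hi i) with h2 | h2
    · have e : max (lo i) (min (hi i) (x i)) = x i := by
        rw [min_eq_right h2, max_eq_right h1]
      rw [e, sub_self, zero_mul]
    · have e : max (lo i) (min (hi i) (x i)) = hi i := by
        rw [min_eq_left h2.le, max_eq_right (hle i)]
      rw [e]
      have hhi : 0 < hi i := lt_of_lt_of_le (hlo i) (hle i)
      have hlog : 0 ≤ Real.log (x i) - Real.log (hi i) :=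
        sub_nonneg.mpr (Real.log_le_log hhi h2.le)
      exact mul_nonpos_of_nonneg_of_nonpos hlog ((hth x hx i).2 h2.le)

end Vale.Agent.Lib.P072
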