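import Vale.Agent.Lib.P072.FlatKDefs
import Vale.Agent.Lib.P072.FlatThresh

/-!
# Coordinate thresholds of a source-dominated system, uniform in the rate vector
-/

namespace Vale.Agent.Lib.P072

open Set

set_option linter.unusedSectionVars false

variable {R ι : Type} [Fintype R] [Fintype ι]

/-- A source-dominated system has coordinate thresholds that are uniform in the rate vectors
with entries in `[ε, ε⁻¹]`: below `lo i` the `i`-th component of the vector field is
nonnegative, above `hi i` it is nonpositive. -/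
theorem exists_flat_thresholdsK (N : MAS R ι) (hN : N.SourceDominated) {ε : ℝ} (hε : 0 < ε) :
    ∃ lo hi : ι → ℝ, (∀ i, 0 < lo i) ∧ (∀ i, lo i ≤ hi i) ∧
      ∀ k : R → ℝ, (∀ r, ε ≤ k r ∧ k r ≤ ε⁻¹) → ∀ x : ι → ℝ, (∀ j, 0 < x j) → ∀ i,
        (x i ≤ lo i → 0 ≤ N.fieldK k x i) ∧ (hi i ≤ x i → N.fieldK k x i ≤ 0) := by
  have key : ∀ i : ι, ∃ lo hi' : ℝ, 0 < lo ∧ lo ≤ hi' ∧
      ∀ k : R → ℝ, (∀ r, ε ≤ k r ∧ k r ≤ ε⁻¹) → ∀ x : ι → ℝ, (∀ j, 0 < x j) →
        (x i ≤ lo → 0 ≤ N.fieldK k x i) ∧ (hi' ≤ x i → N.fieldK k x i ≤ 0) := by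
    intro i
    by_cases hi : ∃ r, N.tgt r i ≠ N.src r i
    · obtain ⟨lo₁, hi₁, h1, -, h4⟩ :=
        exists_thresholds (N.withRate (N.loRate ε i) (loRate_pos N hε i)) hN i hi
      obtain ⟨lo₂, hi₂, h1', h2', h4'⟩ :=
        exists_thresholds (N.withRate (N.hiRate ε i) (hiRate_pos N hε i)) hN i hi
      refine ⟨min lo₁ hi₂, hi₂, lt_min h1 (lt_of_lt_of_le h1' h2'), min_le_right _ _,
        fun k hk x hx => ⟨fun hxi => ?_, fun hxi => ?_⟩⟩
      · have ha : 0 < N.fieldK (N.loRate ε i) x i :=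
          (h4 x hx).1 (le_trans hxi (min_le_left _ _))
        have hb := fieldK_loRate_le N i hk x (fun j => (hx j).le)
        linarith
      · have ha : N.fieldK (N.hiRate ε i) x i < 0 := (h4' x hx).2 hxi
        have hb := fieldK_le_hiRate N i hk x (fun j => (hx j).le)
        linarith
    · push Not at hi
      refine ⟨1, 1, one_pos, le_rfl, fun k _ x _ => ?_⟩
      have h0 := fieldK_eq_zero_of_inert N i hi k x
      exact ⟨fun _ => h0.ge, fun _ => h0.le⟩
  choose lo hi h1 h2 h3 using key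
  exact ⟨lo, hi, h1, h2, fun k hk x hx i => h3 i k hk x hx⟩

/-- With coordinate thresholds `lo`, `hi` for the rate vector `k`, the flattened dissipation
for `k` is nonpositive. -/
lemma flatDissipK_nonpos_of_thresholds (N : MAS R ι) (lo hi : ι → ℝ) (hlo : ∀ i, 0 < lo i)
    (hle : ∀ i, lo i ≤ hi i) (k : R → ℝ)
    (hth : ∀ x : ι → ℝ, (∀ j, 0 < x j) → ∀ i,
      (x i ≤ lo i → 0 ≤ N.fieldK k x i) ∧ (hi i ≤ x i → N.fieldK k x i ≤ 0))
    (x : ι → ℝ) (hx : ∀ i, 0 < x i) :
    ∑ i, (Real.log (x i) - Real.log (clampv lo hi x i)) * N.fieldK k x i ≤ 0 := by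
  refine Finset.sum_nonpos fun i _ => ?_
  unfold clampv
  rcases lt_or_ge (x i) (lo i) with h1 | h1
  · have e : max (lo i) (min (hi i) (x i)) = lo i :=
      max_eq_left (le_trans (min_le_right _ _) h1.le)
    rw [e]
    have hlog : Real.log (x i) - Real.log (lo i) ≤ 0 :=
      sub_nonpos.mpr (Real.log_le_log (hx i) h1.le)
    exact mul_nonpos_of_nonpos_of_nonneg hlog ((hth x hx i).1 h1.le)
  · rcases le_or_gt (x i) (hi i) with h2 | h2
    · have e : max (lo i) (min (hi i) (x i)) = x i := by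
        rw [min_eq_right h2, max_eq_right h1]
      rw [e, sub_self, zero_mul]
    · have e : max (lo i) (min (hi i) (x i)) = hi i := by
        rw [min_eq_left h2.le, max_eq_right (hle i)]
      rw [e]
      have hhi : 0 < hi i := lt_of_lt_of_le (hlo i) (hle i)
      have hlog : 0 ≤ Real.log (x i) - Real.log (hi i) :=
        sub_nonneg.mpr (Real.log_le_log hhi h2.le)
      exact mul_nonpos_of_nonneg_of_nonpos hlog ((hth x hx i).2 h2.le)

end Vale.Agent.Lib.P072
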