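import Vale.Agent.Lib.P072.CaraChain
import Vale.Agent.Lib.P072.TVExist

/-!
# Chain rule inequality along curves in integral form of a mass-action system with
time-dependent rates
-/

namespace Vale.Agent.Lib.P072

open Set MeasureTheory

set_option linter.unusedSectionVars false

variable {R ι : Type} [Fintype R] [Fintype ι]

/-- Let `x` be a curve in integral form, `x t = x 0 + ∫ s in 0..t, fieldAt κ s (z s)`, with
`z = x` on `[a, b]` and the coordinates `i ∈ W` of `x` positive on `[a, b]`. Let `θ i` be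
differentiable on `(0, ∞)` with continuous derivative `θ' i`. If
`∑ i ∈ W, θ' i (x s i) * fieldAt κ s (x s) i ≤ -η` on the open interval, then
`∑ i ∈ W, θ i (x b i) ≤ ∑ i ∈ W, θ i (x a i) - η * (b - a)`. -/
theorem intForm_chain_le (N : MAS R ι) {ε : ℝ} (hε : 0 < ε) {κ : R → ℝ → ℝ}
    (hκ : ∀ r, Measurable (κ r) ∧ ∀ t, ε ≤ κ r t ∧ κ r t ≤ ε⁻¹) {x z : ℝ → ι → ℝ}
    (hxc : ContinuousOn x (Ici 0)) (hzc : ContinuousOn z (Ici 0)) (hsol : IntForm N κ x z)
    {a b : ℝ} (ha : 0 ≤ a) (hab : a ≤ b) (hzx : ∀ s ∈ Icc a b, z s = x s)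
    (W : Finset ι) (hpos : ∀ t ∈ Icc a b, ∀ i ∈ W, 0 < x t i)
    (θ θ' : ι → ℝ → ℝ) (hθ : ∀ i ∈ W, ∀ u, 0 < u → HasDerivAt (θ i) (θ' i u) u)
    (hθc : ∀ i ∈ W, ContinuousOn (θ' i) (Ioi 0)) (η : ℝ)
    (hneg : ∀ s ∈ Ioo a b, ∑ i ∈ W, θ' i (x s i) * N.fieldAt κ s (x s) i ≤ -η) :
    ∑ i ∈ W, θ i (x b i) ≤ ∑ i ∈ W, θ i (x a i) - η * (b - a) := by
  have hsub : Icc a b ⊆ Ici (0:ℝ) := fun s hs => le_trans ha hs.1
  have hxc' : ContinuousOn x (Icc a b) := hxc.mono hsub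
  have hcomp : IsCompact (x '' Icc a b) := isCompact_Icc.image_of_continuousOn hxc'
  obtain ⟨C, hC⟩ := hcomp.isBounded.exists_norm_le
  have hbox : ∀ s ∈ Icc a b, x s ∈ Icc (fun _ : ι => -C) (fun _ : ι => C) := by
    intro s hs
    have h1 : ‖x s‖ ≤ C := hC _ (mem_image_of_mem x hs)
    have h2 : ∀ i, |x s i| ≤ C := fun i => by
      have h3 := norm_le_pi_norm (x s) i
      rw [Real.norm_eq_abs] at h3
      exact h3.trans h1
    exact ⟨fun i => (abs_le.mp (h2 i)).1, fun i => (abs_le.mp (h2 i)).2⟩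
  obtain ⟨Bd, L, -, hBd⟩ := exists_fieldK_bounds N hε (fun _ : ι => -C) (fun _ : ι => C)
  refine caratheodory_chain_le W (g := fun s => N.fieldAt κ s (z s)) hab hxc' ?_ ?_ ?_ hpos
    θ θ' hθ hθc η ?_
  · intro i _
    have h := intervalIntegrable_fieldAt N hκ hzc ha (ha.trans hab)
    exact ⟨(ContinuousLinearMap.proj (R := ℝ) (φ := fun _ : ι => ℝ) i).integrable_comp h.1,
      (ContinuousLinearMap.proj (R := ℝ) (φ := fun _ : ι => ℝ) i).integrable_comp h.2⟩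
  · refine ⟨Bd, fun s hs i _ => ?_⟩
    rw [hzx s hs]
    have h1 := (hBd (fun r => κ r s) (fun r => (hκ r).2 s)).1 (x s) (hbox s hs)
    have h2 := norm_le_pi_norm (N.fieldK (fun r => κ r s) (x s)) i
    rw [Real.norm_eq_abs] at h2
    exact h2.trans h1
  · intro i _ t ht
    exact intForm_sub_apply N hκ hzc hsol i ha ht.1
  · intro s hs
    have h := hneg s hs
    simp only [hzx s ⟨hs.1.le, hs.2.le⟩]
    exact h

end Vale.Agent.Lib.P072
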