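import Vale.Agent.Lib.P072.ColDefs

/-!
# Chain rule inequality along an absolutely continuous curve for a function with a gradient
field
-/

namespace Vale.Agent.Lib.P072

open Set MeasureTheory

set_option linter.unusedSectionVars false

variable {ι : Type} [Fintype ι]

/-- A function with a gradient field that is bounded by `L` on a box inside the positive
orthant is Lipschitz on the box. -/
theorem hasGradOn_lip_box (V : (ι → ℝ) → ℝ) (p : (ι → ℝ) → ι → ℝ) (hV : HasGradOn V p)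
    (δ B L : ℝ) (hδ : 0 < δ)
    (hp : ∀ y : ι → ℝ, (∀ i, δ ≤ y i ∧ y i ≤ B) → ∀ i, |p y i| ≤ L)
    (y y' : ι → ℝ) (hy : ∀ i, δ ≤ y i ∧ y i ≤ B) (hy' : ∀ i, δ ≤ y' i ∧ y' i ≤ B) :
    |V y' - V y| ≤ L * ∑ i, |y' i - y i| := by
  have hγd : ∀ τ : ℝ, HasDerivAt (fun (σ : ℝ) (i : ι) => y i + σ * (y' i - y i))
      (fun i => y' i - y i) τ := by
    intro τ
    rw [hasDerivAt_pi]
    intro i
    have h := ((hasDerivAt_id τ).mul_const (y' i - y i)).const_add (y i)
    simpa using h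
  have hbox : ∀ τ ∈ Icc (0 : ℝ) 1, ∀ i, δ ≤ y i + τ * (y' i - y i) ∧
      y i + τ * (y' i - y i) ≤ B := by
    intro τ hτ i
    have h1 := hy i
    have h2 := hy' i
    have h3 : 0 ≤ τ := hτ.1
    have h4 : 0 ≤ 1 - τ := sub_nonneg.mpr hτ.2
    constructor
    · nlinarith [mul_nonneg h3 (sub_nonneg.mpr h2.1), mul_nonneg h4 (sub_nonneg.mpr h1.1)]
    · nlinarith [mul_nonneg h3 (sub_nonneg.mpr h2.2), mul_nonneg h4 (sub_nonneg.mpr h1.2)]
  have hder : ∀ τ ∈ Icc (0 : ℝ) 1,
      HasDerivWithinAt (fun σ : ℝ => V (fun i => y i + σ * (y' i - y i)))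
        (∑ i, p (fun i => y i + τ * (y' i - y i)) i * (y' i - y i)) (Icc 0 1) τ := by
    intro τ hτ
    exact hV (fun (σ : ℝ) (i : ι) => y i + σ * (y' i - y i)) (fun i => y' i - y i) (Icc 0 1) τ
      (hγd τ).hasDerivWithinAt (fun i => lt_of_lt_of_le hδ (hbox τ hτ i).1)
  have hbound : ∀ τ ∈ Icc (0 : ℝ) 1,
      ‖∑ i, p (fun i => y i + τ * (y' i - y i)) i * (y' i - y i)‖ ≤
        L * ∑ i, |y' i - y i| := by
    intro τ hτ
    rw [Real.norm_eq_abs, Finset.mul_sum]
    refine (Finset.abs_sum_le_sum_abs _ _).trans (Finset.sum_le_sum fun i _ => ?_)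
    rw [abs_mul]
    exact mul_le_mul_of_nonneg_right (hp _ (hbox τ hτ) i) (abs_nonneg _)
  have h := Convex.norm_image_sub_le_of_norm_hasDerivWithin_le hder hbound (convex_Icc 0 1)
    (left_mem_Icc.mpr zero_le_one) (right_mem_Icc.mpr zero_le_one)
  have e0 : (fun i => y i + (0 : ℝ) * (y' i - y i)) = y := by
    funext i
    ring
  have e1 : (fun i => y i + (1 : ℝ) * (y' i - y i)) = y' := by
    funext i
    ring
  simp only [e0, e1] at h
  rw [Real.norm_eq_abs] at h
  simpa using h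

/-- A positive continuous curve on a compact interval stays in a box inside the positive
orthant. -/
private lemma gen_box {x : ℝ → ι → ℝ} {a b : ℝ} (hxc : ContinuousOn x (Icc a b))
    (hpos : ∀ t ∈ Icc a b, ∀ i, 0 < x t i) :
    ∃ δ B : ℝ, 0 < δ ∧ ∀ t ∈ Icc a b, ∀ i, δ ≤ x t i ∧ x t i ≤ B := by
  have hi : ∀ i : ι, ∃ d M : ℝ, 0 < d ∧ ∀ t ∈ Icc a b, d ≤ x t i ∧ x t i ≤ M := by
    intro i
    by_cases hne : (Icc a b).Nonempty
    · have hc : ContinuousOn (fun t => x t i) (Icc a b) :=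
        (continuous_apply i).comp_continuousOn hxc
      obtain ⟨tm, htm, hmin⟩ := isCompact_Icc.exists_isMinOn hne hc
      obtain ⟨tM, htM, hmax⟩ := isCompact_Icc.exists_isMaxOn hne hc
      exact ⟨x tm i, x tM i, hpos tm htm i,
        fun t ht => ⟨isMinOn_iff.mp hmin t ht, isMaxOn_iff.mp hmax t ht⟩⟩
    · exact ⟨1, 0, one_pos, fun t ht => absurd ⟨t, ht⟩ hne⟩
  choose d M hd hdM using hi
  have hS : 0 ≤ ∑ i, (d i)⁻¹ := Finset.sum_nonneg fun i _ => (inv_pos.mpr (hd i)).le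
  refine ⟨(∑ i, (d i)⁻¹ + 1)⁻¹, ∑ i, |M i|, inv_pos.mpr (by linarith), fun t ht i => ⟨?_, ?_⟩⟩
  · have h1 : (d i)⁻¹ ≤ ∑ j, (d j)⁻¹ + 1 := by
      have h2 : (d i)⁻¹ ≤ ∑ j, (d j)⁻¹ :=
        Finset.single_le_sum (f := fun j => (d j)⁻¹)
          (fun j _ => (inv_pos.mpr (hd j)).le) (Finset.mem_univ i)
      linarith
    have h3 : (∑ j, (d j)⁻¹ + 1)⁻¹ ≤ d i := by
      have h4 := inv_anti₀ (inv_pos.mpr (hd i)) h1
      rwa [inv_inv] at h4
    exact h3.trans (hdM i t ht).1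
  · have h1 : |M i| ≤ ∑ j, |M j| :=
      Finset.single_le_sum (f := fun j => |M j|) (fun j _ => abs_nonneg _) (Finset.mem_univ i)
    exact ((hdM i t ht).2.trans (le_abs_self _)).trans h1

/-- A function with a gradient field that is bounded on boxes is continuous along positive
continuous curves. -/
theorem hasGradOn_continuousOn (V : (ι → ℝ) → ℝ) (p : (ι → ℝ) → ι → ℝ) (hV : HasGradOn V p)
    (hp : ∀ δ B : ℝ, 0 < δ → ∃ L : ℝ, ∀ y : ι → ℝ, (∀ i, δ ≤ y i ∧ y i ≤ B) →
      ∀ i, |p y i| ≤ L)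
    {x : ℝ → ι → ℝ} {a b : ℝ} (hxc : ContinuousOn x (Icc a b))
    (hpos : ∀ t ∈ Icc a b, ∀ i, 0 < x t i) :
    ContinuousOn (fun t => V (x t)) (Icc a b) := by
  obtain ⟨δ, B, hδ, hbox⟩ := gen_box hxc hpos
  obtain ⟨L, hL⟩ := hp δ B hδ
  intro s hs
  have hxs : ∀ i, ContinuousWithinAt (fun t => x t i) (Icc a b) s := fun i =>
    (continuous_apply i).continuousAt.comp_continuousWithinAt (hxc s hs)
  have hg0 : Filter.Tendsto (fun t => L * ∑ i, |x t i - x s i|) (nhdsWithin s (Icc a b))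
      (nhds 0) := by
    have h1 : ∀ i ∈ (Finset.univ : Finset ι),
        Filter.Tendsto (fun t => |x t i - x s i|) (nhdsWithin s (Icc a b)) (nhds 0) := by
      intro i _
      have h2 : ContinuousWithinAt (fun t => |x t i - x s i|) (Icc a b) s :=
        ((hxs i).sub continuousWithinAt_const).abs
      have h3 := h2.tendsto
      simpa using h3
    have h4 := (tendsto_finsetSum (Finset.univ : Finset ι) h1).const_mul L
    simpa using h4
  have hsq : Filter.Tendsto (fun t => V (x t) - V (x s)) (nhdsWithin s (Icc a b)) (nhds 0) := by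
    apply squeeze_zero_norm' _ hg0
    filter_upwards [self_mem_nhdsWithin] with t ht
    rw [Real.norm_eq_abs]
    exact hasGradOn_lip_box V p hV δ B L hδ hL (x s) (x t) (hbox s hs) (hbox t ht)
  exact tendsto_sub_nhds_zero_iff.mp hsq

/-- A coordinate given in integral form with a bounded integrand is Lipschitz. -/
private lemma gen_coord_lip {x g : ℝ → ι → ℝ} {a b : ℝ} (i : ι)
    (hgi : IntervalIntegrable (fun s => g s i) volume a b) (C : ℝ)
    (hC : ∀ s ∈ Icc a b, |g s i| ≤ C)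
    (hint : ∀ t ∈ Icc a b, x t i - x a i = ∫ s in a..t, g s i)
    (s t : ℝ) (hs : s ∈ Icc a b) (ht : t ∈ Icc a b) : |x t i - x s i| ≤ C * |t - s| := by
  have hab : a ≤ b := hs.1.trans hs.2
  have h1 : IntervalIntegrable (fun τ => g τ i) volume a t :=
    hgi.mono_set (by rw [uIcc_of_le ht.1, uIcc_of_le hab]; exact Icc_subset_Icc_right ht.2)
  have h2 : IntervalIntegrable (fun τ => g τ i) volume a s :=
    hgi.mono_set (by rw [uIcc_of_le hs.1, uIcc_of_le hab]; exact Icc_subset_Icc_right hs.2)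
  have e : x t i - x s i = ∫ τ in s..t, g τ i := by
    rw [← intervalIntegral.integral_interval_sub_left h1 h2, ← hint t ht, ← hint s hs]
    ring
  rw [e]
  have hb : ‖∫ τ in s..t, g τ i‖ ≤ C * |t - s| := by
    apply intervalIntegral.norm_integral_le_of_norm_le_const
    intro τ hτ
    rw [Real.norm_eq_abs]
    exact hC τ (uIcc_subset_Icc hs ht (uIoc_subset_uIcc hτ))
  rw [Real.norm_eq_abs] at hb
  exact hb

/-- The fundamental theorem of calculus for a function that is Lipschitz on an interval. -/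
private lemma gen_ftc {φ : ℝ → ℝ} {a b : ℝ} (hab : a ≤ b) (K : ℝ)
    (hlip : ∀ s ∈ Icc a b, ∀ t ∈ Icc a b, |φ t - φ s| ≤ K * |t - s|) :
    IntervalIntegrable (deriv φ) volume a b ∧ ∫ t in a..b, deriv φ t = φ b - φ a := by
  have hL : LipschitzOnWith K.toNNReal φ (uIcc a b) := by
    rw [uIcc_of_le hab]
    apply LipschitzOnWith.of_dist_le_mul
    intro s hs t ht
    rw [Real.dist_eq, Real.dist_eq]
    have h1 := hlip t ht s hs
    have h2 : K ≤ (K.toNNReal : ℝ) := Real.le_coe_toNNReal K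
    exact h1.trans (mul_le_mul_of_nonneg_right h2 (abs_nonneg _))
  have hAC := hL.absolutelyContinuousOnInterval
  exact ⟨hAC.intervalIntegrable_deriv, hAC.integral_deriv_eq_sub⟩

/-- Let the curve `x` be given on `[a, b]` in integral form,
`x t i - x a i = ∫ s in a..t, g s i`, with bounded integrable `g`, and stay positive. Let `V`
have the gradient field `p`, bounded on boxes inside the positive orthant. If
`∑ i, p (x s) i * g s i ≤ -η` for all `s` in the open interval, then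
`V (x b) ≤ V (x a) - η * (b - a)`. -/
theorem gen_chain_le (V : (ι → ℝ) → ℝ) (p : (ι → ℝ) → ι → ℝ) (hV : HasGradOn V p)
    (hp : ∀ δ B : ℝ, 0 < δ → ∃ L : ℝ, ∀ y : ι → ℝ, (∀ i, δ ≤ y i ∧ y i ≤ B) →
      ∀ i, |p y i| ≤ L)
    {x g : ℝ → ι → ℝ} {a b : ℝ} (hab : a ≤ b) (hxc : ContinuousOn x (Icc a b))
    (hg : ∀ i, IntervalIntegrable (fun s => g s i) volume a b)
    (hgb : ∃ C : ℝ, ∀ s ∈ Icc a b, ∀ i, |g s i| ≤ C)
    (hint : ∀ i, ∀ t ∈ Icc a b, x t i - x a i = ∫ s in a..t, g s i)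
    (hpos : ∀ t ∈ Icc a b, ∀ i, 0 < x t i) (η : ℝ)
    (hneg : ∀ s ∈ Ioo a b, ∑ i, p (x s) i * g s i ≤ -η) :
    V (x b) ≤ V (x a) - η * (b - a) := by
  rcases hab.eq_or_lt with hab' | hab'
  · exact le_of_eq (by rw [hab', sub_self, mul_zero, sub_zero])
  obtain ⟨C, hC⟩ := hgb
  obtain ⟨δ, B, hδ, hbox⟩ := gen_box hxc hpos
  obtain ⟨L, hL⟩ := hp δ B hδ
  have hL0 : 0 ≤ max L 0 := le_max_right _ _
  have hL' : ∀ y : ι → ℝ, (∀ i, δ ≤ y i ∧ y i ≤ B) → ∀ i, |p y i| ≤ max L 0 :=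
    fun y hy i => (hL y hy i).trans (le_max_left _ _)
  have hcl : ∀ i, ∀ s ∈ Icc a b, ∀ t ∈ Icc a b, |x t i - x s i| ≤ C * |t - s| :=
    fun i s hs t ht =>
      gen_coord_lip i (hg i) C (fun s hs => hC s hs i) (hint i) s t hs ht
  have hlip : ∀ s ∈ Icc a b, ∀ t ∈ Icc a b,
      |V (x t) - V (x s)| ≤ (max L 0 * ∑ _i : ι, C) * |t - s| := by
    intro s hs t ht
    have h1 := hasGradOn_lip_box V p hV δ B (max L 0) hδ hL' (x s) (x t) (hbox s hs) (hbox t ht)
    calc |V (x t) - V (x s)| ≤ max L 0 * ∑ i, |x t i - x s i| := h1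
      _ ≤ max L 0 * ∑ _i : ι, C * |t - s| :=
          mul_le_mul_of_nonneg_left (Finset.sum_le_sum fun i _ => hcl i s hs t ht) hL0
      _ = (max L 0 * ∑ _i : ι, C) * |t - s| := by rw [← Finset.sum_mul]; ring
  obtain ⟨hII, hFTC⟩ := gen_ftc (φ := fun u => V (x u)) hab'.le _ hlip
  have hD : ∀ᵐ t, t ∈ Ioo a b →
      HasDerivAt (fun u => V (x u)) (∑ i, p (x t) i * g t i) t := by
    have hall : ∀ᵐ t, ∀ i : ι, t ∈ uIcc a b → ∀ c ∈ uIcc a b,
        HasDerivAt (fun u => ∫ τ in c..u, g τ i) (g t i) t := by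
      rw [ae_all_iff]
      intro i
      exact (hg i).ae_hasDerivAt_integral
    filter_upwards [hall] with t ht htI
    have htu : t ∈ uIcc a b := by
      rw [uIcc_of_le hab]
      exact Ioo_subset_Icc_self htI
    have hau : a ∈ uIcc a b := left_mem_uIcc
    have hxi : ∀ i, HasDerivAt (fun u => x u i) (g t i) t := by
      intro i
      have h1 : HasDerivAt (fun u => ∫ τ in a..u, g τ i) (g t i) t := ht i htu a hau
      apply (h1.const_add (x a i)).congr_of_eventuallyEq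
      filter_upwards [Ioo_mem_nhds htI.1 htI.2] with u hu
      have h3 := hint i u (Ioo_subset_Icc_self hu)
      show x u i = x a i + ∫ τ in a..u, g τ i
      linarith
    have hx : HasDerivAt x (g t) t := hasDerivAt_pi.mpr hxi
    have h5 := hV x (g t) univ t hx.hasDerivWithinAt (hpos t (Ioo_subset_Icc_self htI))
    exact hasDerivWithinAt_univ.mp h5
  have hae : (deriv fun u => V (x u)) ≤ᵐ[volume.restrict (Icc a b)] fun _ => -η := by
    refine (ae_restrict_iff' measurableSet_Icc).mpr ?_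
    have hnot : ∀ᵐ t : ℝ, t ∉ ({a, b} : Set ℝ) :=
      (Set.toFinite {a, b}).countable.ae_notMem volume
    filter_upwards [hD, hnot] with t ht htn htI
    have hta : t ≠ a := fun e => htn (by rw [e]; exact mem_insert _ _)
    have htb : t ≠ b := fun e => htn (by rw [e]; exact mem_insert_of_mem _ (mem_singleton b))
    have hto : t ∈ Ioo a b := ⟨lt_of_le_of_ne htI.1 (Ne.symm hta), lt_of_le_of_ne htI.2 htb⟩
    rw [(ht hto).deriv]
    exact hneg t hto
  have hle := intervalIntegral.integral_mono_ae_restrict hab hII intervalIntegrable_const hae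
  rw [hFTC, intervalIntegral.integral_const, smul_eq_mul] at hle
  linarith

end Vale.Agent.Lib.P072
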