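import Vale.Agent.Lib.P072.LinePermanent
import Vale.Agent.Lib.P072.DefsAxis

/-!
# Permanence for weakly reversible systems with linkage classes on lines
-/

namespace Vale.Agent.Lib.P072

set_option linter.unusedSectionVars false

variable {R ι : Type} [Fintype R] [Fintype ι]

/-- **Weakly reversible systems whose linkage classes lie on lines with pairwise equal or
disjointly supported directions are permanent** on every positive stoichiometric class. -/
theorem lineClasses_permanentOn (N : MAS R ι) (hwr : N.WeaklyReversible) (hL : N.LineClasses)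
    (c : ι → ℝ) (hc : ∀ i, 0 < c i) : N.PermanentOn (N.posClass c) := by
  obtain ⟨dir, h1, hdisj⟩ := hL
  have hdir : ∀ q, dir (N.src q) = dir (N.tgt q) := fun q => (h1 q).1
  choose lam hlam using fun q => (h1 q).2
  have h : ∀ i, ∃ lo hi : ℝ, 0 < lo ∧ lo ≤ c i ∧ c i ≤ hi ∧
      ((∀ r, N.tgt r i = N.src r i) ∨
        ∀ x : ι → ℝ, (∀ j, 0 < x j) → x - c ∈ N.stoich →
          (x i ≤ lo → 0 < N.field x i) ∧ (hi ≤ x i → N.field x i < 0)) := by
    intro i
    by_cases hi : ∀ r, N.tgt r i = N.src r i
    · exact ⟨c i, c i, hc i, le_rfl, le_rfl, Or.inl hi⟩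
    · push Not at hi
      obtain ⟨lo, hi', h1, h2, h3, h4⟩ :=
        line_thresholds N hwr dir lam hdir hlam hdisj c hc i hi
      exact ⟨lo, hi', h1, h2, h3, Or.inr h4⟩
  choose lo hi h1 h2 h3 h4 using h
  exact classThresholds_permanentOn N c ⟨h1, h2, h3, h4⟩

/-- A system whose stoichiometric subspace has dimension at most one has its linkage classes on
parallel lines. -/
lemma lineClasses_of_finrank_le_one (N : MAS R ι) (h : Module.finrank ℝ N.stoich ≤ 1) :
    N.LineClasses := by
  obtain ⟨v, hv⟩ := finrank_le_one_iff.mp h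
  refine ⟨fun _ => (v : ι → ℝ), fun r => ⟨rfl, ?_⟩, fun _ _ => Or.inl rfl⟩
  have hr : N.vec r ∈ N.stoich := Submodule.subset_span ⟨r, rfl⟩
  obtain ⟨a, ha⟩ := hv ⟨N.vec r, hr⟩
  refine ⟨a, ?_⟩
  have := congrArg Subtype.val ha
  simpa using this.symm

/-- Systems with axis-parallel linkage classes have their linkage classes on lines with equal
or disjointly supported directions. -/
lemma lineClasses_of_axisParallel (N : MAS R ι) (h : N.AxisParallel) : N.LineClasses := by
  classical
  obtain ⟨ax, hax⟩ := h
  refine ⟨fun y => Pi.single (ax y) 1, fun r => ⟨by simp only [(hax r).1], ?_⟩, fun r q => ?_⟩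
  · refine ⟨(N.tgt r (ax (N.src r)) : ℝ) - (N.src r (ax (N.src r)) : ℝ), ?_⟩
    funext j
    by_cases hj : j = ax (N.src r)
    · subst hj
      simp [MAS.vec]
    · have := (hax r).2 j hj
      simp [MAS.vec, Pi.single_eq_of_ne hj, this]
  · by_cases hrq : ax (N.src r) = ax (N.src q)
    · left
      simp only [hrq]
    · right
      intro i
      by_cases hi : i = ax (N.src r)
      · right
        subst hi
        exact Pi.single_eq_of_ne hrq 1
      · left
        exact Pi.single_eq_of_ne hi 1

end Vale.Agent.Lib.P072
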