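import Vale.Agent.Lib.P072.LineSign

/-!
# Coordinate thresholds within a stoichiometric class for linkage classes on lines
-/

namespace Vale.Agent.Lib.P072

open Set

set_option linter.unusedSectionVars false

variable {R ι : Type} [Fintype R] [Fintype ι]

/-- With disjointly supported directions, a component of the vector field in the support of a
direction is the speed along that direction times the component of the direction. -/
lemma field_eq_lineSpeed (N : MAS R ι) (dir : (ι → ℕ) → (ι → ℝ)) (lam : R → ℝ)
    (hlam : ∀ q, N.vec q = lam q • dir (N.src q))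
    (hdisj : ∀ r q, dir (N.src r) = dir (N.src q) ∨
      ∀ i, dir (N.src r) i = 0 ∨ dir (N.src q) i = 0)
    (r₀ : R) (i : ι) (hi : dir (N.src r₀) i ≠ 0) (x : ι → ℝ) :
    N.field x i = lineSpeed N dir lam (dir (N.src r₀)) x * dir (N.src r₀) i := by
  classical
  rw [field_apply]
  unfold lineSpeed
  rw [Finset.sum_mul]
  apply Finset.sum_congr rfl
  intro q _
  have hq := congrFun (hlam q) i
  simp only [Pi.smul_apply, smul_eq_mul] at hq
  by_cases h : dir (N.src q) = dir (N.src r₀)
  · rw [if_pos h, hq, h]
    ring
  · rw [if_neg h, zero_mul, hq]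
    rcases hdisj q r₀ with h' | h'
    · exact absurd h' h
    · rcases h' i with h'' | h''
      · rw [h'']
        ring
      · exact absurd h'' hi

/-- On the support of a direction, the elements of the stoichiometric subspace are multiples
of that direction. -/
lemma stoich_param (N : MAS R ι) (dir : (ι → ℕ) → (ι → ℝ)) (lam : R → ℝ)
    (hlam : ∀ q, N.vec q = lam q • dir (N.src q)) (v : ι → ℝ)
    (hv : ∀ q, dir (N.src q) = v ∨ ∀ i, dir (N.src q) i = 0 ∨ v i = 0)
    {w : ι → ℝ} (hw : w ∈ N.stoich) : ∃ s : ℝ, ∀ j, v j ≠ 0 → w j = s * v j := by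
  unfold MAS.stoich at hw
  induction hw using Submodule.span_induction with
  | mem x hx =>
    obtain ⟨q, rfl⟩ := hx
    rcases hv q with h | h
    · refine ⟨lam q, fun j _ => ?_⟩
      have := congrFun (hlam q) j
      simp only [Pi.smul_apply, smul_eq_mul] at this
      rw [this, h]
    · refine ⟨0, fun j hj => ?_⟩
      have := congrFun (hlam q) j
      simp only [Pi.smul_apply, smul_eq_mul] at this
      rcases h j with h' | h'
      · rw [this, h']
        ring
      · exact absurd h' hj
  | zero => exact ⟨0, fun j _ => by simp⟩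
  | add x y _ _ hx hy =>
    obtain ⟨s, hs⟩ := hx
    obtain ⟨s', hs'⟩ := hy
    exact ⟨s + s', fun j hj => by simp only [Pi.add_apply, hs j hj, hs' j hj]; ring⟩
  | smul a x _ hx =>
    obtain ⟨s, hs⟩ := hx
    exact ⟨a * s, fun j hj => by simp only [Pi.smul_apply, smul_eq_mul, hs j hj]; ring⟩

/-- Along the line `c + s v` the logarithmic coordinate is monotone in `s`, and its increment
dominates each single term. -/
lemma logCoord_sub_le (v c x : ι → ℝ) (hc : ∀ j, 0 < c j) (hx : ∀ j, 0 < x j) (s : ℝ)
    (hs : ∀ j, v j ≠ 0 → x j - c j = s * v j) (i : ι) :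
    (s ≤ 0 → logCoord v x - logCoord v c ≤ v i * (Real.log (x i) - Real.log (c i))) ∧
    (0 ≤ s → v i * (Real.log (x i) - Real.log (c i)) ≤ logCoord v x - logCoord v c) := by
  classical
  have hdiff : logCoord v x - logCoord v c
      = ∑ j, v j * (Real.log (x j) - Real.log (c j)) := by
    unfold logCoord
    rw [← Finset.sum_sub_distrib]
    apply Finset.sum_congr rfl
    intro j _
    ring
  rw [hdiff, ← Finset.add_sum_erase Finset.univ _ (Finset.mem_univ i)]
  constructor
  · intro hs0
    have hterm : ∀ j, v j * (Real.log (x j) - Real.log (c j)) ≤ 0 := by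
      intro j
      rcases lt_trichotomy (v j) 0 with h | h | h
      · have h1 : c j ≤ x j := by
          have h2 := hs j h.ne
          have h3 : 0 ≤ s * v j := mul_nonneg_of_nonpos_of_nonpos hs0 h.le
          linarith
        have h2 : Real.log (c j) ≤ Real.log (x j) := Real.log_le_log (hc j) h1
        exact mul_nonpos_of_nonpos_of_nonneg h.le (by linarith)
      · rw [h]
        simp
      · have h1 : x j ≤ c j := by
          have h2 := hs j h.ne'
          have h3 : s * v j ≤ 0 := mul_nonpos_of_nonpos_of_nonneg hs0 h.le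
          linarith
        have h2 : Real.log (x j) ≤ Real.log (c j) := Real.log_le_log (hx j) h1
        exact mul_nonpos_of_nonneg_of_nonpos h.le (by linarith)
    have := Finset.sum_nonpos (s := Finset.univ.erase i) (fun j _ => hterm j)
    linarith
  · intro hs0
    have hterm : ∀ j, 0 ≤ v j * (Real.log (x j) - Real.log (c j)) := by
      intro j
      rcases lt_trichotomy (v j) 0 with h | h | h
      · have h1 : x j ≤ c j := by
          have h2 := hs j h.ne
          have h3 : s * v j ≤ 0 := mul_nonpos_of_nonneg_of_nonpos hs0 h.le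
          linarith
        have h2 : Real.log (x j) ≤ Real.log (c j) := Real.log_le_log (hx j) h1
        exact mul_nonneg_of_nonpos_of_nonpos h.le (by linarith)
      · rw [h]
        simp
      · have h1 : c j ≤ x j := by
          have h2 := hs j h.ne'
          have h3 : 0 ≤ s * v j := mul_nonneg hs0 h.le
          linarith
        have h2 : Real.log (c j) ≤ Real.log (x j) := Real.log_le_log (hc j) h1
        exact mul_nonneg h.le (by linarith)
    have := Finset.sum_nonneg (s := Finset.univ.erase i) (fun j _ => hterm j)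
    linarith

/-- Thresholds for a species that is changed by some reaction, within the stoichiometric class
of `c`. -/
lemma line_thresholds (N : MAS R ι) (hwr : N.WeaklyReversible)
    (dir : (ι → ℕ) → (ι → ℝ)) (lam : R → ℝ)
    (hdir : ∀ q, dir (N.src q) = dir (N.tgt q))
    (hlam : ∀ q, N.vec q = lam q • dir (N.src q))
    (hdisj : ∀ r q, dir (N.src r) = dir (N.src q) ∨
      ∀ i, dir (N.src r) i = 0 ∨ dir (N.src q) i = 0)
    (c : ι → ℝ) (hc : ∀ j, 0 < c j) (i : ι) (hi : ∃ r, N.tgt r i ≠ N.src r i) :
    ∃ lo hi : ℝ, 0 < lo ∧ lo ≤ c i ∧ c i ≤ hi ∧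
      ∀ x : ι → ℝ, (∀ j, 0 < x j) → x - c ∈ N.stoich →
        (x i ≤ lo → 0 < N.field x i) ∧ (hi ≤ x i → N.field x i < 0) := by
  obtain ⟨r₀, hr₀⟩ := hi
  have hvi : dir (N.src r₀) i ≠ 0 := by
    intro h0
    have h1 := congrFun (hlam r₀) i
    simp only [MAS.vec, Pi.smul_apply, smul_eq_mul] at h1
    rw [h0, mul_zero] at h1
    apply hr₀
    have h2 : (N.tgt r₀ i : ℝ) = N.src r₀ i := by linarith
    exact_mod_cast h2
  obtain ⟨M₁, hM₁⟩ := lineSpeed_pos N hwr dir lam hdir hlam (dir (N.src r₀)) ⟨r₀, rfl⟩
  obtain ⟨M₂, hM₂⟩ := lineSpeed_neg N hwr dir lam hdir hlam (dir (N.src r₀)) ⟨r₀, rfl⟩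
  generalize hv : dir (N.src r₀) = v at hvi hM₁ hM₂
  set W : ℝ := |M₁| + |M₂| + |logCoord v c| with hW
  have hW0 : 0 ≤ W := by positivity
  have habs : 0 < |v i| := abs_pos.mpr hvi
  have hlo_pos : 0 < c i * Real.exp (-W / |v i|) := mul_pos (hc i) (Real.exp_pos _)
  have hhi_pos : 0 < c i * Real.exp (W / |v i|) := mul_pos (hc i) (Real.exp_pos _)
  have hlo_le : c i * Real.exp (-W / |v i|) ≤ c i := by
    have h1 : Real.exp (-W / |v i|) ≤ 1 := by
      rw [Real.exp_le_one_iff]
      exact div_nonpos_of_nonpos_of_nonneg (by linarith) habs.le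
    have := mul_le_mul_of_nonneg_left h1 (hc i).le
    linarith
  have hhi_ge : c i ≤ c i * Real.exp (W / |v i|) := by
    have h1 : 1 ≤ Real.exp (W / |v i|) := by
      rw [Real.one_le_exp_iff]
      positivity
    have := mul_le_mul_of_nonneg_left h1 (hc i).le
    linarith
  refine ⟨c i * Real.exp (-W / |v i|), c i * Real.exp (W / |v i|), hlo_pos, hlo_le, hhi_ge, ?_⟩
  intro x hx hxc
  obtain ⟨s, hs⟩ := stoich_param N dir lam hlam v
    (fun q => by rw [← hv]; exact hdisj q r₀) hxc
  have hs' : ∀ j, v j ≠ 0 → x j - c j = s * v j := fun j hj => by simpa using hs j hj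
  have hfield : N.field x i = lineSpeed N dir lam v x * v i := by
    have := field_eq_lineSpeed N dir lam hlam hdisj r₀ i (by rw [hv]; exact hvi) x
    rw [hv] at this
    exact this
  obtain ⟨hle, hge⟩ := logCoord_sub_le v c x hc hx s hs' i
  have hsi := hs' i hvi
  have hM₁' := hM₁ x hx
  have hM₂' := hM₂ x hx
  have hL0 := le_abs_self (logCoord v c)
  have hL0' := neg_abs_le (logCoord v c)
  have hA1 := le_abs_self M₁
  have hA2 := le_abs_self M₂
  have hA1' := abs_nonneg M₁
  have hA2' := abs_nonneg M₂
  constructor
  · intro hxi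
    have hlog : Real.log (x i) ≤ Real.log (c i) + -W / |v i| := by
      have h1 := Real.log_le_log (hx i) hxi
      rw [Real.log_mul (hc i).ne' (Real.exp_pos _).ne', Real.log_exp] at h1
      exact h1
    have hkey : |v i| * (Real.log (x i) - Real.log (c i)) ≤ -W := by
      have h1 : |v i| * (Real.log (x i) - Real.log (c i)) ≤ |v i| * (-W / |v i|) :=
        mul_le_mul_of_nonneg_left (by linarith) habs.le
      have h2 : |v i| * (-W / |v i|) = -W := by field_simp
      linarith
    have hxc' : x i ≤ c i := le_trans hxi hlo_le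
    rcases lt_or_gt_of_ne hvi with hneg | hpos'
    · have hs0 : 0 ≤ s := by
        by_contra hcon
        push Not at hcon
        have : 0 < s * v i := mul_pos_of_neg_of_neg hcon hneg
        linarith
      have h3 := hge hs0
      rw [abs_of_neg hneg] at hkey
      have h4 : M₂ ≤ logCoord v x := by linarith
      have h5 := hM₂' h4
      rw [hfield]
      exact mul_pos_of_neg_of_neg h5 hneg
    · have hs0 : s ≤ 0 := by
        by_contra hcon
        push Not at hcon
        have : 0 < s * v i := mul_pos hcon hpos'
        linarith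
      have h3 := hle hs0
      rw [abs_of_pos hpos'] at hkey
      have h4 : logCoord v x ≤ -M₁ := by linarith
      have h5 := hM₁' h4
      rw [hfield]
      exact mul_pos h5 hpos'
  · intro hxi
    have hlog : Real.log (c i) + W / |v i| ≤ Real.log (x i) := by
      have h1 := Real.log_le_log hhi_pos hxi
      rw [Real.log_mul (hc i).ne' (Real.exp_pos _).ne', Real.log_exp] at h1
      exact h1
    have hkey : W ≤ |v i| * (Real.log (x i) - Real.log (c i)) := by
      have h1 : |v i| * (W / |v i|) ≤ |v i| * (Real.log (x i) - Real.log (c i)) :=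
        mul_le_mul_of_nonneg_left (by linarith) habs.le
      have h2 : |v i| * (W / |v i|) = W := by field_simp
      linarith
    have hxc' : c i ≤ x i := le_trans hhi_ge hxi
    rcases lt_or_gt_of_ne hvi with hneg | hpos'
    · have hs0 : s ≤ 0 := by
        by_contra hcon
        push Not at hcon
        have : s * v i < 0 := mul_neg_of_pos_of_neg hcon hneg
        linarith
      have h3 := hle hs0
      rw [abs_of_neg hneg] at hkey
      have h4 : logCoord v x ≤ -M₁ := by linarith
      have h5 := hM₁' h4
      rw [hfield]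
      exact mul_neg_of_pos_of_neg h5 hneg
    · have hs0 : 0 ≤ s := by
        by_contra hcon
        push Not at hcon
        have : s * v i < 0 := mul_neg_of_neg_of_pos hcon hpos'
        linarith
      have h3 := hge hs0
      rw [abs_of_pos hpos'] at hkey
      have h4 : M₂ ≤ logCoord v x := by linarith
      have h5 := hM₂' h4
      rw [hfield]
      exact mul_neg_of_neg_of_pos h5 hpos'

end Vale.Agent.Lib.P072
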