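import Vale.Agent.Lib.P072.MColDefs
import Vale.Agent.Lib.P072.ColKField
import Vale.Agent.Lib.P072.LineThresh

/-!
# Weakly reversible systems with linkage classes on lines: the field as a combination of
disjointly supported directions, uniformly in the rate vector
-/

namespace Vale.Agent.Lib.P072

open Set

set_option linter.unusedSectionVars false

variable {R ι : Type} [Fintype R] [Fintype ι]

/-- A weakly reversible system whose linkage classes lie on lines with pairwise equal or
disjointly supported directions `dir`: there are a finite family `D` of nonzero, pairwise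
disjointly supported directions and `M ≥ 1` such that for every rate vector `k` with values in
`[ε, ε⁻¹]` the vector field with the rates `k` is `∑ d ∈ D, g d x • d` with scalar functions
`g d` that are positive where the logarithmic coordinate along `d` is at most `-M` and
negative where it is at least `M`. -/
theorem lineClasses_fieldK (N : MAS R ι) (hwr : N.WeaklyReversible)
    (dir : (ι → ℕ) → (ι → ℝ))
    (hdir : ∀ r, dir (N.src r) = dir (N.tgt r) ∧ ∃ a : ℝ, N.vec r = a • dir (N.src r))
    (hdisj : ∀ r q, dir (N.src r) = dir (N.src q) ∨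
      ∀ i, dir (N.src r) i = 0 ∨ dir (N.src q) i = 0)
    {ε : ℝ} (hε : 0 < ε) :
    ∃ (D : Finset (ι → ℝ)) (M : ℝ), DisjDirs D ∧ 1 ≤ M ∧
      ∀ k : R → ℝ, (∀ r, ε ≤ k r ∧ k r ≤ ε⁻¹) →
        ∃ g : (ι → ℝ) → (ι → ℝ) → ℝ,
          (∀ x, N.fieldK k x = ∑ d ∈ D, g d x • d) ∧ SlabSigned D M g := by
  classical
  have hdir' : ∀ q, dir (N.src q) = dir (N.tgt q) := fun q => (hdir q).1
  choose lam hlam using fun r => (hdir r).2
  -- the family of directions
  obtain ⟨D, hD⟩ : ∃ D : Finset (ι → ℝ), D = Finset.univ.image (fun r => dir (N.src r)) :=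
    ⟨_, rfl⟩
  have hDmem : ∀ d, d ∈ D ↔ ∃ r, dir (N.src r) = d := by
    intro d
    rw [hD, Finset.mem_image]
    simp
  have hDisj : DisjDirs D := by
    refine ⟨?_, ?_⟩
    · intro d hd
      obtain ⟨r, rfl⟩ := (hDmem d).mp hd
      obtain ⟨i, hi⟩ := vec_ne_zero N r
      refine ⟨i, fun h0 => hi ?_⟩
      rw [hlam r, Pi.smul_apply, h0, smul_zero]
    · intro d hd d' hd' hne i
      obtain ⟨r, rfl⟩ := (hDmem d).mp hd
      obtain ⟨q, rfl⟩ := (hDmem d').mp hd'
      rcases hdisj r q with h | h
      · exact absurd h hne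
      · exact h i
  -- the worst-case rate vectors
  obtain ⟨ρlo, hρlo_def⟩ : ∃ ρ : R → ℝ, ρ = fun r => if 0 < lam r then ε else ε⁻¹ := ⟨_, rfl⟩
  obtain ⟨ρhi, hρhi_def⟩ : ∃ ρ : R → ℝ, ρ = fun r => if 0 < lam r then ε⁻¹ else ε := ⟨_, rfl⟩
  have hρlo : ∀ r, 0 < ρlo r := by
    intro r
    rw [hρlo_def]
    dsimp only
    split_ifs
    · exact hε
    · exact inv_pos.mpr hε
  have hρhi : ∀ r, 0 < ρhi r := by
    intro r
    rw [hρhi_def]
    dsimp only
    split_ifs
    · exact inv_pos.mpr hε
    · exact hε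
  have hwrlo : (N.withRate ρlo hρlo).WeaklyReversible := hwr
  have hwrhi : (N.withRate ρhi hρhi).WeaklyReversible := hwr
  -- the thresholds of the two comparison systems
  have hlo : ∀ d : ι → ℝ, ∃ Md : ℝ, d ∈ D → ∀ x : ι → ℝ, (∀ i, 0 < x i) →
      logCoord d x ≤ -Md →
      0 < ∑ q, if dir (N.src q) = d then ρlo q * lam q * mono (N.src q) x else 0 := by
    intro d
    by_cases hd : d ∈ D
    · obtain ⟨Md, hMd⟩ := lineSpeed_pos (N.withRate ρlo hρlo) hwrlo dir lam hdir' hlam d
        ((hDmem d).mp hd)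
      refine ⟨Md, fun _ x hx hle => ?_⟩
      have h := hMd x hx hle
      unfold lineSpeed at h
      exact h
    · exact ⟨0, fun h => absurd h hd⟩
  have hhi : ∀ d : ι → ℝ, ∃ Md : ℝ, d ∈ D → ∀ x : ι → ℝ, (∀ i, 0 < x i) →
      Md ≤ logCoord d x →
      (∑ q, if dir (N.src q) = d then ρhi q * lam q * mono (N.src q) x else 0) < 0 := by
    intro d
    by_cases hd : d ∈ D
    · obtain ⟨Md, hMd⟩ := lineSpeed_neg (N.withRate ρhi hρhi) hwrhi dir lam hdir' hlam d
        ((hDmem d).mp hd)
      refine ⟨Md, fun _ x hx hle => ?_⟩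
      have h := hMd x hx hle
      unfold lineSpeed at h
      exact h
    · exact ⟨0, fun h => absurd h hd⟩
  choose Mlo hMlo using hlo
  choose Mhi hMhi using hhi
  obtain ⟨M, hMdef⟩ : ∃ M : ℝ, M = 1 + ∑ d ∈ D, (|Mlo d| + |Mhi d|) := ⟨_, rfl⟩
  have hsum_nonneg : 0 ≤ ∑ d ∈ D, (|Mlo d| + |Mhi d|) :=
    Finset.sum_nonneg (fun d _ => add_nonneg (abs_nonneg _) (abs_nonneg _))
  have hM1 : 1 ≤ M := by
    rw [hMdef]
    linarith
  have hsingle : ∀ d ∈ D, |Mlo d| + |Mhi d| ≤ ∑ d ∈ D, (|Mlo d| + |Mhi d|) := by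
    intro d hd
    exact Finset.single_le_sum (f := fun d => |Mlo d| + |Mhi d|)
      (fun d _ => add_nonneg (abs_nonneg _) (abs_nonneg _)) hd
  have hMlo_le : ∀ d ∈ D, Mlo d ≤ M := by
    intro d hd
    have h1 := hsingle d hd
    have h2 := le_abs_self (Mlo d)
    have h3 := abs_nonneg (Mhi d)
    rw [hMdef]
    linarith
  have hMhi_le : ∀ d ∈ D, Mhi d ≤ M := by
    intro d hd
    have h1 := hsingle d hd
    have h2 := le_abs_self (Mhi d)
    have h3 := abs_nonneg (Mlo d)
    rw [hMdef]
    linarith
  refine ⟨D, M, hDisj, hM1, ?_⟩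
  intro k hk
  refine ⟨fun d x => ∑ q, if dir (N.src q) = d then k q * lam q * mono (N.src q) x else 0,
    ?_, ?_⟩
  · intro x
    funext i
    rw [fieldK_apply, Finset.sum_apply]
    simp only [Pi.smul_apply, smul_eq_mul]
    calc ∑ r, k r * mono (N.src r) x * N.vec r i
        = ∑ r, ∑ d ∈ D,
            (if dir (N.src r) = d then k r * lam r * mono (N.src r) x else 0) * d i := by
          refine Finset.sum_congr rfl (fun r _ => ?_)
          have hr : dir (N.src r) ∈ D := (hDmem _).mpr ⟨r, rfl⟩
          rw [Finset.sum_eq_single_of_mem (dir (N.src r)) hr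
            (fun d _ hne => by rw [if_neg (Ne.symm hne), zero_mul])]
          rw [if_pos rfl]
          have hv : N.vec r i = lam r * dir (N.src r) i := by
            rw [hlam r, Pi.smul_apply, smul_eq_mul]
          rw [hv]
          ring
      _ = ∑ d ∈ D, ∑ r,
            (if dir (N.src r) = d then k r * lam r * mono (N.src r) x else 0) * d i :=
          Finset.sum_comm
      _ = ∑ d ∈ D,
            (∑ q, if dir (N.src q) = d then k q * lam q * mono (N.src q) x else 0) * d i := by
          refine Finset.sum_congr rfl (fun d _ => ?_)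
          rw [Finset.sum_mul]
  · intro d hd
    refine ⟨fun x hx hle => ?_, fun x hx hle => ?_⟩
    · have h1 := hMlo d hd x hx (by linarith [hMlo_le d hd])
      refine lt_of_lt_of_le h1 (Finset.sum_le_sum (fun q _ => ?_))
      by_cases hq : dir (N.src q) = d
      · rw [if_pos hq, if_pos hq]
        have hm := mono_nonneg (N.src q) x (fun j => (hx j).le)
        rw [hρlo_def]
        dsimp only
        split_ifs with h
        · exact mul_le_mul_of_nonneg_right (mul_le_mul_of_nonneg_right (hk q).1 h.le) hm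
        · push Not at h
          have h3 : lam q * mono (N.src q) x ≤ 0 := mul_nonpos_of_nonpos_of_nonneg h hm
          have h4 := mul_le_mul_of_nonpos_right (hk q).2 h3
          linarith
      · rw [if_neg hq, if_neg hq]
    · have h1 := hMhi d hd x hx (le_trans (hMhi_le d hd) hle)
      refine lt_of_le_of_lt (Finset.sum_le_sum (fun q _ => ?_)) h1
      by_cases hq : dir (N.src q) = d
      · rw [if_pos hq, if_pos hq]
        have hm := mono_nonneg (N.src q) x (fun j => (hx j).le)
        rw [hρhi_def]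
        dsimp only
        split_ifs with h
        · exact mul_le_mul_of_nonneg_right (mul_le_mul_of_nonneg_right (hk q).2 h.le) hm
        · push Not at h
          have h3 : lam q * mono (N.src q) x ≤ 0 := mul_nonpos_of_nonpos_of_nonneg h hm
          have h4 := mul_le_mul_of_nonpos_right (hk q).1 h3
          linarith
      · rw [if_neg hq, if_neg hq]

end Vale.Agent.Lib.P072
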