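import Vale.Agent.Lib.P072.MColDefs
import Vale.Agent.Lib.P072.ColProper

/-!
# The entropy-type function for several disjointly supported directions: gradient and pairing
-/

namespace Vale.Agent.Lib.P072

open Set

set_option linter.unusedSectionVars false

variable {ι : Type} [Fintype ι]

/-- A common positive lower bound for the absolute values of the nonzero coordinates of the
directions in `D`. -/
lemma disjDirs_umin (D : Finset (ι → ℝ)) :
    ∃ umin : ℝ, 0 < umin ∧ ∀ d ∈ D, ∀ i, d i ≠ 0 → umin ≤ |d i| := by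
  classical
  obtain ⟨S, hS⟩ : ∃ S : Finset ((ι → ℝ) × ι),
      S = (D ×ˢ Finset.univ).filter (fun p => p.1 p.2 ≠ 0) := ⟨_, rfl⟩
  by_cases hne : S.Nonempty
  · obtain ⟨q, hq, hmin⟩ := Finset.exists_min_image S (fun p => |p.1 p.2|) hne
    have hq' : q.1 q.2 ≠ 0 := by
      rw [hS] at hq
      exact (Finset.mem_filter.mp hq).2
    refine ⟨|q.1 q.2|, abs_pos.mpr hq', fun d hd i hi => ?_⟩
    have hmem : (d, i) ∈ S := by
      rw [hS]
      exact Finset.mem_filter.mpr ⟨Finset.mem_product.mpr ⟨hd, Finset.mem_univ i⟩, hi⟩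
    exact hmin (d, i) hmem
  · refine ⟨1, one_pos, fun d hd i hi => ?_⟩
    exfalso
    apply hne
    refine ⟨(d, i), ?_⟩
    rw [hS]
    exact Finset.mem_filter.mpr ⟨Finset.mem_product.mpr ⟨hd, Finset.mem_univ i⟩, hi⟩

lemma mcolV_hasGradOn (D : Finset (ι → ℝ)) (hD : DisjDirs D) (M : ℝ) (hM : 0 < M) :
    HasGradOn (mcolV D M) (mcolGrad D M) := by
  intro γ γ' s t hγ hpos
  have h1 : HasGradOn (hEnt : (ι → ℝ) → ℝ) (fun z i => Real.log (z i)) :=
    hasGradOn_of_hasFDerivAt hEnt _ (fun x hx => hasFDerivAt_hEnt x hx)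
  have h1' := h1 γ γ' s t hγ hpos
  have h2 : HasDerivWithinAt (fun τ => ∑ d ∈ D, slabCorr d M (γ τ))
      (∑ d ∈ D, ∑ i, slabGrad d M (γ t) i * γ' i) s t := by
    apply HasDerivWithinAt.fun_sum
    intro d hd
    exact slabCorr_hasGradOn d (hD.1 d hd) M hM γ γ' s t hγ hpos
  have h := h1'.add h2
  have e : ∑ i, mcolGrad D M (γ t) i * γ' i
      = ∑ i, Real.log (γ t i) * γ' i + ∑ d ∈ D, ∑ i, slabGrad d M (γ t) i * γ' i := by
    rw [Finset.sum_comm, ← Finset.sum_add_distrib]
    refine Finset.sum_congr rfl fun i _ => ?_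
    unfold mcolGrad
    rw [add_mul, Finset.sum_mul]
  show HasDerivWithinAt (fun τ => hEnt (γ τ) + ∑ d ∈ D, slabCorr d M (γ τ))
    (∑ i, mcolGrad D M (γ t) i * γ' i) s t
  rw [e]
  exact h

/-- The gradient of `mcolV` differs from `log x` by a bounded vector. -/
lemma mcolGrad_sub_log_le (D : Finset (ι → ℝ)) (hD : DisjDirs D) (M : ℝ) (hM : 0 < M) :
    ∃ Cb : ℝ, ∀ x : ι → ℝ, (∀ i, 0 < x i) → ∀ i, |mcolGrad D M x i - Real.log (x i)| ≤ Cb := by
  obtain ⟨umin, humin, hmin⟩ := disjDirs_umin D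
  refine ⟨D.card * (M / umin), fun x hx i => ?_⟩
  have e : mcolGrad D M x i - Real.log (x i) = ∑ d ∈ D, slabGrad d M x i := by
    unfold mcolGrad
    ring
  rw [e]
  calc |∑ d ∈ D, slabGrad d M x i| ≤ ∑ d ∈ D, |slabGrad d M x i| :=
        Finset.abs_sum_le_sum_abs _ _
    _ ≤ ∑ _d ∈ D, M / umin := Finset.sum_le_sum fun d hd =>
        slabGrad_abs_le d x (hD.1 d hd) hx M hM.le umin humin (hmin d hd) i
    _ = D.card * (M / umin) := by rw [Finset.sum_const, nsmul_eq_mul]

/-- The gradient of `mcolV` is bounded on boxes inside the positive orthant. -/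
lemma mcolGrad_bdd_box (D : Finset (ι → ℝ)) (hD : DisjDirs D) (M : ℝ) (hM : 0 < M) (δ B : ℝ)
    (hδ : 0 < δ) :
    ∃ L : ℝ, ∀ y : ι → ℝ, (∀ i, δ ≤ y i ∧ y i ≤ B) → ∀ i, |mcolGrad D M y i| ≤ L := by
  obtain ⟨Cb, hCb⟩ := mcolGrad_sub_log_le D hD M hM
  refine ⟨|Real.log δ| + |Real.log B| + Cb, fun y hy i => ?_⟩
  have hypos : ∀ j, 0 < y j := fun j => lt_of_lt_of_le hδ (hy j).1
  have h1 : |Real.log (y i)| ≤ |Real.log δ| + |Real.log B| := by
    have e1 : Real.log δ ≤ Real.log (y i) := Real.log_le_log hδ (hy i).1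
    have e2 : Real.log (y i) ≤ Real.log B := Real.log_le_log (hypos i) (hy i).2
    have e3 := neg_abs_le (Real.log δ)
    have e4 := le_abs_self (Real.log B)
    have e5 := abs_nonneg (Real.log δ)
    have e6 := abs_nonneg (Real.log B)
    rw [abs_le]
    constructor <;> linarith
  have h2 := hCb y hypos i
  have e : mcolGrad D M y i = Real.log (y i) + (mcolGrad D M y i - Real.log (y i)) := by ring
  rw [e]
  exact (abs_add_le _ _).trans (add_le_add h1 h2)

/-- The pairing of the gradient of `mcolV` with a direction `d ∈ D` is the distance of the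
logarithmic coordinate along `d` from the interval `[-M, M]`. -/
lemma mcolGrad_pair (D : Finset (ι → ℝ)) (hD : DisjDirs D) (M : ℝ) (d : ι → ℝ) (hd : d ∈ D)
    (x : ι → ℝ) (hx : ∀ i, 0 < x i) :
    ∑ i, d i * mcolGrad D M x i = logCoord d x - clampR M (logCoord d x) := by
  have e : ∑ i, d i * mcolGrad D M x i
      = logCoord d x + ∑ d' ∈ D, ∑ i, d i * slabGrad d' M x i := by
    unfold logCoord
    rw [Finset.sum_comm, ← Finset.sum_add_distrib]
    refine Finset.sum_congr rfl fun i _ => ?_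
    unfold mcolGrad
    rw [mul_add, Finset.mul_sum]
  have hsingle : ∑ d' ∈ D, ∑ i, d i * slabGrad d' M x i = ∑ i, d i * slabGrad d M x i := by
    refine Finset.sum_eq_single d (fun d' hd' hne => ?_) (fun h => absurd hd h)
    refine Finset.sum_eq_zero fun i _ => ?_
    rcases hD.2 d hd d' hd' (Ne.symm hne) i with h0 | h0
    · rw [h0, zero_mul]
    · rw [slabGrad_of_zero d' M x i h0, mul_zero]
  rw [e, hsingle, slabGrad_pair d x (hD.1 d hd) hx M]
  ring

/-- The derivative of `mcolV` along a field `∑ d ∈ D, g d x • d` with the sign structure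
`SlabSigned D M g` is nonpositive. -/
lemma mcolGrad_field_nonpos (D : Finset (ι → ℝ)) (hD : DisjDirs D) (M : ℝ) (hM : 0 < M)
    (g : (ι → ℝ) → (ι → ℝ) → ℝ) (hg : SlabSigned D M g) (x : ι → ℝ) (hx : ∀ i, 0 < x i) :
    ∑ i, mcolGrad D M x i * (∑ d ∈ D, g d x • d) i ≤ 0 := by
  have e : ∑ i, mcolGrad D M x i * (∑ d ∈ D, g d x • d) i
      = ∑ d ∈ D, g d x * ∑ i, d i * mcolGrad D M x i := by
    have e1 : ∀ i, mcolGrad D M x i * (∑ d ∈ D, g d x • d) i
        = ∑ d ∈ D, g d x * (d i * mcolGrad D M x i) := by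
      intro i
      rw [Finset.sum_apply, Finset.mul_sum]
      refine Finset.sum_congr rfl fun d _ => ?_
      rw [Pi.smul_apply, smul_eq_mul]
      ring
    simp only [e1]
    rw [Finset.sum_comm]
    refine Finset.sum_congr rfl fun d _ => ?_
    rw [Finset.mul_sum]
  rw [e]
  refine Finset.sum_nonpos fun d hd => ?_
  rw [mcolGrad_pair D hD M d hd x hx]
  obtain ⟨hpos, hneg⟩ := hg d hd
  rcases le_or_gt (logCoord d x) (-M) with h1 | h1
  · have hc : clampR M (logCoord d x) = -M := by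
      unfold clampR
      rw [min_eq_right (by linarith), max_eq_left h1]
    rw [hc]
    exact mul_nonpos_of_nonneg_of_nonpos (hpos x hx h1).le (by linarith)
  · rcases le_or_gt M (logCoord d x) with h2 | h2
    · have hc : clampR M (logCoord d x) = M := by
        unfold clampR
        rw [min_eq_left h2, max_eq_right (by linarith)]
      rw [hc]
      exact mul_nonpos_of_nonpos_of_nonneg (hneg x hx h2).le (by linarith)
    · have hc : clampR M (logCoord d x) = logCoord d x := by
        unfold clampR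
        rw [min_eq_right h2.le, max_eq_right h1.le]
      rw [hc, sub_self, mul_zero]

end Vale.Agent.Lib.P072
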