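import Vale.Agent.Lib.P072.ColDefs

/-!
# Several directions with pairwise disjoint supports (definitions)

For a finite family `D` of directions with pairwise disjoint supports, the entropy-type
function `mcolV D M` is `hEnt` plus the correction terms `slabCorr d M` of all directions
`d ∈ D`. The pairing of its gradient `mcolGrad D M x` with a direction `d ∈ D` is the distance
of the logarithmic coordinate of `x` along `d` from the interval `[-M, M]`.
-/

namespace Vale.Agent.Lib.P072

set_option linter.unusedSectionVars false

variable {ι : Type} [Fintype ι]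

/-- The entropy-type function with the correction terms of all directions in `D`. -/
noncomputable def mcolV (D : Finset (ι → ℝ)) (M : ℝ) (x : ι → ℝ) : ℝ :=
  hEnt x + ∑ d ∈ D, slabCorr d M x

/-- The gradient of `mcolV`. -/
noncomputable def mcolGrad (D : Finset (ι → ℝ)) (M : ℝ) (x : ι → ℝ) : ι → ℝ :=
  fun i => Real.log (x i) + ∑ d ∈ D, slabGrad d M x i

/-- A finite family of nonzero directions with pairwise disjoint supports. -/
def DisjDirs (D : Finset (ι → ℝ)) : Prop :=
  (∀ d ∈ D, ∃ i, d i ≠ 0) ∧ ∀ d ∈ D, ∀ d' ∈ D, d ≠ d' → ∀ i, d i = 0 ∨ d' i = 0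

/-- Sign structure of a family `g d` of scalar functions, one for each direction `d ∈ D`:
`g d` is positive where the logarithmic coordinate along `d` is at most `-M` and negative
where it is at least `M`. -/
def SlabSigned (D : Finset (ι → ℝ)) (M : ℝ) (g : (ι → ℝ) → (ι → ℝ) → ℝ) : Prop :=
  ∀ d ∈ D, (∀ x : ι → ℝ, (∀ i, 0 < x i) → logCoord d x ≤ -M → 0 < g d x) ∧
    (∀ x : ι → ℝ, (∀ i, 0 < x i) → M ≤ logCoord d x → g d x < 0)

end Vale.Agent.Lib.P072
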