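import Vale.Agent.Lib.P072.MColDefs
import Vale.Agent.Lib.P072.ColKCorner

/-!
# Corner estimate, uniformly in the rates, for a strongly connected system joined with a
system whose field is a combination of disjointly supported directions
-/

namespace Vale.Agent.Lib.P072

open Set

set_option linter.unusedSectionVars false

variable {R₁ R₂ ι : Type} [Fintype R₁] [Fintype R₂] [Fintype ι]

open Classical in
/-- The gradient of the face function of `W`. -/
private noncomputable def mfacGrad (W : Finset ι) (y : ι → ℝ) : ι → ℝ :=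
  fun i => if i ∈ W then Real.log (y i) else 0

private lemma mfacGrad_of_mem (W : Finset ι) (y : ι → ℝ) {i : ι} (hi : i ∈ W) :
    mfacGrad W y i = Real.log (y i) := by
  unfold mfacGrad
  rw [if_pos hi]

private lemma mfacGrad_of_notMem (W : Finset ι) (y : ι → ℝ) {i : ι} (hi : i ∉ W) :
    mfacGrad W y i = 0 := by
  unfold mfacGrad
  rw [if_neg hi]

private lemma mfacGrad_sum (W : Finset ι) (x w : ι → ℝ) :
    ∑ i, mfacGrad W x i * w i = ∑ i ∈ W, w i * Real.log (x i) := by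
  have h := Finset.sum_subset (Finset.subset_univ W) (f := fun i => mfacGrad W x i * w i)
    (fun i _ hi => by rw [mfacGrad_of_notMem W x hi, zero_mul])
  rw [← h]
  exact Finset.sum_congr rfl fun i hi => by rw [mfacGrad_of_mem W x hi, mul_comm]

/-- Chain rule for the face function of `W` along a positive curve. -/
private lemma mcolFace_hasGradOn (W : Finset ι) :
    HasGradOn (fun y : ι → ℝ => ∑ i ∈ W, y i * (Real.log (y i) - Real.log 1 - 1))
      (mfacGrad W) := by
  intro γ γ' s t hγ hpos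
  have h : HasDerivWithinAt (fun τ => ∑ i ∈ W, γ τ i * (Real.log (γ τ i) - Real.log 1 - 1))
      (∑ i ∈ W, γ' i * Real.log (γ t i)) s t := by
    apply HasDerivWithinAt.fun_sum
    intro i _
    have hi : HasDerivWithinAt (fun τ => γ τ i) (γ' i) s t := hasDerivWithinAt_pi.mp hγ i
    have hlog : HasDerivWithinAt (fun τ => Real.log (γ τ i)) (γ' i / γ t i) s t :=
      hi.log (hpos i).ne'
    have hprod := hi.mul ((hlog.sub_const (Real.log 1)).sub_const 1)
    have hne : γ t i ≠ 0 := (hpos i).ne'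
    have h2 : γ t i * (γ' i / γ t i) = γ' i := by
      field_simp
    have e : γ' i * (Real.log (γ t i) - Real.log 1 - 1) + γ t i * (γ' i / γ t i)
        = γ' i * Real.log (γ t i) := by
      rw [h2, Real.log_one]
      ring
    rw [e] at hprod
    exact hprod
  rw [mfacGrad_sum W (γ t) γ']
  exact h

private lemma hasGradOn_addM {V₁ V₂ : (ι → ℝ) → ℝ} {g₁ g₂ : (ι → ℝ) → ι → ℝ}
    (h₁ : HasGradOn V₁ g₁) (h₂ : HasGradOn V₂ g₂) :
    HasGradOn (fun y => V₁ y + V₂ y) (fun y i => g₁ y i + g₂ y i) := by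
  intro γ γ' s t hγ hpos
  have h := (h₁ γ γ' s t hγ hpos).add (h₂ γ γ' s t hγ hpos)
  have e : ∑ i, (g₁ (γ t) i + g₂ (γ t) i) * γ' i
      = ∑ i, g₁ (γ t) i * γ' i + ∑ i, g₂ (γ t) i * γ' i := by
    rw [← Finset.sum_add_distrib]
    exact Finset.sum_congr rfl fun i _ => add_mul _ _ _
  show HasDerivWithinAt (fun τ => V₁ (γ τ) + V₂ (γ τ))
    (∑ i, (g₁ (γ t) i + g₂ (γ t) i) * γ' i) s t
  rw [e]
  exact h

/-- A finite sum of functions with gradient fields has the sum of the gradient fields. -/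
private lemma hasGradOn_sumM {α : Type} (S : Finset α) (V : α → (ι → ℝ) → ℝ)
    (g : α → (ι → ℝ) → ι → ℝ) (h : ∀ a ∈ S, HasGradOn (V a) (g a)) :
    HasGradOn (fun y => ∑ a ∈ S, V a y) (fun y i => ∑ a ∈ S, g a y i) := by
  intro γ γ' s t hγ hpos
  have h1 : HasDerivWithinAt (fun τ => ∑ a ∈ S, V a (γ τ))
      (∑ a ∈ S, ∑ i, g a (γ t) i * γ' i) s t :=
    HasDerivWithinAt.fun_sum (fun a ha => h a ha γ γ' s t hγ hpos)
  have e : ∑ i, (∑ a ∈ S, g a (γ t) i) * γ' i = ∑ a ∈ S, ∑ i, g a (γ t) i * γ' i := by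
    rw [Finset.sum_comm]
    exact Finset.sum_congr rfl fun i _ => Finset.sum_mul _ _ _
  show HasDerivWithinAt (fun τ => ∑ a ∈ S, V a (γ τ))
    (∑ i, (∑ a ∈ S, g a (γ t) i) * γ' i) s t
  rw [e]
  exact h1

private lemma abs_log_le_of_betweenM {η B t : ℝ} (hη : 0 < η) (h1 : η ≤ t) (h2 : t ≤ B) :
    |Real.log t| ≤ |Real.log η| + |Real.log B| := by
  have ht : 0 < t := lt_of_lt_of_le hη h1
  have l1 : Real.log η ≤ Real.log t := Real.log_le_log hη h1
  have l2 : Real.log t ≤ Real.log B := Real.log_le_log ht h2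
  rw [abs_le]
  constructor
  · linarith [neg_abs_le (Real.log η), abs_nonneg (Real.log B)]
  · linarith [le_abs_self (Real.log B), abs_nonneg (Real.log η)]

/-- The gradient of the face function is bounded on boxes inside the positive orthant. -/
private lemma mfacGrad_abs_le (W : Finset ι) {δ' B' : ℝ} (hδ' : 0 < δ') (y : ι → ℝ)
    (hy : ∀ i, δ' ≤ y i ∧ y i ≤ B') (i : ι) :
    |mfacGrad W y i| ≤ |Real.log δ'| + |Real.log B'| := by
  by_cases hi : i ∈ W
  · rw [mfacGrad_of_mem W y hi]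
    exact abs_log_le_of_betweenM hδ' (hy i).1 (hy i).2
  · rw [mfacGrad_of_notMem W y hi, abs_zero]
    exact add_nonneg (abs_nonneg _) (abs_nonneg _)

/-- A positive lower bound for the absolute values of the nonzero coordinates. -/
private lemma exists_uminM (u : ι → ℝ) :
    ∃ umin : ℝ, 0 < umin ∧ ∀ i, u i ≠ 0 → umin ≤ |u i| := by
  classical
  by_cases hu : ∃ i, u i ≠ 0
  · obtain ⟨i₀, hi₀⟩ := hu
    obtain ⟨j, hj, hmin⟩ := Finset.exists_min_image (Finset.univ.filter fun i => u i ≠ 0)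
      (fun i => |u i|) ⟨i₀, Finset.mem_filter.mpr ⟨Finset.mem_univ i₀, hi₀⟩⟩
    refine ⟨|u j|, abs_pos.mpr (Finset.mem_filter.mp hj).2, fun i hi => ?_⟩
    exact hmin i (Finset.mem_filter.mpr ⟨Finset.mem_univ i, hi⟩)
  · exact ⟨1, one_pos, fun i hi => absurd ⟨i, hi⟩ hu⟩

/-- A positive number, at most one, below finitely many positive numbers. -/
private lemma exists_pos_le_allM {α : Type} (S : Finset α) (f : α → ℝ) (hf : ∀ a, 0 < f a) :
    ∃ e : ℝ, 0 < e ∧ e ≤ 1 ∧ ∀ a ∈ S, e ≤ f a := by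
  classical
  induction S using Finset.induction_on with
  | empty => exact ⟨1, one_pos, le_rfl, fun a ha => absurd ha (Finset.notMem_empty a)⟩
  | insert a S ha ih =>
    obtain ⟨e, he, he1, hle⟩ := ih
    refine ⟨min e (f a), lt_min he (hf a), (min_le_left _ _).trans he1, fun b hb => ?_⟩
    rcases Finset.mem_insert.mp hb with hba | hbS
    · rw [hba]
      exact min_le_right _ _
    · exact (min_le_left _ _).trans (hle b hbS)

/-- The derivative along the field of the union with a rate vector, split into the part of the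
first system and the parts of the directions of the second system. -/
private lemma mcol_cornerK_ineq (N₁ : MAS R₁ ι) (N₂ : MAS R₂ ι) (D : Finset (ι → ℝ))
    (k : R₁ ⊕ R₂ → ℝ) (gx : (ι → ℝ) → ℝ) (x : ι → ℝ)
    (hf : N₂.fieldK (fun r => k (Sum.inr r)) x = ∑ d ∈ D, gx d • d) (q b : ι → ℝ)
    (hb : ∀ i, b i = q i - Real.log (x i))
    (h1 : ∑ i, Real.log (x i) * N₁.fieldK (fun r => k (Sum.inl r)) x i
      + ∑ i, b i * N₁.fieldK (fun r => k (Sum.inl r)) x i ≤ 0)
    (h2 : ∀ d ∈ D, gx d * ∑ i, q i * d i ≤ 0) :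
    ∑ i, q i * (N₁.union N₂).fieldK k x i ≤ 0 := by
  rw [union_fieldK, hf]
  have e2 : ∑ d ∈ D, gx d * ∑ i, q i * d i = ∑ i, q i * ∑ d ∈ D, gx d * d i := by
    simp only [Finset.mul_sum]
    rw [Finset.sum_comm]
    exact Finset.sum_congr rfl fun i _ => Finset.sum_congr rfl fun d _ => by ring
  have e : ∑ i, q i * (N₁.fieldK (fun r => k (Sum.inl r)) x + ∑ d ∈ D, gx d • d) i
      = (∑ i, Real.log (x i) * N₁.fieldK (fun r => k (Sum.inl r)) x i
        + ∑ i, b i * N₁.fieldK (fun r => k (Sum.inl r)) x i)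
        + ∑ d ∈ D, gx d * ∑ i, q i * d i := by
    rw [e2, ← Finset.sum_add_distrib, ← Finset.sum_add_distrib]
    refine Finset.sum_congr rfl fun i _ => ?_
    rw [hb i]
    simp only [Pi.add_apply, Finset.sum_apply, Pi.smul_apply, smul_eq_mul]
    ring
  rw [e]
  have h3 : ∑ d ∈ D, gx d * ∑ i, q i * d i ≤ 0 := Finset.sum_nonpos h2
  linarith

/-- Corner estimate, uniformly in the rates, for several disjointly supported directions: for
every `η > 0` and `B` there are `ε' > 0` and `Cη` such that for every nonempty set `W` of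
coordinates there is a function `Ψ` with a gradient field `p`, bounded on boxes inside the
positive orthant, whose derivative along the vector field of the union with any rate vector
with values in `[ε, ε⁻¹]` is nonpositive at every point of the class with all coordinates at
most `B`, the coordinates outside `W` at least `η` and the coordinates in `W` at most `ε'`,
and which differs there from the face function of `W` by at most `Cη * ∑ i ∈ W, x i`. -/
theorem mcol_cornerK (N₁ : MAS R₁ ι) (N₂ : MAS R₂ ι)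
    (h₁ : N₁.StronglyConnected) (hspan : N₂.stoich ≤ N₁.stoich)
    (D : Finset (ι → ℝ)) (hD : DisjDirs D) (M : ℝ) (hM : 0 < M) {ε : ℝ} (hε : 0 < ε)
    (hf : ∀ k : R₂ → ℝ, (∀ r, ε ≤ k r ∧ k r ≤ ε⁻¹) → ∃ g : (ι → ℝ) → (ι → ℝ) → ℝ,
      (∀ x, N₂.fieldK k x = ∑ d ∈ D, g d x • d) ∧ SlabSigned D M g)
    (c : ι → ℝ) (hc : ∀ i, 0 < c i) (η B : ℝ) (hη : 0 < η) :
    ∃ ε' Cη : ℝ, 0 < ε' ∧ ε' ≤ 1 ∧ 0 ≤ Cη ∧ ∀ W : Finset ι, W.Nonempty →
      ∃ (Ψ : (ι → ℝ) → ℝ) (p : (ι → ℝ) → ι → ℝ), HasGradOn Ψ p ∧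
        (∀ δ' B' : ℝ, 0 < δ' → ∃ L : ℝ, ∀ y : ι → ℝ, (∀ i, δ' ≤ y i ∧ y i ≤ B') →
          ∀ i, |p y i| ≤ L) ∧
        ∀ x ∈ (N₁.union N₂).posClass c, (∀ i, x i ≤ B) → (∀ j, j ∉ W → η ≤ x j) →
          (∀ i ∈ W, x i ≤ ε') →
          ((∀ k : R₁ ⊕ R₂ → ℝ, (∀ r, ε ≤ k r ∧ k r ≤ ε⁻¹) →
              ∑ i, p x i * (N₁.union N₂).fieldK k x i ≤ 0) ∧
           |Ψ x - ∑ i ∈ W, x i * (Real.log (x i) - Real.log 1 - 1)| ≤ Cη * ∑ i ∈ W, x i) := by
  classical
  choose M' Cm hM' hCm hmix using fun d : ι → ℝ => corner_mixedU d M hM η B hη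
  choose ε₂ hε₂ hε₂1 hun using fun d : ι → ℝ => corner_unmixedU d M η B hη
  obtain ⟨Ct, hCtdef⟩ : ∃ Ct : ℝ, Ct = ∑ d ∈ D, Cm d := ⟨_, rfl⟩
  have hCt : 0 ≤ Ct := by
    rw [hCtdef]
    exact Finset.sum_nonneg (fun d _ => hCm d)
  obtain ⟨ε₁, hε₁, hcore⟩ := corner_coreK N₁ h₁ c hc hε (|Real.log η| + |Real.log B| + Ct)
  obtain ⟨ε₃, hε₃, hε₃1, hε₃le⟩ := exists_pos_le_allM D ε₂ hε₂
  refine ⟨min ε₁ ε₃, Ct, lt_min hε₁ hε₃, (min_le_right _ _).trans hε₃1, hCt, ?_⟩
  intro W hW
  obtain ⟨i₀, hi₀⟩ := hW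
  obtain ⟨Dm, hDmdef⟩ : ∃ Dm : Finset (ι → ℝ),
      Dm = D.filter (fun d => ∃ ip ∈ W, ∃ im ∈ W, 0 < d ip ∧ d im < 0) := ⟨_, rfl⟩
  have hmemDm : ∀ d, d ∈ Dm ↔ d ∈ D ∧ ∃ ip ∈ W, ∃ im ∈ W, 0 < d ip ∧ d im < 0 := by
    intro d
    rw [hDmdef]
    exact Finset.mem_filter
  have hDmD : Dm ⊆ D := fun d hd => ((hmemDm d).mp hd).1
  have hu : ∀ d ∈ Dm, ∃ i, maskv W d i ≠ 0 := by
    intro d hd
    obtain ⟨ip, hip, _, _, hvp, _⟩ := ((hmemDm d).mp hd).2
    refine ⟨ip, ?_⟩
    unfold maskv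
    rw [if_pos hip]
    exact hvp.ne'
  have hCmDm : ∑ d ∈ Dm, Cm d ≤ Ct := by
    rw [hCtdef]
    exact Finset.sum_le_sum_of_subset_of_nonneg hDmD (fun d _ _ => hCm d)
  refine ⟨fun y => (∑ i ∈ W, y i * (Real.log (y i) - Real.log 1 - 1))
      + ∑ d ∈ Dm, slabCorr (maskv W d) (M' d) y,
    fun y i => mfacGrad W y i + ∑ d ∈ Dm, slabGrad (maskv W d) (M' d) y i,
    hasGradOn_addM (mcolFace_hasGradOn W)
      (hasGradOn_sumM Dm (fun d => slabCorr (maskv W d) (M' d))
        (fun d => slabGrad (maskv W d) (M' d))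
        (fun d hd => slabCorr_hasGradOn _ (hu d hd) (M' d) (hM' d))), ?_, ?_⟩
  · intro δ' B' hδ'
    choose umin humin hmin using fun d : ι → ℝ => exists_uminM (maskv W d)
    refine ⟨|Real.log δ'| + |Real.log B'| + ∑ d ∈ Dm, M' d / umin d, ?_⟩
    intro y hy i
    have hypos : ∀ i, 0 < y i := fun i => lt_of_lt_of_le hδ' (hy i).1
    have h1 := mfacGrad_abs_le W hδ' y hy i
    have h2 : |∑ d ∈ Dm, slabGrad (maskv W d) (M' d) y i| ≤ ∑ d ∈ Dm, M' d / umin d := by
      refine (Finset.abs_sum_le_sum_abs _ _).trans (Finset.sum_le_sum fun d hd => ?_)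
      exact slabGrad_abs_le (maskv W d) y (hu d hd) hypos (M' d) (hM' d).le (umin d) (humin d)
        (hmin d) i
    have h3 := abs_add_le (mfacGrad W y i) (∑ d ∈ Dm, slabGrad (maskv W d) (M' d) y i)
    show |mfacGrad W y i + ∑ d ∈ Dm, slabGrad (maskv W d) (M' d) y i|
      ≤ |Real.log δ'| + |Real.log B'| + ∑ d ∈ Dm, M' d / umin d
    linarith
  · intro x hx hxB hxη hxε
    have hxpos : ∀ i, 0 < x i := hx.1
    have hxc : x - c ∈ N₁.stoich := by
      have h := hx.2
      rwa [union_stoich_of_le N₁ N₂ hspan] at h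
    have hm23 : ∀ d ∈ Dm, |slabCorr (maskv W d) (M' d) x| ≤ Cm d * ∑ i ∈ W, x i ∧
        ∀ i, |slabGrad (maskv W d) (M' d) x i| ≤ Cm d := by
      intro d hd
      obtain ⟨-, h2, h3⟩ := hmix d (fun y => -logCoord d y) (fun y _ h => by linarith)
        (fun y _ h => by linarith) W ((hmemDm d).mp hd).2 x hxpos hxB hxη
      exact ⟨h2, h3⟩
    have hS : ∀ i, |∑ d ∈ Dm, slabGrad (maskv W d) (M' d) x i| ≤ Ct := by
      intro i
      exact ((Finset.abs_sum_le_sum_abs _ _).trans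
        (Finset.sum_le_sum fun d hd => (hm23 d hd).2 i)).trans hCmDm
    constructor
    · intro k hk
      obtain ⟨g, hg, hgs⟩ := hf (fun r => k (Sum.inr r)) (fun r => hk (Sum.inr r))
      refine mcol_cornerK_ineq N₁ N₂ D k (fun d => g d x) x (hg x)
        (fun i => mfacGrad W x i + ∑ d ∈ Dm, slabGrad (maskv W d) (M' d) x i)
        (fun i => mfacGrad W x i + ∑ d ∈ Dm, slabGrad (maskv W d) (M' d) x i
          - Real.log (x i))
        (fun _ => rfl) ?_ ?_
      · refine hcore x hxpos hxc ⟨i₀, (hxε i₀ hi₀).trans (min_le_left _ _)⟩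
          (fun r => k (Sum.inl r)) (fun r => hk (Sum.inl r)) _ (fun i => ?_)
        show |mfacGrad W x i + ∑ d ∈ Dm, slabGrad (maskv W d) (M' d) x i - Real.log (x i)|
          ≤ |Real.log η| + |Real.log B| + Ct
        by_cases hi : i ∈ W
        · rw [mfacGrad_of_mem W x hi]
          have e : Real.log (x i) + ∑ d ∈ Dm, slabGrad (maskv W d) (M' d) x i
              - Real.log (x i) = ∑ d ∈ Dm, slabGrad (maskv W d) (M' d) x i := by ring
          rw [e]
          linarith [hS i, abs_nonneg (Real.log η), abs_nonneg (Real.log B)]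
        · rw [mfacGrad_of_notMem W x hi]
          have h1 := abs_log_le_of_betweenM hη (hxη i hi) (hxB i)
          have e : 0 + ∑ d ∈ Dm, slabGrad (maskv W d) (M' d) x i - Real.log (x i)
              = ∑ d ∈ Dm, slabGrad (maskv W d) (M' d) x i - Real.log (x i) := by ring
          rw [e]
          have h2 := abs_sub (∑ d ∈ Dm, slabGrad (maskv W d) (M' d) x i) (Real.log (x i))
          linarith [hS i]
      · intro d hd
        have e : ∑ i, (mfacGrad W x i + ∑ d' ∈ Dm, slabGrad (maskv W d') (M' d') x i) * d i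
            = ∑ i ∈ W, d i * Real.log (x i)
              + ∑ d' ∈ Dm, ∑ i, d i * slabGrad (maskv W d') (M' d') x i := by
          rw [← mfacGrad_sum W x d, Finset.sum_comm, ← Finset.sum_add_distrib]
          refine Finset.sum_congr rfl fun i _ => ?_
          rw [add_mul, Finset.sum_mul]
          congr 1
          exact Finset.sum_congr rfl fun d' _ => mul_comm _ _
        show g d x * ∑ i, (mfacGrad W x i + ∑ d' ∈ Dm, slabGrad (maskv W d') (M' d') x i) * d i
          ≤ 0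
        rw [e]
        have hzero : ∀ d' ∈ Dm, d' ≠ d →
            ∑ i, d i * slabGrad (maskv W d') (M' d') x i = 0 := by
          intro d' hd' hne
          refine Finset.sum_eq_zero fun i _ => ?_
          rcases hD.2 d hd d' (hDmD hd') (Ne.symm hne) i with h0 | h0
          · rw [h0, zero_mul]
          · have hm : maskv W d' i = 0 := by
              unfold maskv
              split_ifs
              · exact h0
              · rfl
            rw [slabGrad_of_zero (maskv W d') (M' d') x i hm, mul_zero]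
        by_cases hdm : d ∈ Dm
        · have e2 : ∑ d' ∈ Dm, ∑ i, d i * slabGrad (maskv W d') (M' d') x i
              = ∑ i, d i * slabGrad (maskv W d) (M' d) x i :=
            Finset.sum_eq_single d (fun d' hd' hne => hzero d' hd' hne)
              (fun h => absurd hdm h)
          rw [e2]
          exact (hmix d (g d) (hgs d hd).1 (hgs d hd).2 W ((hmemDm d).mp hdm).2 x hxpos hxB
            hxη).1
        · have e2 : ∑ d' ∈ Dm, ∑ i, d i * slabGrad (maskv W d') (M' d') x i = 0 :=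
            Finset.sum_eq_zero fun d' hd' => hzero d' hd' (fun h => hdm (h ▸ hd'))
          rw [e2, add_zero]
          have hnm : ¬ ∃ ip ∈ W, ∃ im ∈ W, 0 < d ip ∧ d im < 0 :=
            fun h => hdm ((hmemDm d).mpr ⟨hd, h⟩)
          exact hun d (g d) (hgs d hd).1 (hgs d hd).2 W hnm x hxpos hxB hxη
            (fun i hi => (hxε i hi).trans ((min_le_right _ _).trans (hε₃le d hd)))
    · have e : (∑ i ∈ W, x i * (Real.log (x i) - Real.log 1 - 1))
            + ∑ d ∈ Dm, slabCorr (maskv W d) (M' d) x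
            - ∑ i ∈ W, x i * (Real.log (x i) - Real.log 1 - 1)
          = ∑ d ∈ Dm, slabCorr (maskv W d) (M' d) x := by ring
      show |(∑ i ∈ W, x i * (Real.log (x i) - Real.log 1 - 1))
            + ∑ d ∈ Dm, slabCorr (maskv W d) (M' d) x
            - ∑ i ∈ W, x i * (Real.log (x i) - Real.log 1 - 1)| ≤ Ct * ∑ i ∈ W, x i
      rw [e]
      have hsum0 : 0 ≤ ∑ i ∈ W, x i := Finset.sum_nonneg fun i _ => (hxpos i).le
      calc |∑ d ∈ Dm, slabCorr (maskv W d) (M' d) x|
          ≤ ∑ d ∈ Dm, |slabCorr (maskv W d) (M' d) x| := Finset.abs_sum_le_sum_abs _ _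
        _ ≤ ∑ d ∈ Dm, Cm d * ∑ i ∈ W, x i := Finset.sum_le_sum fun d hd => (hm23 d hd).1
        _ = (∑ d ∈ Dm, Cm d) * ∑ i ∈ W, x i := (Finset.sum_mul _ _ _).symm
        _ ≤ Ct * ∑ i ∈ W, x i := mul_le_mul_of_nonneg_right hCmDm hsum0

end Vale.Agent.Lib.P072
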