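import Vale.Agent.Lib.P072.MColDefs
import Vale.Agent.Lib.P072.ColProper

/-!
# The entropy-type function for several directions: bounds
-/

namespace Vale.Agent.Lib.P072

open Set

set_option linter.unusedSectionVars false

variable {ι : Type} [Fintype ι]

/-- A positive lower bound for the absolute values of the nonzero coordinates. -/
private lemma mcolAux_umin (v : ι → ℝ) (hv0 : ∃ i, v i ≠ 0) :
    ∃ umin : ℝ, 0 < umin ∧ ∀ i, v i ≠ 0 → umin ≤ |v i| := by
  classical
  obtain ⟨i0, hi0⟩ := hv0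
  have hne : (Finset.univ.filter fun i => v i ≠ 0).Nonempty :=
    ⟨i0, Finset.mem_filter.mpr ⟨Finset.mem_univ i0, hi0⟩⟩
  obtain ⟨j, hj, hmin⟩ := Finset.exists_min_image _ (fun i => |v i|) hne
  refine ⟨|v j|, abs_pos.mpr (Finset.mem_filter.mp hj).2, fun i hi => ?_⟩
  exact hmin i (Finset.mem_filter.mpr ⟨Finset.mem_univ i, hi⟩)

/-- One correction term grows at most linearly, with a constant depending only on `v, M`. -/
private lemma mcolAux_corr1 (v : ι → ℝ) (hv0 : ∃ i, v i ≠ 0) (M : ℝ) (hM : 0 < M) :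
    ∃ K : ℝ, 0 ≤ K ∧ ∀ x : ι → ℝ, (∀ i, 0 < x i) →
      |slabCorr v M x| ≤ K * ∑ i, |x i - 1| := by
  obtain ⟨umin, humin, hmin⟩ := mcolAux_umin v hv0
  refine ⟨Fintype.card ι * (M / umin), by positivity, fun x hx => ?_⟩
  exact slabCorr_abs_le v x hv0 hx M hM umin humin hmin

/-- The sum of the correction terms of a finite family of nonzero directions grows at most
linearly. -/
private lemma mcolAux_corr (D : Finset (ι → ℝ)) (hD : ∀ d ∈ D, ∃ i, d i ≠ 0) (M : ℝ)
    (hM : 0 < M) :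
    ∃ K : ℝ, 0 ≤ K ∧ ∀ x : ι → ℝ, (∀ i, 0 < x i) →
      |∑ d ∈ D, slabCorr d M x| ≤ K * ∑ i, |x i - 1| := by
  classical
  induction D using Finset.induction_on with
  | empty =>
    refine ⟨0, le_refl _, fun x _ => ?_⟩
    rw [Finset.sum_empty, abs_zero, zero_mul]
  | insert d D' hd ih =>
    obtain ⟨K1, hK1, h1⟩ := mcolAux_corr1 d (hD d (Finset.mem_insert_self d D')) M hM
    obtain ⟨K2, hK2, h2⟩ := ih (fun d' hd' => hD d' (Finset.mem_insert_of_mem hd'))
    refine ⟨K1 + K2, add_nonneg hK1 hK2, fun x hx => ?_⟩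
    rw [Finset.sum_insert hd, add_mul]
    have e0 := abs_add_le (slabCorr d M x) (∑ d ∈ D', slabCorr d M x)
    have e1 := h1 x hx
    have e2 := h2 x hx
    linarith

/-- The sum of the correction terms grows at most linearly. -/
lemma mcolCorr_abs_le (D : Finset (ι → ℝ)) (hD : DisjDirs D) (M : ℝ) (hM : 0 < M) :
    ∃ K : ℝ, 0 ≤ K ∧ ∀ x : ι → ℝ, (∀ i, 0 < x i) →
      |∑ d ∈ D, slabCorr d M x| ≤ K * ∑ i, |x i - 1| :=
  mcolAux_corr D hD.1 M hM

/-- The one-variable function `s * log s - (1 + K) * s - K` is bounded below. -/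
private lemma mcolAux_phi_lower (K s : ℝ) (hs : 0 < s) :
    -(Real.exp K + K) ≤ s * Real.log s - (1 + K) * s - K := by
  have h := Real.log_le_sub_one_of_pos (show 0 < Real.exp K / s by positivity)
  rw [Real.log_div (Real.exp_ne_zero K) hs.ne', Real.log_exp] at h
  have h2 := mul_le_mul_of_nonneg_right h hs.le
  have h3 : (Real.exp K / s - 1) * s = Real.exp K - s := by field_simp
  have h4 : (K - Real.log s) * s = K * s - s * Real.log s := by ring
  rw [h3, h4] at h2
  linarith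

/-- The one-variable function `s * log s - (1 + K) * s - K` is at least `s - K` for large
`s`. -/
private lemma mcolAux_phi_large (K s : ℝ) (hs : Real.exp (K + 2) ≤ s) :
    s - K ≤ s * Real.log s - (1 + K) * s - K := by
  have hs0 : 0 < s := lt_of_lt_of_le (Real.exp_pos _) hs
  have hlog : K + 2 ≤ Real.log s := by
    rw [Real.le_log_iff_exp_le hs0]
    exact hs
  have h := mul_le_mul_of_nonneg_left hlog hs0.le
  linarith

theorem mcolV_sublevel_bdd (D : Finset (ι → ℝ)) (hD : DisjDirs D) (M : ℝ) (hM : 0 < M)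
    (L : ℝ) :
    ∃ B' : ℝ, ∀ x : ι → ℝ, (∀ i, 0 < x i) → mcolV D M x ≤ L → ∀ i, x i ≤ B' := by
  obtain ⟨K, hK, hcorr⟩ := mcolCorr_abs_le D hD M hM
  refine ⟨max (Real.exp (K + 2)) (L + Fintype.card ι * (Real.exp K + K) + K),
    fun x hx hL i => ?_⟩
  have hc := hcorr x hx
  have hsum1 : ∑ j, |x j - 1| ≤ ∑ j, (x j + 1) := Finset.sum_le_sum fun j _ => by
    rw [abs_le]
    constructor <;> linarith [hx j]
  have hlow : ∑ j, (x j * Real.log (x j) - (1 + K) * x j - K) ≤ mcolV D M x := by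
    unfold mcolV hEnt
    have h1 : -(K * ∑ j, (x j + 1)) ≤ ∑ d ∈ D, slabCorr d M x := by
      have h0 := neg_abs_le (∑ d ∈ D, slabCorr d M x)
      have h2 : K * ∑ j, |x j - 1| ≤ K * ∑ j, (x j + 1) :=
        mul_le_mul_of_nonneg_left hsum1 hK
      linarith
    have h3 : ∑ j, (x j * Real.log (x j) - (1 + K) * x j - K)
        = ∑ j, (x j * Real.log (x j) - x j) - K * ∑ j, (x j + 1) := by
      rw [Finset.mul_sum, ← Finset.sum_sub_distrib]
      refine Finset.sum_congr rfl fun j _ => ?_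
      ring
    rw [h3]
    linarith
  have hnn : ∀ j ∈ Finset.univ,
      0 ≤ x j * Real.log (x j) - (1 + K) * x j - K + (Real.exp K + K) := by
    intro j _
    have h0 := mcolAux_phi_lower K (x j) (hx j)
    linarith
  have hsingle := Finset.single_le_sum hnn (Finset.mem_univ i)
  rw [Finset.sum_add_distrib, Finset.sum_const, Finset.card_univ, nsmul_eq_mul] at hsingle
  have hE : 0 ≤ Real.exp K + K := by positivity
  by_cases hbig : Real.exp (K + 2) ≤ x i
  · have h4 := mcolAux_phi_large K (x i) hbig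
    refine le_trans ?_ (le_max_right _ _)
    linarith
  · push Not at hbig
    exact le_trans hbig.le (le_max_left _ _)

theorem mcolV_le_of_box (D : Finset (ι → ℝ)) (hD : DisjDirs D) (M : ℝ) (hM : 0 < M) (δ B : ℝ)
    (hδ : 0 < δ) :
    ∃ G₀ : ℝ, ∀ x : ι → ℝ, (∀ i, δ ≤ x i ∧ x i ≤ B) → mcolV D M x ≤ G₀ := by
  obtain ⟨K, hK, hcorr⟩ := mcolCorr_abs_le D hD M hM
  refine ⟨Fintype.card ι * (|B| * (|Real.log δ| + |Real.log B| + 1))
      + K * (Fintype.card ι * (|B| + 1)), fun x hx => ?_⟩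
  have hpos : ∀ i, 0 < x i := fun i => lt_of_lt_of_le hδ (hx i).1
  have hc := hcorr x hpos
  have h1 : ∑ i, |x i - 1| ≤ ∑ _i : ι, (|B| + 1) := Finset.sum_le_sum fun i _ => by
    have hB : x i ≤ |B| := le_trans (hx i).2 (le_abs_self B)
    rw [abs_le]
    constructor <;> linarith [hpos i, abs_nonneg B]
  rw [Finset.sum_const, Finset.card_univ, nsmul_eq_mul] at h1
  have h2 : hEnt x ≤ ∑ _i : ι, (|B| * (|Real.log δ| + |Real.log B| + 1)) := by
    unfold hEnt
    refine Finset.sum_le_sum fun i _ => ?_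
    have hl1 : Real.log δ ≤ Real.log (x i) := Real.log_le_log hδ (hx i).1
    have hl2 : Real.log (x i) ≤ Real.log B := Real.log_le_log (hpos i) (hx i).2
    have hl : |Real.log (x i)| ≤ |Real.log δ| + |Real.log B| := by
      rw [abs_le]
      constructor
      · linarith [neg_abs_le (Real.log δ), abs_nonneg (Real.log B)]
      · linarith [le_abs_self (Real.log B), abs_nonneg (Real.log δ)]
    have hxB : x i ≤ |B| := le_trans (hx i).2 (le_abs_self B)
    have h3 : x i * Real.log (x i) ≤ x i * |Real.log (x i)| :=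
      mul_le_mul_of_nonneg_left (le_abs_self _) (hpos i).le
    have h4 : x i * |Real.log (x i)| ≤ |B| * (|Real.log δ| + |Real.log B|) :=
      mul_le_mul hxB hl (abs_nonneg _) (abs_nonneg _)
    have h5 : (0 : ℝ) ≤ |B| := abs_nonneg B
    linarith [hpos i]
  rw [Finset.sum_const, Finset.card_univ, nsmul_eq_mul] at h2
  unfold mcolV
  have h6 : ∑ d ∈ D, slabCorr d M x ≤ K * (Fintype.card ι * (|B| + 1)) := by
    have h0 := le_abs_self (∑ d ∈ D, slabCorr d M x)
    have h7 : K * ∑ i, |x i - 1| ≤ K * (Fintype.card ι * (|B| + 1)) :=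
      mul_le_mul_of_nonneg_left h1 hK
    linarith
  linarith

theorem mcolV_ge_of_le (D : Finset (ι → ℝ)) (hD : DisjDirs D) (M : ℝ) (hM : 0 < M) (Bx : ℝ) :
    ∃ m : ℝ, ∀ x : ι → ℝ, (∀ i, 0 < x i) → (∀ i, x i ≤ Bx) → m ≤ mcolV D M x := by
  obtain ⟨K, hK, hcorr⟩ := mcolCorr_abs_le D hD M hM
  refine ⟨-(Fintype.card ι : ℝ) - K * (Fintype.card ι * (|Bx| + 1)), ?_⟩
  intro x hx hxB
  have h1 : -(Fintype.card ι : ℝ) ≤ hEnt x := by
    unfold hEnt
    have h0 : ∑ _i : ι, (-1 : ℝ) ≤ ∑ i, (x i * Real.log (x i) - x i) := by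
      refine Finset.sum_le_sum (fun i _ => ?_)
      have hxi := hx i
      have hl : Real.log (1 / x i) ≤ 1 / x i - 1 :=
        Real.log_le_sub_one_of_pos (one_div_pos.mpr hxi)
      rw [Real.log_div one_ne_zero hxi.ne', Real.log_one, zero_sub] at hl
      have hm : x i * (-Real.log (x i)) ≤ x i * (1 / x i - 1) :=
        mul_le_mul_of_nonneg_left hl hxi.le
      have e : x i * (1 / x i - 1) = 1 - x i := by
        field_simp
      rw [e] at hm
      linarith
    rw [Finset.sum_const, Finset.card_univ, nsmul_eq_mul, mul_neg, mul_one] at h0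
    exact h0
  have h2 := hcorr x hx
  have h3 : ∑ i, |x i - 1| ≤ Fintype.card ι * (|Bx| + 1) := by
    have h0 : ∑ i, |x i - 1| ≤ ∑ _i : ι, (|Bx| + 1) := by
      refine Finset.sum_le_sum (fun i _ => ?_)
      have hxi := hx i
      have hb := hxB i
      have hB0 : Bx ≤ |Bx| := le_abs_self Bx
      rw [abs_le]
      constructor <;> linarith [abs_nonneg Bx]
    rw [Finset.sum_const, Finset.card_univ, nsmul_eq_mul] at h0
    exact h0
  have h4 : |∑ d ∈ D, slabCorr d M x| ≤ K * (Fintype.card ι * (|Bx| + 1)) :=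
    h2.trans (mul_le_mul_of_nonneg_left h3 hK)
  have h5 := neg_abs_le (∑ d ∈ D, slabCorr d M x)
  unfold mcolV
  linarith

end Vale.Agent.Lib.P072
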