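import Vale.Agent.Lib.P072.PoolDefs
import Vale.Agent.Lib.P072.FunBarrier

/-!
# Invariance of the pool thresholds
-/

namespace Vale.Agent.Lib.P072

open Set MeasureTheory

set_option linter.unusedSectionVars false

variable {R ι : Type} [Fintype R] [Fintype ι]

/-- The thresholds `z A.card` for the pools of the nonempty sets `A` of species are kept along
every curve in integral form whose state curve `zc` is the curve itself as long as the halved
thresholds hold, provided the thresholds are admissible and the positive points of the curve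
are below `X`. -/
lemma pool_invariant (N : MAS R ι) {ε : ℝ} {κ : R → ℝ → ℝ}
    (hκ : ∀ r, Measurable (κ r) ∧ ∀ t, ε ≤ κ r t ∧ κ r t ≤ ε⁻¹)
    {W : Finset ι → ι → ℝ} {θm ΘM : ℝ} (P : PoolSys W θm ΘM)
    {Lw : Finset ι → (ι → ℝ) → ℝ}
    (hLle : ∀ A (k : R → ℝ), (∀ r, ε ≤ k r ∧ k r ≤ ε⁻¹) → ∀ y : ι → ℝ, (∀ i, 0 ≤ y i) →
      Lw A y ≤ ∑ i, W A i * N.fieldK k y i)
    {X : ℝ} {G : ℝ → ℝ → Prop} (hF : FaceProp N W Lw X G) {z : ℕ → ℝ}
    (hz : Adm θm ΘM G (Fintype.card ι) z) {x zc : ℝ → ι → ℝ}
    (hxc : ContinuousOn x (Ici 0)) (hzc : ContinuousOn zc (Ici 0)) (hsol : IntForm N κ x zc)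
    (hX : ∀ s, 0 ≤ s → (∀ i, 0 < x s i) → ∀ i, x s i ≤ X)
    (hzx : ∀ s, 0 ≤ s →
      (∀ A : Finset ι, A.Nonempty → z A.card / 2 ≤ ∑ i, W A i * x s i) → zc s = x s)
    (h0 : ∀ A : Finset ι, A.Nonempty → z A.card ≤ ∑ i, W A i * x 0 i) :
    ∀ t, 0 ≤ t → ∀ A : Finset ι, A.Nonempty → z A.card ≤ ∑ i, W A i * x t i := by
  classical
  have hzpos : ∀ n, 0 < z n := hz.1
  have hθm : 0 < θm := P.hθm
  have key := functional_barrier N hκ hxc hzc hsol (J := Finset ι) W
    (thr := fun A => if A.Nonempty then z A.card else -1)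
    (thr' := fun A => if A.Nonempty then z A.card / 2 else -2)
    (fun A => by
      split_ifs
      · have := hzpos A.card
        linarith
      · norm_num)
    (fun s hs hrel A hA => by
      have hrel' : ∀ B : Finset ι, B.Nonempty → z B.card / 2 ≤ ∑ i, W B i * x s i := by
        intro B hB
        have := hrel B
        rwa [if_pos hB] at this
      have hAne : A.Nonempty := by
        by_contra hne
        rw [if_neg hne, P.pool_eq A (x s), Finset.not_nonempty_iff_eq_empty.mp hne,
          Finset.sum_empty] at hA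
        linarith
      rw [if_pos hAne] at hA
      have hrel'' : ∀ B : Finset ι, B.Nonempty → z B.card * (1 / 2) ≤ ∑ i, W B i * x s i := by
        intro B hB
        have := hrel' B hB
        linarith
      have hpos : ∀ i, 0 < x s i := fun i =>
        (P.pos_of_pools (a := 1 / 2) (by norm_num) (hzpos 1) hrel'' i).2
      have hnn : ∀ i, 0 ≤ x s i := fun i => (hpos i).le
      have hxX : ∀ i, x s i ≤ X := hX s hs hpos
      have hzs : zc s = x s := hzx s hs hrel'
      obtain ⟨i₀, hi₀⟩ := hAne
      have hΘM : 0 < ΘM := P.hΘM_of i₀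
      have hn : A.card ≤ Fintype.card ι := Finset.card_le_univ A
      obtain ⟨hstep, hG⟩ := hz.2 A.card hn
      have hY : 0 < z (A.card + 1) / (4 * ΘM) :=
        div_pos (hzpos _) (mul_pos (by norm_num) hΘM)
      have hin : ∀ i ∈ A, x s i ≤ z A.card / θm := by
        intro i hi
        have h1 := P.le_pool hi hnn (y := x s)
        rw [le_div_iff₀ hθm]
        linarith
      have hout : ∀ j, j ∉ A → z (A.card + 1) / (4 * ΘM) ≤ x s j := by
        intro j hj
        have h1 := hrel' (insert j A) (Finset.insert_nonempty j A)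
        rw [Finset.card_insert_of_notMem hj] at h1
        have h2 := P.pool_insert_le hj hnn (y := x s)
        have h3 : ΘM / θm * ∑ i, W A i * x s i ≤ ΘM / θm * z A.card :=
          mul_le_mul_of_nonneg_left hA.le (div_pos hΘM hθm).le
        have h4 : ΘM / θm * z A.card ≤ z (A.card + 1) / 4 := by
          have h5 : 4 * ΘM / θm * z A.card = 4 * (ΘM / θm * z A.card) := by ring
          rw [h5] at hstep
          linarith
        rw [div_le_iff₀ (mul_pos (by norm_num) hΘM)]
        linarith
      have hL := (hF A (x s) (z A.card / θm) (z (A.card + 1) / (4 * ΘM)) hG hY hpos hxX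
        hin hout).1
      have hle := hLle A (fun r => κ r s) (fun r => (hκ r).2 s) (x s) hnn
      rw [hzs, fieldAt_eq_fieldK]
      linarith)
    (fun A => by
      split_ifs with hA
      · exact h0 A hA
      · rw [P.pool_eq A (x 0), Finset.not_nonempty_iff_eq_empty.mp hA, Finset.sum_empty]
        norm_num)
  intro t ht A hA
  have := key t ht A
  rwa [if_pos hA] at this

end Vale.Agent.Lib.P072
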