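import Vale.Agent.Lib.P072.PoolDefs
import Vale.Agent.Lib.P072.FunAbsorb

/-!
# One step of the absorption into the pool thresholds
-/

namespace Vale.Agent.Lib.P072

open Set MeasureTheory

set_option linter.unusedSectionVars false

variable {R ι : Type} [Fintype R] [Fintype ι]

/-- One step of the absorption: along a solution that stays in the region of the admissible
thresholds `z`, if the pools of the sets `insert j A`, `j ∉ A`, are above the admissible target
thresholds `z'` from some time on, then so is the pool of `A` from some later time on. -/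
lemma pool_step [DecidableEq ι] (N : MAS R ι) {ε : ℝ} {κ : R → ℝ → ℝ}
    (hκ : ∀ r, Measurable (κ r) ∧ ∀ t, ε ≤ κ r t ∧ κ r t ≤ ε⁻¹)
    {W : Finset ι → ι → ℝ} {θm ΘM : ℝ} (P : PoolSys W θm ΘM)
    {Lw : Finset ι → (ι → ℝ) → ℝ} (hLc : ∀ A, Continuous (Lw A))
    (hLle : ∀ A (k : R → ℝ), (∀ r, ε ≤ k r ∧ k r ≤ ε⁻¹) → ∀ y : ι → ℝ, (∀ i, 0 ≤ y i) →
      Lw A y ≤ ∑ i, W A i * N.fieldK k y i)
    {X : ℝ} {G : ℝ → ℝ → Prop} (hF : FaceProp N W Lw X G) {z z' : ℕ → ℝ}
    (hz : Adm θm ΘM G (Fintype.card ι) z) (hz' : Adm θm ΘM G (Fintype.card ι) z')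
    {c : ι → ℝ} (hXc : ∀ y : ι → ℝ, y - c ∈ N.stoich → (∀ i, 0 < y i) → ∀ i, y i ≤ X)
    {x : ℝ → ι → ℝ} (hx : N.IsSolAt κ x) (hreg : ∀ t, 0 ≤ t → x t ∈ poolRegion N c W z)
    (hc : ∀ A : Finset ι, A.Nonempty → z' A.card ≤ ∑ i, W A i * c i)
    (A : Finset ι) (hA : A.Nonempty) {T₀ : ℝ} (hT₀ : 0 ≤ T₀)
    (hup : ∀ j, j ∉ A → ∀ t, T₀ ≤ t →
      z' (insert j A).card ≤ ∑ i, W (insert j A) i * x t i) :
    ∃ T, 0 ≤ T ∧ ∀ t, T ≤ t → z' A.card ≤ ∑ i, W A i * x t i := by
  by_cases hq : ∀ r, ∑ i, W A i * N.vec r i = 0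
  · refine ⟨0, le_rfl, fun t ht => ?_⟩
    have h0 := stoich_weighted_sum_eq_zero N (W A) hq (hreg t ht).1
    simp only [Pi.sub_apply, mul_sub, Finset.sum_sub_distrib] at h0
    have h1 := hc A hA
    linarith
  · push Not at hq
    obtain ⟨r₀, hr₀⟩ := hq
    obtain ⟨i₀, hi₀⟩ := hA
    have hθm : 0 < θm := P.hθm
    have hΘM : 0 < ΘM := P.hΘM_of i₀
    have hn : A.card ≤ Fintype.card ι := Finset.card_le_univ A
    obtain ⟨hstep, hG⟩ := hz'.2 A.card hn
    obtain ⟨l, hl⟩ : ∃ l : ℝ, l = z' A.card := ⟨_, rfl⟩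
    have hlpos : 0 < l := by
      rw [hl]
      exact hz'.1 A.card
    have hl1pos : 0 < z' (A.card + 1) := hz'.1 (A.card + 1)
    rw [← hl] at hstep hG ⊢
    obtain ⟨S, hS⟩ : ∃ S : Set (ι → ℝ), S = (poolRegion N c W z ∩ {y | ∑ i, W A i * y i ≤ l}) ∩
      {y | ∀ j, j ∉ A → z' (insert j A).card ≤ ∑ i, W (insert j A) i * y i} := ⟨_, rfl⟩
    have hScomp : IsCompact S := by
      rw [hS]
      refine ((isCompact_poolRegion N P c (hz.1 1) hXc).inter_right
        (isClosed_le (continuous_finsetSum _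
          (fun i _ => continuous_const.mul (continuous_apply i))) continuous_const)).inter_right ?_
      have h1 : {y : ι → ℝ | ∀ j, j ∉ A →
          z' (insert j A).card ≤ ∑ i, W (insert j A) i * y i} =
          ⋂ j : ι, {y : ι → ℝ | j ∉ A →
            z' (insert j A).card ≤ ∑ i, W (insert j A) i * y i} := by
        ext y
        simp
      rw [h1]
      refine isClosed_iInter (fun j => ?_)
      by_cases hj : j ∉ A
      · simp only [hj, not_false_eq_true, forall_true_left]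
        exact isClosed_le continuous_const
          (continuous_finsetSum _ (fun i _ => continuous_const.mul (continuous_apply i)))
      · simp only [hj, IsEmpty.forall_iff, Set.ofPred_true]
        exact isClosed_univ
    have hSpos : ∀ y ∈ S, 0 < Lw A y := by
      intro y hy
      rw [hS] at hy
      have hypos : ∀ i, 0 < y i := fun i =>
        (P.pos_of_pools (a := 1) one_pos (hz.1 1)
          (fun B hB => by simpa using hy.1.1.2 B hB) i).2
      have hy0 : ∀ i, 0 ≤ y i := fun i => (hypos i).le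
      have hyX : ∀ i, y i ≤ X := hXc y hy.1.1.1 hypos
      have hpool : ∑ i, W A i * y i ≤ l := hy.1.2
      have hin : ∀ i ∈ A, y i ≤ l / θm := by
        intro i hi
        rw [le_div_iff₀ hθm]
        have := P.le_pool hi hy0
        linarith
      have hout : ∀ j, j ∉ A → z' (A.card + 1) / (4 * ΘM) ≤ y j := by
        intro j hj
        have h1 := hy.2 j hj
        rw [Finset.card_insert_of_notMem hj] at h1
        have h2 := P.pool_insert_le hj hy0
        have h3 : ΘM / θm * ∑ i, W A i * y i ≤ ΘM / θm * l :=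
          mul_le_mul_of_nonneg_left hpool (div_nonneg hΘM.le hθm.le)
        have h4 : ΘM / θm * l = (4 * ΘM / θm * l) / 4 := by ring
        rw [div_le_iff₀ (by positivity : (0 : ℝ) < 4 * ΘM)]
        linarith
      exact (hF A y (l / θm) (z' (A.card + 1) / (4 * ΘM)) hG
        (div_pos hl1pos (by positivity)) hypos hyX hin hout).2 ⟨r₀, hr₀⟩
    have hη : ∃ η : ℝ, 0 < η ∧ ∀ y ∈ S, η ≤ Lw A y := by
      by_cases hne : S.Nonempty
      · obtain ⟨y₀, hy₀, hmin⟩ := hScomp.exists_isMinOn hne (hLc A).continuousOn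
        exact ⟨Lw A y₀, hSpos y₀ hy₀, fun y hy => hmin hy⟩
      · exact ⟨1, one_pos, fun y hy => absurd ⟨y, hy⟩ hne⟩
    obtain ⟨η, hηpos, hη⟩ := hη
    obtain ⟨T, hT, hTl⟩ := functional_absorb N hκ hx (W A) (l := l) hT₀ hηpos
      (fun s hs hlt => by
        have hs0 : 0 ≤ s := le_trans hT₀ hs
        have hsS : x s ∈ S := by
          rw [hS]
          exact ⟨⟨hreg s hs0, hlt.le⟩, fun j hj => hup j hj s hs⟩
        have hpos : ∀ i, 0 ≤ x s i := fun i =>
          (P.pos_of_pools (a := 1) one_pos (hz.1 1)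
            (fun B hB => by simpa using (hreg s hs0).2 B hB) i).2.le
        exact le_trans (hη (x s) hsS)
          (hLle A (fun r => κ r s) (fun r => (hκ r).2 s) (x s) hpos))
    exact ⟨T, le_trans hT₀ hT, hTl⟩

end Vale.Agent.Lib.P072
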