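import Mathlib

/-!
# Sequences of thresholds chosen from the top down
-/

namespace Vale.Agent.Lib.P072

/-- Let `G ξ Y` be a relation between positive reals that survives making `ξ` smaller and that
holds for some `ξ > 0` for every `Y > 0`. Then for every `N`, `ρ ≥ 1` and `δ > 0` there is a
positive sequence `z` bounded by `δ` with `ρ * z n ≤ z (n + 1)` and `G (z n) (z (n + 1))` for
all `n < N`. -/
lemma exists_threshold_seq (G : ℝ → ℝ → Prop)
    (hmono : ∀ ξ ξ' Y : ℝ, 0 < ξ' → ξ' ≤ ξ → G ξ Y → G ξ' Y)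
    (hex : ∀ Y : ℝ, 0 < Y → ∃ ξ : ℝ, 0 < ξ ∧ G ξ Y) {ρ : ℝ} (hρ : 1 ≤ ρ) (N : ℕ) {δ : ℝ}
    (hδ : 0 < δ) :
    ∃ z : ℕ → ℝ, (∀ n, 0 < z n) ∧ (∀ n, z n ≤ δ) ∧
      ∀ n, n < N → ρ * z n ≤ z (n + 1) ∧ G (z n) (z (n + 1)) := by
  have hρ0 : 0 < ρ := lt_of_lt_of_le one_pos hρ
  induction N with
  | zero =>
    exact ⟨fun _ => δ, fun _ => hδ, fun _ => le_refl δ, fun n hn => absurd hn (Nat.not_lt_zero n)⟩
  | succ N ih =>
    obtain ⟨z, hzpos, hzle, hz⟩ := ih
    obtain ⟨ξ, hξ, hG⟩ := hex (z 0) (hzpos 0)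
    have hapos : 0 < min (z 0 / ρ) ξ := lt_min (div_pos (hzpos 0) hρ0) hξ
    have hale : min (z 0 / ρ) ξ ≤ z 0 :=
      le_trans (min_le_left _ _) (div_le_self (hzpos 0).le hρ)
    refine ⟨fun n => if n = 0 then min (z 0 / ρ) ξ else z (n - 1), fun n => ?_, fun n => ?_,
      fun n hn => ?_⟩
    · by_cases h0 : n = 0
      · simp only [h0, if_true]
        exact hapos
      · simp only [h0, if_false]
        exact hzpos _
    · by_cases h0 : n = 0
      · simp only [h0, if_true]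
        exact le_trans hale (hzle 0)
      · simp only [h0, if_false]
        exact hzle _
    · rcases Nat.eq_zero_or_pos n with h0 | h0
      · subst h0
        have h1 : ρ * min (z 0 / ρ) ξ ≤ z 0 := by
          calc ρ * min (z 0 / ρ) ξ ≤ ρ * (z 0 / ρ) :=
                mul_le_mul_of_nonneg_left (min_le_left _ _) hρ0.le
            _ = z 0 := by field_simp
        simp only [if_true, zero_add, one_ne_zero, if_false, Nat.sub_self]
        exact ⟨h1, hmono ξ _ (z 0) hapos (min_le_right _ _) hG⟩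
      · obtain ⟨k, rfl⟩ : ∃ k, n = k + 1 := ⟨n - 1, by omega⟩
        have hk : k < N := by omega
        have h1 : k + 1 ≠ 0 := by omega
        have h2 : k + 1 + 1 ≠ 0 := by omega
        simp only [h1, h2, if_false, Nat.add_sub_cancel]
        exact hz k hk

end Vale.Agent.Lib.P072
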