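import Vale.Agent.Lib.P072.PoolDefs
import Vale.Agent.Lib.P072.PoolInv
import Vale.Agent.Lib.P072.PoolStep
import Vale.Agent.Lib.P072.ThreshSeq
import Vale.Agent.Lib.P072.ConvMain

/-!
# Permanence from a hierarchy of weighted pools
-/

namespace Vale.Agent.Lib.P072

open Set MeasureTheory

set_option linter.unusedSectionVars false

variable {R ι : Type} [Fintype R] [Fintype ι]

/-- Admissible thresholds below a given bound exist. -/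
lemma exists_adm {θm ΘM : ℝ} (hθm : 0 < θm) (hΘM : 0 < ΘM) {G : ℝ → ℝ → Prop}
    (hGm : ∀ ξ ξ' Y : ℝ, 0 < ξ' → ξ' ≤ ξ → G ξ Y → G ξ' Y)
    (hGe : ∀ Y : ℝ, 0 < Y → ∃ ξ : ℝ, 0 < ξ ∧ G ξ Y) (n₀ : ℕ) {δ : ℝ} (hδ : 0 < δ) :
    ∃ z : ℕ → ℝ, Adm θm ΘM G n₀ z ∧ ∀ n, z n ≤ δ := by
  have h4 : 0 < 4 * ΘM := by linarith
  obtain ⟨z, hzpos, hzδ, hz⟩ := exists_threshold_seq
    (fun ξ Y => G (ξ / θm) (Y / (4 * ΘM)))
    (fun ξ ξ' Y hξ' hle hG => hGm (ξ / θm) (ξ' / θm) _ (div_pos hξ' hθm)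
      (div_le_div_of_nonneg_right hle hθm.le) hG)
    (fun Y hY => by
      obtain ⟨ξ, hξ, hG⟩ := hGe (Y / (4 * ΘM)) (div_pos hY h4)
      refine ⟨ξ * θm, mul_pos hξ hθm, ?_⟩
      show G (ξ * θm / θm) (Y / (4 * ΘM))
      rwa [mul_div_assoc, div_self hθm.ne', mul_one])
    (ρ := max 1 (4 * ΘM / θm)) (le_max_left _ _) (n₀ + 1) hδ
  refine ⟨z, ⟨hzpos, fun n hn => ?_⟩, hzδ⟩
  obtain ⟨h1, h2⟩ := hz n (Nat.lt_succ_of_le hn)
  refine ⟨le_trans ?_ h1, h2⟩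
  exact mul_le_mul_of_nonneg_right (le_max_right _ _) (hzpos n).le

variable {W : Finset ι → ι → ℝ} {θm ΘM : ℝ}

/-- Admissible thresholds below all pools of a positive point. -/
lemma exists_adm_pools (P : PoolSys W θm ΘM) (hΘM : 0 < ΘM) {G : ℝ → ℝ → Prop}
    (hGm : ∀ ξ ξ' Y : ℝ, 0 < ξ' → ξ' ≤ ξ → G ξ Y → G ξ' Y)
    (hGe : ∀ Y : ℝ, 0 < Y → ∃ ξ : ℝ, 0 < ξ ∧ G ξ Y) (n₀ : ℕ) (x₀ : ι → ℝ)
    (hx₀ : ∀ i, 0 < x₀ i) :
    ∃ z : ℕ → ℝ, Adm θm ΘM G n₀ z ∧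
      (∀ A : Finset ι, A.Nonempty → z A.card ≤ ∑ i, W A i * x₀ i) ∧
      ∀ i, z 1 ≤ θm * x₀ i := by
  obtain ⟨e, he, hle⟩ := exists_pos_le x₀ hx₀
  obtain ⟨z, hz, hzδ⟩ := exists_adm P.hθm hΘM hGm hGe n₀ (mul_pos P.hθm he)
  refine ⟨z, hz, fun A hA => ?_, fun i => ?_⟩
  · obtain ⟨i₀, hi₀⟩ := hA
    have h1 := P.le_pool hi₀ (fun i => (hx₀ i).le)
    have h2 : θm * e ≤ θm * x₀ i₀ := mul_le_mul_of_nonneg_left (hle i₀) P.hθm.le
    linarith [hzδ A.card]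
  · have h2 : θm * e ≤ θm * x₀ i := mul_le_mul_of_nonneg_left (hle i) P.hθm.le
    linarith [hzδ 1]

/-- The weights stay pool weights when the upper bound is enlarged. -/
lemma PoolSys.enlarge (P : PoolSys W θm ΘM) : PoolSys W θm (max ΘM 1) :=
  ⟨P.hθm, fun A i hi => ⟨(P.hin A i hi).1, le_trans (P.hin A i hi).2 (le_max_left _ _)⟩, P.hout⟩

variable {N : MAS R ι} {ε : ℝ} {Lw : Finset ι → (ι → ℝ) → ℝ} {X : ℝ} {G : ℝ → ℝ → Prop}

/-- Along a solution starting at a positive point of the class of `c` the pools stay above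
admissible thresholds. -/
lemma pool_stays (P : PoolSys W θm ΘM) (hΘM : 0 < ΘM) {κ : R → ℝ → ℝ}
    (hκ : ∀ r, Measurable (κ r) ∧ ∀ t, ε ≤ κ r t ∧ κ r t ≤ ε⁻¹)
    (hLle : ∀ A (k : R → ℝ), (∀ r, ε ≤ k r ∧ k r ≤ ε⁻¹) → ∀ y : ι → ℝ, (∀ i, 0 ≤ y i) →
      Lw A y ≤ ∑ i, W A i * N.fieldK k y i)
    (hGm : ∀ ξ ξ' Y : ℝ, 0 < ξ' → ξ' ≤ ξ → G ξ Y → G ξ' Y)
    (hGe : ∀ Y : ℝ, 0 < Y → ∃ ξ : ℝ, 0 < ξ ∧ G ξ Y) (hF : FaceProp N W Lw X G)
    {c : ι → ℝ} (hXc : ∀ y : ι → ℝ, y - c ∈ N.stoich → (∀ i, 0 < y i) → ∀ i, y i ≤ X)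
    {x : ℝ → ι → ℝ} (hx : N.IsSolAt κ x) (h0 : x 0 ∈ N.posClass c) :
    ∃ z : ℕ → ℝ, Adm θm ΘM G (Fintype.card ι) z ∧ ∀ t, 0 ≤ t → x t ∈ poolRegion N c W z := by
  obtain ⟨z, hz, hz0, -⟩ := exists_adm_pools P hΘM hGm hGe (Fintype.card ι) (x 0) h0.1
  have hcl : ∀ t, 0 ≤ t → x t - c ∈ N.stoich := fun t ht =>
    class_mem_of_sub N (intForm_mem_stoich N hκ hx.1 hx.2 ht) h0.2
  have hinv := pool_invariant N hκ P hLle hF hz hx.1 hx.1 hx.2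
    (fun s hs hpos => hXc (x s) (hcl s hs) hpos) (fun _ _ _ => rfl) hz0
  exact ⟨z, hz, fun t ht => ⟨hcl t ht, hinv t ht⟩⟩

/-- Global existence of solutions from every positive point of the class of `c`. -/
lemma pool_exists_sol (P : PoolSys W θm ΘM) (hΘM : 0 < ΘM) (hε : 0 < ε) {κ : R → ℝ → ℝ}
    (hκ : ∀ r, Measurable (κ r) ∧ ∀ t, ε ≤ κ r t ∧ κ r t ≤ ε⁻¹)
    (hLle : ∀ A (k : R → ℝ), (∀ r, ε ≤ k r ∧ k r ≤ ε⁻¹) → ∀ y : ι → ℝ, (∀ i, 0 ≤ y i) →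
      Lw A y ≤ ∑ i, W A i * N.fieldK k y i)
    (hGm : ∀ ξ ξ' Y : ℝ, 0 < ξ' → ξ' ≤ ξ → G ξ Y → G ξ' Y)
    (hGe : ∀ Y : ℝ, 0 < Y → ∃ ξ : ℝ, 0 < ξ ∧ G ξ Y) (hF : FaceProp N W Lw X G)
    {c : ι → ℝ} (hXc : ∀ y : ι → ℝ, y - c ∈ N.stoich → (∀ i, 0 < y i) → ∀ i, y i ≤ X)
    (x₀ : ι → ℝ) (hx₀ : x₀ ∈ N.posClass c) :
    ∃ x : ℝ → ι → ℝ, x 0 = x₀ ∧ N.IsSolAt κ x := by
  obtain ⟨z, hz, hz0, hz1⟩ := exists_adm_pools P hΘM hGm hGe (Fintype.card ι) x₀ hx₀.1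
  set m : ι → ℝ := fun _ => z 1 / (2 * ΘM) with hm
  set B : ι → ℝ := fun _ => X with hB
  have hz1pos : 0 < z 1 := hz.1 1
  have hmB : ∀ i, m i ≤ B i := by
    intro i
    have h1 := hz1 i
    have h2 := hXc x₀ hx₀.2 hx₀.1 i
    have h3 : θm * x₀ i ≤ ΘM * x₀ i :=
      mul_le_mul_of_nonneg_right
        (le_trans (P.hin {i} i (Finset.mem_singleton_self i)).1
          (P.hin {i} i (Finset.mem_singleton_self i)).2) (hx₀.1 i).le
    show z 1 / (2 * ΘM) ≤ X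
    rw [div_le_iff₀ (by linarith)]
    nlinarith [hx₀.1 i]
  obtain ⟨x, hxc, hx⟩ := exists_clamped_sol N hε hκ hmB x₀
  have hx0 : x 0 = x₀ := by
    have := hx 0 le_rfl
    simpa using this
  set zc : ℝ → ι → ℝ := fun s => clampBox m B (x s) with hzc'
  have hzc : Continuous zc := (continuous_clampBox m B).comp hxc
  have hsol : IntForm N κ x zc := fun t ht => by
    rw [hx0]
    exact hx t ht
  have hcl : ∀ s, 0 ≤ s → x s - c ∈ N.stoich := fun s hs =>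
    class_mem_of_sub N (intForm_mem_stoich N hκ hzc.continuousOn hsol hs)
      (by rw [hx0]; exact hx₀.2)
  have hXs : ∀ s, 0 ≤ s → (∀ i, 0 < x s i) → ∀ i, x s i ≤ X := fun s hs hpos =>
    hXc (x s) (hcl s hs) hpos
  have hzx : ∀ s, 0 ≤ s →
      (∀ A : Finset ι, A.Nonempty → z A.card / 2 ≤ ∑ i, W A i * x s i) → zc s = x s := by
    intro s hs hrel
    have hpp : ∀ i, z 1 * (1 / 2) / ΘM ≤ x s i ∧ 0 < x s i := fun i =>
      P.pos_of_pools (a := 1 / 2) (by norm_num) hz1pos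
        (fun A hA => by have := hrel A hA; linarith) i
    refine clampBox_eq ⟨fun i => ?_, fun i => hXs s hs (fun j => (hpp j).2) i⟩
    have h1 := (hpp i).1
    have h2 : z 1 * (1 / 2) / ΘM = z 1 / (2 * ΘM) := by
      field_simp
    show z 1 / (2 * ΘM) ≤ x s i
    linarith
  have hinv := pool_invariant N hκ P hLle hF hz hxc.continuousOn hzc.continuousOn hsol hXs hzx
    (by rw [hx0]; exact hz0)
  refine ⟨x, hx0, hxc.continuousOn, fun t ht => ?_⟩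
  rw [hsol t ht]
  congr 1
  apply intervalIntegral.integral_congr
  intro s hs
  rw [uIcc_of_le ht] at hs
  have hzs : zc s = x s := hzx s hs.1 (fun A hA => by
    have h1 := hinv s hs.1 A hA
    have h2 : 0 < z A.card := hz.1 _
    linarith)
  simp only [hzs]

/-- **Permanence from a hierarchy of weighted pools**, for all measurable rate functions with
values in `[ε, ε⁻¹]`, with a compact set that does not depend on the rate functions. The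
system has a positive conservation law `θ`; for every set `A` of species there are pool weights
`W A` and a continuous lower bound `Lw A` for the derivative of the pool of `A` that has the
face property for every upper bound `X`. -/
theorem pool_stronglyPermanentOn (N : MAS R ι) {ε : ℝ} (hε : 0 < ε) {θ : ι → ℝ}
    (hθ : ∀ i, 0 < θ i) (hcons : ∀ r, ∑ i, θ i * N.vec r i = 0)
    {W : Finset ι → ι → ℝ} {θm ΘM : ℝ} (P₀ : PoolSys W θm ΘM)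
    {Lw : Finset ι → (ι → ℝ) → ℝ} (hLc : ∀ A, Continuous (Lw A))
    (hLle : ∀ A (k : R → ℝ), (∀ r, ε ≤ k r ∧ k r ≤ ε⁻¹) → ∀ y : ι → ℝ, (∀ i, 0 ≤ y i) →
      Lw A y ≤ ∑ i, W A i * N.fieldK k y i)
    (hface : ∀ X : ℝ, 1 ≤ X → ∃ G : ℝ → ℝ → Prop,
      (∀ ξ ξ' Y : ℝ, 0 < ξ' → ξ' ≤ ξ → G ξ Y → G ξ' Y) ∧
      (∀ Y : ℝ, 0 < Y → ∃ ξ : ℝ, 0 < ξ ∧ G ξ Y) ∧ FaceProp N W Lw X G)
    (c : ι → ℝ) (hc : ∀ i, 0 < c i) : N.StronglyPermanentOn ε (N.posClass c) := by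
  classical
  have P := P₀.enlarge
  have hΘM : 0 < max ΘM 1 := lt_of_lt_of_le one_pos (le_max_right _ _)
  have hX1 := one_le_consBound hθ (fun i => (hc i).le)
  have hXc : ∀ y : ι → ℝ, y - c ∈ N.stoich → (∀ i, 0 < y i) → ∀ i, y i ≤ consBound θ c :=
    fun y hy hpos i => le_consBound N hθ hcons (fun i => (hc i).le) hy (fun i => (hpos i).le) i
  obtain ⟨G, hGm, hGe, hF⟩ := hface (consBound θ c) hX1
  obtain ⟨z', hz', hz'c, -⟩ := exists_adm_pools P hΘM hGm hGe (Fintype.card ι) c hc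
  refine ⟨poolRegion N c W z', isCompact_poolRegion N P c (hz'.1 1) hXc,
    fun y hy => ⟨fun i => (P.pos_of_pools (a := 1) one_pos (hz'.1 1)
      (fun A hA => by simpa using hy.2 A hA) i).2, hy.1⟩, fun κ hκ => ⟨?_, ?_, ?_⟩⟩
  · intro x₀ hx₀
    exact pool_exists_sol P hΘM hε hκ hLle hGm hGe hF hXc x₀ hx₀
  · intro x h0 hx t ht
    obtain ⟨z, hz, hst⟩ := pool_stays P hΘM hκ hLle hGm hGe hF hXc hx h0
    exact ⟨fun i => (P.pos_of_pools (a := 1) one_pos (hz.1 1)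
      (fun A hA => by simpa using (hst t ht).2 A hA) i).2, (hst t ht).1⟩
  · intro x h0 hx
    obtain ⟨z, hz, hreg⟩ := pool_stays P hΘM hκ hLle hGm hGe hF hXc hx h0
    obtain ⟨T, hT, hall⟩ := subset_absorb
      (P := fun A t => A.Nonempty → z' A.card ≤ ∑ i, W A i * x t i)
      (fun A T₀ hT₀ hup => by
        by_cases hA : A.Nonempty
        · obtain ⟨T, hT, hTA⟩ := pool_step N hκ P hLc hLle hF hz hz' hXc hx hreg hz'c A hA hT₀
            (fun j hj t ht => hup j hj t ht (Finset.insert_nonempty j A))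
          exact ⟨T, hT, fun t ht _ => hTA t ht⟩
        · exact ⟨0, le_rfl, fun t _ hA' => absurd hA' hA⟩)
    exact ⟨T, fun t ht => ⟨(hreg t (le_trans hT ht)).1, fun A hA => hall t ht A hA⟩⟩

end Vale.Agent.Lib.P072
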