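import Vale.Agent.Lib.P072.TVField

/-!
# A lower bound for weighted sums of the field, uniform in the rates
-/

namespace Vale.Agent.Lib.P072

open Set

set_option linter.unusedSectionVars false

variable {R ι : Type} [Fintype R] [Fintype ι]

/-- The change of the weighted sum `∑ i, w i * x i` under the reaction `r`. -/
def MAS.chi (N : MAS R ι) (w : ι → ℝ) (r : R) : ℝ := ∑ i, w i * N.vec r i

open Classical in
/-- A lower bound, uniform in the rate vectors with entries in `[ε, ε⁻¹]`, for the weighted sum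
`∑ i, w i * (field) i`: the reactions that increase the weighted sum are taken with the rate
`ε`, the other reactions with the rate `ε⁻¹`. -/
noncomputable def poolLow (N : MAS R ι) (ε : ℝ) (w : ι → ℝ) (y : ι → ℝ) : ℝ :=
  ∑ r, (if 0 < N.chi w r then ε * (mono (N.src r) y * N.chi w r)
    else ε⁻¹ * (mono (N.src r) y * N.chi w r))

lemma continuous_poolLow (N : MAS R ι) (ε : ℝ) (w : ι → ℝ) : Continuous (poolLow N ε w) := by
  unfold poolLow
  apply continuous_finsetSum
  intro r _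
  split_ifs
  · exact continuous_const.mul ((continuous_mono _).mul continuous_const)
  · exact continuous_const.mul ((continuous_mono _).mul continuous_const)

/-- The lower bound holds for all rate vectors with entries in `[ε, ε⁻¹]` at all nonnegative
points. -/
lemma poolLow_le (N : MAS R ι) {ε : ℝ} {k : R → ℝ} (hk : ∀ r, ε ≤ k r ∧ k r ≤ ε⁻¹)
    (w : ι → ℝ) (y : ι → ℝ) (hy : ∀ i, 0 ≤ y i) :
    poolLow N ε w y ≤ ∑ i, w i * N.fieldK k y i := by
  have h1 : ∑ i, w i * N.fieldK k y i = ∑ r, k r * mono (N.src r) y * N.chi w r := by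
    simp only [fieldK_apply, Finset.mul_sum, MAS.chi]
    rw [Finset.sum_comm]
    apply Finset.sum_congr rfl
    intro r _
    apply Finset.sum_congr rfl
    intro i _
    ring
  rw [h1]
  unfold poolLow
  apply Finset.sum_le_sum
  intro r _
  have hm := mono_nonneg (N.src r) y hy
  obtain ⟨hk1, hk2⟩ := hk r
  split_ifs with hχ
  · have h2 : 0 ≤ mono (N.src r) y * N.chi w r := mul_nonneg hm hχ.le
    nlinarith [mul_nonneg (sub_nonneg.2 hk1) h2]
  · have hχ' : N.chi w r ≤ 0 := not_lt.1 hχ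
    have h2 : mono (N.src r) y * N.chi w r ≤ 0 := mul_nonpos_of_nonneg_of_nonpos hm hχ'
    nlinarith [mul_nonneg_of_nonpos_of_nonpos (sub_nonpos.2 hk2) h2]

private lemma poolLow_aux_nonneg (N : MAS R ι) (w : ι → ℝ) (y : ι → ℝ) (hy : ∀ i, 0 ≤ y i)
    (r : R) : 0 ≤ (if 0 < N.chi w r then mono (N.src r) y * N.chi w r else 0) := by
  split_ifs with h
  · exact mul_nonneg (mono_nonneg _ y hy) h.le
  · exact le_rfl

private lemma poolLow_aux_single (N : MAS R ι) (w : ι → ℝ) (y : ι → ℝ) (hy : ∀ i, 0 ≤ y i)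
    (u : R) (hu : 0 < N.chi w u) :
    mono (N.src u) y * N.chi w u ≤
      ∑ r, (if 0 < N.chi w r then mono (N.src r) y * N.chi w r else 0) := by
  have h1 := Finset.single_le_sum
    (f := fun r => if 0 < N.chi w r then mono (N.src r) y * N.chi w r else 0)
    (fun r _ => poolLow_aux_nonneg N w y hy r) (Finset.mem_univ u)
  simp only [if_pos hu] at h1
  exact h1

/-- If the monomial of every reaction that decreases the weighted sum is at most `τ` times the
monomial of some reaction that increases it, and `τ` is small, then the lower bound is at least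
`ε / 2` times the sum of the contributions of the increasing reactions. -/
lemma poolLow_ge (N : MAS R ι) {ε : ℝ} (hε : 0 < ε) (w : ι → ℝ) (y : ι → ℝ)
    (hy : ∀ i, 0 ≤ y i) {cm Cm τ : ℝ} (hcm : 0 < cm)
    (hcm' : ∀ r, 0 < N.chi w r → cm ≤ N.chi w r) (hCm : ∀ r, |N.chi w r| ≤ Cm) (hτ0 : 0 ≤ τ)
    (hτ : τ * (Cm * Fintype.card R) ≤ ε ^ 2 * cm / 2)
    (hdom : ∀ r, N.chi w r < 0 →
      ∃ u, 0 < N.chi w u ∧ mono (N.src r) y ≤ τ * mono (N.src u) y) :
    ε / 2 * ∑ r, (if 0 < N.chi w r then mono (N.src r) y * N.chi w r else 0)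
      ≤ poolLow N ε w y := by
  have hm : ∀ r, 0 ≤ mono (N.src r) y := fun r => mono_nonneg _ y hy
  obtain ⟨Pp, hPp⟩ : ∃ Pp : ℝ,
      Pp = ∑ r, (if 0 < N.chi w r then mono (N.src r) y * N.chi w r else 0) := ⟨_, rfl⟩
  rw [← hPp]
  have hPp0 : 0 ≤ Pp := by
    rw [hPp]
    exact Finset.sum_nonneg (fun r _ => poolLow_aux_nonneg N w y hy r)
  have hsingle : ∀ u, 0 < N.chi w u → mono (N.src u) y * N.chi w u ≤ Pp := by
    intro u hu
    rw [hPp]
    exact poolLow_aux_single N w y hy u hu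
  have hterm : ∀ r, ¬ (0 < N.chi w r) →
      -(τ * Cm / cm * Pp) ≤ mono (N.src r) y * N.chi w r := by
    intro r hr
    have hCm0 : 0 ≤ Cm := le_trans (abs_nonneg _) (hCm r)
    rcases lt_or_eq_of_le (not_lt.1 hr) with h | h
    · obtain ⟨u, hu, hmu⟩ := hdom r h
      have h1 : mono (N.src u) y * cm ≤ Pp :=
        le_trans (mul_le_mul_of_nonneg_left (hcm' u hu) (hm u)) (hsingle u hu)
      have h2 : mono (N.src u) y ≤ Pp / cm := by
        rw [le_div_iff₀ hcm]
        exact h1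
      have h3 : -Cm ≤ N.chi w r := (abs_le.1 (hCm r)).1
      have h4 : mono (N.src r) y * (-Cm) ≤ mono (N.src r) y * N.chi w r :=
        mul_le_mul_of_nonneg_left h3 (hm r)
      have h5 : mono (N.src r) y * Cm ≤ τ * mono (N.src u) y * Cm :=
        mul_le_mul_of_nonneg_right hmu hCm0
      have h6 : τ * mono (N.src u) y * Cm ≤ τ * (Pp / cm) * Cm :=
        mul_le_mul_of_nonneg_right (mul_le_mul_of_nonneg_left h2 hτ0) hCm0
      have h7 : τ * (Pp / cm) * Cm = τ * Cm / cm * Pp := by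
        field_simp
      linarith
    · rw [h, mul_zero]
      have h1 : 0 ≤ τ * Cm / cm * Pp := by positivity
      linarith
  have hdec : poolLow N ε w y = ε * Pp +
      ε⁻¹ * ∑ r, (if 0 < N.chi w r then 0 else mono (N.src r) y * N.chi w r) := by
    unfold poolLow
    rw [hPp, Finset.mul_sum, Finset.mul_sum, ← Finset.sum_add_distrib]
    apply Finset.sum_congr rfl
    intro r _
    split_ifs <;> ring
  have hQ : -((Fintype.card R : ℝ) * (τ * Cm / cm * Pp)) ≤
      ∑ r, (if 0 < N.chi w r then 0 else mono (N.src r) y * N.chi w r) := by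
    have h1 : ∑ _r : R, -(τ * Cm / cm * Pp) ≤
        ∑ r, (if 0 < N.chi w r then 0 else mono (N.src r) y * N.chi w r) := by
      apply Finset.sum_le_sum
      intro r _
      split_ifs with h
      · have hCm0 : 0 ≤ Cm := le_trans (abs_nonneg _) (hCm r)
        have h2 : 0 ≤ τ * Cm / cm * Pp := by positivity
        linarith
      · exact hterm r h
    rw [Finset.sum_const, Finset.card_univ, nsmul_eq_mul] at h1
    linarith
  rw [hdec]
  have hε' : 0 < ε⁻¹ := inv_pos.2 hε
  have key : (Fintype.card R : ℝ) * (τ * Cm / cm * Pp) ≤ ε ^ 2 / 2 * Pp := by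
    have h1 : (Fintype.card R : ℝ) * (τ * Cm / cm) ≤ ε ^ 2 / 2 := by
      rw [show (Fintype.card R : ℝ) * (τ * Cm / cm) = τ * (Cm * Fintype.card R) / cm by ring,
        div_le_iff₀ hcm]
      linarith
    calc (Fintype.card R : ℝ) * (τ * Cm / cm * Pp)
          = (Fintype.card R : ℝ) * (τ * Cm / cm) * Pp := by ring
      _ ≤ ε ^ 2 / 2 * Pp := mul_le_mul_of_nonneg_right h1 hPp0
  have h8 := mul_le_mul_of_nonneg_left hQ hε'.le
  have h9 : ε⁻¹ * (ε ^ 2 / 2 * Pp) = ε / 2 * Pp := by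
    field_simp
  have h10 := mul_le_mul_of_nonneg_left key hε'.le
  linarith

/-- In the situation of `poolLow_ge` the lower bound is nonnegative. -/
lemma poolLow_nonneg (N : MAS R ι) {ε : ℝ} (hε : 0 < ε) (w : ι → ℝ) (y : ι → ℝ)
    (hy : ∀ i, 0 ≤ y i) {cm Cm τ : ℝ} (hcm : 0 < cm)
    (hcm' : ∀ r, 0 < N.chi w r → cm ≤ N.chi w r) (hCm : ∀ r, |N.chi w r| ≤ Cm) (hτ0 : 0 ≤ τ)
    (hτ : τ * (Cm * Fintype.card R) ≤ ε ^ 2 * cm / 2)
    (hdom : ∀ r, N.chi w r < 0 →
      ∃ u, 0 < N.chi w u ∧ mono (N.src r) y ≤ τ * mono (N.src u) y) :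
    0 ≤ poolLow N ε w y := by
  refine le_trans ?_ (poolLow_ge N hε w y hy hcm hcm' hCm hτ0 hτ hdom)
  apply mul_nonneg (by positivity)
  exact Finset.sum_nonneg (fun r _ => poolLow_aux_nonneg N w y hy r)

/-- In the situation of `poolLow_ge` the lower bound is positive at positive points if some
reaction increases the weighted sum. -/
lemma poolLow_pos (N : MAS R ι) {ε : ℝ} (hε : 0 < ε) (w : ι → ℝ) (y : ι → ℝ)
    (hy : ∀ i, 0 < y i) {cm Cm τ : ℝ} (hcm : 0 < cm)
    (hcm' : ∀ r, 0 < N.chi w r → cm ≤ N.chi w r) (hCm : ∀ r, |N.chi w r| ≤ Cm) (hτ0 : 0 ≤ τ)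
    (hτ : τ * (Cm * Fintype.card R) ≤ ε ^ 2 * cm / 2)
    (hdom : ∀ r, N.chi w r < 0 →
      ∃ u, 0 < N.chi w u ∧ mono (N.src r) y ≤ τ * mono (N.src u) y)
    (r₀ : R) (hr₀ : 0 < N.chi w r₀) : 0 < poolLow N ε w y := by
  have hy' : ∀ i, 0 ≤ y i := fun i => (hy i).le
  refine lt_of_lt_of_le ?_ (poolLow_ge N hε w y hy' hcm hcm' hCm hτ0 hτ hdom)
  apply mul_pos (by positivity)
  have h1 := poolLow_aux_single N w y hy' r₀ hr₀
  have h2 : 0 < mono (N.src r₀) y * N.chi w r₀ := mul_pos (mono_pos _ y hy) hr₀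
  linarith

end Vale.Agent.Lib.P072
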