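import Vale.Agent.Lib.P072.Defs

/-!
# Comparison of two monomials when a set of species is small
-/

namespace Vale.Agent.Lib.P072

open Set

set_option linter.unusedSectionVars false

variable {ι : Type} [Fintype ι]

/-- Let `y` be a positive point with all coordinates at most `X ≥ 1`, coordinates in the set `A`
at most `ξ ≤ 1` and coordinates outside `A` at least `Y ∈ (0, 1]`. If the exponent vector `u` is
at most `s` on `A` and strictly smaller at some `i₀ ∈ A`, then
`y ^ s ≤ ξ * (X / Y) ^ V * y ^ u`, where `V` bounds the sum of all the exponents. -/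
lemma mono_le_mul_mono (A : Finset ι) (s u : ι → ℕ) (hle : ∀ i ∈ A, u i ≤ s i) {i₀ : ι}
    (hi₀ : i₀ ∈ A) (hlt : u i₀ < s i₀) (y : ι → ℝ) (hy : ∀ i, 0 < y i) {X ξ Y : ℝ}
    (hX : ∀ i, y i ≤ X) (hX1 : 1 ≤ X) (hξ : ξ ≤ 1) (hY0 : 0 < Y) (hY : Y ≤ 1)
    (hin : ∀ i ∈ A, y i ≤ ξ) (hout : ∀ j, j ∉ A → Y ≤ y j) {V : ℕ}
    (hV : ∑ i, (s i + u i) ≤ V) :
    mono s y ≤ ξ * (X / Y) ^ V * mono u y := by
  classical
  have hξ0 : 0 < ξ := lt_of_lt_of_le (hy i₀) (hin i₀ hi₀)
  obtain ⟨R, hR⟩ : ∃ R : ℝ, R = X / Y := ⟨_, rfl⟩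
  rw [← hR]
  have hRY : R * Y = X := by
    rw [hR]
    field_simp
  have hXR : X ≤ R := by
    have hX0 : 0 ≤ R := by
      rw [hR]
      positivity
    nlinarith
  have hR1 : 1 ≤ R := hX1.trans hXR
  have hR0 : 0 ≤ R := by linarith
  have hterm : ∀ i, y i ^ s i
      ≤ ((if i = i₀ then ξ else 1) * R ^ (s i + u i)) * y i ^ u i := by
    intro i
    have hyu : 0 < y i ^ u i := pow_pos (hy i) _
    have hRpow : 1 ≤ R ^ (s i + u i) := one_le_pow₀ hR1
    by_cases hi : i ∈ A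
    · have h1 : y i ≤ 1 := (hin i hi).trans hξ
      obtain ⟨k, hk⟩ := Nat.exists_eq_add_of_le (hle i hi)
      have hsplit : y i ^ s i = y i ^ u i * y i ^ k := by rw [hk, pow_add]
      by_cases hi0 : i = i₀
      · rw [if_pos hi0]
        have hk0 : k ≠ 0 := by
          intro h0
          rw [hi0, h0] at hk
          omega
        have hyk : y i ^ k ≤ ξ := (pow_le_of_le_one (hy i).le h1 hk0).trans (hin i hi)
        calc y i ^ s i = y i ^ u i * y i ^ k := hsplit
          _ ≤ y i ^ u i * ξ := mul_le_mul_of_nonneg_left hyk hyu.le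
          _ = ξ * 1 * y i ^ u i := by ring
          _ ≤ ξ * R ^ (s i + u i) * y i ^ u i := by gcongr
      · rw [if_neg hi0]
        have hyk : y i ^ k ≤ 1 := pow_le_one₀ (hy i).le h1
        calc y i ^ s i = y i ^ u i * y i ^ k := hsplit
          _ ≤ y i ^ u i * 1 := mul_le_mul_of_nonneg_left hyk hyu.le
          _ = 1 * 1 * y i ^ u i := by ring
          _ ≤ 1 * R ^ (s i + u i) * y i ^ u i := by gcongr
    · have hi0 : i ≠ i₀ := fun h => hi (h ▸ hi₀)
      rw [if_neg hi0, one_mul]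
      have hYy : Y ≤ y i := hout i hi
      have hRy : 1 ≤ R * y i := by
        calc (1 : ℝ) ≤ X := hX1
          _ = R * Y := hRY.symm
          _ ≤ R * y i := mul_le_mul_of_nonneg_left hYy hR0
      calc y i ^ s i ≤ X ^ s i := pow_le_pow_left₀ (hy i).le (hX i) _
        _ ≤ R ^ s i := pow_le_pow_left₀ (by linarith) hXR _
        _ = R ^ s i * 1 := by ring
        _ ≤ R ^ s i * (R * y i) ^ u i :=
            mul_le_mul_of_nonneg_left (one_le_pow₀ hRy) (pow_nonneg hR0 _)
        _ = R ^ (s i + u i) * y i ^ u i := by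
            rw [mul_pow, pow_add]
            ring
  have hprod : ∏ i, ((if i = i₀ then ξ else 1) * R ^ (s i + u i))
      = ξ * R ^ (∑ i, (s i + u i)) := by
    rw [Finset.prod_mul_distrib, Finset.prod_ite_eq', Finset.prod_pow_eq_pow_sum]
    simp
  have hpos : 0 ≤ ∏ i, y i ^ u i := Finset.prod_nonneg (fun i _ => (pow_pos (hy i) _).le)
  have hpow : R ^ (∑ i, (s i + u i)) ≤ R ^ V := pow_le_pow_right₀ hR1 hV
  unfold mono
  calc ∏ i, y i ^ s i
      ≤ ∏ i, (((if i = i₀ then ξ else 1) * R ^ (s i + u i)) * y i ^ u i) :=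
        Finset.prod_le_prod (fun i _ => (pow_pos (hy i) _).le) (fun i _ => hterm i)
    _ = ξ * R ^ (∑ i, (s i + u i)) * ∏ i, y i ^ u i := by
        rw [Finset.prod_mul_distrib, hprod]
    _ ≤ ξ * R ^ V * ∏ i, y i ^ u i := by gcongr

end Vale.Agent.Lib.P072
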