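import Vale.Agent.Lib.P072.PoolCore
import Vale.Agent.Lib.P072.PoolLow
import Vale.Agent.Lib.P072.PoolRatio
import Vale.Agent.Lib.P072.DefsPool

/-!
# Conservative systems with dominated outflow are permanent
-/

namespace Vale.Agent.Lib.P072

open Set

set_option linter.unusedSectionVars false

variable {R ι : Type} [Fintype R] [Fintype ι]

/-- An upper bound for a finite family of reals. -/
lemma exists_le_upper {κ : Type} [Fintype κ] (f : κ → ℝ) : ∃ E : ℝ, 0 ≤ E ∧ ∀ a, f a ≤ E :=
  ⟨∑ a, |f a|, Finset.sum_nonneg (fun a _ => abs_nonneg (f a)), fun a =>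
    le_trans (le_abs_self _)
      (Finset.single_le_sum (f := fun a => |f a|) (fun b _ => abs_nonneg (f b))
        (Finset.mem_univ a))⟩

/-- A positive lower bound for a finite family of positive reals. -/
lemma exists_pos_lower {κ : Type} [Fintype κ] (f : κ → ℝ) (hf : ∀ a, 0 < f a) :
    ∃ e : ℝ, 0 < e ∧ ∀ a, e ≤ f a :=
  exists_pos_le f hf

/-- The lower bound vanishes if no reaction changes the weighted sum. -/
lemma poolLow_eq_zero (N : MAS R ι) (ε : ℝ) (w : ι → ℝ) (y : ι → ℝ)
    (h : ∀ r, N.chi w r = 0) : poolLow N ε w y = 0 := by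
  unfold poolLow
  apply Finset.sum_eq_zero
  intro r _
  rw [h r]
  simp

/-- **Conservative systems with dominated outflow are permanent for all measurable rate
functions with values in `[ε, ε⁻¹]`**, with a compact set that does not depend on the rate
functions. -/
theorem dominatedOutflow_stronglyPermanentOn (N : MAS R ι) (hC : N.Conservative)
    (hD : N.DominatedOutflow) {ε : ℝ} (hε : 0 < ε) (c : ι → ℝ) (hc : ∀ i, 0 < c i) :
    N.StronglyPermanentOn ε (N.posClass c) := by
  classical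
  obtain ⟨θ, hθ, hcons⟩ := hC
  choose w hwpos hwdom using hD
  set W : Finset ι → ι → ℝ := fun A i => if i ∈ A then w A i else 0 with hW
  have hWin : ∀ A : Finset ι, ∀ i ∈ A, W A i = w A i := fun A i hi => by
    simp only [hW, if_pos hi]
  have hWout : ∀ A : Finset ι, ∀ i, i ∉ A → W A i = 0 := fun A i hi => by
    simp only [hW, if_neg hi]
  have hchi : ∀ (A : Finset ι) (r : R), N.chi (W A) r = ∑ i ∈ A, w A i * N.vec r i := by
    intro A r
    unfold MAS.chi
    rw [← Finset.sum_subset (Finset.subset_univ A)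
      (fun i _ hi => by rw [hWout A i hi, zero_mul])]
    exact Finset.sum_congr rfl (fun i hi => by rw [hWin A i hi])
  -- bounds for the weights
  obtain ⟨θm, hθm, hθm'⟩ := exists_pos_lower
    (fun p : Finset ι × ι => if p.2 ∈ p.1 then w p.1 p.2 else 1)
    (fun p => by
      by_cases hp : p.2 ∈ p.1
      · simp only [if_pos hp]
        exact hwpos p.1 p.2 hp
      · simp only [if_neg hp]
        exact one_pos)
  obtain ⟨ΘM, -, hΘM'⟩ := exists_le_upper
    (fun p : Finset ι × ι => if p.2 ∈ p.1 then w p.1 p.2 else 1)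
  have P : PoolSys W θm ΘM := by
    refine ⟨hθm, fun A i hi => ?_, hWout⟩
    have h1 := hθm' (A, i)
    have h2 := hΘM' (A, i)
    simp only [if_pos hi] at h1 h2
    rw [hWin A i hi]
    exact ⟨h1, h2⟩
  -- bounds for the changes of the pools
  obtain ⟨cm, hcm, hcm'⟩ := exists_pos_lower
    (fun p : Finset ι × R => if 0 < N.chi (W p.1) p.2 then N.chi (W p.1) p.2 else 1)
    (fun p => by
      by_cases hp : 0 < N.chi (W p.1) p.2
      · simp only [if_pos hp]
        exact hp
      · simp only [if_neg hp]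
        exact one_pos)
  obtain ⟨Cm, hCm0, hCm'⟩ := exists_le_upper (fun p : Finset ι × R => |N.chi (W p.1) p.2|)
  have hcmA : ∀ (A : Finset ι) (r : R), 0 < N.chi (W A) r → cm ≤ N.chi (W A) r := by
    intro A r hr
    have := hcm' (A, r)
    simpa only [if_pos hr] using this
  have hCmA : ∀ (A : Finset ι) (r : R), |N.chi (W A) r| ≤ Cm := fun A r => hCm' (A, r)
  -- the exponent bound
  set V : ℕ := 2 * ∑ r, ∑ i, N.src r i with hV
  have hVle : ∀ r u : R, ∑ i, (N.src r i + N.src u i) ≤ V := by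
    intro r u
    rw [Finset.sum_add_distrib, hV, two_mul]
    exact add_le_add
      (Finset.single_le_sum (f := fun r => ∑ i, N.src r i) (fun _ _ => Nat.zero_le _)
        (Finset.mem_univ r))
      (Finset.single_le_sum (f := fun r => ∑ i, N.src r i) (fun _ _ => Nat.zero_le _)
        (Finset.mem_univ u))
  have hden : 0 < 2 * (Cm * (Fintype.card R : ℝ) + 1) := by
    have : 0 ≤ Cm * (Fintype.card R : ℝ) := mul_nonneg hCm0 (Nat.cast_nonneg _)
    linarith
  set γ : ℝ := ε ^ 2 * cm / (2 * (Cm * (Fintype.card R : ℝ) + 1)) with hγ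
  have hγpos : 0 < γ := div_pos (mul_pos (pow_pos hε 2) hcm) hden
  have hγle : γ * (Cm * (Fintype.card R : ℝ)) ≤ ε ^ 2 * cm / 2 := by
    have h0 : 0 ≤ Cm * (Fintype.card R : ℝ) := mul_nonneg hCm0 (Nat.cast_nonneg _)
    have h1 : 0 < ε ^ 2 * cm := mul_pos (pow_pos hε 2) hcm
    rw [hγ, div_mul_eq_mul_div, div_le_div_iff₀ hden (by norm_num : (0:ℝ) < 2)]
    nlinarith
  refine pool_stronglyPermanentOn N hε hθ hcons P (Lw := fun A => poolLow N ε (W A))
    (fun A => continuous_poolLow N ε (W A))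
    (fun A k hk y hy => poolLow_le N hk (W A) y hy) (fun X hX1 => ?_) c hc
  refine ⟨fun ξ Y => ξ ≤ 1 ∧ ξ * (X / min Y 1) ^ V ≤ γ, ?_, ?_, ?_⟩
  · rintro ξ ξ' Y hξ' hle ⟨h1, h2⟩
    have hT : 0 ≤ (X / min Y 1) ^ V := by
      rw [hV, pow_mul]
      exact pow_nonneg (sq_nonneg _) _
    exact ⟨le_trans hle h1, le_trans (mul_le_mul_of_nonneg_right hle hT) h2⟩
  · intro Y hY
    have hT : 0 < (X / min Y 1) ^ V :=
      pow_pos (div_pos (by linarith) (lt_min hY one_pos)) _
    refine ⟨min 1 (γ / (X / min Y 1) ^ V), lt_min one_pos (div_pos hγpos hT),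
      min_le_left _ _, ?_⟩
    calc min 1 (γ / (X / min Y 1) ^ V) * (X / min Y 1) ^ V
        ≤ γ / (X / min Y 1) ^ V * (X / min Y 1) ^ V :=
          mul_le_mul_of_nonneg_right (min_le_right _ _) hT.le
      _ = γ := div_mul_cancel₀ _ hT.ne'
  · rintro A y ξ Y ⟨hξ1, hξγ⟩ hY hy hyX hin hout
    have hY' : 0 < min Y 1 := lt_min hY one_pos
    have hT : 0 ≤ (X / min Y 1) ^ V := pow_nonneg (div_nonneg (by linarith) hY'.le) _
    by_cases hA : A.Nonempty
    · obtain ⟨i₁, hi₁⟩ := hA
      have hξ0 : 0 < ξ := lt_of_lt_of_le (hy i₁) (hin i₁ hi₁)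
      have hτ0 : 0 ≤ ξ * (X / min Y 1) ^ V := mul_nonneg hξ0.le hT
      have hτ : ξ * (X / min Y 1) ^ V * (Cm * (Fintype.card R : ℝ)) ≤ ε ^ 2 * cm / 2 :=
        le_trans (mul_le_mul_of_nonneg_right hξγ (mul_nonneg hCm0 (Nat.cast_nonneg _))) hγle
      have hdom : ∀ r, N.chi (W A) r < 0 → ∃ u, 0 < N.chi (W A) u ∧
          mono (N.src r) y ≤ ξ * (X / min Y 1) ^ V * mono (N.src u) y := by
        intro r hr
        rw [hchi A r] at hr
        obtain ⟨u, hu, hle, i₀, hi₀, hlt⟩ := hwdom A r hr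
        refine ⟨u, by rw [hchi A u]; exact hu, ?_⟩
        exact mono_le_mul_mono A (N.src r) (N.src u) hle hi₀ hlt y hy hyX hX1 hξ1 hY'
          (min_le_right _ _) hin (fun j hj => le_trans (min_le_left _ _) (hout j hj))
          (hVle r u)
      refine ⟨poolLow_nonneg N hε (W A) y (fun i => (hy i).le) hcm (hcmA A) (hCmA A) hτ0 hτ
        hdom, ?_⟩
      rintro ⟨r, hr⟩
      have hr' : N.chi (W A) r ≠ 0 := hr
      rcases lt_or_gt_of_ne hr' with hneg | hpos
      · obtain ⟨u, hu, -⟩ := hdom r hneg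
        exact poolLow_pos N hε (W A) y hy hcm (hcmA A) (hCmA A) hτ0 hτ hdom u hu
      · exact poolLow_pos N hε (W A) y hy hcm (hcmA A) (hCmA A) hτ0 hτ hdom r hpos
    · have hAe : A = ∅ := Finset.not_nonempty_iff_eq_empty.mp hA
      have hz : ∀ r, N.chi (W A) r = 0 := by
        intro r
        rw [hchi A r, hAe, Finset.sum_empty]
      refine ⟨?_, ?_⟩
      · show 0 ≤ poolLow N ε (W A) y
        rw [poolLow_eq_zero N ε (W A) y hz]
      · rintro ⟨r, hr⟩
        exact absurd (hz r) hr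

/-- **Conservative systems with dominated outflow are permanent.** -/
theorem dominatedOutflow_permanentOn (N : MAS R ι) (hC : N.Conservative)
    (hD : N.DominatedOutflow) (c : ι → ℝ) (hc : ∀ i, 0 < c i) :
    N.PermanentOn (N.posClass c) := by
  obtain ⟨ε, hε, hr⟩ := exists_rate_bounds N
  exact permanentOn_of_stronglyPermanentOn N hr
    (dominatedOutflow_stronglyPermanentOn N hC hD hε c hc)

end Vale.Agent.Lib.P072
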