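import Vale.Agent.Lib.P072.ConvField
import Vale.Agent.Lib.P072.LinePermanent

/-!
# Weighted pools of species: basic facts

For every set `A` of species we are given weights `W A` that are positive on `A` and vanish
outside `A`; the pool of `A` at the point `y` is `∑ i, W A i * y i`.
-/

namespace Vale.Agent.Lib.P072

open Set

set_option linter.unusedSectionVars false

variable {R ι : Type} [Fintype R] [Fintype ι]

/-- Pool weights: for every set `A` of species the weights `W A` are between `θm > 0` and `ΘM`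
on `A` and vanish outside `A`. -/
structure PoolSys (W : Finset ι → ι → ℝ) (θm ΘM : ℝ) : Prop where
  hθm : 0 < θm
  hin : ∀ A : Finset ι, ∀ i ∈ A, θm ≤ W A i ∧ W A i ≤ ΘM
  hout : ∀ A : Finset ι, ∀ i, i ∉ A → W A i = 0

/-- The points of the class of `c` all of whose pools over nonempty sets `A` of species are at
least `z A.card`. -/
def poolRegion (N : MAS R ι) (c : ι → ℝ) (W : Finset ι → ι → ℝ) (z : ℕ → ℝ) : Set (ι → ℝ) :=
  {y | y - c ∈ N.stoich ∧ ∀ A : Finset ι, A.Nonempty → z A.card ≤ ∑ i, W A i * y i}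

/-- The face property of the lower bounds `Lw` for the upper bound `X` and the relation `G`
between the sizes `ξ` and `Y`: at a positive point below `X` whose species in `A` are at most
`ξ` and whose other species are at least `Y`, with `G ξ Y`, the lower bound `Lw A` is
nonnegative, and positive if some reaction changes the pool of `A`. -/
def FaceProp (N : MAS R ι) (W : Finset ι → ι → ℝ) (Lw : Finset ι → (ι → ℝ) → ℝ) (X : ℝ)
    (G : ℝ → ℝ → Prop) : Prop :=
  ∀ (A : Finset ι) (y : ι → ℝ) (ξ Y : ℝ), G ξ Y → 0 < Y → (∀ i, 0 < y i) → (∀ i, y i ≤ X) →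
    (∀ i ∈ A, y i ≤ ξ) → (∀ j, j ∉ A → Y ≤ y j) →
    0 ≤ Lw A y ∧ ((∃ r, ∑ i, W A i * N.vec r i ≠ 0) → 0 < Lw A y)

/-- Admissible thresholds: a positive sequence `z` such that for all `n ≤ n₀` the next
threshold is at least `4 * ΘM / θm` times `z n` and the relation `G` holds between
`z n / θm` and `z (n + 1) / (4 * ΘM)`. -/
def Adm (θm ΘM : ℝ) (G : ℝ → ℝ → Prop) (n₀ : ℕ) (z : ℕ → ℝ) : Prop :=
  (∀ n, 0 < z n) ∧
    ∀ n, n ≤ n₀ → 4 * ΘM / θm * z n ≤ z (n + 1) ∧ G (z n / θm) (z (n + 1) / (4 * ΘM))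

variable {W : Finset ι → ι → ℝ} {θm ΘM : ℝ}

lemma PoolSys.hΘM [Nonempty ι] (P : PoolSys W θm ΘM) : 0 < ΘM := by
  obtain ⟨i⟩ := ‹Nonempty ι›
  have := P.hin {i} i (Finset.mem_singleton_self i)
  linarith [P.hθm]

lemma PoolSys.hΘM_of (P : PoolSys W θm ΘM) (i : ι) : 0 < ΘM := by
  have := P.hin {i} i (Finset.mem_singleton_self i)
  linarith [P.hθm]

lemma PoolSys.W_nonneg (P : PoolSys W θm ΘM) (A : Finset ι) (i : ι) : 0 ≤ W A i := by
  by_cases hi : i ∈ A
  · linarith [(P.hin A i hi).1, P.hθm]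
  · rw [P.hout A i hi]

lemma PoolSys.pool_eq (P : PoolSys W θm ΘM) (A : Finset ι) (y : ι → ℝ) :
    ∑ i, W A i * y i = ∑ i ∈ A, W A i * y i := by
  classical
  rw [← Finset.sum_subset (Finset.subset_univ A)]
  intro i _ hi
  rw [P.hout A i hi, zero_mul]

lemma PoolSys.pool_nonneg (P : PoolSys W θm ΘM) (A : Finset ι) {y : ι → ℝ}
    (hy : ∀ i, 0 ≤ y i) : 0 ≤ ∑ i, W A i * y i :=
  Finset.sum_nonneg (fun i _ => mul_nonneg (P.W_nonneg A i) (hy i))

/-- A species of `A` is bounded by the pool of `A`. -/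
lemma PoolSys.le_pool (P : PoolSys W θm ΘM) {A : Finset ι} {i : ι} (hi : i ∈ A) {y : ι → ℝ}
    (hy : ∀ i, 0 ≤ y i) : θm * y i ≤ ∑ j, W A j * y j := by
  have h1 : W A i * y i ≤ ∑ j, W A j * y j :=
    Finset.single_le_sum (f := fun j => W A j * y j)
      (fun j _ => mul_nonneg (P.W_nonneg A j) (hy j)) (Finset.mem_univ i)
  have h2 : θm * y i ≤ W A i * y i := mul_le_mul_of_nonneg_right (P.hin A i hi).1 (hy i)
  linarith

/-- The sum of the species of `A` is bounded by the pool of `A`. -/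
lemma PoolSys.sum_le_pool (P : PoolSys W θm ΘM) (A : Finset ι) {y : ι → ℝ}
    (hy : ∀ i, 0 ≤ y i) : θm * ∑ i ∈ A, y i ≤ ∑ j, W A j * y j := by
  rw [P.pool_eq A y, Finset.mul_sum]
  exact Finset.sum_le_sum (fun i hi => mul_le_mul_of_nonneg_right (P.hin A i hi).1 (hy i))

/-- The pool of a singleton. -/
lemma PoolSys.pool_single (P : PoolSys W θm ΘM) (i : ι) (y : ι → ℝ) :
    ∑ j, W {i} j * y j = W {i} i * y i := by
  rw [P.pool_eq {i} y, Finset.sum_singleton]

/-- A lower bound for the pool of a singleton bounds the species from below. -/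
lemma PoolSys.le_of_single (P : PoolSys W θm ΘM) {i : ι} {y : ι → ℝ} {l : ℝ} (hl : 0 < l)
    (h : l ≤ ∑ j, W {i} j * y j) : l / ΘM ≤ y i := by
  rw [P.pool_single i y] at h
  have hΘ := P.hΘM_of i
  have hW := P.hin {i} i (Finset.mem_singleton_self i)
  have hWpos : 0 < W {i} i := lt_of_lt_of_le P.hθm hW.1
  have hy : 0 < y i := by
    by_contra hcon
    have : W {i} i * y i ≤ 0 := mul_nonpos_of_nonneg_of_nonpos hWpos.le (not_lt.mp hcon)
    linarith
  rw [div_le_iff₀ hΘ]
  have : W {i} i * y i ≤ ΘM * y i := mul_le_mul_of_nonneg_right hW.2 hy.le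
  linarith

/-- The pool of `insert j A` is bounded by the pool of `A` and the species `j`. -/
lemma PoolSys.pool_insert_le [DecidableEq ι] (P : PoolSys W θm ΘM) {A : Finset ι} {j : ι}
    (hj : j ∉ A) {y : ι → ℝ} (hy : ∀ i, 0 ≤ y i) :
    ∑ i, W (insert j A) i * y i ≤ ΘM / θm * ∑ i, W A i * y i + ΘM * y j := by
  rw [P.pool_eq (insert j A) y, Finset.sum_insert hj]
  have h1 : W (insert j A) j * y j ≤ ΘM * y j :=
    mul_le_mul_of_nonneg_right (P.hin _ j (Finset.mem_insert_self j A)).2 (hy j)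
  have h2 : ∑ i ∈ A, W (insert j A) i * y i ≤ ΘM * ∑ i ∈ A, y i := by
    rw [Finset.mul_sum]
    exact Finset.sum_le_sum (fun i hi =>
      mul_le_mul_of_nonneg_right (P.hin _ i (Finset.mem_insert_of_mem hi)).2 (hy i))
  have h3 := P.sum_le_pool A hy
  have hΘ0 : 0 ≤ ΘM := le_trans P.hθm.le (P.hin _ j (Finset.mem_insert_self j A)).1 |>.trans
    (P.hin _ j (Finset.mem_insert_self j A)).2
  have h4 : ΘM * ∑ i ∈ A, y i ≤ ΘM / θm * ∑ i, W A i * y i := by
    rw [div_mul_eq_mul_div, le_div_iff₀ P.hθm]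
    calc (ΘM * ∑ i ∈ A, y i) * θm = ΘM * (θm * ∑ i ∈ A, y i) := by ring
      _ ≤ ΘM * ∑ i, W A i * y i := mul_le_mul_of_nonneg_left h3 hΘ0
  linarith

/-- A point all of whose singleton pools are at least `l > 0` is positive. -/
lemma PoolSys.pos_of_pools (P : PoolSys W θm ΘM) {y : ι → ℝ} {z : ℕ → ℝ} {a : ℝ} (ha : 0 < a)
    (hz : 0 < z 1)
    (h : ∀ A : Finset ι, A.Nonempty → z A.card * a ≤ ∑ i, W A i * y i) (i : ι) :
    z 1 * a / ΘM ≤ y i ∧ 0 < y i := by
  have h1 := h {i} (Finset.singleton_nonempty i)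
  rw [Finset.card_singleton] at h1
  have h2 := P.le_of_single (mul_pos hz ha) h1
  exact ⟨h2, lt_of_lt_of_le (div_pos (mul_pos hz ha) (P.hΘM_of i)) h2⟩

/-- The upper bound from a positive conservation law: a constant `X ≥ 1` above all coordinates
of all nonnegative points of the class of `c`. -/
noncomputable def consBound (θ c : ι → ℝ) : ℝ := 1 + ∑ i, (∑ j, θ j * c j) / θ i

lemma one_le_consBound {θ c : ι → ℝ} (hθ : ∀ i, 0 < θ i) (hc : ∀ i, 0 ≤ c i) :
    1 ≤ consBound θ c := by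
  unfold consBound
  have : 0 ≤ ∑ i, (∑ j, θ j * c j) / θ i :=
    Finset.sum_nonneg (fun i _ => div_nonneg
      (Finset.sum_nonneg (fun j _ => mul_nonneg (hθ j).le (hc j))) (hθ i).le)
  linarith

lemma le_consBound (N : MAS R ι) {θ c : ι → ℝ} (hθ : ∀ i, 0 < θ i)
    (hcons : ∀ r, ∑ i, θ i * N.vec r i = 0) (hc : ∀ i, 0 ≤ c i) {y : ι → ℝ}
    (hy : y - c ∈ N.stoich) (hy0 : ∀ i, 0 ≤ y i) (i : ι) : y i ≤ consBound θ c := by
  have h0 := stoich_weighted_sum_eq_zero N θ hcons hy
  simp only [Pi.sub_apply, mul_sub, Finset.sum_sub_distrib] at h0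
  have hm : 0 ≤ ∑ j, θ j * c j := Finset.sum_nonneg (fun j _ => mul_nonneg (hθ j).le (hc j))
  have h1 : θ i * y i ≤ ∑ j, θ j * y j :=
    Finset.single_le_sum (f := fun j => θ j * y j) (fun j _ => mul_nonneg (hθ j).le (hy0 j))
      (Finset.mem_univ i)
  have h2 : y i ≤ (∑ j, θ j * c j) / θ i := by
    rw [le_div_iff₀ (hθ i)]
    linarith
  have h3 : (∑ j, θ j * c j) / θ i ≤ ∑ i, (∑ j, θ j * c j) / θ i :=
    Finset.single_le_sum (f := fun i => (∑ j, θ j * c j) / θ i)
      (fun j _ => div_nonneg hm (hθ j).le) (Finset.mem_univ i)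
  unfold consBound
  linarith

/-- The region is compact if the positive points of the class are bounded. -/
lemma isCompact_poolRegion (N : MAS R ι) (P : PoolSys W θm ΘM) (c : ι → ℝ) {z : ℕ → ℝ}
    (hz : 0 < z 1) {X : ℝ}
    (hX : ∀ y : ι → ℝ, y - c ∈ N.stoich → (∀ i, 0 < y i) → ∀ i, y i ≤ X) :
    IsCompact (poolRegion N c W z) := by
  have hcl : IsClosed (poolRegion N c W z) := by
    have h1 : poolRegion N c W z = {x : ι → ℝ | x - c ∈ N.stoich} ∩
        ⋂ A : Finset ι, {x : ι → ℝ | A.Nonempty → z A.card ≤ ∑ i, W A i * x i} := by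
      ext x
      simp [poolRegion]
    rw [h1]
    refine (isClosed_class N c).inter (isClosed_iInter (fun A => ?_))
    by_cases hA : A.Nonempty
    · simp only [hA, forall_true_left]
      exact isClosed_le continuous_const
        (continuous_finsetSum _ (fun i _ => continuous_const.mul (continuous_apply i)))
    · simp only [hA, IsEmpty.forall_iff, Set.ofPred_true]
      exact isClosed_univ
  refine (isCompact_Icc (a := fun _ : ι => (0:ℝ)) (b := fun _ : ι => X)).of_isClosed_subset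
    hcl (fun x hx => ?_)
  have hpos : ∀ i, 0 < x i := fun i =>
    (P.pos_of_pools (a := 1) one_pos hz (fun A hA => by simpa using hx.2 A hA) i).2
  exact ⟨fun i => (hpos i).le, fun i => hX x hx.1 hpos i⟩

end Vale.Agent.Lib.P072
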