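import Vale.Agent.Lib.P072.TVMain
import Vale.Agent.Lib.P072.Line

/-!
# Permanence for time-dependent rates: linkage classes on lines, and source domination
-/

namespace Vale.Agent.Lib.P072

set_option linter.unusedSectionVars false

variable {R ι : Type} [Fintype R] [Fintype ι]

/-- Uniform thresholds for weakly reversible systems with linkage classes on lines. -/
lemma lineClasses_tvThresholds (N : MAS R ι) (hwr : N.WeaklyReversible) (hL : N.LineClasses)
    {ε : ℝ} (hε : 0 < ε) (c : ι → ℝ) (hc : ∀ i, 0 < c i) :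
    ∃ lo hi : ι → ℝ, TVThresholds N ε c lo hi := by
  obtain ⟨dir, h1, hdisj⟩ := hL
  have hdir : ∀ q, dir (N.src q) = dir (N.tgt q) := fun q => (h1 q).1
  choose lam hlam using fun q => (h1 q).2
  have h : ∀ i, ∃ lo hi : ℝ, 0 < lo ∧ lo ≤ c i ∧ c i ≤ hi ∧
      ((∀ r, N.tgt r i = N.src r i) ∨
        ∀ x : ι → ℝ, (∀ j, 0 < x j) → x - c ∈ N.stoich →
          (x i ≤ lo → 0 < N.fieldK (N.loRate ε i) x i) ∧
          (hi ≤ x i → N.fieldK (N.hiRate ε i) x i < 0)) := by
    intro i
    by_cases hi : ∀ r, N.tgt r i = N.src r i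
    · exact ⟨c i, c i, hc i, le_rfl, le_rfl, Or.inl hi⟩
    · push Not at hi
      obtain ⟨lo₁, hi₁, h1, h2, -, h4⟩ :=
        line_thresholds (N.withRate (N.loRate ε i) (loRate_pos N hε i)) hwr dir lam hdir hlam
          hdisj c hc i hi
      obtain ⟨lo₂, hi₂, -, -, h3', h4'⟩ :=
        line_thresholds (N.withRate (N.hiRate ε i) (hiRate_pos N hε i)) hwr dir lam hdir hlam
          hdisj c hc i hi
      exact ⟨lo₁, hi₂, h1, h2, h3', Or.inr (fun x hx hxc =>
        ⟨(h4 x hx hxc).1, (h4' x hx hxc).2⟩)⟩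
  choose lo hi h1 h2 h3 h4 using h
  exact ⟨lo, hi, ⟨h1, h2, h3, h4⟩⟩

/-- **Weakly reversible systems whose linkage classes lie on lines with pairwise equal or
disjointly supported directions are permanent for all measurable rate functions with values in
`[ε, ε⁻¹]`**, with a compact set that does not depend on the rate functions. -/
theorem lineClasses_stronglyPermanentOn (N : MAS R ι) (hwr : N.WeaklyReversible)
    (hL : N.LineClasses) {ε : ℝ} (hε : 0 < ε) (c : ι → ℝ) (hc : ∀ i, 0 < c i) :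
    N.StronglyPermanentOn ε (N.posClass c) := by
  obtain ⟨lo, hi, hT⟩ := lineClasses_tvThresholds N hwr hL hε c hc
  exact tvThresholds_stronglyPermanentOn N hε c hT

/-- Uniform thresholds for source-dominated systems. -/
lemma sourceDominated_tvThresholds (N : MAS R ι) (hN : N.SourceDominated)
    {ε : ℝ} (hε : 0 < ε) (c : ι → ℝ) (hc : ∀ i, 0 < c i) :
    ∃ lo hi : ι → ℝ, TVThresholds N ε c lo hi := by
  have h : ∀ i, ∃ lo hi : ℝ, 0 < lo ∧ lo ≤ c i ∧ c i ≤ hi ∧
      ((∀ r, N.tgt r i = N.src r i) ∨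
        ∀ x : ι → ℝ, (∀ j, 0 < x j) → x - c ∈ N.stoich →
          (x i ≤ lo → 0 < N.fieldK (N.loRate ε i) x i) ∧
          (hi ≤ x i → N.fieldK (N.hiRate ε i) x i < 0)) := by
    intro i
    by_cases hi : ∀ r, N.tgt r i = N.src r i
    · exact ⟨c i, c i, hc i, le_rfl, le_rfl, Or.inl hi⟩
    · push Not at hi
      obtain ⟨lo₁, hi₁, h1, -, h4⟩ :=
        exists_thresholds (N.withRate (N.loRate ε i) (loRate_pos N hε i)) hN i hi
      obtain ⟨lo₂, hi₂, -, -, h4'⟩ :=
        exists_thresholds (N.withRate (N.hiRate ε i) (hiRate_pos N hε i)) hN i hi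
      refine ⟨min lo₁ (c i), max hi₂ (c i), lt_min h1 (hc i), min_le_right _ _,
        le_max_right _ _, Or.inr (fun x hx _ => ⟨fun hxi => ?_, fun hxi => ?_⟩)⟩
      · exact (h4 x hx).1 (le_trans hxi (min_le_left _ _))
      · exact (h4' x hx).2 (le_trans (le_max_left _ _) hxi)
  choose lo hi h1 h2 h3 h4 using h
  exact ⟨lo, hi, ⟨h1, h2, h3, h4⟩⟩

/-- **Source-dominated systems are permanent for all measurable rate functions with values in
`[ε, ε⁻¹]`**, with a compact set that does not depend on the rate functions. -/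
theorem sourceDominated_stronglyPermanentOn (N : MAS R ι) (hN : N.SourceDominated)
    {ε : ℝ} (hε : 0 < ε) (c : ι → ℝ) (hc : ∀ i, 0 < c i) :
    N.StronglyPermanentOn ε (N.posClass c) := by
  obtain ⟨lo, hi, hT⟩ := sourceDominated_tvThresholds N hN hε c hc
  exact tvThresholds_stronglyPermanentOn N hε c hT

end Vale.Agent.Lib.P072
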