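import Vale.Agent.Lib.P072.TVExist
import Vale.Agent.Lib.P072.LinePermanent

/-!
# Permanence for time-dependent rates from uniform thresholds
-/

namespace Vale.Agent.Lib.P072

open Set MeasureTheory

set_option linter.unusedSectionVars false

variable {R ι : Type} [Fintype R] [Fintype ι]

/-- A lower bound of a component of the integrand gives linear growth of the coordinate. -/
lemma intForm_lower (N : MAS R ι) {ε : ℝ} {κ : R → ℝ → ℝ}
    (hκ : ∀ r, Measurable (κ r) ∧ ∀ t, ε ≤ κ r t ∧ κ r t ≤ ε⁻¹) {x z : ℝ → ι → ℝ}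
    (hz : ContinuousOn z (Ici 0)) (hsol : IntForm N κ x z) (i : ι) {δ T : ℝ} (hT : 0 ≤ T)
    (h : ∀ s ∈ Icc 0 T, δ ≤ N.fieldAt κ s (z s) i) : x 0 i + δ * T ≤ x T i := by
  have h1 := intForm_sub_apply N hκ hz hsol i le_rfl hT
  have hint := intervalIntegrable_fieldAt N hκ hz (le_refl (0:ℝ)) hT
  have hinti : IntervalIntegrable (fun s => N.fieldAt κ s (z s) i) volume 0 T :=
    ⟨hint.1.eval i, hint.2.eval i⟩
  have h2 := intervalIntegral.integral_mono_on hT intervalIntegrable_const hinti h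
  rw [intervalIntegral.integral_const] at h2
  simp only [sub_zero, smul_eq_mul] at h2
  linarith

/-- An upper bound of a component of the integrand gives linear decay of the coordinate. -/
lemma intForm_upper (N : MAS R ι) {ε : ℝ} {κ : R → ℝ → ℝ}
    (hκ : ∀ r, Measurable (κ r) ∧ ∀ t, ε ≤ κ r t ∧ κ r t ≤ ε⁻¹) {x z : ℝ → ι → ℝ}
    (hz : ContinuousOn z (Ici 0)) (hsol : IntForm N κ x z) (i : ι) {δ T : ℝ} (hT : 0 ≤ T)
    (h : ∀ s ∈ Icc 0 T, N.fieldAt κ s (z s) i ≤ -δ) : x T i ≤ x 0 i - δ * T := by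
  have h1 := intForm_sub_apply N hκ hz hsol i le_rfl hT
  have hint := intervalIntegrable_fieldAt N hκ hz (le_refl (0:ℝ)) hT
  have hinti : IntervalIntegrable (fun s => N.fieldAt κ s (z s) i) volume 0 T :=
    ⟨hint.1.eval i, hint.2.eval i⟩
  have h2 := intervalIntegral.integral_mono_on hT hinti intervalIntegrable_const h
  rw [intervalIntegral.integral_const] at h2
  simp only [sub_zero, smul_eq_mul] at h2
  linarith

/-- Absorption of one coordinate that is changed by some reaction. -/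
lemma tv_coord_absorb (N : MAS R ι) {ε : ℝ} {c lo hi : ι → ℝ} (hT : TVThresholds N ε c lo hi)
    {κ : R → ℝ → ℝ} (hκ : ∀ r, Measurable (κ r) ∧ ∀ t, ε ≤ κ r t ∧ κ r t ≤ ε⁻¹)
    {x : ℝ → ι → ℝ} (hx : N.IsSolAt κ x) (hpos : ∀ i, 0 < x 0 i) (h0 : x 0 - c ∈ N.stoich)
    (i : ι)
    (hact : ∀ y : ι → ℝ, (∀ j, 0 < y j) → y - c ∈ N.stoich →
      (y i ≤ lo i → 0 < N.fieldK (N.loRate ε i) y i) ∧
      (hi i ≤ y i → N.fieldK (N.hiRate ε i) y i < 0)) :
    ∃ Ti : ℝ, 0 ≤ Ti ∧ ∀ t, Ti ≤ t → lo i ≤ x t i ∧ x t i ≤ hi i := by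
  classical
  have hxc : ContinuousOn x (Ici 0) := hx.1
  have hsol : IntForm N κ x x := hx.2
  set A : Set (ι → ℝ) := {y | y - c ∈ N.stoich} with hA
  have hAcl : IsClosed A := isClosed_class N c
  set m₀ : ι → ℝ := fun j => min (x 0 j) (lo j) with hm₀
  set M₀ : ι → ℝ := fun j => max (x 0 j) (hi j) with hM₀
  have hlohi : ∀ j, lo j ≤ hi j := fun j => le_trans (hT.lo_le j) (hT.le_hi j)
  have hm₀pos : ∀ j, 0 < m₀ j := fun j => lt_min (hpos j) (hT.lo_pos j)
  have hm₀lo : ∀ j, m₀ j ≤ lo j := fun j => min_le_right _ _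
  have hhiM₀ : ∀ j, hi j ≤ M₀ j := fun j => le_max_right _ _
  have hm₀M₀ : ∀ j, m₀ j ≤ M₀ j := fun j => le_trans (min_le_left _ _) (le_max_left _ _)
  have hinA : ∀ t, 0 ≤ t → x t ∈ A := fun t ht =>
    class_mem_of_sub N (intForm_mem_stoich N hκ hxc hsol ht) h0
  have hinv : ∀ {m M : ι → ℝ}, (∀ j, 0 < m j) → (∀ j, m j ≤ lo j) → (∀ j, hi j ≤ M j) →
      ∀ {a : ℝ}, 0 ≤ a → x a ∈ Icc m M → ∀ t, a ≤ t → x t ∈ Icc m M := by
    intro m M hm0 hmlo hhiM a ha hxa t hat
    exact tv_box_invariant N hT hκ hxc hxc hsol h0 (m' := fun j => m j / 2)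
      (M' := fun j => M j + 1) (fun j => half_pos (hm0 j)) (fun j => half_lt_self (hm0 j))
      hmlo hhiM (fun j => lt_add_one _) (fun _ _ _ => rfl) ha hxa t hat
  have hstay : ∀ t, 0 ≤ t → x t ∈ Icc m₀ M₀ ∩ A := fun t ht =>
    ⟨hinv hm₀pos hm₀lo hhiM₀ le_rfl
      ⟨fun j => min_le_left _ _, fun j => le_max_left _ _⟩ t ht, hinA t ht⟩
  have hcontlo : Continuous (fun y : ι → ℝ => N.fieldK (N.loRate ε i) y i) :=
    (continuous_apply i).comp (continuous_fieldK N _)
  have hconthi : Continuous (fun y : ι → ℝ => N.fieldK (N.hiRate ε i) y i) :=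
    (continuous_apply i).comp (continuous_fieldK N _)
  -- lower bound
  have hlow : ∃ T₁ : ℝ, 0 ≤ T₁ ∧ ∀ t, T₁ ≤ t → lo i ≤ x t i := by
    have hQc : IsCompact (Icc m₀ (Function.update M₀ i (lo i)) ∩ A) :=
      isCompact_Icc.inter_right hAcl
    have hδ : ∃ δ : ℝ, 0 < δ ∧ ∀ y ∈ Icc m₀ M₀ ∩ A, y i ≤ lo i →
        δ ≤ N.fieldK (N.loRate ε i) y i := by
      have hsub : ∀ y ∈ Icc m₀ M₀ ∩ A, y i ≤ lo i →
          y ∈ Icc m₀ (Function.update M₀ i (lo i)) ∩ A := by
        intro y hy hyi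
        refine ⟨⟨hy.1.1, fun j => ?_⟩, hy.2⟩
        by_cases hj : j = i
        · subst hj; simpa using hyi
        · rw [Function.update_of_ne hj]; exact hy.1.2 j
      by_cases hQne : (Icc m₀ (Function.update M₀ i (lo i)) ∩ A).Nonempty
      · obtain ⟨ys, hys, hmin⟩ := hQc.exists_isMinOn hQne hcontlo.continuousOn
        have hyspos : ∀ j, 0 < ys j := fun j => lt_of_lt_of_le (hm₀pos j) (hys.1.1 j)
        have hysi : ys i ≤ lo i := by
          have := hys.1.2 i
          simpa using this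
        exact ⟨N.fieldK (N.loRate ε i) ys i, (hact ys hyspos hys.2).1 hysi,
          fun y hy hyi => hmin (hsub y hy hyi)⟩
      · exact ⟨1, one_pos, fun y hy hyi => absurd ⟨y, hsub y hy hyi⟩ hQne⟩
    obtain ⟨δ, hδpos, hδ⟩ := hδ
    have hex : ∃ T₁ : ℝ, 0 ≤ T₁ ∧ lo i ≤ x T₁ i := by
      by_contra hcon
      push Not at hcon
      set T : ℝ := (M₀ i - m₀ i) / δ + 1 with hTdef
      have hT0 : 0 ≤ T := by
        have : 0 ≤ (M₀ i - m₀ i) / δ := div_nonneg (by linarith [hm₀M₀ i]) hδpos.le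
        linarith
      have h1 := intForm_lower N hκ hxc hsol i hT0 (δ := δ) (fun s hs => by
        have hst := hstay s hs.1
        have h2 := hδ (x s) hst (hcon s hs.1).le
        have h3 := fieldK_loRate_le N i (fun r => (hκ r).2 s) (x s)
          (fun j => (lt_of_lt_of_le (hm₀pos j) (hst.1.1 j)).le)
        rw [fieldAt_eq_fieldK]
        linarith)
      have h4 := (hstay T hT0).1.2 i
      have h5 := (hstay 0 le_rfl).1.1 i
      have h6 : δ * T = (M₀ i - m₀ i) + δ := by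
        rw [hTdef]
        field_simp
      linarith
    obtain ⟨T₁, hT₁0, hT₁⟩ := hex
    refine ⟨T₁, hT₁0, fun t ht => ?_⟩
    have hm' : ∀ j, 0 < Function.update m₀ i (lo i) j := by
      intro j
      by_cases hj : j = i
      · subst hj; simpa using hT.lo_pos j
      · rw [Function.update_of_ne hj]; exact hm₀pos j
    have hm'lo : ∀ j, Function.update m₀ i (lo i) j ≤ lo j := by
      intro j
      by_cases hj : j = i
      · subst hj; simp
      · rw [Function.update_of_ne hj]; exact hm₀lo j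
    have hstart : x T₁ ∈ Icc (Function.update m₀ i (lo i)) M₀ :=
      ⟨update_le_iff_aux hT₁ (hstay T₁ hT₁0).1.1, (hstay T₁ hT₁0).1.2⟩
    have := (hinv hm' hm'lo hhiM₀ hT₁0 hstart t ht).1 i
    simpa using this
  -- upper bound
  have hupp : ∃ T₂ : ℝ, 0 ≤ T₂ ∧ ∀ t, T₂ ≤ t → x t i ≤ hi i := by
    have hQc : IsCompact (Icc (Function.update m₀ i (hi i)) M₀ ∩ A) :=
      isCompact_Icc.inter_right hAcl
    have hδ : ∃ δ : ℝ, 0 < δ ∧ ∀ y ∈ Icc m₀ M₀ ∩ A, hi i ≤ y i →
        N.fieldK (N.hiRate ε i) y i ≤ -δ := by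
      have hsub : ∀ y ∈ Icc m₀ M₀ ∩ A, hi i ≤ y i →
          y ∈ Icc (Function.update m₀ i (hi i)) M₀ ∩ A := by
        intro y hy hyi
        refine ⟨⟨fun j => ?_, hy.1.2⟩, hy.2⟩
        by_cases hj : j = i
        · subst hj; simpa using hyi
        · rw [Function.update_of_ne hj]; exact hy.1.1 j
      by_cases hQne : (Icc (Function.update m₀ i (hi i)) M₀ ∩ A).Nonempty
      · obtain ⟨ys, hys, hmax⟩ := hQc.exists_isMaxOn hQne hconthi.continuousOn
        have hyspos : ∀ j, 0 < ys j := by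
          intro j
          refine lt_of_lt_of_le ?_ (hys.1.1 j)
          by_cases hj : j = i
          · subst hj; simpa using lt_of_lt_of_le (hT.lo_pos j) (hlohi j)
          · rw [Function.update_of_ne hj]; exact hm₀pos j
        have hysi : hi i ≤ ys i := by
          have := hys.1.1 i
          simpa using this
        refine ⟨-N.fieldK (N.hiRate ε i) ys i, neg_pos.mpr ((hact ys hyspos hys.2).2 hysi),
          fun y hy hyi => ?_⟩
        have := hmax (hsub y hy hyi)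
        simp only [neg_neg]
        exact this
      · exact ⟨1, one_pos, fun y hy hyi => absurd ⟨y, hsub y hy hyi⟩ hQne⟩
    obtain ⟨δ, hδpos, hδ⟩ := hδ
    have hex : ∃ T₂ : ℝ, 0 ≤ T₂ ∧ x T₂ i ≤ hi i := by
      by_contra hcon
      push Not at hcon
      set T : ℝ := (M₀ i - m₀ i) / δ + 1 with hTdef
      have hT0 : 0 ≤ T := by
        have : 0 ≤ (M₀ i - m₀ i) / δ := div_nonneg (by linarith [hm₀M₀ i]) hδpos.le
        linarith
      have h1 := intForm_upper N hκ hxc hsol i hT0 (δ := δ) (fun s hs => by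
        have hst := hstay s hs.1
        have h2 := hδ (x s) hst (hcon s hs.1).le
        have h3 := fieldK_le_hiRate N i (fun r => (hκ r).2 s) (x s)
          (fun j => (lt_of_lt_of_le (hm₀pos j) (hst.1.1 j)).le)
        rw [fieldAt_eq_fieldK]
        linarith)
      have h4 := (hstay T hT0).1.1 i
      have h5 := (hstay 0 le_rfl).1.2 i
      have h6 : δ * T = (M₀ i - m₀ i) + δ := by
        rw [hTdef]
        field_simp
      linarith
    obtain ⟨T₂, hT₂0, hT₂⟩ := hex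
    refine ⟨T₂, hT₂0, fun t ht => ?_⟩
    have hM' : ∀ j, hi j ≤ Function.update M₀ i (hi i) j := by
      intro j
      by_cases hj : j = i
      · subst hj; simp
      · rw [Function.update_of_ne hj]; exact hhiM₀ j
    have hstart : x T₂ ∈ Icc m₀ (Function.update M₀ i (hi i)) :=
      ⟨(hstay T₂ hT₂0).1.1, le_update_iff_aux hT₂ (hstay T₂ hT₂0).1.2⟩
    have := (hinv hm₀pos hm₀lo hM' hT₂0 hstart t ht).2 i
    simpa using this
  obtain ⟨T₁, hT₁0, hT₁⟩ := hlow
  obtain ⟨T₂, hT₂0, hT₂⟩ := hupp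
  exact ⟨max T₁ T₂, le_trans hT₁0 (le_max_left _ _), fun t ht =>
    ⟨hT₁ t (le_trans (le_max_left _ _) ht), hT₂ t (le_trans (le_max_right _ _) ht)⟩⟩

/-- Permanence for all measurable rate functions with values in `[ε, ε⁻¹]`, with a compact set
independent of the rate functions, from uniform thresholds within the class. -/
theorem tvThresholds_stronglyPermanentOn (N : MAS R ι) {ε : ℝ} (hε : 0 < ε) (c : ι → ℝ)
    {lo hi : ι → ℝ} (hT : TVThresholds N ε c lo hi) :
    N.StronglyPermanentOn ε (N.posClass c) := by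
  refine ⟨Icc lo hi ∩ {x | x - c ∈ N.stoich}, isCompact_Icc.inter_right (isClosed_class N c),
    ?_, fun κ hκ => ?_⟩
  · rintro x ⟨hx1, hx2⟩
    exact ⟨fun i => lt_of_lt_of_le (hT.lo_pos i) (hx1.1 i), hx2⟩
  have hinv : ∀ x : ℝ → ι → ℝ, x 0 ∈ N.posClass c → N.IsSolAt κ x →
      ∀ t, 0 ≤ t → x t ∈ N.posClass c := by
    intro x h0 hx t ht
    have hm0 : ∀ i, 0 < min (x 0 i) (lo i) := fun i => lt_min (h0.1 i) (hT.lo_pos i)
    have hbox := tv_box_invariant N hT hκ hx.1 hx.1 hx.2 h0.2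
      (m := fun i => min (x 0 i) (lo i)) (M := fun i => max (x 0 i) (hi i))
      (m' := fun i => min (x 0 i) (lo i) / 2) (M' := fun i => max (x 0 i) (hi i) + 1)
      (fun i => half_pos (hm0 i)) (fun i => half_lt_self (hm0 i))
      (fun i => min_le_right _ _) (fun i => le_max_right _ _) (fun i => lt_add_one _)
      (fun _ _ _ => rfl) le_rfl ⟨fun i => min_le_left _ _, fun i => le_max_left _ _⟩ t ht
    exact ⟨fun i => lt_of_lt_of_le (hm0 i) (hbox.1 i),
      class_mem_of_sub N (intForm_mem_stoich N hκ hx.1 hx.2 ht) h0.2⟩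
  refine ⟨fun x₀ hx₀ => tv_exists_sol N hε hT hκ x₀ hx₀.1 hx₀.2, hinv, fun x h0 hx => ?_⟩
  have hcoord : ∀ i, ∃ Ti : ℝ, 0 ≤ Ti ∧ ∀ t, Ti ≤ t → lo i ≤ x t i ∧ x t i ≤ hi i := by
    intro i
    rcases hT.sign i with hin | hact
    · refine ⟨0, le_rfl, fun t ht => ?_⟩
      have h1 : (x t - x 0) i = 0 :=
        stoich_apply_eq_zero N i hin (intForm_mem_stoich N hκ hx.1 hx.2 ht)
      have h2 : (x 0 - c) i = 0 := stoich_apply_eq_zero N i hin h0.2
      simp only [Pi.sub_apply] at h1 h2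
      have h3 : x t i = c i := by linarith
      rw [h3]
      exact ⟨hT.lo_le i, hT.le_hi i⟩
    · exact tv_coord_absorb N hT hκ hx h0.1 h0.2 i hact
  choose Ti hTi0 hTi using hcoord
  have hsum : ∀ i, Ti i ≤ ∑ j, Ti j := fun i =>
    Finset.single_le_sum (fun j _ => hTi0 j) (Finset.mem_univ i)
  refine ⟨∑ i, Ti i, fun t ht => ⟨⟨fun i => ?_, fun i => ?_⟩, ?_⟩⟩
  · exact (hTi i t (le_trans (hsum i) ht)).1
  · exact (hTi i t (le_trans (hsum i) ht)).2
  · exact (hinv x h0 hx t (le_trans (Finset.sum_nonneg (fun j _ => hTi0 j)) ht)).2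

end Vale.Agent.Lib.P072
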