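import Vale.Agent.Lib.P072.VertDefs

/-!
# The corner function near its face
-/

namespace Vale.Agent.Lib.P072

open Set

set_option linter.unusedSectionVars false

variable {R R₁ R₂ ι : Type} [Fintype R] [Fintype R₁] [Fintype R₂] [Fintype ι]

/-- The derivative of the one-variable entropy term. -/
private theorem vterm_hasDerivAt (a s : ℝ) (hs : 0 < s) :
    HasDerivAt (vterm a) (Real.log s - Real.log a) s := by
  have h1 : HasDerivAt (fun t : ℝ => Real.log t - Real.log a - 1) (s⁻¹) s :=
    ((Real.hasDerivAt_log hs.ne').sub_const _).sub_const _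
  have h2 : HasDerivAt (fun t : ℝ => t * (Real.log t - Real.log a - 1))
      (1 * (Real.log s - Real.log a - 1) + s * s⁻¹) s := (hasDerivAt_id' s).mul h1
  have h3 : 1 * (Real.log s - Real.log a - 1) + s * s⁻¹ = Real.log s - Real.log a := by
    rw [mul_inv_cancel₀ hs.ne']
    ring
  rw [h3] at h2
  exact h2

/-- The one-variable entropy term is Lipschitz on an interval of positive numbers on which the
logarithm stays close to `log a`. -/
private theorem vterm_lipschitz (a lo hi L : ℝ) (hlo : 0 < lo)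
    (hL : ∀ s, lo ≤ s → s ≤ hi → |Real.log s - Real.log a| ≤ L)
    (p q : ℝ) (hp : p ∈ Icc lo hi) (hq : q ∈ Icc lo hi) :
    |vterm a p - vterm a q| ≤ L * |p - q| := by
  have h := Convex.norm_image_sub_le_of_norm_hasDerivWithin_le (f := vterm a)
    (f' := fun s => Real.log s - Real.log a) (C := L) (s := Icc lo hi)
    (fun s hs => (vterm_hasDerivAt a s (lt_of_lt_of_le hlo hs.1)).hasDerivWithinAt)
    (fun s hs => by rw [Real.norm_eq_abs]; exact hL s hs.1 hs.2)
    (convex_Icc lo hi) hq hp
  rwa [Real.norm_eq_abs, Real.norm_eq_abs] at h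

open Classical in
/-- In the region where the `W`-coordinates are at most `ρ₂` and the other coordinates lie in
`[η, b]`, the values of the laws are positive with bounded logarithms, and the corner function
differs from the entropy of the `W`-coordinates by at most a multiple of their sum. -/
theorem vertV_bounds (xs : ι → ℝ) (hxs : ∀ i, 0 < xs i) (W : Finset ι) (u : ι → ι → ℝ)
    (hu : ∀ j, j ∉ W → u j j = 1 ∧ ∀ k, k ∉ W → k ≠ j → u j k = 0) (η b : ℝ) (hη : 0 < η) :
    ∃ ρ₂ C₁ L : ℝ, 0 < ρ₂ ∧ 0 ≤ C₁ ∧ 0 ≤ L ∧ ∀ x : ι → ℝ, (∀ i, 0 < x i) →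
      (∀ i ∈ W, x i ≤ ρ₂) → (∀ j, j ∉ W → η ≤ x j ∧ x j ≤ b) →
      (∀ j, j ∉ W → 0 < ∑ i, u j i * x i ∧
        |Real.log (∑ i, u j i * x i) - Real.log (xs j)| ≤ L) ∧
      |vertV xs W u x - ∑ i ∈ W, vterm (xs i) (x i)| ≤ C₁ * ∑ i ∈ W, x i := by
  set U : ℝ := 1 + ∑ j, ∑ i, |u j i| with hUdef
  have hU1 : 1 ≤ U := by
    have : 0 ≤ ∑ j, ∑ i, |u j i| :=
      Finset.sum_nonneg (fun j _ => Finset.sum_nonneg (fun i _ => abs_nonneg _))
    linarith
  have hUpos : 0 < U := by linarith
  have huU : ∀ j i, |u j i| ≤ U := by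
    intro j i
    have h1 : |u j i| ≤ ∑ i', |u j i'| :=
      Finset.single_le_sum (f := fun i' => |u j i'|) (fun _ _ => abs_nonneg _)
        (Finset.mem_univ i)
    have h2 : ∑ i', |u j i'| ≤ ∑ j', ∑ i', |u j' i'| :=
      Finset.single_le_sum (f := fun j' => ∑ i', |u j' i'|)
        (fun _ _ => Finset.sum_nonneg (fun _ _ => abs_nonneg _)) (Finset.mem_univ j)
    linarith
  set cW : ℝ := (W.card : ℝ) with hcW
  have hcW0 : 0 ≤ cW := Nat.cast_nonneg _
  have hden : 0 < U * (cW + 1) := by positivity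
  set ρ₂ : ℝ := (η / 2) / (U * (cW + 1)) with hρdef
  have hρpos : 0 < ρ₂ := by positivity
  set L : ℝ := |Real.log (η / 2)| + |Real.log (b + η / 2)| + ∑ j, |Real.log (xs j)| with hLdef
  have hL0 : 0 ≤ L := by
    have h1 : 0 ≤ ∑ j, |Real.log (xs j)| := Finset.sum_nonneg (fun _ _ => abs_nonneg _)
    have h2 := abs_nonneg (Real.log (η / 2))
    have h3 := abs_nonneg (Real.log (b + η / 2))
    linarith
  refine ⟨ρ₂, (Fintype.card ι : ℝ) * (L * U), L, hρpos, by positivity, hL0, ?_⟩
  intro x hx hxW hxN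
  set S : ℝ := ∑ i ∈ W, x i with hSdef
  have hS0 : 0 ≤ S := Finset.sum_nonneg (fun i _ => (hx i).le)
  have hSle : S ≤ cW * ρ₂ := by
    have h1 : ∑ i ∈ W, x i ≤ ∑ _i ∈ W, ρ₂ := Finset.sum_le_sum hxW
    rw [Finset.sum_const, nsmul_eq_mul] at h1
    exact h1
  have hUS : U * S ≤ η / 2 := by
    have h1 : U * S ≤ U * (cW * ρ₂) := mul_le_mul_of_nonneg_left hSle hUpos.le
    have h2 : U * (cW * ρ₂) = (η / 2) * (cW / (cW + 1)) := by
      rw [hρdef]
      field_simp
    have h3 : cW / (cW + 1) ≤ 1 := by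
      rw [div_le_one (by linarith)]
      linarith
    have h4 : (η / 2) * (cW / (cW + 1)) ≤ η / 2 := by
      have h5 : 0 ≤ η / 2 := by linarith
      nlinarith
    linarith
  have hsplit : ∀ j, j ∉ W → ∑ i, u j i * x i = x j + ∑ i ∈ W, u j i * x i := by
    intro j hj
    rw [← Finset.sum_add_sum_compl W (fun i => u j i * x i)]
    have h1 : ∑ i ∈ Wᶜ, u j i * x i = x j := by
      rw [Finset.sum_eq_single j]
      · rw [(hu j hj).1, one_mul]
      · intro k hk hkj
        rw [(hu j hj).2 k (Finset.mem_compl.mp hk) hkj, zero_mul]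
      · intro h
        exact absurd (Finset.mem_compl.mpr hj) h
    rw [h1]
    ring
  have hdelta : ∀ j, |∑ i ∈ W, u j i * x i| ≤ U * S := by
    intro j
    calc |∑ i ∈ W, u j i * x i| ≤ ∑ i ∈ W, |u j i * x i| := Finset.abs_sum_le_sum_abs _ _
      _ ≤ ∑ i ∈ W, U * x i := by
          apply Finset.sum_le_sum
          intro i _
          rw [abs_mul, abs_of_pos (hx i)]
          exact mul_le_mul_of_nonneg_right (huU j i) (hx i).le
      _ = U * S := by rw [hSdef, Finset.mul_sum]
  have hint : ∀ j, j ∉ W →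
      η / 2 ≤ ∑ i, u j i * x i ∧ ∑ i, u j i * x i ≤ b + η / 2 := by
    intro j hj
    have h2 := abs_le.mp (le_trans (hdelta j) hUS)
    rw [hsplit j hj]
    obtain ⟨h3, h4⟩ := hxN j hj
    constructor <;> linarith [h2.1, h2.2]
  have hlogI : ∀ s, η / 2 ≤ s → s ≤ b + η / 2 →
      |Real.log s| ≤ |Real.log (η / 2)| + |Real.log (b + η / 2)| := by
    intro s hs1 hs2
    have hpos : 0 < η / 2 := by linarith
    have h1 : Real.log (η / 2) ≤ Real.log s := Real.log_le_log hpos hs1
    have h2 : Real.log s ≤ Real.log (b + η / 2) := Real.log_le_log (by linarith) hs2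
    rw [abs_le]
    constructor
    · have h3 := neg_abs_le (Real.log (η / 2))
      have h4 := abs_nonneg (Real.log (b + η / 2))
      linarith
    · have h3 := le_abs_self (Real.log (b + η / 2))
      have h4 := abs_nonneg (Real.log (η / 2))
      linarith
  have hlogxs : ∀ j, |Real.log (xs j)| ≤ ∑ j', |Real.log (xs j')| := fun j =>
    Finset.single_le_sum (f := fun j' => |Real.log (xs j')|) (fun _ _ => abs_nonneg _)
      (Finset.mem_univ j)
  have hLbound : ∀ j s, η / 2 ≤ s → s ≤ b + η / 2 →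
      |Real.log s - Real.log (xs j)| ≤ L := by
    intro j s hs1 hs2
    have h1 := hlogI s hs1 hs2
    have h2 := hlogxs j
    have h3 : |Real.log s - Real.log (xs j)| ≤ |Real.log s| + |Real.log (xs j)| := abs_sub _ _
    rw [hLdef]
    linarith
  refine ⟨fun j hj => ⟨?_, ?_⟩, ?_⟩
  · have h1 := (hint j hj).1
    linarith
  · exact hLbound j _ (hint j hj).1 (hint j hj).2
  · have hent : entropy xs x
        = ∑ i ∈ W, vterm (xs i) (x i) + ∑ j with j ∉ W, vterm (xs j) (x j) := by
      have h1 : entropy xs x = ∑ i, vterm (xs i) (x i) := rfl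
      rw [h1, ← Finset.sum_filter_add_sum_filter_not Finset.univ (fun i => i ∈ W)]
      congr 1
      apply Finset.sum_congr _ (fun _ _ => rfl)
      ext i
      simp
    have hdiff : vertV xs W u x - ∑ i ∈ W, vterm (xs i) (x i)
        = ∑ j with j ∉ W, (vterm (xs j) (x j) - vterm (xs j) (∑ i, u j i * x i)) := by
      unfold vertV
      rw [hent, Finset.sum_sub_distrib]
      ring
    rw [hdiff]
    calc |∑ j with j ∉ W, (vterm (xs j) (x j) - vterm (xs j) (∑ i, u j i * x i))|
        ≤ ∑ j with j ∉ W, |vterm (xs j) (x j) - vterm (xs j) (∑ i, u j i * x i)| :=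
          Finset.abs_sum_le_sum_abs _ _
      _ ≤ ∑ j with j ∉ W, L * (U * S) := by
          apply Finset.sum_le_sum
          intro j hj
          have hjW : j ∉ W := (Finset.mem_filter.mp hj).2
          obtain ⟨h3, h4⟩ := hxN j hjW
          have hp : x j ∈ Icc (η / 2) (b + η / 2) := ⟨by linarith, by linarith⟩
          have hq : ∑ i, u j i * x i ∈ Icc (η / 2) (b + η / 2) :=
            ⟨(hint j hjW).1, (hint j hjW).2⟩
          have h5 := vterm_lipschitz (xs j) (η / 2) (b + η / 2) L (by linarith) (hLbound j)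
            _ _ hp hq
          have h6 : |x j - ∑ i, u j i * x i| ≤ U * S := by
            rw [hsplit j hjW]
            have h7 : x j - (x j + ∑ i ∈ W, u j i * x i) = -(∑ i ∈ W, u j i * x i) := by ring
            rw [h7, abs_neg]
            exact hdelta j
          exact le_trans h5 (mul_le_mul_of_nonneg_left h6 hL0)
      _ = ((Finset.univ.filter (fun j => j ∉ W)).card : ℝ) * (L * (U * S)) := by
          rw [Finset.sum_const, nsmul_eq_mul]
      _ ≤ (Fintype.card ι : ℝ) * (L * (U * S)) := by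
          apply mul_le_mul_of_nonneg_right
          · exact_mod_cast Finset.card_le_univ _
          · positivity
      _ = (Fintype.card ι : ℝ) * (L * U) * S := by ring

end Vale.Agent.Lib.P072
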