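import Vale.Agent.Lib.P072.VertDefs

/-!
# From the corner properties to a lower bound along solutions
-/

namespace Vale.Agent.Lib.P072

open Set

set_option linter.unusedSectionVars false

variable {R R₁ R₂ ι : Type} [Fintype R] [Fintype R₁] [Fintype R₂] [Fintype ι]

/-- Finitely many positive numbers have a common positive lower bound. -/
private lemma exists_pos_le_finset {α : Type} (s : Finset α) (f : α → ℝ)
    (hf : ∀ a, 0 < f a) : ∃ ε : ℝ, 0 < ε ∧ ∀ a ∈ s, ε ≤ f a := by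
  classical
  induction s using Finset.induction_on with
  | empty => exact ⟨1, one_pos, by simp⟩
  | insert a s _ ih =>
    obtain ⟨ε, hε, h⟩ := ih
    refine ⟨min ε (f a), lt_min hε (hf a), ?_⟩
    intro a' ha'
    rcases Finset.mem_insert.1 ha' with rfl | ha'
    · exact min_le_right _ _
    · exact (min_le_left _ _).trans (h a' ha')

/-- The induction step for one set `W` of the family: if all sets of the family with more
elements keep a coordinate above `ε₁`, then `W` keeps a coordinate above a positive bound. -/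
private lemma chain_step_one (N : MAS R ι) (c : ι → ℝ) (bad : Finset ι → Prop)
    (hup : ∀ W W' : Finset ι, bad W → W ⊆ W' → bad W') (hne : ¬ bad ∅)
    (b σ₀ : ℝ) (m : ℕ) (ε₁ : ℝ) (hε₁ : 0 < ε₁) (hε₁σ : ε₁ ≤ σ₀)
    (hQ : ∀ x : ℝ → ι → ℝ, N.IsSol x → (∀ t, 0 ≤ t → x t ∈ N.posClass c) →
      ∀ T₁ : ℝ, 0 ≤ T₁ → (∀ i, σ₀ ≤ x T₁ i) → (∀ t, T₁ ≤ t → ∀ i, x t i ≤ b) →
      ∀ t, T₁ ≤ t → ∀ W, bad W → Fintype.card ι < W.card + m → ∃ i ∈ W, ε₁ ≤ x t i)
    (W : Finset ι) (hW : bad W) (hcp : CornerProp N c W) :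
    ∃ δ : ℝ, 0 < δ ∧ ∀ x : ℝ → ι → ℝ, N.IsSol x → (∀ t, 0 ≤ t → x t ∈ N.posClass c) →
      ∀ T₁ : ℝ, 0 ≤ T₁ → (∀ i, σ₀ ≤ x T₁ i) → (∀ t, T₁ ≤ t → ∀ i, x t i ≤ b) →
      ∀ t, T₁ ≤ t → Fintype.card ι < W.card + (m + 1) → ∃ i ∈ W, δ ≤ x t i := by
  classical
  obtain ⟨ρ, hρ0, hρ1, hρ⟩ := hcp ε₁ b ε₁ hε₁ hε₁
  obtain ⟨ε', hε'0, hε'⟩ := hρ ρ hρ0
  refine ⟨min ρ ε', lt_min hρ0 hε'0, ?_⟩
  intro x hsol hpos T₁ hT₁ hσ hb t ht hcard
  by_cases h : ∃ i ∈ W, ρ ≤ x t i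
  · obtain ⟨i, hi, hi'⟩ := h
    exact ⟨i, hi, (min_le_left _ _).trans hi'⟩
  push Not at h
  -- continuity of the coordinates on the closed half line
  have hcont : ContinuousOn x (Ici 0) := fun s hs => (hsol s hs).continuousWithinAt
  have hci : ∀ i, ContinuousOn (fun s => x s i) (Ici 0) := fun i =>
    (continuous_apply i).comp_continuousOn hcont
  have hWne : W.Nonempty := by
    rcases Finset.eq_empty_or_nonempty W with h0 | h0
    · exact absurd (h0 ▸ hW) hne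
    · exact h0
  -- the set of times at which some coordinate of `W` is at least `ρ`
  set S : Set ℝ := ⋃ i ∈ W, (Icc T₁ t ∩ (fun s => x s i) ⁻¹' (Ici ρ)) with hS
  have hmem : ∀ s, s ∈ S ↔ ∃ i ∈ W, s ∈ Icc T₁ t ∧ ρ ≤ x s i := by
    intro s
    simp only [hS, Set.mem_iUnion, Set.mem_inter_iff, Set.mem_preimage, Set.mem_Ici,
      exists_prop]
  have hSclosed : IsClosed S := by
    refine isClosed_biUnion_finset fun i _ => ?_
    exact ((hci i).mono (fun s hs => le_trans hT₁ hs.1)).preimage_isClosed_of_isClosed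
      isClosed_Icc isClosed_Ici
  have hSne : S.Nonempty := by
    obtain ⟨i, hi⟩ := hWne
    exact ⟨T₁, (hmem T₁).2 ⟨i, hi, ⟨le_refl _, ht⟩, by linarith [hσ i]⟩⟩
  have hSbdd : BddAbove S := ⟨t, fun s hs => by
    obtain ⟨i, _, hs', _⟩ := (hmem s).1 hs
    exact hs'.2⟩
  have hts : sSup S ∈ S := hSclosed.csSup_mem hSne hSbdd
  obtain ⟨i₀, hi₀, htsI, hi₀ρ⟩ := (hmem (sSup S)).1 hts
  have hts_lt : sSup S < t := by
    rcases lt_or_eq_of_le htsI.2 with h1 | h1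
    · exact h1
    · exfalso
      have h2 := h i₀ hi₀
      rw [← h1] at h2
      linarith
  have hts0 : 0 ≤ sSup S := le_trans hT₁ htsI.1
  have hlate : ∀ s ∈ Ioc (sSup S) t, ∀ i ∈ W, x s i < ρ := by
    intro s hs i hi
    by_contra hcon
    push Not at hcon
    have hsS : s ∈ S := (hmem s).2 ⟨i, hi, ⟨le_trans htsI.1 hs.1.le, hs.2⟩, hcon⟩
    have h3 := le_csSup hSbdd hsS
    exact absurd hs.1 (not_lt.2 h3)
  have hat : ∀ i ∈ W, x (sSup S) i ≤ ρ := by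
    intro i hi
    have hcl : sSup S ∈ closure (Ioc (sSup S) t) := by
      rw [closure_Ioc (ne_of_lt hts_lt)]
      exact ⟨le_refl _, hts_lt.le⟩
    have hf : ContinuousWithinAt (fun s => x s i) (Ioc (sSup S) t) (sSup S) :=
      ((hci i) (sSup S) hts0).mono (fun s hs => le_trans hts0 hs.1.le)
    exact ContinuousWithinAt.closure_le hcl hf continuousWithinAt_const
      (fun s hs => (hlate s hs i hi).le)
  have hall : ∀ s ∈ Icc (sSup S) t, ∀ i ∈ W, x s i ≤ ρ := by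
    intro s hs i hi
    rcases eq_or_lt_of_le hs.1 with h1 | h1
    · rw [← h1]
      exact hat i hi
    · exact (hlate s ⟨h1, hs.2⟩ i hi).le
  have hout : ∀ s ∈ Icc (sSup S) t, ∀ j, j ∉ W → ε₁ ≤ x s j ∧ x s j ≤ b := by
    intro s hs j hj
    have hTs : T₁ ≤ s := le_trans htsI.1 hs.1
    refine ⟨?_, hb s hTs j⟩
    have hbadins : bad (insert j W) := hup W _ hW (Finset.subset_insert j W)
    have hcardins : Fintype.card ι < (insert j W).card + m := by
      rw [Finset.card_insert_of_notMem hj]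
      omega
    obtain ⟨i', hi', hi'ε⟩ :=
      hQ x hsol hpos T₁ hT₁ hσ hb s hTs (insert j W) hbadins hcardins
    rcases Finset.mem_insert.1 hi' with rfl | hi'W
    · exact hi'ε
    · exfalso
      have h4 := hall s hs i' hi'W
      linarith
  obtain ⟨i, hi, hiε⟩ := hε' x hsol hpos (sSup S) t hts0 hts_lt.le
    (fun s hs => ⟨fun j hj => hout s hs j hj, fun i hi => hall s hs i hi⟩) ⟨i₀, hi₀, hi₀ρ⟩
  exact ⟨i, hi, (min_le_right _ _).trans hiε⟩

/-- If every set of an upward closed family of nonempty sets of species has the corner property,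
then along every solution that starts (at time `T₁`) with all coordinates at least `σ₀` and
stays below `b`, every set of the family keeps a coordinate above a positive bound that depends
only on `b` and `σ₀`. -/
theorem chain_lower (N : MAS R ι) (c : ι → ℝ) (bad : Finset ι → Prop)
    (hup : ∀ W W' : Finset ι, bad W → W ⊆ W' → bad W') (hne : ¬ bad ∅)
    (hcp : ∀ W, bad W → CornerProp N c W) (b σ₀ : ℝ) (hσ₀ : 0 < σ₀) :
    ∃ ε : ℝ, 0 < ε ∧ ∀ x : ℝ → ι → ℝ, N.IsSol x → (∀ t, 0 ≤ t → x t ∈ N.posClass c) →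
      ∀ T₁ : ℝ, 0 ≤ T₁ → (∀ i, σ₀ ≤ x T₁ i) → (∀ t, T₁ ≤ t → ∀ i, x t i ≤ b) →
      ∀ t, T₁ ≤ t → ∀ W, bad W → ∃ i ∈ W, ε ≤ x t i := by
  classical
  have hQ : ∀ m : ℕ, ∃ ε : ℝ, 0 < ε ∧ ε ≤ σ₀ ∧ ∀ x : ℝ → ι → ℝ, N.IsSol x →
      (∀ t, 0 ≤ t → x t ∈ N.posClass c) →
      ∀ T₁ : ℝ, 0 ≤ T₁ → (∀ i, σ₀ ≤ x T₁ i) → (∀ t, T₁ ≤ t → ∀ i, x t i ≤ b) →
      ∀ t, T₁ ≤ t → ∀ W, bad W → Fintype.card ι < W.card + m → ∃ i ∈ W, ε ≤ x t i := by
    intro m
    induction m with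
    | zero =>
      refine ⟨σ₀, hσ₀, le_refl _, ?_⟩
      intro x _ _ T₁ _ _ _ t _ W _ hcard
      exfalso
      have h5 := Finset.card_le_univ W
      omega
    | succ m ih =>
      obtain ⟨ε₁, hε₁, hε₁σ, hQm⟩ := ih
      have hone : ∀ W : Finset ι, ∃ δ : ℝ, 0 < δ ∧ (bad W → ∀ x : ℝ → ι → ℝ, N.IsSol x →
          (∀ t, 0 ≤ t → x t ∈ N.posClass c) →
          ∀ T₁ : ℝ, 0 ≤ T₁ → (∀ i, σ₀ ≤ x T₁ i) → (∀ t, T₁ ≤ t → ∀ i, x t i ≤ b) →
          ∀ t, T₁ ≤ t → Fintype.card ι < W.card + (m + 1) → ∃ i ∈ W, δ ≤ x t i) := by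
        intro W
        by_cases hW : bad W
        · obtain ⟨δ, hδ, h⟩ :=
            chain_step_one N c bad hup hne b σ₀ m ε₁ hε₁ hε₁σ hQm W hW (hcp W hW)
          exact ⟨δ, hδ, fun _ => h⟩
        · exact ⟨1, one_pos, fun h => absurd h hW⟩
      choose δ hδpos hδ using hone
      obtain ⟨ε₀, hε₀, hε₀le⟩ :=
        exists_pos_le_finset (Finset.univ : Finset (Finset ι)) δ hδpos
      refine ⟨min ε₁ ε₀, lt_min hε₁ hε₀, (min_le_left _ _).trans hε₁σ, ?_⟩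
      intro x hsol hpos T₁ hT₁ hσ hb t ht W hW hcard
      obtain ⟨i, hi, hiδ⟩ := hδ W hW x hsol hpos T₁ hT₁ hσ hb t ht hcard
      exact ⟨i, hi, ((min_le_right _ _).trans (hε₀le W (Finset.mem_univ W))).trans hiδ⟩
  obtain ⟨ε, hε, _, h⟩ := hQ (Fintype.card ι + 1)
  refine ⟨ε, hε, ?_⟩
  intro x hsol hpos T₁ hT₁ hσ hb t ht W hW
  have hWne : W.Nonempty := by
    rcases Finset.eq_empty_or_nonempty W with h0 | h0
    · exact absurd (h0 ▸ hW) hne
    · exact h0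
  have h6 := hWne.card_pos
  exact h x hsol hpos T₁ hT₁ hσ hb t ht W hW (by omega)

end Vale.Agent.Lib.P072
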