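import Vale.Agent.Lib.P072.BalMain2

/-!
# Corner functions for a complex-balanced rest system (internal definitions)

For a set `W` of species and a family `u j` (`j ∉ W`) of linear conservation laws of the rest
system with `u j k = [k = j]` for `k ∉ W`, the function `vertV` is the entropy-type function
minus the one-variable entropy terms of the values of the laws. The rest system does not
increase it, and near the face `x_W = 0` it is close to the entropy of the `W`-coordinates.
-/

namespace Vale.Agent.Lib.P072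

open Set

variable {R R₂ ι : Type} [Fintype R] [Fintype R₂] [Fintype ι]

/-- The one-variable entropy term `s * (log s - log a - 1)`. -/
noncomputable def vterm (a s : ℝ) : ℝ := s * (Real.log s - Real.log a - 1)

open Classical in
/-- The corner function of the set `W` for the family of laws `u`. -/
noncomputable def vertV (xs : ι → ℝ) (W : Finset ι) (u : ι → ι → ℝ) (x : ι → ℝ) : ℝ :=
  entropy xs x - ∑ j with j ∉ W, vterm (xs j) (∑ i, u j i * x i)

/-- `u j`, for `j ∉ W`, is a linear conservation law of `N₂` with `u j j = 1` and `u j k = 0`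
for the other `k ∉ W`. -/
def IsLawFamily (N₂ : MAS R₂ ι) (W : Finset ι) (u : ι → ι → ℝ) : Prop :=
  ∀ j, j ∉ W → (∀ r, ∑ i, u j i * N₂.vec r i = 0) ∧ u j j = 1 ∧
    ∀ k, k ∉ W → k ≠ j → u j k = 0

/-- The corner property of the set `W` of species on the class of `c`: along a solution that
stays, on a time interval, in the region where the `W`-coordinates are at most `ρ` and the
other coordinates lie in `[η, b]`, the largest `W`-coordinate stays above a positive bound
that depends only on its initial size. -/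
def CornerProp (N : MAS R ι) (c : ι → ℝ) (W : Finset ι) : Prop :=
  ∀ η b ρ₀ : ℝ, 0 < η → 0 < ρ₀ → ∃ ρ : ℝ, 0 < ρ ∧ ρ < ρ₀ ∧ ∀ σ : ℝ, 0 < σ → ∃ ε : ℝ, 0 < ε ∧
    ∀ x : ℝ → ι → ℝ, N.IsSol x → (∀ t, 0 ≤ t → x t ∈ N.posClass c) →
    ∀ t₀ t₁ : ℝ, 0 ≤ t₀ → t₀ ≤ t₁ →
      (∀ s ∈ Icc t₀ t₁, (∀ j, j ∉ W → η ≤ x s j ∧ x s j ≤ b) ∧ ∀ i ∈ W, x s i ≤ ρ) →
      (∃ i ∈ W, σ ≤ x t₀ i) → ∃ i ∈ W, ε ≤ x t₁ i

end Vale.Agent.Lib.P072
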