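import Vale.Agent.Lib.P072.VertDefs

/-!
# The derivative of the corner function along a curve
-/

namespace Vale.Agent.Lib.P072

open Set

set_option linter.unusedSectionVars false

variable {R R₁ R₂ ι : Type} [Fintype R] [Fintype R₁] [Fintype R₂] [Fintype ι]

/-- The derivative of the one-variable entropy term. -/
private lemma vert_hasDerivAt_vterm (a : ℝ) {s : ℝ} (hs : 0 < s) :
    HasDerivAt (fun σ => vterm a σ) (Real.log s - Real.log a) s := by
  unfold vterm
  have h := (hasDerivAt_id' s).mul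
    (((Real.hasDerivAt_log hs.ne').sub_const (Real.log a)).sub_const 1)
  refine h.congr_deriv ?_
  rw [mul_inv_cancel₀ hs.ne']
  ring

open Classical in
/-- Chain rule for the corner function `vertV`. -/
theorem hasDerivWithinAt_vertV (xs : ι → ℝ) (W : Finset ι) (u : ι → ι → ℝ) {γ : ℝ → ι → ℝ}
    {γ' : ι → ℝ} {s : Set ℝ} {t : ℝ} (hγ : HasDerivWithinAt γ γ' s t) (hpos : ∀ i, 0 < γ t i)
    (hl : ∀ j, j ∉ W → 0 < ∑ i, u j i * γ t i) :
    HasDerivWithinAt (fun τ => vertV xs W u (γ τ))
      (∑ i, (Real.log (γ t i) - Real.log (xs i)) * γ' i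
        - ∑ j with j ∉ W, (Real.log (∑ i, u j i * γ t i) - Real.log (xs j)) * ∑ i, u j i * γ' i)
      s t := by
  unfold vertV
  refine (hasDerivWithinAt_entropy xs hγ hpos).sub ?_
  apply HasDerivWithinAt.fun_sum
  intro j hj
  have hjW : j ∉ W := (Finset.mem_filter.mp hj).2
  have hlin : HasDerivWithinAt (fun τ => ∑ i, u j i * γ τ i) (∑ i, u j i * γ' i) s t := by
    apply HasDerivWithinAt.fun_sum
    intro i _
    exact (hasDerivWithinAt_pi.mp hγ i).const_mul (u j i)
  have hv : HasDerivAt (fun σ => vterm (xs j) σ)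
      (Real.log (∑ i, u j i * γ t i) - Real.log (xs j)) (∑ i, u j i * γ t i) :=
    vert_hasDerivAt_vterm (xs j) (hl j hjW)
  exact hv.comp_hasDerivWithinAt t hlin

end Vale.Agent.Lib.P072
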