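import Vale.Agent.Lib.P072.VertHit
import Vale.Agent.Lib.P072.VertSpanLaws

/-!
# The family of linear forms for a siphon on which part of the rest system stays active
-/

namespace Vale.Agent.Lib.P072

open Set

set_option linter.unusedSectionVars false

variable {R R₁ R₂ ι : Type} [Fintype R] [Fintype R₁] [Fintype R₂] [Fintype ι]

open Classical in
/-- Let `N₂` be complex balanced at `xs` and `W` a set of species that is not fed by `N₂`.
Call a reaction of `N₂` inactive if its source complex contains a species of `W`, and active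
otherwise. If the inactive reactions change no species that an active reaction changes, and no
nonzero vector of the span of the inactive reaction vectors vanishes on `W`, then there is a
family `u` of linear forms of the shape required by the corner function such that `N₂` does
not increase the corner function. -/
theorem exists_family_of_split (N₂ : MAS R₂ ι) (xs : ι → ℝ) (hxs : ∀ i, 0 < xs i)
    (hcb : N₂.ComplexBalancedAt xs) (W : Finset ι)
    (hnf : ∀ r, (∀ i ∈ W, N₂.src r i = 0) → ∀ i ∈ W, N₂.tgt r i = 0)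
    (hG1a : ∀ r r' : R₂, (∃ i ∈ W, 0 < N₂.src r i) → (∀ i ∈ W, N₂.src r' i = 0) →
      ∀ j, N₂.vec r j ≠ 0 → N₂.vec r' j = 0)
    (hG1b : ∀ s ∈ Submodule.span ℝ (N₂.vec '' {r | ∃ i ∈ W, 0 < N₂.src r i}),
      (∀ i ∈ W, s i = 0) → s = 0) :
    ∃ u : ι → ι → ℝ, (∀ j, j ∉ W → u j j = 1 ∧ ∀ k, k ∉ W → k ≠ j → u j k = 0) ∧
      ∀ x : ι → ℝ, (∀ i, 0 < x i) → (∀ j, j ∉ W → 0 < ∑ i, u j i * x i) →
        N₂.dissip xs x
          - ∑ j with j ∉ W, (Real.log (∑ i, u j i * x i) - Real.log (xs j))
              * ∑ i, u j i * N₂.field x i ≤ 0 := by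
  classical
  obtain ⟨u₀, hu₀⟩ := exists_laws_of_span (N₂.vec '' {r | ∃ i ∈ W, 0 < N₂.src r i}) W hG1b
  have hnh : ∀ r : R₂, (¬ ∃ i ∈ W, 0 < N₂.src r i) → ∀ i ∈ W, N₂.src r i = 0 := by
    intro r h i hi
    by_contra hne
    exact h ⟨i, hi, Nat.pos_of_ne_zero hne⟩
  let inA : ι → Prop := fun j =>
    j ∉ W ∧ ∃ r' : R₂, (∀ i ∈ W, N₂.src r' i = 0) ∧ N₂.vec r' j ≠ 0
  let u : ι → ι → ℝ := fun j => if inA j then Pi.single j 1 else u₀ j
  have huA : ∀ j, inA j → u j = Pi.single j 1 := fun j h => if_pos h
  have huN : ∀ j, ¬ inA j → u j = u₀ j := fun j h => if_neg h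
  refine ⟨u, ?_, ?_⟩
  · intro j hj
    by_cases hA : inA j
    · rw [huA j hA]
      exact ⟨Pi.single_eq_same j 1, fun k _ hkj => Pi.single_eq_of_ne hkj 1⟩
    · rw [huN j hA]
      exact ⟨(hu₀ j hj).2.1, (hu₀ j hj).2.2⟩
  · intro x hx _
    have F1 : ∀ r : R₂, (∀ i ∈ W, N₂.src r i = 0) → ∀ i ∈ W, N₂.vec r i = 0 := by
      intro r hr i hi
      simp [MAS.vec, hr i hi, hnf r hr i hi]
    have pA : ∀ j, inA j → ∀ v : ι → ℝ, ∑ i, u j i * v i = v j := by
      intro j hA v
      rw [huA j hA]
      simp [Pi.single_apply]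
    have F2 : ∀ r : R₂, (∀ i ∈ W, N₂.src r i = 0) → ∀ j, j ∉ W → ¬ inA j →
        N₂.vec r j = 0 := by
      intro r hr j hj hA
      by_contra hne
      exact hA ⟨hj, r, hr, hne⟩
    have pHit : ∀ r : R₂, (∃ i ∈ W, 0 < N₂.src r i) → ∀ j, j ∉ W →
        ∑ i, u j i * N₂.vec r i = 0 := by
      intro r hr j hj
      by_cases hA : inA j
      · rw [pA j hA]
        obtain ⟨_, r', hr', hne⟩ := hA
        by_contra hne2
        exact hne (hG1a r r' hr hr' j hne2)
      · rw [huN j hA]
        exact (hu₀ j hj).1 (N₂.vec r) (Set.mem_image_of_mem _ hr)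
    have pAct : ∀ r : R₂, (∀ i ∈ W, N₂.src r i = 0) → ∀ j, j ∉ W → ¬ inA j →
        ∑ i, u j i * N₂.vec r i = 0 := by
      intro r hr j hj hA
      rw [huN j hA]
      apply Finset.sum_eq_zero
      intro i _
      by_cases hi : i ∈ W
      · rw [F1 r hr i hi, mul_zero]
      · by_cases hij : i = j
        · rw [hij, F2 r hr j hj hA, mul_zero]
        · rw [(hu₀ j hj).2.2 i hi hij, zero_mul]
    have hfield : ∀ j, ∑ i, u j i * N₂.field x i
        = ∑ r, N₂.rate r * mono (N₂.src r) x * ∑ i, u j i * N₂.vec r i := by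
      intro j
      simp only [field_apply, Finset.mul_sum]
      rw [Finset.sum_comm]
      apply Finset.sum_congr rfl
      intro r _
      apply Finset.sum_congr rfl
      intro i _
      ring
    have hdis : N₂.dissip xs x = ∑ r, N₂.rate r * mono (N₂.src r) x
        * ∑ i, (Real.log (x i) - Real.log (xs i)) * N₂.vec r i := by
      unfold MAS.dissip
      simp only [field_apply, Finset.mul_sum]
      rw [Finset.sum_comm]
      apply Finset.sum_congr rfl
      intro r _
      apply Finset.sum_congr rfl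
      intro i _
      ring
    have h2 : ∑ j with j ∉ W, (Real.log (∑ i, u j i * x i) - Real.log (xs j))
          * ∑ i, u j i * N₂.field x i
        = ∑ r, N₂.rate r * mono (N₂.src r) x
          * ∑ j with j ∉ W, (Real.log (∑ i, u j i * x i) - Real.log (xs j))
            * ∑ i, u j i * N₂.vec r i := by
      simp only [hfield, Finset.mul_sum]
      rw [Finset.sum_comm]
      apply Finset.sum_congr rfl
      intro r _
      apply Finset.sum_congr rfl
      intro j _
      apply Finset.sum_congr rfl
      intro i _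
      ring
    refine le_of_eq_of_le ?_ (hit_dissip_nonpos N₂ xs hxs hcb W hnf x hx)
    rw [hdis, h2, ← Finset.sum_sub_distrib]
    apply Finset.sum_congr rfl
    intro r _
    by_cases hr : ∃ i ∈ W, 0 < N₂.src r i
    · rw [if_pos hr]
      have hz : ∑ j with j ∉ W, (Real.log (∑ i, u j i * x i) - Real.log (xs j))
          * ∑ i, u j i * N₂.vec r i = 0 := by
        apply Finset.sum_eq_zero
        intro j hj
        rw [pHit r hr j (Finset.mem_filter.mp hj).2, mul_zero]
      rw [hz, mul_zero, sub_zero]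
    · rw [if_neg hr]
      have hr' := hnh r hr
      have hterm : ∀ i, (Real.log (x i) - Real.log (xs i)) * N₂.vec r i
          = if i ∉ W then (Real.log (∑ i', u i i' * x i') - Real.log (xs i))
              * ∑ i', u i i' * N₂.vec r i' else 0 := by
        intro i
        by_cases hi : i ∈ W
        · rw [if_neg (not_not.mpr hi), F1 r hr' i hi, mul_zero]
        · rw [if_pos hi]
          by_cases hA : inA i
          · rw [pA i hA, pA i hA]
          · rw [F2 r hr' i hi hA, pAct r hr' i hi hA, mul_zero, mul_zero]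
      have hs : ∑ i, (Real.log (x i) - Real.log (xs i)) * N₂.vec r i
          = ∑ j with j ∉ W, (Real.log (∑ i, u j i * x i) - Real.log (xs j))
            * ∑ i, u j i * N₂.vec r i := by
        rw [Finset.sum_filter]
        exact Finset.sum_congr rfl (fun i _ => hterm i)
      rw [hs, sub_self]

end Vale.Agent.Lib.P072
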