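import Vale.Agent.Lib.P072.VertDefs
import Vale.Agent.Lib.P072.TVField

/-!
# The corner property of a set of species that is fed by a reaction
-/

namespace Vale.Agent.Lib.P072

open Set

set_option linter.unusedSectionVars false

variable {R R₁ R₂ ι : Type} [Fintype R] [Fintype R₁] [Fintype R₂] [Fintype ι]

/-- In the corner region the species `i₀` is produced at a rate bounded below, up to a term
proportional to its own concentration. -/
private lemma vertFed_field_ge (N : MAS R ι) (W : Finset ι) (r₀ : R)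
    (hsrc : ∀ i ∈ W, N.src r₀ i = 0) (i₀ : ι) (hi₀ : i₀ ∈ W) (htgt : 0 < N.tgt r₀ i₀)
    (η Bm : ℝ) (hη : 0 < η) :
    ∃ L : ℝ, 0 ≤ L ∧ ∀ x : ι → ℝ, (∀ j, 0 < x j) → (∀ j, x j ≤ Bm) →
      (∀ j, j ∉ W → η ≤ x j) →
      -L * x i₀ + N.rate r₀ / 2 * mono (N.src r₀) (fun _ => η) ≤ N.field x i₀ := by
  classical
  have hρ : ∀ r, 0 < (if r = r₀ then N.rate r₀ / 2 else N.rate r) := by
    intro r
    split_ifs
    · have := N.rate_pos r₀
      linarith
    · exact N.rate_pos r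
  obtain ⟨L, hL0, hL⟩ := field_ge_neg_mul
    (N.withRate (fun r => if r = r₀ then N.rate r₀ / 2 else N.rate r) hρ) Bm
  refine ⟨L, hL0, ?_⟩
  intro x hpos hB hW
  have h1 := hL x hpos hB i₀
  have hid : N.field x i₀ =
      (N.withRate (fun r => if r = r₀ then N.rate r₀ / 2 else N.rate r) hρ).field x i₀
        + N.rate r₀ / 2 * mono (N.src r₀) x * N.vec r₀ i₀ := by
    rw [field_apply, field_apply]
    have hterm : ∀ r, N.rate r * mono (N.src r) x * N.vec r i₀ =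
        (if r = r₀ then N.rate r₀ / 2 else N.rate r) * mono (N.src r) x * N.vec r i₀
          + (if r = r₀ then N.rate r₀ / 2 * mono (N.src r₀) x * N.vec r₀ i₀ else 0) := by
      intro r
      split_ifs with h
      · subst h
        ring
      · ring
    rw [Finset.sum_congr rfl (fun r _ => hterm r), Finset.sum_add_distrib,
      Finset.sum_ite_eq']
    simp only [Finset.mem_univ, if_true]
    rfl
  have hm : mono (N.src r₀) (fun _ => η) ≤ mono (N.src r₀) x := by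
    unfold mono
    apply Finset.prod_le_prod
    · intro i _
      exact pow_nonneg hη.le _
    · intro i _
      by_cases hi : i ∈ W
      · rw [hsrc i hi, pow_zero, pow_zero]
      · exact pow_le_pow_left₀ hη.le (hW i hi) _
  have hv : 1 ≤ N.vec r₀ i₀ := by
    have hv' : N.vec r₀ i₀ = (N.tgt r₀ i₀ : ℝ) - (N.src r₀ i₀ : ℝ) := rfl
    rw [hv', hsrc i₀ hi₀, Nat.cast_zero, sub_zero]
    exact Nat.one_le_cast.mpr htgt
  have hr : 0 < N.rate r₀ / 2 := by
    have := N.rate_pos r₀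
    linarith
  have hm0 : 0 < mono (N.src r₀) (fun _ => η) := mono_pos _ _ (fun _ => hη)
  have h2 : N.rate r₀ / 2 * mono (N.src r₀) (fun _ => η) ≤
      N.rate r₀ / 2 * mono (N.src r₀) x * N.vec r₀ i₀ := by
    calc N.rate r₀ / 2 * mono (N.src r₀) (fun _ => η)
        ≤ N.rate r₀ / 2 * mono (N.src r₀) x := mul_le_mul_of_nonneg_left hm hr.le
      _ = N.rate r₀ / 2 * mono (N.src r₀) x * 1 := (mul_one _).symm
      _ ≤ N.rate r₀ / 2 * mono (N.src r₀) x * N.vec r₀ i₀ :=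
          mul_le_mul_of_nonneg_left hv (mul_nonneg hr.le (le_trans hm0.le hm))
  rw [hid]
  linarith

/-- Linear growth of a coordinate whose derivative is at least `δ`. -/
private lemma vertFed_growth (N : MAS R ι) {x : ℝ → ι → ℝ} (hx : N.IsSol x) (i₀ : ι)
    {t₀ t₁ : ℝ} (h0 : 0 ≤ t₀) (h01 : t₀ ≤ t₁) (δ : ℝ)
    (hge : ∀ t ∈ Ico t₀ t₁, δ ≤ N.field (x t) i₀) :
    x t₀ i₀ + δ * (t₁ - t₀) ≤ x t₁ i₀ := by
  have hder : ∀ t, 0 ≤ t →
      HasDerivWithinAt (fun τ => -(x τ i₀)) (-(N.field (x t) i₀)) (Ici 0) t := by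
    intro t ht
    exact (hasDerivWithinAt_pi.mp (hx t ht) i₀).neg
  have hcont : ContinuousOn (fun τ => -(x τ i₀)) (Icc t₀ t₁) := by
    intro t ht
    have ht0 : 0 ≤ t := le_trans h0 ht.1
    exact ((hder t ht0).continuousWithinAt).mono (fun s hs => le_trans h0 hs.1)
  have hB : ∀ t : ℝ, HasDerivAt (fun τ : ℝ => -(x t₀ i₀) - δ * (τ - t₀)) (-δ) t := by
    intro t
    have h1 : HasDerivAt (fun τ : ℝ => δ * (τ - t₀)) (δ * 1) t :=
      ((hasDerivAt_id t).sub_const t₀).const_mul δ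
    have h2 := (hasDerivAt_const t (-(x t₀ i₀))).sub h1
    have e : (0 : ℝ) - δ * 1 = -δ := by ring
    rw [e] at h2
    exact h2
  have key := image_le_of_deriv_right_le_deriv_boundary (f := fun τ => -(x τ i₀))
    (f' := fun t => -(N.field (x t) i₀)) (a := t₀) (b := t₁) hcont
    (fun t ht => (hder t (le_trans h0 ht.1)).mono (Ici_subset_Ici.mpr (le_trans h0 ht.1)))
    (B := fun t => -(x t₀ i₀) - δ * (t - t₀)) (B' := fun _ => -δ)
    (by simp) (fun t _ => (hB t).continuousAt.continuousWithinAt)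
    (fun t _ => (hB t).hasDerivWithinAt) (fun t ht => neg_le_neg (hge t ht))
  have h := key (right_mem_Icc.mpr h01)
  have h' : -(x t₁ i₀) ≤ -(x t₀ i₀) - δ * (t₁ - t₀) := h
  linarith

/-- If some reaction has a source complex without species of `W` and a target complex with a
species of `W`, then `W` has the corner property: in the corner region that species is produced
at a rate bounded below, so a solution leaves the region within a bounded time. -/
theorem cornerProp_of_fed (N : MAS R ι) (c : ι → ℝ) (W : Finset ι) (r₀ : R)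
    (hsrc : ∀ i ∈ W, N.src r₀ i = 0) (i₀ : ι) (hi₀ : i₀ ∈ W) (htgt : 0 < N.tgt r₀ i₀) :
    CornerProp N c W := by
  classical
  intro η b ρ₀ hη hρ₀
  obtain ⟨Bm, hBmdef⟩ : ∃ Bm : ℝ, Bm = max b ρ₀ := ⟨_, rfl⟩
  have hbBm : b ≤ Bm := by
    rw [hBmdef]
    exact le_max_left _ _
  have hρBm : ρ₀ ≤ Bm := by
    rw [hBmdef]
    exact le_max_right _ _
  obtain ⟨L, hL0, hL⟩ := vertFed_field_ge N W r₀ hsrc i₀ hi₀ htgt η Bm hη
  obtain ⟨L₀, hL₀0, hL₀⟩ := field_ge_neg_mul N Bm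
  obtain ⟨a, hadef⟩ : ∃ a : ℝ, a = N.rate r₀ / 2 * mono (N.src r₀) (fun _ => η) := ⟨_, rfl⟩
  have ha : 0 < a := by
    rw [hadef]
    have := N.rate_pos r₀
    exact mul_pos (by linarith) (mono_pos _ _ (fun _ => hη))
  obtain ⟨ρ, hρdef⟩ : ∃ ρ : ℝ, ρ = min (ρ₀ / 2) (a / (2 * (L + 1))) := ⟨_, rfl⟩
  have hL1 : 0 < 2 * (L + 1) := by linarith
  have hρpos : 0 < ρ := by
    rw [hρdef]
    exact lt_min (by linarith) (div_pos ha hL1)
  have hρlt : ρ < ρ₀ := by
    rw [hρdef]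
    exact lt_of_le_of_lt (min_le_left _ _) (by linarith)
  have hρa : ρ ≤ a / (2 * (L + 1)) := by
    rw [hρdef]
    exact min_le_right _ _
  have hLρ : L * ρ ≤ a / 2 := by
    have h1 : ρ * (2 * (L + 1)) ≤ a := (le_div_iff₀ hL1).mp hρa
    nlinarith
  refine ⟨ρ, hρpos, hρlt, ?_⟩
  intro σ hσ
  refine ⟨σ * Real.exp (-L₀ * (2 * ρ / a)), mul_pos hσ (Real.exp_pos _), ?_⟩
  intro x hsol hP t₀ t₁ ht₀ ht01 hreg hex
  obtain ⟨i, hi, hσi⟩ := hex
  have hpos : ∀ s, 0 ≤ s → ∀ j, 0 < x s j := fun s hs => (hP s hs).1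
  have hB : ∀ s ∈ Icc t₀ t₁, ∀ j, x s j ≤ Bm := by
    intro s hs j
    by_cases hj : j ∈ W
    · exact le_trans ((hreg s hs).2 j hj) (le_trans hρlt.le hρBm)
    · exact le_trans ((hreg s hs).1 j hj).2 hbBm
  have hfield : ∀ s ∈ Ico t₀ t₁, a / 2 ≤ N.field (x s) i₀ := by
    intro s hs
    have hs' : s ∈ Icc t₀ t₁ := ⟨hs.1, hs.2.le⟩
    have h0s : 0 ≤ s := le_trans ht₀ hs.1
    have h1 := hL (x s) (hpos s h0s) (hB s hs') (fun j hj => ((hreg s hs').1 j hj).1)
    have h2 : x s i₀ ≤ ρ := (hreg s hs').2 i₀ hi₀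
    rw [← hadef] at h1
    have h3 : L * x s i₀ ≤ L * ρ := mul_le_mul_of_nonneg_left h2 hL0
    linarith
  have hgrow := vertFed_growth N hsol i₀ ht₀ ht01 (a / 2) hfield
  have hx1 : x t₁ i₀ ≤ ρ := (hreg t₁ (right_mem_Icc.mpr ht01)).2 i₀ hi₀
  have hx0 : 0 < x t₀ i₀ := hpos t₀ ht₀ i₀
  have htime : t₁ - t₀ ≤ 2 * ρ / a := by
    rw [le_div_iff₀ ha]
    nlinarith
  have hγ : ∀ t ∈ Icc t₀ t₁, HasDerivWithinAt x (N.field (x t)) (Icc t₀ t₁) t := by
    intro t ht
    exact (hsol t (le_trans ht₀ ht.1)).mono (fun s hs => le_trans ht₀ hs.1)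
  have hlow := sol_lower_bound N hL₀ hγ hB (hpos t₀ ht₀) t₁ (right_mem_Icc.mpr ht01) i
  refine ⟨i, hi, ?_⟩
  have hexp : Real.exp (-L₀ * (2 * ρ / a)) ≤ Real.exp (-L₀ * (t₁ - t₀)) := by
    apply Real.exp_le_exp.mpr
    have h4 : L₀ * (t₁ - t₀) ≤ L₀ * (2 * ρ / a) := mul_le_mul_of_nonneg_left htime hL₀0
    linarith
  calc σ * Real.exp (-L₀ * (2 * ρ / a))
      ≤ x t₀ i * Real.exp (-L₀ * (t₁ - t₀)) :=
        mul_le_mul hσi hexp (Real.exp_pos _).le (le_trans hσ.le hσi)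
    _ ≤ x t₁ i := hlow

end Vale.Agent.Lib.P072
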