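import Vale.Agent.Lib.P072.VertCorner

/-!
# The corner property from a family of linear forms that the rest system respects

A version of the corner property for a family `u` of linear forms of the right shape such that
the rest system does not increase the corner function; the forms need not be conservation laws
of the whole rest system.
-/

namespace Vale.Agent.Lib.P072

open Set

set_option linter.unusedSectionVars false

variable {R R₁ R₂ ι : Type} [Fintype R] [Fintype R₁] [Fintype R₂] [Fintype ι]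

/-- The pairing of a vector with the field, as a sum over reactions. -/
lemma pair_field_sum (N : MAS R ι) (u x : ι → ℝ) :
    ∑ i, u i * N.field x i = ∑ r, N.rate r * mono (N.src r) x * ∑ i, u i * N.vec r i := by
  have h1 : ∀ i, u i * N.field x i = ∑ r, N.rate r * mono (N.src r) x * (u i * N.vec r i) := by
    intro i
    rw [field_apply, Finset.mul_sum]
    exact Finset.sum_congr rfl (fun r _ => by ring)
  rw [Finset.sum_congr rfl (fun i _ => h1 i), Finset.sum_comm]
  exact Finset.sum_congr rfl (fun r _ => by rw [← Finset.mul_sum])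

/-- The pairing of a vector with the field is bounded by a constant times the sum of the
monomials. -/
lemma field_pair_bound (N : MAS R ι) (xs : ι → ℝ) (hxs : ∀ i, 0 < xs i) (u : ι → ℝ) :
    ∃ C : ℝ, 0 ≤ C ∧ ∀ x : ι → ℝ, (∀ i, 0 < x i) →
      |∑ i, u i * N.field x i| ≤ C * ∑ r : R, Real.exp (cw xs x (N.src r)) := by
  have hmono : ∀ r : R, 0 ≤ mono (N.src r) xs := by
    intro r
    unfold mono
    exact Finset.prod_nonneg (fun i _ => pow_nonneg (hxs i).le _)
  refine ⟨∑ r : R, N.rate r * mono (N.src r) xs * |∑ i, u i * N.vec r i|, ?_, ?_⟩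
  · exact Finset.sum_nonneg (fun r _ =>
      mul_nonneg (mul_nonneg (N.rate_pos r).le (hmono r)) (abs_nonneg _))
  · intro x hx
    rw [pair_field_sum, Finset.sum_mul]
    refine (Finset.abs_sum_le_sum_abs _ _).trans (Finset.sum_le_sum (fun r _ => ?_))
    have hS : Real.exp (cw xs x (N.src r)) ≤ ∑ q : R, Real.exp (cw xs x (N.src q)) :=
      Finset.single_le_sum (f := fun q : R => Real.exp (cw xs x (N.src q)))
        (fun q _ => (Real.exp_pos _).le) (Finset.mem_univ r)
    have hc : 0 ≤ N.rate r * mono (N.src r) xs * |∑ i, u i * N.vec r i| :=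
      mul_nonneg (mul_nonneg (N.rate_pos r).le (hmono r)) (abs_nonneg _)
    rw [mono_eq_mul_exp_cw xs x hxs hx (N.src r), abs_mul, abs_mul, abs_mul,
      abs_of_pos (N.rate_pos r), abs_of_nonneg (hmono r), abs_of_pos (Real.exp_pos _)]
    calc N.rate r * (mono (N.src r) xs * Real.exp (cw xs x (N.src r)))
          * |∑ i, u i * N.vec r i|
        = N.rate r * mono (N.src r) xs * |∑ i, u i * N.vec r i|
          * Real.exp (cw xs x (N.src r)) := by ring
      _ ≤ N.rate r * mono (N.src r) xs * |∑ i, u i * N.vec r i|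
          * ∑ q : R, Real.exp (cw xs x (N.src q)) := mul_le_mul_of_nonneg_left hS hc

/-- For a strongly connected system: every positive point of the class of `c` either lies in a
fixed box inside the positive orthant (depending on `K`), or the dissipation there is at most
minus `K` times the sum of the monomials. -/
theorem dissip_outside_boxK (N₁ : MAS R₁ ι) (h₁ : N₁.StronglyConnected) (xs : ι → ℝ)
    (hxs : ∀ i, 0 < xs i) (c : ι → ℝ) (hc : ∀ i, 0 < c i) (K : ℝ) (hK : 0 < K) :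
    ∃ δ B : ℝ, 0 < δ ∧ ∀ x : ι → ℝ, (∀ i, 0 < x i) → x - c ∈ N₁.stoich →
      (∀ i, δ ≤ x i ∧ x i ≤ B) ∨
        N₁.dissip xs x ≤ - (K * ∑ r : R₁, Real.exp (cw xs x (N₁.src r))) := by
  rcases isEmpty_or_nonempty R₁ with hR | hR
  · refine ⟨1, 1, one_pos, ?_⟩
    intro x hx _
    right
    have hD₁ : N₁.dissip xs x = 0 := by
      unfold MAS.dissip MAS.field
      simp
    rw [hD₁]
    simp
  · have hcard : (0 : ℝ) < Fintype.card R₁ := by
      exact_mod_cast Fintype.card_pos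
    obtain ⟨Θ, -, hΘ⟩ := dissip_le_of_spreadK N₁ h₁ xs hxs (K * Fintype.card R₁)
      (mul_pos hK hcard)
    obtain ⟨δ, B, hδ, hcore⟩ := core_bounds N₁ h₁ xs c hc Θ
    refine ⟨δ, B, hδ, ?_⟩
    intro x hx hxc
    by_cases hsp : ∀ r₁ r₂, cw xs x (N₁.src r₁) - cw xs x (N₁.src r₂) ≤ Θ
    · exact Or.inl (hcore x hx hxc hsp)
    · right
      push Not at hsp
      obtain ⟨r₁, r₂, hr⟩ := hsp
      have hall : ∀ r₀ : R₁,
          N₁.dissip xs x ≤ - (K * Fintype.card R₁ * Real.exp (cw xs x (N₁.src r₀))) :=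
        fun r₀ => hΘ x hx r₁ r₂ hr.le r₀
      have hsum : ∑ _r₀ : R₁, N₁.dissip xs x
          ≤ ∑ r₀ : R₁, - (K * Fintype.card R₁ * Real.exp (cw xs x (N₁.src r₀))) :=
        Finset.sum_le_sum (fun r₀ _ => hall r₀)
      rw [Finset.sum_const, Finset.card_univ, nsmul_eq_mul, Finset.sum_neg_distrib,
        ← Finset.mul_sum] at hsum
      have h3 : (Fintype.card R₁ : ℝ) * N₁.dissip xs x
          ≤ (Fintype.card R₁ : ℝ) * (- (K * ∑ r : R₁, Real.exp (cw xs x (N₁.src r)))) := by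
        calc (Fintype.card R₁ : ℝ) * N₁.dissip xs x
            ≤ - (K * Fintype.card R₁ * ∑ r : R₁, Real.exp (cw xs x (N₁.src r))) := hsum
          _ = (Fintype.card R₁ : ℝ) * (- (K * ∑ r : R₁, Real.exp (cw xs x (N₁.src r)))) := by
              ring
      exact le_of_mul_le_mul_left h3 hcard

open Classical in
/-- Near the face of a nonempty set `W`, for a family `u` of linear forms of the right shape
such that `N₂` does not increase the corner function, the derivative of the corner function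
along the field of the union is nonpositive. -/
theorem vertV_deriv_nonpos_gen (N₁ : MAS R₁ ι) (N₂ : MAS R₂ ι) (xs : ι → ℝ)
    (hxs : ∀ i, 0 < xs i) (h₁ : N₁.StronglyConnected) (hspan : N₂.stoich ≤ N₁.stoich)
    (c : ι → ℝ) (hc : ∀ i, 0 < c i) (W : Finset ι) (hW : W.Nonempty) (u : ι → ι → ℝ)
    (hshape : ∀ j, j ∉ W → u j j = 1 ∧ ∀ k, k ∉ W → k ≠ j → u j k = 0)
    (hN₂ : ∀ x : ι → ℝ, (∀ i, 0 < x i) → (∀ j, j ∉ W → 0 < ∑ i, u j i * x i) →
      N₂.dissip xs x
        - ∑ j with j ∉ W, (Real.log (∑ i, u j i * x i) - Real.log (xs j))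
            * ∑ i, u j i * N₂.field x i ≤ 0)
    (η b : ℝ) (hη : 0 < η) :
    ∃ ρ₁ : ℝ, 0 < ρ₁ ∧ ∀ x ∈ (N₁.union N₂).posClass c, (∀ i ∈ W, x i ≤ ρ₁) →
      (∀ j, j ∉ W → η ≤ x j ∧ x j ≤ b) →
      (N₁.union N₂).dissip xs x
        - ∑ j with j ∉ W, (Real.log (∑ i, u j i * x i) - Real.log (xs j))
            * ∑ i, u j i * (N₁.union N₂).field x i ≤ 0 := by
  obtain ⟨ρ₂, C₁, L, hρ₂, hC₁, hL, hvb⟩ := vertV_bounds xs hxs W u hshape η b hη
  have hex : ∀ j, ∃ C : ℝ, 0 ≤ C ∧ ∀ x : ι → ℝ, (∀ i, 0 < x i) →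
      |∑ i, u j i * N₁.field x i| ≤ C * ∑ r : R₁, Real.exp (cw xs x (N₁.src r)) :=
    fun j => field_pair_bound N₁ xs hxs (u j)
  choose Cf hCf0 hCf using hex
  have hCtot : 0 ≤ ∑ j with j ∉ W, Cf j := Finset.sum_nonneg (fun j _ => hCf0 j)
  have hK : 0 < L * (∑ j with j ∉ W, Cf j) + 1 := by
    have := mul_nonneg hL hCtot
    linarith
  obtain ⟨δ, B, hδ, halt⟩ :=
    dissip_outside_boxK N₁ h₁ xs hxs c hc (L * (∑ j with j ∉ W, Cf j) + 1) hK
  refine ⟨min ρ₂ (δ / 2), lt_min hρ₂ (by linarith), ?_⟩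
  intro x hx hxW hxo
  have hxpos : ∀ i, 0 < x i := hx.1
  have hxc : x - c ∈ N₁.stoich := by
    have h := hx.2
    rw [union_stoich_of_le N₁ N₂ hspan] at h
    exact h
  have hS : 0 ≤ ∑ r : R₁, Real.exp (cw xs x (N₁.src r)) :=
    Finset.sum_nonneg (fun r _ => (Real.exp_pos _).le)
  have hdis : N₁.dissip xs x
      ≤ - ((L * (∑ j with j ∉ W, Cf j) + 1) * ∑ r : R₁, Real.exp (cw xs x (N₁.src r))) := by
    rcases halt x hxpos hxc with hbox | hd
    · exfalso
      obtain ⟨i, hi⟩ := hW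
      have h1 : x i ≤ min ρ₂ (δ / 2) := hxW i hi
      have h2 : min ρ₂ (δ / 2) ≤ δ / 2 := min_le_right _ _
      have h3 : δ ≤ x i := (hbox i).1
      linarith
    · exact hd
  obtain ⟨hlaw, _⟩ := hvb x hxpos (fun i hi => (hxW i hi).trans (min_le_left _ _)) hxo
  have h₂' := hN₂ x hxpos (fun j hj => (hlaw j hj).1)
  have hsum : |∑ j with j ∉ W, (Real.log (∑ i, u j i * x i) - Real.log (xs j))
        * ∑ i, u j i * N₁.field x i|
      ≤ L * (∑ j with j ∉ W, Cf j) * ∑ r : R₁, Real.exp (cw xs x (N₁.src r)) := by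
    calc |∑ j with j ∉ W, (Real.log (∑ i, u j i * x i) - Real.log (xs j))
            * ∑ i, u j i * N₁.field x i|
        ≤ ∑ j with j ∉ W, |(Real.log (∑ i, u j i * x i) - Real.log (xs j))
            * ∑ i, u j i * N₁.field x i| := Finset.abs_sum_le_sum_abs _ _
      _ ≤ ∑ j with j ∉ W, L * (Cf j * ∑ r : R₁, Real.exp (cw xs x (N₁.src r))) := by
          refine Finset.sum_le_sum (fun j hj => ?_)
          have hjW : j ∉ W := (Finset.mem_filter.mp hj).2
          rw [abs_mul]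
          exact mul_le_mul (hlaw j hjW).2 (hCf j x hxpos) (abs_nonneg _) hL
      _ = L * (∑ j with j ∉ W, Cf j) * ∑ r : R₁, Real.exp (cw xs x (N₁.src r)) := by
          have e1 : ∑ j with j ∉ W, L * (Cf j * ∑ r : R₁, Real.exp (cw xs x (N₁.src r)))
              = ∑ j with j ∉ W, (L * ∑ r : R₁, Real.exp (cw xs x (N₁.src r))) * Cf j :=
            Finset.sum_congr rfl (fun j _ => by ring)
          rw [e1, ← Finset.mul_sum]
          ring
  have hneg := neg_abs_le (∑ j with j ∉ W, (Real.log (∑ i, u j i * x i) - Real.log (xs j))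
        * ∑ i, u j i * N₁.field x i)
  have hsplit : ∑ j with j ∉ W, (Real.log (∑ i, u j i * x i) - Real.log (xs j))
        * ∑ i, u j i * (N₁.union N₂).field x i
      = ∑ j with j ∉ W, (Real.log (∑ i, u j i * x i) - Real.log (xs j))
          * ∑ i, u j i * N₁.field x i
        + ∑ j with j ∉ W, (Real.log (∑ i, u j i * x i) - Real.log (xs j))
          * ∑ i, u j i * N₂.field x i := by
    rw [← Finset.sum_add_distrib]
    refine Finset.sum_congr rfl (fun j _ => ?_)
    rw [← mul_add, union_field, ← Finset.sum_add_distrib]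
    congr 1
    exact Finset.sum_congr rfl (fun i _ => by rw [Pi.add_apply, mul_add])
  rw [union_dissip, hsplit]
  nlinarith [hdis, hsum, hneg, hS, h₂']

/-- A function on `[0, ∞)` whose one-sided derivatives on `[t₀, t₁]` are nonpositive does not
increase from `t₀` to `t₁`. -/
private lemma vertGen_antitone (f : ℝ → ℝ) {t₀ t₁ : ℝ} (ht₀ : 0 ≤ t₀) (h01 : t₀ ≤ t₁)
    (h : ∀ s ∈ Icc t₀ t₁, ∃ D : ℝ, D ≤ 0 ∧ HasDerivWithinAt f D (Ici 0) s) :
    f t₁ ≤ f t₀ := by
  have key : ∀ s, ∃ D : ℝ, s ∈ Icc t₀ t₁ → D ≤ 0 ∧ HasDerivWithinAt f D (Ici 0) s := by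
    intro s
    by_cases hs : s ∈ Icc t₀ t₁
    · obtain ⟨D, hD⟩ := h s hs
      exact ⟨D, fun _ => hD⟩
    · exact ⟨0, fun h' => absurd h' hs⟩
  choose D hD using key
  have hcont : ContinuousOn f (Icc t₀ t₁) := by
    intro s hs
    exact ((hD s hs).2.continuousWithinAt).mono (fun r hr => le_trans ht₀ hr.1)
  have key2 := image_le_of_deriv_right_le_deriv_boundary (f := f) (f' := D) (a := t₀) (b := t₁)
    hcont
    (fun s hs => ((hD s ⟨hs.1, hs.2.le⟩).2).mono (Ici_subset_Ici.mpr (le_trans ht₀ hs.1)))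
    (B := fun _ => f t₀) (B' := fun _ => 0)
    (le_refl _) continuousOn_const (fun s _ => hasDerivWithinAt_const _ _ _)
    (fun s hs => (hD s ⟨hs.1, hs.2.le⟩).1)
  exact key2 (right_mem_Icc.mpr h01)

/-- The function `s * (log a - log s + 1 + C)` is small for small positive `s`. -/
private lemma vertGen_small (a C τ : ℝ) (hτ : 0 < τ) :
    ∃ δ : ℝ, 0 < δ ∧ ∀ s : ℝ, 0 < s → s < δ →
      s * (Real.log a - Real.log s + 1 + C) < τ := by
  have hcont : Continuous (fun s : ℝ => s * (Real.log a + 1 + C) - s * Real.log s) :=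
    (continuous_id.mul continuous_const).sub Real.continuous_mul_log
  have hca := hcont.continuousAt (x := (0 : ℝ))
  rw [Metric.continuousAt_iff] at hca
  obtain ⟨δ, hδ, hδ'⟩ := hca τ hτ
  refine ⟨δ, hδ, fun s hs0 hsδ => ?_⟩
  have hd : dist s 0 < δ := by
    rw [Real.dist_eq, sub_zero, abs_of_pos hs0]
    exact hsδ
  have h := hδ' hd
  rw [Real.dist_eq] at h
  simp only [zero_mul, sub_zero] at h
  have h2 := (abs_lt.mp h).2
  have e : s * (Real.log a - Real.log s + 1 + C) =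
      s * (Real.log a + 1 + C) - s * Real.log s := by ring
  rw [e]
  exact h2

open Classical in
/-- A set `W` of species with a family `u` of linear forms of the right shape has the corner
property as soon as the derivative of the corner function along the field is nonpositive near
the face of `W`. -/
theorem cornerProp_of_nonincr (N : MAS R ι) (xs : ι → ℝ) (hxs : ∀ i, 0 < xs i) (c : ι → ℝ)
    (W : Finset ι) (u : ι → ι → ℝ)
    (hshape : ∀ j, j ∉ W → u j j = 1 ∧ ∀ k, k ∉ W → k ≠ j → u j k = 0)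
    (hsign : ∀ η b : ℝ, 0 < η → ∃ ρ₁ : ℝ, 0 < ρ₁ ∧ ∀ x ∈ N.posClass c, (∀ i ∈ W, x i ≤ ρ₁) →
      (∀ j, j ∉ W → η ≤ x j ∧ x j ≤ b) →
      N.dissip xs x
        - ∑ j with j ∉ W, (Real.log (∑ i, u j i * x i) - Real.log (xs j))
            * ∑ i, u j i * N.field x i ≤ 0) :
    CornerProp N c W := by
  classical
  intro η b ρ₀ hη hρ₀
  obtain ⟨ρ₂, C₁, L, hρ₂, hC₁, hL, hbd⟩ :=
    vertV_bounds xs hxs W u hshape η b hη
  obtain ⟨ρ₁, hρ₁, hsign⟩ := hsign η b hη
  obtain ⟨e, he, hele⟩ := exists_pos_le (fun i => xs i * Real.exp (-C₁))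
    (fun i => mul_pos (hxs i) (Real.exp_pos _))
  obtain ⟨ρ, hρdef⟩ : ∃ ρ : ℝ, ρ = min (min (ρ₀ / 2) ρ₁) (min ρ₂ e) := ⟨_, rfl⟩
  have hρ0 : ρ ≤ ρ₀ / 2 := by
    rw [hρdef]
    exact le_trans (min_le_left _ _) (min_le_left _ _)
  have hρ1 : ρ ≤ ρ₁ := by
    rw [hρdef]
    exact le_trans (min_le_left _ _) (min_le_right _ _)
  have hρ2 : ρ ≤ ρ₂ := by
    rw [hρdef]
    exact le_trans (min_le_right _ _) (min_le_left _ _)
  have hρe : ρ ≤ e := by
    rw [hρdef]
    exact le_trans (min_le_right _ _) (min_le_right _ _)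
  have hρpos : 0 < ρ := by
    rw [hρdef]
    exact lt_min (lt_min (by linarith) hρ₁) (lt_min hρ₂ he)
  have hρlt : ρ < ρ₀ := by linarith
  -- upper bound of the corner function in the region
  have hA : ∀ y : ι → ℝ, (∀ i, 0 < y i) → (∀ i ∈ W, y i ≤ ρ) →
      (∀ j, j ∉ W → η ≤ y j ∧ y j ≤ b) → vertV xs W u y ≤ -∑ i ∈ W, y i := by
    intro y hy hyW hyr
    have hb := (hbd y hy (fun i hi => le_trans (hyW i hi) hρ2) hyr).2
    have h1 := (abs_le.mp hb).2
    have h2 : ∑ i ∈ W, vterm (xs i) (y i) ≤ ∑ i ∈ W, y i * (-C₁ - 1) := by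
      apply Finset.sum_le_sum
      intro i hi
      have hyi := hy i
      have hle : y i ≤ xs i * Real.exp (-C₁) := le_trans (hyW i hi) (le_trans hρe (hele i))
      have hlog : Real.log (y i) ≤ Real.log (xs i) - C₁ := by
        have h3 := Real.log_le_log hyi hle
        rw [Real.log_mul (hxs i).ne' (Real.exp_pos _).ne', Real.log_exp] at h3
        linarith
      unfold vterm
      exact mul_le_mul_of_nonneg_left (by linarith) hyi.le
    have h3 : ∑ i ∈ W, y i * (-C₁ - 1) = (-C₁ - 1) * ∑ i ∈ W, y i := by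
      rw [Finset.mul_sum]
      exact Finset.sum_congr rfl (fun i _ => mul_comm _ _)
    have h4 : (-C₁ - 1) * ∑ i ∈ W, y i + C₁ * ∑ i ∈ W, y i = -∑ i ∈ W, y i := by ring
    linarith
  -- lower bound of the corner function in the region
  have hB : ∀ y : ι → ℝ, (∀ i, 0 < y i) → (∀ i ∈ W, y i ≤ ρ) →
      (∀ j, j ∉ W → η ≤ y j ∧ y j ≤ b) →
      -∑ i ∈ W, y i * (Real.log (xs i) - Real.log (y i) + 1 + C₁) ≤ vertV xs W u y := by
    intro y hy hyW hyr
    have hb := (hbd y hy (fun i hi => le_trans (hyW i hi) hρ2) hyr).2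
    have h1 := (abs_le.mp hb).1
    have h2 : ∑ i ∈ W, vterm (xs i) (y i) - C₁ * ∑ i ∈ W, y i =
        -∑ i ∈ W, y i * (Real.log (xs i) - Real.log (y i) + 1 + C₁) := by
      rw [Finset.mul_sum, ← Finset.sum_sub_distrib, ← Finset.sum_neg_distrib]
      apply Finset.sum_congr rfl
      intro i _
      unfold vterm
      ring
    linarith
  refine ⟨ρ, hρpos, hρlt, ?_⟩
  intro σ hσ
  obtain ⟨τ, hτdef⟩ : ∃ τ : ℝ, τ = σ / ((W.card : ℝ) + 1) := ⟨_, rfl⟩
  have hcard : (0 : ℝ) < (W.card : ℝ) + 1 := by positivity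
  have hτ : 0 < τ := by
    rw [hτdef]
    exact div_pos hσ hcard
  have hδ : ∀ i : ι, ∃ δ : ℝ, 0 < δ ∧ ∀ s : ℝ, 0 < s → s < δ →
      s * (Real.log (xs i) - Real.log s + 1 + C₁) < τ :=
    fun i => vertGen_small (xs i) C₁ τ hτ
  choose δ hδpos hδlt using hδ
  obtain ⟨ε, hε, hεle⟩ := exists_pos_le δ hδpos
  refine ⟨ε, hε, ?_⟩
  intro x hsol hP t₀ t₁ ht₀ h01 hreg hex
  obtain ⟨i₀, hi₀W, hi₀⟩ := hex
  by_contra hcon
  push Not at hcon
  -- monotonicity of the corner function along the solution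
  have hmono : vertV xs W u (x t₁) ≤ vertV xs W u (x t₀) := by
    refine vertGen_antitone (fun τ' => vertV xs W u (x τ')) ht₀ h01 ?_
    intro s hs
    have hs0 : 0 ≤ s := le_trans ht₀ hs.1
    have hpos := (hP s hs0).1
    have hr := hreg s hs
    have hb := hbd (x s) hpos (fun i hi => le_trans (hr.2 i hi) hρ2) hr.1
    have hl : ∀ j, j ∉ W → 0 < ∑ i, u j i * x s i := fun j hj => (hb.1 j hj).1
    refine ⟨_, ?_, hasDerivWithinAt_vertV xs W u (hsol s hs0) hpos hl⟩
    exact hsign (x s) (hP s hs0) (fun i hi => le_trans (hr.2 i hi) hρ1) hr.1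
  have hpos0 := (hP t₀ ht₀).1
  have hr0 := hreg t₀ (left_mem_Icc.mpr h01)
  have hA0 := hA (x t₀) hpos0 hr0.2 hr0.1
  have hS0 : σ ≤ ∑ i ∈ W, x t₀ i :=
    le_trans hi₀ (Finset.single_le_sum (f := fun i => x t₀ i) (fun i _ => (hpos0 i).le) hi₀W)
  have ht₁0 : 0 ≤ t₁ := le_trans ht₀ h01
  have hpos1 := (hP t₁ ht₁0).1
  have hr1 := hreg t₁ (right_mem_Icc.mpr h01)
  have hB1 := hB (x t₁) hpos1 hr1.2 hr1.1
  have hsum : ∑ i ∈ W, x t₁ i * (Real.log (xs i) - Real.log (x t₁ i) + 1 + C₁) ≤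
      (W.card : ℝ) * τ := by
    have h5 := Finset.sum_le_card_nsmul W
      (fun i => x t₁ i * (Real.log (xs i) - Real.log (x t₁ i) + 1 + C₁)) τ
      (fun i hi => (hδlt i (x t₁ i) (hpos1 i) (lt_of_lt_of_le (hcon i hi) (hεle i))).le)
    rw [nsmul_eq_mul] at h5
    exact h5
  have hlt : (W.card : ℝ) * τ < σ := by
    rw [hτdef, ← mul_div_assoc, div_lt_iff₀ hcard]
    linarith
  linarith


end Vale.Agent.Lib.P072
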