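import Vale.Agent.Lib.P072.VertDefs

/-!
# The reactions of a complex-balanced system whose sources meet a siphon
-/

namespace Vale.Agent.Lib.P072

open Set

set_option linter.unusedSectionVars false

variable {R R₁ R₂ ι : Type} [Fintype R] [Fintype R₁] [Fintype R₂] [Fintype ι]

open Classical in
/-- Summing over the edges is summing over the vertices of a finite set containing the image,
fibre by fibre. -/
private lemma vertHit_fiber {R C : Type} [Fintype R] (f : R → C) (κ : R → ℝ) (g : C → ℝ)
    (Y : Finset C) (hY : ∀ r, f r ∈ Y) :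
    ∑ r, κ r * g (f r) = ∑ y ∈ Y, g y * ∑ r with f r = y, κ r := by
  rw [← Finset.sum_fiberwise_of_maps_to (s := Finset.univ) (t := Y) (g := f) (fun r _ => hY r)]
  apply Finset.sum_congr rfl
  intro y _
  rw [Finset.mul_sum]
  apply Finset.sum_congr rfl
  intro r hr
  rw [(Finset.mem_filter.mp hr).2]
  ring

open Classical in
/-- For balanced positive weights on the edges of a graph and a set of vertices that cannot be
entered from outside, the weights of the edges starting in the set are balanced by themselves,
which gives the inequality of Horn and Jackson for these edges. -/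
private lemma vertHit_generic {R C : Type} [Fintype R] (src tgt : R → C) (κ' : R → ℝ)
    (hκ' : ∀ r, 0 < κ' r)
    (hbal : ∀ y : C, ∑ r with src r = y, κ' r = ∑ r with tgt r = y, κ' r)
    (hitc : C → Prop) (hnf : ∀ r, ¬ hitc (src r) → ¬ hitc (tgt r)) (w : C → ℝ) :
    ∑ r, (if hitc (src r) then κ' r else 0) * Real.exp (w (src r))
      * (w (tgt r) - w (src r)) ≤ 0 := by
  have test : ∀ φ : C → ℝ, ∑ r, κ' r * φ (src r) = ∑ r, κ' r * φ (tgt r) := by
    intro φ
    obtain ⟨Y, hYdef⟩ : ∃ Y : Finset C, Y = Finset.univ.image src ∪ Finset.univ.image tgt :=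
      ⟨_, rfl⟩
    have hs : ∀ r, src r ∈ Y := fun r => by
      rw [hYdef]
      exact Finset.mem_union_left _ (Finset.mem_image_of_mem _ (Finset.mem_univ r))
    have ht : ∀ r, tgt r ∈ Y := fun r => by
      rw [hYdef]
      exact Finset.mem_union_right _ (Finset.mem_image_of_mem _ (Finset.mem_univ r))
    rw [vertHit_fiber src κ' φ Y hs, vertHit_fiber tgt κ' φ Y ht]
    exact Finset.sum_congr rfl (fun y _ => by rw [hbal y])
  have cut : ∀ r, hitc (src r) → hitc (tgt r) := by
    have h : ∑ r, κ' r * (if hitc (src r) then (0 : ℝ) else 1)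
        = ∑ r, κ' r * (if hitc (tgt r) then (0 : ℝ) else 1) :=
      test (fun y => if hitc y then (0 : ℝ) else 1)
    have h0 : ∑ r, κ' r * ((if hitc (tgt r) then (0 : ℝ) else 1)
        - (if hitc (src r) then (0 : ℝ) else 1)) = 0 := by
      simp only [mul_sub, Finset.sum_sub_distrib]
      rw [h, sub_self]
    have hnn : ∀ r ∈ Finset.univ, 0 ≤ κ' r * ((if hitc (tgt r) then (0 : ℝ) else 1)
        - (if hitc (src r) then (0 : ℝ) else 1)) := by
      intro r _
      apply mul_nonneg (hκ' r).le
      by_cases hs : hitc (src r)
      · rw [if_pos hs, sub_zero]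
        split_ifs <;> norm_num
      · have e : (if hitc (tgt r) then (0 : ℝ) else 1)
            - (if hitc (src r) then (0 : ℝ) else 1) = 0 := by
          rw [if_neg hs, if_neg (hnf r hs), sub_self]
        exact le_of_eq e.symm
    have hz := (Finset.sum_eq_zero_iff_of_nonneg hnn).mp h0
    intro r hs
    by_contra ht
    have h1 := hz r (Finset.mem_univ r)
    rw [if_pos hs, if_neg ht, sub_zero, mul_one] at h1
    exact (hκ' r).ne' h1
  have bal : ∀ y : C, ∑ r with src r = y, (if hitc (src r) then κ' r else 0)
      = ∑ r with tgt r = y, (if hitc (src r) then κ' r else 0) := by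
    intro y
    by_cases hy : hitc y
    · have e1 : ∑ r with src r = y, (if hitc (src r) then κ' r else 0)
          = ∑ r with src r = y, κ' r := by
        apply Finset.sum_congr rfl
        intro r hr
        have hr' : src r = y := (Finset.mem_filter.mp hr).2
        have hsr : hitc (src r) := by
          rw [hr']
          exact hy
        rw [if_pos hsr]
      have e2 : ∑ r with tgt r = y, (if hitc (src r) then κ' r else 0)
          = ∑ r with tgt r = y, κ' r := by
        apply Finset.sum_congr rfl
        intro r hr
        have hr' : tgt r = y := (Finset.mem_filter.mp hr).2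
        have hsr : hitc (src r) := by
          by_contra hn
          apply hnf r hn
          rw [hr']
          exact hy
        rw [if_pos hsr]
      rw [e1, e2, hbal y]
    · have e1 : ∑ r with src r = y, (if hitc (src r) then κ' r else 0) = 0 := by
        apply Finset.sum_eq_zero
        intro r hr
        have hr' : src r = y := (Finset.mem_filter.mp hr).2
        have hsr : ¬ hitc (src r) := by
          rw [hr']
          exact hy
        rw [if_neg hsr]
      have e2 : ∑ r with tgt r = y, (if hitc (src r) then κ' r else 0) = 0 := by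
        apply Finset.sum_eq_zero
        intro r hr
        have hr' : tgt r = y := (Finset.mem_filter.mp hr).2
        have hsr : ¬ hitc (src r) := by
          intro hs
          apply hy
          rw [← hr']
          exact cut r hs
        rw [if_neg hsr]
      rw [e1, e2]
  have hκ : ∀ r, 0 ≤ (if hitc (src r) then κ' r else 0) := by
    intro r
    by_cases hs : hitc (src r)
    · rw [if_pos hs]
      exact (hκ' r).le
    · rw [if_neg hs]
  exact balanced_sum_nonpos src tgt (fun r => if hitc (src r) then κ' r else 0) hκ bal w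

open Classical in
/-- Let `N` be complex balanced at `xs` and let `W` be a set of species such that no reaction
leads from a complex without species of `W` to a complex with a species of `W`. Then the
reactions whose source complex contains a species of `W` form a complex-balanced system by
themselves, so their part of the dissipation is nonpositive. -/
theorem hit_dissip_nonpos (N : MAS R ι) (xs : ι → ℝ) (hxs : ∀ i, 0 < xs i)
    (hcb : N.ComplexBalancedAt xs) (W : Finset ι)
    (hnf : ∀ r, (∀ i ∈ W, N.src r i = 0) → ∀ i ∈ W, N.tgt r i = 0)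
    (x : ι → ℝ) (hx : ∀ i, 0 < x i) :
    ∑ r, (if ∃ i ∈ W, 0 < N.src r i then
        N.rate r * mono (N.src r) x * ∑ i, (Real.log (x i) - Real.log (xs i)) * N.vec r i
      else 0) ≤ 0 := by
  obtain ⟨κ', hκ'def⟩ : ∃ κ' : R → ℝ, κ' = fun r => N.rate r * mono (N.src r) xs := ⟨_, rfl⟩
  obtain ⟨hitc, hitcdef⟩ : ∃ hitc : (ι → ℕ) → Prop, hitc = fun y => ∃ i ∈ W, 0 < y i :=
    ⟨_, rfl⟩
  have hh : ∀ y, hitc y ↔ ∃ i ∈ W, 0 < y i := by
    intro y
    rw [hitcdef]
  have hk : ∀ r, κ' r = N.rate r * mono (N.src r) xs := by
    intro r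
    rw [hκ'def]
  have hκ'pos : ∀ r, 0 < κ' r := by
    intro r
    rw [hk]
    exact mul_pos (N.rate_pos r) (mono_pos _ _ hxs)
  have hnh : ∀ y : ι → ℕ, ¬ hitc y ↔ ∀ i ∈ W, y i = 0 := by
    intro y
    rw [hh]
    constructor
    · intro h i hi
      by_contra h0
      exact h ⟨i, hi, Nat.pos_of_ne_zero h0⟩
    · rintro h ⟨i, hi, h0⟩
      rw [h i hi] at h0
      exact lt_irrefl 0 h0
  have hnf' : ∀ r, ¬ hitc (N.src r) → ¬ hitc (N.tgt r) := by
    intro r h
    exact (hnh _).2 (hnf r ((hnh _).1 h))
  have key := vertHit_generic N.src N.tgt κ' hκ'pos (fun y => by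
    have h := hcb y
    rw [hκ'def]
    convert h) hitc hnf' (cw xs x)
  refine le_trans (le_of_eq (Finset.sum_congr rfl ?_)) key
  intro r _
  by_cases h : ∃ i ∈ W, 0 < N.src r i
  · have h2 : hitc (N.src r) := (hh _).2 h
    rw [if_pos h, if_pos h2, hk, mono_eq_mul_exp_cw xs x hxs hx (N.src r), cw_tgt_sub_src]
    ring
  · have h2 : ¬ hitc (N.src r) := fun h' => h ((hh _).1 h')
    rw [if_neg h, if_neg h2, zero_mul, zero_mul]

end Vale.Agent.Lib.P072
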