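import Vale.Agent.Lib.P072.VertDefs

/-!
# Laws of the rest system adapted to a set of species
-/

namespace Vale.Agent.Lib.P072

open Set

set_option linter.unusedSectionVars false

variable {R R₁ R₂ ι : Type} [Fintype R] [Fintype R₁] [Fintype R₂] [Fintype ι]

/-- If no nonzero vector of the stoichiometric subspace of `N₂` vanishes on `W`, there is a
family of laws of `N₂` adapted to `W`. -/
theorem exists_lawFamily (N₂ : MAS R₂ ι) (W : Finset ι)
    (hv : ∀ s ∈ N₂.stoich, (∀ i ∈ W, s i = 0) → s = 0) :
    ∃ u : ι → ι → ℝ, IsLawFamily N₂ W u := by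
  classical
  -- restriction map
  let π : N₂.stoich →ₗ[ℝ] (W → ℝ) :=
    (LinearMap.funLeft ℝ ℝ (Subtype.val : W → ι)).comp N₂.stoich.subtype
  have hπ : ∀ s : N₂.stoich, ∀ i : W, π s i = (s : ι → ℝ) i := fun s i => rfl
  have hker : LinearMap.ker π = ⊥ := by
    rw [LinearMap.ker_eq_bot]
    rw [injective_iff_map_eq_zero]
    intro s hs
    have h0 : (s : ι → ℝ) = 0 := by
      apply hv s.1 s.2
      intro i hi
      have := congrFun hs ⟨i, hi⟩
      simpa [hπ] using this
    exact Subtype.ext h0
  obtain ⟨g, hg⟩ := LinearMap.exists_leftInverse_of_injective π hker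
  have hgπ : ∀ s : N₂.stoich, g (π s) = s := fun s => by
    have := congrArg (fun f => f s) hg
    simpa using this
  -- coefficients
  let a : ι → W → ℝ := fun j i =>
    ((g (fun k : W => if i = k then (1 : ℝ) else 0) : N₂.stoich) : ι → ℝ) j
  have hrep : ∀ (s : N₂.stoich) (j : ι), (s : ι → ℝ) j = ∑ i : W, (s : ι → ℝ) i * a j i := by
    intro s j
    have key : g (π s) = ∑ i : W, (π s i) • g (fun k : W => if i = k then (1 : ℝ) else 0) :=
      LinearMap.pi_apply_eq_sum_univ g (π s)
    calc (s : ι → ℝ) j = ((g (π s) : N₂.stoich) : ι → ℝ) j := by rw [hgπ]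
      _ = ((∑ i : W, (π s i) • g (fun k : W => if i = k then (1 : ℝ) else 0) : N₂.stoich)
            : ι → ℝ) j := by rw [← key]
      _ = ∑ i : W, (s : ι → ℝ) i * a j i := by
          rw [Submodule.coe_sum, Finset.sum_apply]
          apply Finset.sum_congr rfl
          intro i _
          simp [a, hπ]
  refine ⟨fun j k => if k = j then 1 else if h : k ∈ W then - a j ⟨k, h⟩ else 0, ?_⟩
  intro j hj
  refine ⟨?_, ?_, ?_⟩
  · intro r
    have hmem : N₂.vec r ∈ N₂.stoich := Submodule.subset_span (Set.mem_range_self r)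
    have hr := hrep ⟨N₂.vec r, hmem⟩ j
    simp only at hr
    set F : ι → ℝ := fun k => if h : k ∈ W then - a j ⟨k, h⟩ * N₂.vec r k else 0 with hF
    have hsplit : ∀ k : ι,
        (if k = j then (1 : ℝ) else if h : k ∈ W then - a j ⟨k, h⟩ else 0) * N₂.vec r k
          = (if k = j then N₂.vec r k else 0) + F k := by
      intro k
      by_cases hkj : k = j
      · subst hkj
        simp [hF, hj]
      · by_cases hk : k ∈ W
        · simp [hF, hkj, hk]
        · simp [hF, hkj, hk]
    rw [Finset.sum_congr rfl (fun k _ => hsplit k), Finset.sum_add_distrib]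
    rw [Finset.sum_ite_eq' Finset.univ j (fun k => N₂.vec r k)]
    simp only [Finset.mem_univ, if_true]
    have h3 : (∑ k : ι, F k) = ∑ i : W, - a j i * N₂.vec r i := by
      have e1 : (∑ k : ι, F k) = ∑ k ∈ W, F k := by
        symm
        apply Finset.sum_subset (Finset.subset_univ W)
        intro k _ hk
        simp [hF, hk]
      rw [e1, ← Finset.sum_attach W F, Finset.univ_eq_attach]
      apply Finset.sum_congr rfl
      intro i _
      simp [hF, i.2]
    rw [h3, hr]
    rw [← Finset.sum_add_distrib]
    apply Finset.sum_eq_zero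
    intro i _
    ring
  · simp
  · intro k hk hkj
    simp [hkj, hk]

end Vale.Agent.Lib.P072
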