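import Vale.Agent.Lib.P072.VertDefs

/-!
# The corner property of a set of species whose face misses the class
-/

namespace Vale.Agent.Lib.P072

open Set

set_option linter.unusedSectionVars false

variable {R R₁ R₂ ι : Type} [Fintype R] [Fintype R₁] [Fintype R₂] [Fintype ι]

/-- Compactness: on the bounded closed region of the class where the coordinates outside `W`
are at least `η`, the sum of the `W`-coordinates is bounded below by a positive constant. -/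
private lemma noFace_sum_lower (N : MAS R ι) (c : ι → ℝ) (W : Finset ι)
    (hno : ∀ z : ι → ℝ, (∀ i, 0 ≤ z i) → z - c ∈ N.stoich → (∀ i ∈ W, z i = 0) →
      ∃ j, j ∉ W ∧ z j = 0) (η M : ℝ) (hη : 0 < η) :
    ∃ m : ℝ, 0 < m ∧ ∀ z : ι → ℝ, (∀ i, 0 ≤ z i ∧ z i ≤ M) → z - c ∈ N.stoich →
      (∀ j, j ∉ W → η ≤ z j) → m ≤ ∑ i ∈ W, z i := by
  classical
  obtain ⟨Q, hQ⟩ : ∃ Q : Set (ι → ℝ), Q = (Icc (0 : ι → ℝ) (fun _ => M) ∩
      {z | z - c ∈ N.stoich}) ∩ {z | ∀ j, j ∉ W → η ≤ z j} := ⟨_, rfl⟩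
  have hQc : IsCompact Q := by
    rw [hQ]
    refine (isCompact_Icc.inter_right (isClosed_class N c)).inter_right ?_
    have hset : {z : ι → ℝ | ∀ j, j ∉ W → η ≤ z j} =
        ⋂ j, ⋂ (_ : j ∉ W), {z : ι → ℝ | η ≤ z j} := by
      ext z
      simp
    rw [hset]
    exact isClosed_iInter fun j => isClosed_iInter fun _ =>
      isClosed_le continuous_const (continuous_apply j)
  have hf : Continuous fun z : ι → ℝ => ∑ i ∈ W, z i :=
    continuous_finsetSum _ fun i _ => continuous_apply i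
  have hmem : ∀ z : ι → ℝ, z ∈ Q ↔ ((∀ i, 0 ≤ z i ∧ z i ≤ M) ∧ z - c ∈ N.stoich ∧
      ∀ j, j ∉ W → η ≤ z j) := by
    intro z
    rw [hQ]
    constructor
    · rintro ⟨⟨⟨h1, h2⟩, h3⟩, h4⟩
      exact ⟨fun i => ⟨h1 i, h2 i⟩, h3, h4⟩
    · rintro ⟨h1, h3, h4⟩
      exact ⟨⟨⟨fun i => (h1 i).1, fun i => (h1 i).2⟩, h3⟩, h4⟩
  rcases Q.eq_empty_or_nonempty with hemp | hne
  · refine ⟨1, one_pos, fun z h1 h2 h3 => ?_⟩
    have hz : z ∈ Q := (hmem z).mpr ⟨h1, h2, h3⟩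
    rw [hemp] at hz
    exact absurd hz (Set.notMem_empty z)
  · obtain ⟨z₀, hz₀, hmin⟩ := hQc.exists_isMinOn hne hf.continuousOn
    obtain ⟨hz1, hz2, hz3⟩ := (hmem z₀).mp hz₀
    have hz₀nn : ∀ i, 0 ≤ z₀ i := fun i => (hz1 i).1
    have hsum : 0 ≤ ∑ i ∈ W, z₀ i := Finset.sum_nonneg fun i _ => hz₀nn i
    refine ⟨∑ i ∈ W, z₀ i, ?_, fun z h1 h2 h3 => hmin ((hmem z).mpr ⟨h1, h2, h3⟩)⟩
    rcases hsum.lt_or_eq with h | h
    · exact h
    · exfalso
      have hW : ∀ i ∈ W, z₀ i = 0 :=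
        (Finset.sum_eq_zero_iff_of_nonneg fun i _ => hz₀nn i).mp h.symm
      obtain ⟨j, hj, hj0⟩ := hno z₀ hz₀nn hz2 hW
      have hηj := hz3 j hj
      linarith

/-- If no nonnegative point of `c + stoich` vanishes exactly on `W`, the set `W` has the
corner property (the region in its definition is empty for small `ρ`). -/
theorem cornerProp_of_noFace (N : MAS R ι) (c : ι → ℝ) (W : Finset ι)
    (hno : ∀ z : ι → ℝ, (∀ i, 0 ≤ z i) → z - c ∈ N.stoich → (∀ i ∈ W, z i = 0) →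
      ∃ j, j ∉ W ∧ z j = 0) :
    CornerProp N c W := by
  classical
  intro η b ρ₀ hη hρ₀
  obtain ⟨m, hm0, hmQ⟩ := noFace_sum_lower N c W hno η (max b ρ₀) hη
  have hcard : (0 : ℝ) < 2 * ((W.card : ℝ) + 1) := by positivity
  refine ⟨min (ρ₀ / 2) (m / (2 * ((W.card : ℝ) + 1))),
    lt_min (by linarith) (div_pos hm0 hcard),
    lt_of_le_of_lt (min_le_left _ _) (by linarith), ?_⟩
  intro σ _
  refine ⟨1, one_pos, ?_⟩
  intro x _ hP t₀ t₁ ht₀ ht₁ hreg _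
  exfalso
  have hr := hreg t₀ (left_mem_Icc.mpr ht₁)
  have hpc := hP t₀ ht₀
  have h1 : m ≤ ∑ i ∈ W, x t₀ i := by
    refine hmQ (x t₀) (fun i => ⟨(hpc.1 i).le, ?_⟩) hpc.2 (fun j hj => (hr.1 j hj).1)
    by_cases hi : i ∈ W
    · have ha := hr.2 i hi
      have hb : min (ρ₀ / 2) (m / (2 * ((W.card : ℝ) + 1))) ≤ ρ₀ / 2 := min_le_left _ _
      have hc : ρ₀ ≤ max b ρ₀ := le_max_right _ _
      linarith
    · exact le_trans (hr.1 i hi).2 (le_max_left _ _)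
  have h2 : ∑ i ∈ W, x t₀ i ≤ W.card • (m / (2 * ((W.card : ℝ) + 1))) :=
    Finset.sum_le_card_nsmul _ _ _ fun i hi => le_trans (hr.2 i hi) (min_le_right _ _)
  rw [nsmul_eq_mul] at h2
  have h3 : (W.card : ℝ) * (m / (2 * ((W.card : ℝ) + 1))) < m := by
    rw [mul_div_assoc', div_lt_iff₀ hcard]
    have hnn : 0 ≤ m * (W.card : ℝ) := mul_nonneg hm0.le (Nat.cast_nonneg _)
    nlinarith
  linarith

end Vale.Agent.Lib.P072
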