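import Vale.Agent.Lib.P072.VertPerm
import Vale.Agent.Lib.P072.VertCorner
import Vale.Agent.Lib.P072.VertLaws
import Vale.Agent.Lib.P072.VertNoFace
import Vale.Agent.Lib.P072.VertChain
import Vale.Agent.Lib.P072.VertFed
import Vale.Agent.Lib.P072.VertGen
import Vale.Agent.Lib.P072.VertFamily

/-!
# Permanence when the common zeros of the source monomials of the strongly connected system
are vertices for the complex-balanced system
-/

namespace Vale.Agent.Lib.P072

open Set

set_option linter.unusedSectionVars false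

variable {R R₁ R₂ ι : Type} [Fintype R] [Fintype R₁] [Fintype R₂] [Fintype ι]

/-- If every set of species that meets every source complex of `N₁` has a coordinate of `x`
that is at least `ε`, then some source monomial of `N₁` at `x` is at least its value at the
constant point `ε`. -/
lemma exists_mono_ge_of_meets (N₁ : MAS R₁ ι) (ε : ℝ) (hε : 0 < ε) (x : ι → ℝ)
    (h : ∀ W : Finset ι, (∀ r : R₁, ∃ i ∈ W, 0 < N₁.src r i) → ∃ i ∈ W, ε ≤ x i) :
    ∃ r : R₁, mono (N₁.src r) (fun _ => ε) ≤ mono (N₁.src r) x := by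
  classical
  by_contra hcon
  push Not at hcon
  have hbad : ∀ r : R₁, ∃ i ∈ (Finset.univ.filter (fun i => x i < ε)), 0 < N₁.src r i := by
    intro r
    by_contra hr
    push Not at hr
    refine absurd (hcon r) (not_lt.mpr ?_)
    unfold mono
    refine Finset.prod_le_prod (fun i _ => pow_nonneg hε.le _) (fun i _ => ?_)
    by_cases hi : x i < ε
    · have h0 : N₁.src r i = 0 :=
        Nat.le_zero.mp (hr i (Finset.mem_filter.mpr ⟨Finset.mem_univ i, hi⟩))
      rw [h0, pow_zero, pow_zero]
    · exact pow_le_pow_left₀ hε.le (not_lt.mp hi) _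
  obtain ⟨i, hi, hiε⟩ := h _ hbad
  exact absurd hiε (not_le.mpr (Finset.mem_filter.mp hi).2)

/-- Permanence: `N₁` strongly connected, `N₂` complex balanced at a positive point, the reaction
vectors of `N₂` in the stoichiometric subspace of `N₁`. Let `z` be a nonnegative point of
`c + stoich` at which all source monomials of `N₁` vanish and whose zero set is a siphon of `N₂`
(the target monomial of a reaction of `N₂` is nonzero at `z` whenever its source monomial is).
Call a reaction of `N₂` inactive at `z` if its source monomial vanishes at `z`. Suppose that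
for every such `z` the inactive reactions change no species that an active reaction changes,
and no nonzero vector of the span of the inactive reaction vectors vanishes on the zero set of
`z`. Then the union system is permanent on the positive stoichiometric class of `c`. -/
theorem union_permanentOn_of_siphon_aux (N₁ : MAS R₁ ι) (N₂ : MAS R₂ ι) (xs : ι → ℝ)
    (hxs : ∀ i, 0 < xs i) (h₁ : N₁.StronglyConnected) (hspan : N₂.stoich ≤ N₁.stoich)
    (h₂ : N₂.ComplexBalancedAt xs) (c : ι → ℝ)
    (hz : ∀ z : ι → ℝ, (∀ i, 0 ≤ z i) → z - c ∈ (N₁.union N₂).stoich →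
      (∀ r : R₁, mono (N₁.src r) z = 0) →
      (∀ r : R₂, mono (N₂.src r) z ≠ 0 → mono (N₂.tgt r) z ≠ 0) →
      (∀ r r' : R₂, mono (N₂.src r) z = 0 → mono (N₂.src r') z ≠ 0 →
        ∀ j, N₂.vec r j ≠ 0 → N₂.vec r' j = 0) ∧
      ∀ s ∈ Submodule.span ℝ (N₂.vec '' {r | mono (N₂.src r) z = 0}),
        (∀ i, z i = 0 → s i = 0) → s = 0) :
    (N₁.union N₂).PermanentOn ((N₁.union N₂).posClass c) := by
  classical
  have hb := union_boundedOn N₁ N₂ xs hxs h₁ hspan h₂ c
  by_cases hne : ((N₁.union N₂).posClass c).Nonempty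
  swap
  · rw [Set.not_nonempty_iff_eq_empty] at hne
    rw [hne]
    exact ⟨fun x hx => absurd hx (Set.notMem_empty x), fun x hx => absurd hx (Set.notMem_empty _),
      ∅, isCompact_empty, Set.empty_subset _, fun x hx => absurd hx (Set.notMem_empty _)⟩
  obtain ⟨c', hc'⟩ := hne
  have hz' : ∀ z : ι → ℝ, (∀ i, 0 ≤ z i) → z - c' ∈ (N₁.union N₂).stoich →
      (∀ r : R₁, mono (N₁.src r) z = 0) →
      (∀ r : R₂, mono (N₂.src r) z ≠ 0 → mono (N₂.tgt r) z ≠ 0) →
      (∀ r r' : R₂, mono (N₂.src r) z = 0 → mono (N₂.src r') z ≠ 0 →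
        ∀ j, N₂.vec r j ≠ 0 → N₂.vec r' j = 0) ∧
      ∀ s ∈ Submodule.span ℝ (N₂.vec '' {r | mono (N₂.src r) z = 0}),
        (∀ i, z i = 0 → s i = 0) → s = 0 := by
    intro z hz0 hzc
    refine hz z hz0 ?_
    have : z - c = (z - c') + (c' - c) := by abel
    rw [this]
    exact Submodule.add_mem _ hzc hc'.2
  rw [posClass_eq_of_mem _ hc'] at hb ⊢
  obtain ⟨δ, B, hδ, halt⟩ := static_alternative N₁ N₂ xs hxs h₁ hspan h₂ c' hc'.1
  rcases isEmpty_or_nonempty ι with hι | hι
  · exact permanentOn_of_dissip _ xs hxs c' δ B 1 hδ one_pos hb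
      (fun x _ => Or.inl (fun i => isEmptyElim i))
  rcases isEmpty_or_nonempty R₁ with hR | hR
  · -- no reaction in `N₁`: the class is a single point
    have hst : (N₁.union N₂).stoich = ⊥ := by
      rw [union_stoich_of_le N₁ N₂ hspan]
      unfold MAS.stoich
      rw [Set.range_eq_empty, Submodule.span_empty]
    obtain ⟨e, he, hec⟩ := exists_pos_le c' hc'.1
    refine permanentOn_of_dissip _ xs hxs c' e (∑ i, c' i) 1 he one_pos hb
      (fun x hx => Or.inl (fun i => ?_))
    have hxc : x = c' := by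
      have h := hx.2
      rw [hst, Submodule.mem_bot] at h
      exact sub_eq_zero.mp h
    rw [hxc]
    exact ⟨hec i, Finset.single_le_sum (fun j _ => (hc'.1 j).le) (Finset.mem_univ i)⟩
  -- the sets of species that meet every source complex of `N₁`
  obtain ⟨bad, hbad⟩ : ∃ bad : Finset ι → Prop,
      bad = fun W => ∀ r : R₁, ∃ i ∈ W, 0 < N₁.src r i := ⟨_, rfl⟩
  have hup : ∀ W W' : Finset ι, bad W → W ⊆ W' → bad W' := by
    intro W W' h hs
    rw [hbad] at h ⊢
    intro r
    obtain ⟨i, hi, hpos⟩ := h r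
    exact ⟨i, hs hi, hpos⟩
  have hnb : ¬ bad ∅ := by
    intro h
    rw [hbad] at h
    obtain ⟨r⟩ := hR
    obtain ⟨i, hi, -⟩ := h r
    exact absurd hi (Finset.notMem_empty i)
  have hcp : ∀ W, bad W → CornerProp (N₁.union N₂) c' W := by
    intro W hW
    have hWne : W.Nonempty := by
      rw [Finset.nonempty_iff_ne_empty]
      rintro rfl
      exact hnb hW
    rw [hbad] at hW
    by_cases hfed : ∃ r : R₂, (∀ i ∈ W, N₂.src r i = 0) ∧ ∃ i ∈ W, 0 < N₂.tgt r i
    · obtain ⟨r, hsrc, i₀, hi₀, htgt⟩ := hfed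
      exact cornerProp_of_fed (N₁.union N₂) c' W (Sum.inr r) hsrc i₀ hi₀ htgt
    push Not at hfed
    have hnf : ∀ r, (∀ i ∈ W, N₂.src r i = 0) → ∀ i ∈ W, N₂.tgt r i = 0 :=
      fun r hr i hi => Nat.le_zero.mp (hfed r hr i hi)
    by_cases hG : (∀ r r' : R₂, (∃ i ∈ W, 0 < N₂.src r i) → (∀ i ∈ W, N₂.src r' i = 0) →
          ∀ j, N₂.vec r j ≠ 0 → N₂.vec r' j = 0) ∧
        ∀ s ∈ Submodule.span ℝ (N₂.vec '' {r | ∃ i ∈ W, 0 < N₂.src r i}),
          (∀ i ∈ W, s i = 0) → s = 0
    · obtain ⟨u, hshape, hN₂⟩ := exists_family_of_split N₂ xs hxs h₂ W hnf hG.1 hG.2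
      exact cornerProp_of_nonincr (N₁.union N₂) xs hxs c' W u hshape
        (fun η b hη => vertV_deriv_nonpos_gen N₁ N₂ xs hxs h₁ hspan c' hc'.1 W hWne u hshape
          hN₂ η b hη)
    · refine cornerProp_of_noFace _ c' W ?_
      intro z hz0 hzc hzW
      by_contra hcon
      push Not at hcon
      apply hG
      -- the source monomial of a reaction vanishes at `z` iff its source meets `W`
      have hzero_of : ∀ y : ι → ℕ, (∃ i ∈ W, 0 < y i) → mono y z = 0 := by
        rintro y ⟨i, hi, hpos⟩
        unfold mono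
        refine Finset.prod_eq_zero (Finset.mem_univ i) ?_
        rw [hzW i hi]
        exact zero_pow hpos.ne'
      have hne_of : ∀ y : ι → ℕ, (∀ i ∈ W, y i = 0) → mono y z ≠ 0 := by
        intro y hy
        unfold mono
        rw [Finset.prod_ne_zero_iff]
        intro j _
        by_cases hjW : j ∈ W
        · rw [hy j hjW, pow_zero]
          exact one_ne_zero
        · exact pow_ne_zero _ (hcon j hjW)
      have hmeets_of : ∀ y : ι → ℕ, mono y z = 0 → ∃ i ∈ W, 0 < y i := by
        intro y hy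
        by_contra hno
        push Not at hno
        exact hne_of y (fun i hi => Nat.le_zero.mp (hno i hi)) hy
      have hset : {r : R₂ | ∃ i ∈ W, 0 < N₂.src r i} = {r : R₂ | mono (N₂.src r) z = 0} := by
        ext r
        exact ⟨fun h => hzero_of _ h, fun h => hmeets_of _ h⟩
      obtain ⟨ha, hb'⟩ := hz' z hz0 hzc (fun r => hzero_of _ (hW r))
        (fun r hsrc => by
          have hsW0 : ∀ i ∈ W, N₂.src r i = 0 := by
            intro i hi
            by_contra hne
            exact hsrc (hzero_of _ ⟨i, hi, Nat.pos_of_ne_zero hne⟩)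
          exact hne_of _ (hnf r hsW0))
      refine ⟨?_, ?_⟩
      · intro r r' hr hr' j hj
        exact ha r r' (hzero_of _ hr) (hne_of _ hr') j hj
      · intro s hs hsW
        rw [hset] at hs
        refine hb' s hs ?_
        intro i hi
        by_cases hiW : i ∈ W
        · exact hsW i hiW
        · exact absurd hi (hcon i hiW)
  -- the total of the source monomials of `N₁` at `xs`
  set Mxs : ℝ := 1 + ∑ r, mono (N₁.src r) xs with hMxs
  have hMle : ∀ r, mono (N₁.src r) xs ≤ Mxs := by
    intro r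
    have := Finset.single_le_sum (fun q _ => (mono_pos (N₁.src q) xs hxs).le) (Finset.mem_univ r)
      (f := fun q => mono (N₁.src q) xs)
    linarith
  have hMpos : 0 < Mxs := by
    have : 0 ≤ ∑ r, mono (N₁.src r) xs :=
      Finset.sum_nonneg (fun q _ => (mono_pos (N₁.src q) xs hxs).le)
    linarith
  -- a lower bound on every set of the family gives a rate of dissipation outside the box
  have hrate : ∀ ε : ℝ, 0 < ε → ∃ η : ℝ, 0 < η ∧ ∀ x ∈ (N₁.union N₂).posClass c',
      (∀ W, bad W → ∃ i ∈ W, ε ≤ x i) →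
      (∀ i, δ ≤ x i ∧ x i ≤ B) ∨ (N₁.union N₂).dissip xs x ≤ -η := by
    intro ε hε
    obtain ⟨θ, hθ, hθle⟩ := exists_pos_le (fun r : R₁ => mono (N₁.src r) (fun _ => ε))
      (fun r => mono_pos _ _ (fun _ => hε))
    refine ⟨θ / Mxs, div_pos hθ hMpos, fun x hx hW => ?_⟩
    rw [hbad] at hW
    obtain ⟨r₀, hr₀⟩ := exists_mono_ge_of_meets N₁ ε hε x hW
    rcases halt x hx with h | h
    · exact Or.inl h
    · refine Or.inr (le_trans (h.2 r₀) ?_)
      rw [exp_cw_eq_div xs x hxs hx.1, neg_le_neg_iff]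
      have h1 : θ / Mxs ≤ θ / mono (N₁.src r₀) xs :=
        div_le_div_of_nonneg_left hθ.le (mono_pos _ _ hxs) (hMle r₀)
      have h2 : θ / mono (N₁.src r₀) xs ≤ mono (N₁.src r₀) x / mono (N₁.src r₀) xs :=
        div_le_div_of_nonneg_right (le_trans (hθle r₀) hr₀) (mono_pos _ _ hxs).le
      exact le_trans h1 h2
  refine permanentOn_of_traj_dissip _ xs hxs c' δ B hδ hb ?_ ?_
  · intro x hx0 hx
    have hP := hb.2.1 x hx0 hx
    obtain ⟨B₀, hB₀⟩ := hb.2.2 x hx0 hx
    obtain ⟨σ₀, hσ₀, hσle⟩ := exists_pos_le (x 0) hx0.1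
    obtain ⟨ε, hε, hch⟩ := chain_lower (N₁.union N₂) c' bad hup hnb hcp B₀ σ₀ hσ₀
    obtain ⟨η, hη, hr⟩ := hrate ε hε
    exact ⟨η, hη, fun t ht => hr (x t) (hP t ht)
      (hch x hx hP 0 le_rfl hσle (fun t ht i => hB₀ t ht i) t ht)⟩
  · intro b
    obtain ⟨ε, hε, hch⟩ := chain_lower (N₁.union N₂) c' bad hup hnb hcp b δ hδ
    obtain ⟨η, hη, hr⟩ := hrate ε hε
    refine ⟨η, hη, fun x hx0 hx T₁ hT₁ hbox hbd t ht => ?_⟩
    have hP := hb.2.1 x hx0 hx
    exact hr (x t) (hP t (le_trans hT₁ ht))
      (hch x hx hP T₁ hT₁ (fun i => (hbox i).1) hbd t ht)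

/-- Permanence: `N₁` strongly connected, `N₂` complex balanced at a positive point, the reaction
vectors of `N₂` in the stoichiometric subspace of `N₁`. Let `z` be a boundary point of the
nonnegative part of `c + stoich` whose zero set is a siphon of the union (the target monomial of
a reaction is nonzero at `z` whenever its source monomial is), and call a reaction of `N₂`
inactive at `z` if its source monomial vanishes at `z`. Suppose that for every such `z` the
inactive reactions change no species that an active reaction of `N₂` changes, and no nonzero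
vector of the span of the inactive reaction vectors vanishes on the zero set of `z`. Then the
union system is permanent on the positive stoichiometric class of `c`. -/
theorem union_permanentOn_of_siphon (N₁ : MAS R₁ ι) (N₂ : MAS R₂ ι) (xs : ι → ℝ)
    (hxs : ∀ i, 0 < xs i) (h₁ : N₁.StronglyConnected) (hspan : N₂.stoich ≤ N₁.stoich)
    (h₂ : N₂.ComplexBalancedAt xs) (c : ι → ℝ)
    (hz : ∀ z : ι → ℝ, (∀ i, 0 ≤ z i) → z - c ∈ (N₁.union N₂).stoich → (∃ i, z i = 0) →
      (∀ r, mono ((N₁.union N₂).src r) z ≠ 0 → mono ((N₁.union N₂).tgt r) z ≠ 0) →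
      (∀ r r' : R₂, mono (N₂.src r) z = 0 → mono (N₂.src r') z ≠ 0 →
        ∀ j, N₂.vec r j ≠ 0 → N₂.vec r' j = 0) ∧
      ∀ s ∈ Submodule.span ℝ (N₂.vec '' {r | mono (N₂.src r) z = 0}),
        (∀ i, z i = 0 → s i = 0) → s = 0) :
    (N₁.union N₂).PermanentOn ((N₁.union N₂).posClass c) := by
  refine union_permanentOn_of_siphon_aux N₁ N₂ xs hxs h₁ hspan h₂ c ?_
  intro z hz0 hzc hzero hsiph
  rcases isEmpty_or_nonempty R₁ with hR | hR
  · have hbot : ∀ s ∈ N₂.stoich, s = 0 := by
      intro s hs
      have h1 : s ∈ N₁.stoich := hspan hs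
      unfold MAS.stoich at h1
      rw [Set.range_eq_empty, Submodule.span_empty, Submodule.mem_bot] at h1
      exact h1
    have hvec : ∀ r : R₂, N₂.vec r = 0 :=
      fun r => hbot _ (Submodule.subset_span (Set.mem_range_self r))
    refine ⟨fun r r' _ _ j _ => by rw [hvec r']; rfl, fun s hs _ => ?_⟩
    refine hbot s (Submodule.span_mono ?_ hs)
    rintro v ⟨r, -, rfl⟩
    exact Set.mem_range_self r
  · obtain ⟨r₀⟩ := hR
    have h0 := hzero r₀
    unfold mono at h0
    obtain ⟨i, -, hi⟩ := Finset.prod_eq_zero_iff.mp h0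
    have hzi : z i = 0 := by
      by_contra hcon
      exact (pow_ne_zero _ hcon) hi
    refine hz z hz0 hzc ⟨i, hzi⟩ ?_
    rintro (r | r) hsrc
    · exact absurd (hzero r) hsrc
    · exact hsiph r hsrc

/-- Permanence when every boundary point of the nonnegative part of `c + stoich` whose zero
set is a siphon of the union is a vertex for `N₂`: no nonzero vector of the stoichiometric
subspace of `N₂` vanishes on its zero set. -/
theorem union_permanentOn_of_siphon_vertex (N₁ : MAS R₁ ι) (N₂ : MAS R₂ ι) (xs : ι → ℝ)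
    (hxs : ∀ i, 0 < xs i) (h₁ : N₁.StronglyConnected) (hspan : N₂.stoich ≤ N₁.stoich)
    (h₂ : N₂.ComplexBalancedAt xs) (c : ι → ℝ)
    (hz : ∀ z : ι → ℝ, (∀ i, 0 ≤ z i) → z - c ∈ (N₁.union N₂).stoich → (∃ i, z i = 0) →
      (∀ r, mono ((N₁.union N₂).src r) z ≠ 0 → mono ((N₁.union N₂).tgt r) z ≠ 0) →
      ∀ s ∈ N₂.stoich, (∀ i, z i = 0 → s i = 0) → s = 0) :
    (N₁.union N₂).PermanentOn ((N₁.union N₂).posClass c) := by
  refine union_permanentOn_of_siphon N₁ N₂ xs hxs h₁ hspan h₂ c ?_
  intro z hz0 hzc hbd hsiph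
  have hv := hz z hz0 hzc hbd hsiph
  refine ⟨fun r r' _ hr' j _ => ?_, fun s hs hsz => ?_⟩
  · -- an active reaction has a reaction vector that vanishes on the zero set of `z`
    have htgt : mono (N₂.tgt r') z ≠ 0 := hsiph (Sum.inr r') hr'
    have hvan : ∀ i, z i = 0 → N₂.vec r' i = 0 := by
      intro i hi
      have h1 : N₂.src r' i = 0 := by
        by_contra hne
        apply hr'
        unfold mono
        refine Finset.prod_eq_zero (Finset.mem_univ i) ?_
        rw [hi]
        exact zero_pow hne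
      have h2 : N₂.tgt r' i = 0 := by
        by_contra hne
        apply htgt
        unfold mono
        refine Finset.prod_eq_zero (Finset.mem_univ i) ?_
        rw [hi]
        exact zero_pow hne
      unfold MAS.vec
      rw [h1, h2]
      simp
    have h0 := hv (N₂.vec r') (Submodule.subset_span (Set.mem_range_self r')) hvan
    rw [h0]
    rfl
  · refine hv s (Submodule.span_mono ?_ hs) hsz
    rintro v ⟨r, -, rfl⟩
    exact Set.mem_range_self r

/-- Permanence when every nonnegative point of `c + stoich` at which all source monomials of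
`N₁` vanish is a vertex for `N₂`: no nonzero vector of the stoichiometric subspace of `N₂`
vanishes on its zero set. -/
theorem union_permanentOn_of_vertex (N₁ : MAS R₁ ι) (N₂ : MAS R₂ ι) (xs : ι → ℝ)
    (hxs : ∀ i, 0 < xs i) (h₁ : N₁.StronglyConnected) (hspan : N₂.stoich ≤ N₁.stoich)
    (h₂ : N₂.ComplexBalancedAt xs) (c : ι → ℝ)
    (hz : ∀ z : ι → ℝ, (∀ i, 0 ≤ z i) → z - c ∈ (N₁.union N₂).stoich →
      (∀ r : R₁, mono (N₁.src r) z = 0) →
      ∀ s ∈ N₂.stoich, (∀ i, z i = 0 → s i = 0) → s = 0) :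
    (N₁.union N₂).PermanentOn ((N₁.union N₂).posClass c) := by
  by_cases hne : ((N₁.union N₂).posClass c).Nonempty
  swap
  · rw [Set.not_nonempty_iff_eq_empty] at hne
    rw [hne]
    exact ⟨fun x hx => absurd hx (Set.notMem_empty x), fun x hx => absurd hx (Set.notMem_empty _),
      ∅, isCompact_empty, Set.empty_subset _, fun x hx => absurd hx (Set.notMem_empty _)⟩
  obtain ⟨c', hc'⟩ := hne
  refine union_permanentOn_of_siphon_vertex N₁ N₂ xs hxs h₁ hspan h₂ c ?_
  intro z hz0 hzc hbd hsiph
  refine hz z hz0 hzc ?_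
  -- at a boundary point whose zero set is a siphon all source monomials of `N₁` vanish
  by_contra hcon
  push Not at hcon
  obtain ⟨r₁, hr₁⟩ := hcon
  obtain ⟨i, hi⟩ := hbd
  -- every complex of `N₁` reachable from a complex that is nonzero at `z` is nonzero at `z`
  have hreach : ∀ a b : ι → ℕ,
      Relation.ReflTransGen (fun a b => ∃ q, N₁.src q = a ∧ N₁.tgt q = b) a b →
      mono a z ≠ 0 → mono b z ≠ 0 := by
    intro a b hab
    induction hab with
    | refl => exact fun h => h
    | tail _ hstep ih =>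
      intro ha
      obtain ⟨q, hq1, hq2⟩ := hstep
      have := hsiph (Sum.inl q) (by
        show mono (N₁.src q) z ≠ 0
        rw [hq1]
        exact ih ha)
      rw [← hq2]
      exact this
  have hall : ∀ q : R₁, mono (N₁.src q) z ≠ 0 ∧ mono (N₁.tgt q) z ≠ 0 := by
    intro q
    have h1 : mono (N₁.tgt r₁) z ≠ 0 := hsiph (Sum.inl r₁) hr₁
    have h2 : mono (N₁.src q) z ≠ 0 := hreach _ _ (h₁ r₁ q) h1
    exact ⟨h2, hsiph (Sum.inl q) h2⟩
  -- so no reaction vector of `N₁` moves the species `i`, which vanishes at `z`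
  have hvan : ∀ q : R₁, N₁.vec q i = 0 := by
    intro q
    have h1 : N₁.src q i = 0 := by
      by_contra hne
      apply (hall q).1
      unfold mono
      refine Finset.prod_eq_zero (Finset.mem_univ i) ?_
      rw [hi]
      exact zero_pow hne
    have h2 : N₁.tgt q i = 0 := by
      by_contra hne
      apply (hall q).2
      unfold mono
      refine Finset.prod_eq_zero (Finset.mem_univ i) ?_
      rw [hi]
      exact zero_pow hne
    unfold MAS.vec
    rw [h1, h2]
    simp
  have hker : ∀ s ∈ N₁.stoich, s i = 0 := by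
    intro s hs
    unfold MAS.stoich at hs
    refine Submodule.span_induction (p := fun s _ => s i = 0) ?_ ?_ ?_ ?_ hs
    · rintro v ⟨q, rfl⟩
      exact hvan q
    · rfl
    · intro a b _ _ ha hb
      rw [Pi.add_apply, ha, hb, add_zero]
    · intro t a _ ha
      rw [Pi.smul_apply, ha, smul_zero]
  have h3 : z - c' ∈ N₁.stoich := by
    rw [← union_stoich_of_le N₁ N₂ hspan]
    have : z - c' = (z - c) - (c' - c) := by abel
    rw [this]
    exact Submodule.sub_mem _ hzc hc'.2
  have h4 := hker _ h3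
  rw [Pi.sub_apply, hi, zero_sub, neg_eq_zero] at h4
  exact absurd h4 (hc'.1 i).ne'

/-- Permanence on every class under a condition on the supports: if every nonzero vector of
the stoichiometric subspace of `N₂` is nonzero on all species of some source complex of
`N₁`. -/
theorem union_permanentOn_of_supports (N₁ : MAS R₁ ι) (N₂ : MAS R₂ ι) (xs : ι → ℝ)
    (hxs : ∀ i, 0 < xs i) (h₁ : N₁.StronglyConnected) (hspan : N₂.stoich ≤ N₁.stoich)
    (h₂ : N₂.ComplexBalancedAt xs)
    (hs : ∀ s ∈ N₂.stoich, s ≠ 0 → ∃ r : R₁, ∀ i, 0 < N₁.src r i → s i ≠ 0) (c : ι → ℝ) :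
    (N₁.union N₂).PermanentOn ((N₁.union N₂).posClass c) := by
  refine union_permanentOn_of_vertex N₁ N₂ xs hxs h₁ hspan h₂ c ?_
  intro z _ _ hzero s hsmem hsz
  by_contra hne
  obtain ⟨r, hr⟩ := hs s hsmem hne
  have h0 := hzero r
  unfold mono at h0
  obtain ⟨i, -, hi⟩ := Finset.prod_eq_zero_iff.mp h0
  have hpos : 0 < N₁.src r i := by
    by_contra hcon
    have h00 : N₁.src r i = 0 := Nat.le_zero.mp (not_lt.mp hcon)
    rw [h00, pow_zero] at hi
    exact one_ne_zero hi
  have hzi : z i = 0 := by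
    by_contra hcon
    exact (pow_ne_zero _ hcon) hi
  exact hr i hpos (hsz i hzi)

end Vale.Agent.Lib.P072
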