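import Vale.Agent.Lib.P072.VertDefs

/-!
# A conservation law of the rest system paired with the field of the union
-/

namespace Vale.Agent.Lib.P072

open Set

set_option linter.unusedSectionVars false

variable {R R₁ R₂ ι : Type} [Fintype R] [Fintype R₁] [Fintype R₂] [Fintype ι]

/-- The pairing of a vector with the field, as a sum over reactions. -/
private lemma pair_field_eq (N : MAS R ι) (u x : ι → ℝ) :
    ∑ i, u i * N.field x i = ∑ r, N.rate r * mono (N.src r) x * ∑ i, u i * N.vec r i := by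
  have h1 : ∀ i, u i * N.field x i = ∑ r, N.rate r * mono (N.src r) x * (u i * N.vec r i) := by
    intro i
    rw [field_apply, Finset.mul_sum]
    exact Finset.sum_congr rfl (fun r _ => by ring)
  rw [Finset.sum_congr rfl (fun i _ => h1 i), Finset.sum_comm]
  exact Finset.sum_congr rfl (fun r _ => by rw [← Finset.mul_sum])

/-- If `u` is orthogonal to the reaction vectors of `N₂`, its pairing with the field of the
union is bounded by a constant times the sum of the monomials of `N₁`. -/
lemma law_field_bound (N₁ : MAS R₁ ι) (N₂ : MAS R₂ ι) (xs : ι → ℝ) (hxs : ∀ i, 0 < xs i)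
    (u : ι → ℝ) (hu : ∀ r : R₂, ∑ i, u i * N₂.vec r i = 0) :
    ∃ C : ℝ, 0 ≤ C ∧ ∀ x : ι → ℝ, (∀ i, 0 < x i) →
      |∑ i, u i * (N₁.union N₂).field x i| ≤ C * ∑ r : R₁, Real.exp (cw xs x (N₁.src r)) := by
  have hmono : ∀ r : R₁, 0 ≤ mono (N₁.src r) xs := by
    intro r
    unfold mono
    exact Finset.prod_nonneg (fun i _ => pow_nonneg (hxs i).le _)
  refine ⟨∑ r : R₁, N₁.rate r * mono (N₁.src r) xs * |∑ i, u i * N₁.vec r i|, ?_, ?_⟩
  · exact Finset.sum_nonneg (fun r _ =>
      mul_nonneg (mul_nonneg (N₁.rate_pos r).le (hmono r)) (abs_nonneg _))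
  · intro x hx
    have h2 : ∑ i, u i * N₂.field x i = 0 := by
      rw [pair_field_eq]
      exact Finset.sum_eq_zero (fun r _ => by rw [hu r, mul_zero])
    have hsplit : ∑ i, u i * (N₁.union N₂).field x i
        = ∑ i, u i * N₁.field x i + ∑ i, u i * N₂.field x i := by
      rw [union_field, ← Finset.sum_add_distrib]
      exact Finset.sum_congr rfl (fun i _ => by rw [Pi.add_apply, mul_add])
    rw [hsplit, h2, add_zero, pair_field_eq, Finset.sum_mul]
    refine (Finset.abs_sum_le_sum_abs _ _).trans (Finset.sum_le_sum (fun r _ => ?_))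
    have hS : Real.exp (cw xs x (N₁.src r)) ≤ ∑ q : R₁, Real.exp (cw xs x (N₁.src q)) :=
      Finset.single_le_sum (f := fun q : R₁ => Real.exp (cw xs x (N₁.src q)))
        (fun q _ => (Real.exp_pos _).le) (Finset.mem_univ r)
    have hc : 0 ≤ N₁.rate r * mono (N₁.src r) xs * |∑ i, u i * N₁.vec r i| :=
      mul_nonneg (mul_nonneg (N₁.rate_pos r).le (hmono r)) (abs_nonneg _)
    rw [mono_eq_mul_exp_cw xs x hxs hx (N₁.src r), abs_mul, abs_mul, abs_mul,
      abs_of_pos (N₁.rate_pos r), abs_of_nonneg (hmono r), abs_of_pos (Real.exp_pos _)]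
    calc N₁.rate r * (mono (N₁.src r) xs * Real.exp (cw xs x (N₁.src r)))
          * |∑ i, u i * N₁.vec r i|
        = N₁.rate r * mono (N₁.src r) xs * |∑ i, u i * N₁.vec r i|
          * Real.exp (cw xs x (N₁.src r)) := by ring
      _ ≤ N₁.rate r * mono (N₁.src r) xs * |∑ i, u i * N₁.vec r i|
          * ∑ q : R₁, Real.exp (cw xs x (N₁.src q)) := mul_le_mul_of_nonneg_left hS hc

end Vale.Agent.Lib.P072
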