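import Vale.Agent.Lib.P072.VertStaticK
import Vale.Agent.Lib.P072.VertPair
import Vale.Agent.Lib.P072.VertBound

/-!
# The corner function does not increase along the field near its face
-/

namespace Vale.Agent.Lib.P072

open Set

set_option linter.unusedSectionVars false

variable {R R₁ R₂ ι : Type} [Fintype R] [Fintype R₁] [Fintype R₂] [Fintype ι]

open Classical in
/-- Near the face of a nonempty set `W` with a family of laws, the derivative of the corner
function along the field of the union is nonpositive. -/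
theorem vertV_deriv_nonpos (N₁ : MAS R₁ ι) (N₂ : MAS R₂ ι) (xs : ι → ℝ) (hxs : ∀ i, 0 < xs i)
    (h₁ : N₁.StronglyConnected) (hspan : N₂.stoich ≤ N₁.stoich) (h₂ : N₂.ComplexBalancedAt xs)
    (c : ι → ℝ) (hc : ∀ i, 0 < c i) (W : Finset ι) (hW : W.Nonempty) (u : ι → ι → ℝ)
    (hu : IsLawFamily N₂ W u) (η b : ℝ) (hη : 0 < η) :
    ∃ ρ₁ : ℝ, 0 < ρ₁ ∧ ∀ x ∈ (N₁.union N₂).posClass c, (∀ i ∈ W, x i ≤ ρ₁) →
      (∀ j, j ∉ W → η ≤ x j ∧ x j ≤ b) →
      (N₁.union N₂).dissip xs x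
        - ∑ j with j ∉ W, (Real.log (∑ i, u j i * x i) - Real.log (xs j))
            * ∑ i, u j i * (N₁.union N₂).field x i ≤ 0 := by
  obtain ⟨ρ₂, C₁, L, hρ₂, hC₁, hL, hvb⟩ :=
    vertV_bounds xs hxs W u (fun j hj => (hu j hj).2) η b hη
  have hex : ∀ j, ∃ C : ℝ, 0 ≤ C ∧ (j ∉ W → ∀ x : ι → ℝ, (∀ i, 0 < x i) →
      |∑ i, u j i * (N₁.union N₂).field x i|
        ≤ C * ∑ r : R₁, Real.exp (cw xs x (N₁.src r))) := by
    intro j
    by_cases hj : j ∈ W
    · exact ⟨0, le_refl 0, fun h => absurd hj h⟩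
    · obtain ⟨C, hC0, hC⟩ := law_field_bound N₁ N₂ xs hxs (u j) (hu j hj).1
      exact ⟨C, hC0, fun _ => hC⟩
  choose Cf hCf0 hCf using hex
  have hCtot : 0 ≤ ∑ j with j ∉ W, Cf j := Finset.sum_nonneg (fun j _ => hCf0 j)
  have hK : 0 < L * (∑ j with j ∉ W, Cf j) + 1 := by
    have := mul_nonneg hL hCtot
    linarith
  obtain ⟨δ, B, hδ, halt⟩ :=
    static_alternativeK N₁ N₂ xs hxs h₁ hspan h₂ c hc (L * (∑ j with j ∉ W, Cf j) + 1) hK
  refine ⟨min ρ₂ (δ / 2), lt_min hρ₂ (by linarith), ?_⟩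
  intro x hx hxW hxo
  have hxpos : ∀ i, 0 < x i := hx.1
  have hS : 0 ≤ ∑ r : R₁, Real.exp (cw xs x (N₁.src r)) :=
    Finset.sum_nonneg (fun r _ => (Real.exp_pos _).le)
  have hdis : (N₁.union N₂).dissip xs x
      ≤ - ((L * (∑ j with j ∉ W, Cf j) + 1) * ∑ r : R₁, Real.exp (cw xs x (N₁.src r))) := by
    rcases halt x hx with hbox | hd
    · exfalso
      obtain ⟨i, hi⟩ := hW
      have h1 : x i ≤ min ρ₂ (δ / 2) := hxW i hi
      have h2 : min ρ₂ (δ / 2) ≤ δ / 2 := min_le_right _ _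
      have h3 : δ ≤ x i := (hbox i).1
      linarith
    · exact hd
  obtain ⟨hlaw, _⟩ := hvb x hxpos (fun i hi => (hxW i hi).trans (min_le_left _ _)) hxo
  have hsum : |∑ j with j ∉ W, (Real.log (∑ i, u j i * x i) - Real.log (xs j))
        * ∑ i, u j i * (N₁.union N₂).field x i|
      ≤ L * (∑ j with j ∉ W, Cf j) * ∑ r : R₁, Real.exp (cw xs x (N₁.src r)) := by
    calc |∑ j with j ∉ W, (Real.log (∑ i, u j i * x i) - Real.log (xs j))
            * ∑ i, u j i * (N₁.union N₂).field x i|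
        ≤ ∑ j with j ∉ W, |(Real.log (∑ i, u j i * x i) - Real.log (xs j))
            * ∑ i, u j i * (N₁.union N₂).field x i| := Finset.abs_sum_le_sum_abs _ _
      _ ≤ ∑ j with j ∉ W, L * (Cf j * ∑ r : R₁, Real.exp (cw xs x (N₁.src r))) := by
          refine Finset.sum_le_sum (fun j hj => ?_)
          have hjW : j ∉ W := (Finset.mem_filter.mp hj).2
          rw [abs_mul]
          exact mul_le_mul (hlaw j hjW).2 (hCf j hjW x hxpos) (abs_nonneg _) hL
      _ = L * (∑ j with j ∉ W, Cf j) * ∑ r : R₁, Real.exp (cw xs x (N₁.src r)) := by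
          have e1 : ∑ j with j ∉ W, L * (Cf j * ∑ r : R₁, Real.exp (cw xs x (N₁.src r)))
              = ∑ j with j ∉ W, (L * ∑ r : R₁, Real.exp (cw xs x (N₁.src r))) * Cf j :=
            Finset.sum_congr rfl (fun j _ => by ring)
          rw [e1, ← Finset.mul_sum]
          ring
  have hneg := neg_abs_le (∑ j with j ∉ W, (Real.log (∑ i, u j i * x i) - Real.log (xs j))
        * ∑ i, u j i * (N₁.union N₂).field x i)
  nlinarith [hdis, hsum, hneg, hS]

end Vale.Agent.Lib.P072
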