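import Vale.Agent.Lib.P072.VertDefs

/-!
# The dissipation alternative with an arbitrarily large constant
-/

namespace Vale.Agent.Lib.P072

open Set

set_option linter.unusedSectionVars false

variable {R R₁ R₂ ι : Type} [Fintype R] [Fintype R₁] [Fintype R₂] [Fintype ι]

/-- Tier estimate with a constant: for a strongly connected system, if the logarithmic weights
of the source complexes spread by at least `Θ`, the dissipation is at most minus `K` times the
largest of the monomials `exp (cw xs x (src r₀))`. -/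
lemma dissip_le_of_spreadK (N : MAS R ι) (hsc : N.StronglyConnected) (xs : ι → ℝ)
    (hxs : ∀ i, 0 < xs i) (K : ℝ) (hK : 0 < K) :
    ∃ Θ : ℝ, 0 ≤ Θ ∧ ∀ x : ι → ℝ, (∀ i, 0 < x i) → ∀ r₁ r₂,
      Θ ≤ cw xs x (N.src r₁) - cw xs x (N.src r₂) →
      ∀ r₀, N.dissip xs x ≤ - (K * Real.exp (cw xs x (N.src r₀))) := by
  rcases isEmpty_or_nonempty R with hR | hR
  · exact ⟨0, le_rfl, fun x hx r₁ => isEmptyElim r₁⟩
  · obtain ⟨rmin, -, hmin⟩ := Finset.exists_min_image Finset.univ
      (fun r => N.rate r * mono (N.src r) xs / K) Finset.univ_nonempty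
    obtain ⟨rmax, -, hmax⟩ := Finset.exists_max_image Finset.univ
      (fun r => N.rate r * mono (N.src r) xs / K) Finset.univ_nonempty
    obtain ⟨Θ, hΘ, hT⟩ := tier_bound N.src N.tgt (fun r => N.rate r * mono (N.src r) xs / K)
      (kmin := N.rate rmin * mono (N.src rmin) xs / K)
      (kmax := N.rate rmax * mono (N.src rmax) xs / K)
      (div_pos (mul_pos (N.rate_pos rmin) (mono_pos _ _ hxs)) hK)
      (fun r => ⟨hmin r (Finset.mem_univ r), hmax r (Finset.mem_univ r)⟩) N.src_ne_tgt hsc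
    refine ⟨Θ, hΘ, fun x hx r₁ r₂ hsp r₀ => ?_⟩
    rw [dissip_eq_sum N xs x hxs hx]
    have h := hT (cw xs x) r₁ r₂ hsp r₀
    have e : ∑ r, (N.rate r * mono (N.src r) xs) * Real.exp (cw xs x (N.src r))
          * (cw xs x (N.tgt r) - cw xs x (N.src r))
        = K * ∑ r, (N.rate r * mono (N.src r) xs / K) * Real.exp (cw xs x (N.src r))
          * (cw xs x (N.tgt r) - cw xs x (N.src r)) := by
      rw [Finset.mul_sum]
      refine Finset.sum_congr rfl (fun r _ => ?_)
      field_simp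
    rw [e]
    have h2 := mul_le_mul_of_nonneg_left h hK.le
    linarith

/-- The dissipation alternative with a constant: every point of a positive class of the union
either lies in a fixed box inside the positive orthant (depending on `K`), or the dissipation
there is at most minus `K` times the sum of the monomials of the first system. -/
theorem static_alternativeK (N₁ : MAS R₁ ι) (N₂ : MAS R₂ ι) (xs : ι → ℝ) (hxs : ∀ i, 0 < xs i)
    (h₁ : N₁.StronglyConnected) (hspan : N₂.stoich ≤ N₁.stoich) (h₂ : N₂.ComplexBalancedAt xs)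
    (c : ι → ℝ) (hc : ∀ i, 0 < c i) (K : ℝ) (hK : 0 < K) :
    ∃ δ B : ℝ, 0 < δ ∧ ∀ x ∈ (N₁.union N₂).posClass c,
      (∀ i, δ ≤ x i ∧ x i ≤ B) ∨
        (N₁.union N₂).dissip xs x ≤ - (K * ∑ r : R₁, Real.exp (cw xs x (N₁.src r))) := by
  rcases isEmpty_or_nonempty R₁ with hR | hR
  · refine ⟨1, 1, one_pos, ?_⟩
    rintro x ⟨hx, -⟩
    right
    have hD₂ := dissip_nonpos_of_complexBalanced N₂ xs hxs h₂ x hx
    have hD₁ : N₁.dissip xs x = 0 := by
      unfold MAS.dissip MAS.field
      simp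
    rw [union_dissip, hD₁]
    simp only [Finset.univ_eq_empty, Finset.sum_empty, mul_zero, neg_zero, zero_add]
    exact hD₂
  · have hcard : (0 : ℝ) < Fintype.card R₁ := by
      exact_mod_cast Fintype.card_pos
    obtain ⟨Θ, -, hΘ⟩ := dissip_le_of_spreadK N₁ h₁ xs hxs (K * Fintype.card R₁)
      (mul_pos hK hcard)
    obtain ⟨δ, B, hδ, hcore⟩ := core_bounds N₁ h₁ xs c hc Θ
    refine ⟨δ, B, hδ, ?_⟩
    rintro x ⟨hx, hxc⟩
    rw [union_stoich_of_le N₁ N₂ hspan] at hxc
    by_cases hsp : ∀ r₁ r₂, cw xs x (N₁.src r₁) - cw xs x (N₁.src r₂) ≤ Θ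
    · exact Or.inl (hcore x hx hxc hsp)
    · right
      push Not at hsp
      obtain ⟨r₁, r₂, hr⟩ := hsp
      have hD₂ := dissip_nonpos_of_complexBalanced N₂ xs hxs h₂ x hx
      have hall : ∀ r₀ : R₁,
          N₁.dissip xs x ≤ - (K * Fintype.card R₁ * Real.exp (cw xs x (N₁.src r₀))) :=
        fun r₀ => hΘ x hx r₁ r₂ hr.le r₀
      have hsum : ∑ _r₀ : R₁, N₁.dissip xs x
          ≤ ∑ r₀ : R₁, - (K * Fintype.card R₁ * Real.exp (cw xs x (N₁.src r₀))) :=
        Finset.sum_le_sum (fun r₀ _ => hall r₀)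
      rw [Finset.sum_const, Finset.card_univ, nsmul_eq_mul, Finset.sum_neg_distrib,
        ← Finset.mul_sum] at hsum
      have hD₁ : N₁.dissip xs x ≤ - (K * ∑ r : R₁, Real.exp (cw xs x (N₁.src r))) := by
        have h3 : (Fintype.card R₁ : ℝ) * N₁.dissip xs x
            ≤ (Fintype.card R₁ : ℝ) * (- (K * ∑ r : R₁, Real.exp (cw xs x (N₁.src r)))) := by
          calc (Fintype.card R₁ : ℝ) * N₁.dissip xs x
              ≤ - (K * Fintype.card R₁ * ∑ r : R₁, Real.exp (cw xs x (N₁.src r))) := hsum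
            _ = (Fintype.card R₁ : ℝ) * (- (K * ∑ r : R₁, Real.exp (cw xs x (N₁.src r)))) := by
                ring
        exact le_of_mul_le_mul_left h3 hcard
      rw [union_dissip]
      linarith

end Vale.Agent.Lib.P072
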